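import Vale.Agent.P232U.Dir
import Vale.Agent.P232.ArcVar
import Vale.Agent.P232.SliceArea

/-! # P232U, module K19: a slab in direction `i` is flat in the other directions -/

open MeasureTheory Set Filter Topology

namespace Vale.Agent.P232

private theorem k19_der {f : (Fin 3 → ℝ) → ℝ} (hf : Nice f) (i : Fin 3) :
    ∫ z in (0:ℝ)..1, |deriv (sArea f i) z| ≤ ∫ x in cell 3, |fderiv ℝ f x (Pi.single i 1)| := by
  have hc : Continuous fun x => |fderiv ℝ f x (Pi.single i 1)| := (j3_d_cont hf i).abs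
  rw [fubini_slice hc i]
  have h1 : Continuous fun z => |deriv (sArea f i) z| :=
    ((sArea_contDiff hf i).continuous_deriv le_rfl).abs
  have h2 : Continuous fun z : ℝ => ∫ y in cell 2,
      |fderiv ℝ f (i.insertNth z y) (Pi.single i 1)| :=
    e3_cont_param (F := fun z y => |fderiv ℝ f (i.insertNth z y) (Pi.single i 1)|)
      (hc.comp (e3_ins i))
  exact intervalIntegral.integral_mono_on zero_le_one (h1.intervalIntegrable _ _)
    (h2.intervalIntegrable _ _) fun z _ => sArea_deriv_le hf i z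

private theorem k19_osc {f : (Fin 3 → ℝ) → ℝ} (hf : Nice f) (i : Fin 3) (z w : ℝ) :
    2 * (sArea f i w - sArea f i z) ≤ ∫ x in cell 3, |fderiv ℝ f x (Pi.single i 1)| := by
  rcases le_total (sArea f i z) (sArea f i w) with h | h
  · have h1 := arc_var (sArea_contDiff hf i) (sArea_per hf i) (S := fun _ => (1 : ℝ))
      continuous_const (fun _ => zero_le_one) h
    have h2 : ∫ z in (0:ℝ)..1, (1 : ℝ) * |deriv (sArea f i) z| =
        ∫ z in (0:ℝ)..1, |deriv (sArea f i) z| := by
      simp only [one_mul]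
    have h3 : ∫ _x in (sArea f i z)..(sArea f i w), (1 : ℝ) = sArea f i w - sArea f i z := by
      simp
    rw [h2, h3] at h1
    exact h1.trans (k19_der hf i)
  · have h0 : 0 ≤ ∫ x in cell 3, |fderiv ℝ f x (Pi.single i 1)| :=
      integral_nonneg fun x => abs_nonneg _
    linarith

theorem flat_of_slab {f : (Fin 3 → ℝ) → ℝ} (hf : Nice f) {i j : Fin 3} (hij : i ≠ j) {δ : ℝ}
    (hδ : 0 ≤ δ) (hδ1 : δ ≤ 1) (hT : hTV f ≤ 1 + δ) (hb : ∃ z, sArea f i z ≤ δ)
    (hc : ∃ z, 1 - δ ≤ sArea f i z) :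
    ∫ z in (0:ℝ)..1, |sArea f j z - ∫ x in cell 3, f x| ≤ 8 * Real.sqrt δ := by
  obtain ⟨zb, hzb⟩ := hb
  obtain ⟨zc, hzc⟩ := hc
  set Di : ℝ := ∫ x in cell 3, |fderiv ℝ f x (Pi.single i 1)| with hDi
  set Dj : ℝ := ∫ x in cell 3, |fderiv ℝ f x (Pi.single j 1)| with hDj
  have hDj0 : 0 ≤ Dj := integral_nonneg fun x => abs_nonneg _
  have h1 : 2 * (1 - 2 * δ) ≤ Di := by
    have := k19_osc hf i zb zc
    rw [← hDi] at this
    linarith
  have hT0 : 0 ≤ hTV f := by
    unfold hTV
    have : 0 ≤ ∫ x in cell 3, gradN f x := integral_nonneg fun x => Real.sqrt_nonneg _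
    linarith
  have h2 : Dj ^ 2 ≤ 64 * δ := by
    have h3 := dir_cs2 hf hij
    rw [← hDi, ← hDj] at h3
    have h4 : hTV f - (1 / 2) * Di ≤ 3 * δ := by linarith
    have h5 : 8 * hTV f * (hTV f - (1 / 2) * Di) ≤ 8 * hTV f * (3 * δ) :=
      mul_le_mul_of_nonneg_left h4 (by positivity)
    have h6 : 8 * hTV f * (3 * δ) ≤ 8 * 2 * (3 * δ) := by
      have : hTV f ≤ 2 := by linarith
      nlinarith
    linarith
  have h7 : Dj ≤ 8 * Real.sqrt δ := by
    refine abs_le_of_sq_le_sq' ?_ (by positivity) |>.2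
    rw [mul_pow, Real.sq_sqrt hδ]
    linarith
  -- the average of the slice areas
  have hq : Continuous (sArea f j) := (sArea_contDiff hf j).continuous
  have hV : ∫ x in cell 3, f x = ∫ z in (0:ℝ)..1, sArea f j z := by
    rw [fubini_slice hf.smooth.continuous j]
    rfl
  have hosc : ∀ z w, |sArea f j z - sArea f j w| ≤ Dj := by
    intro z w
    have a1 := k19_osc hf j z w
    have a2 := k19_osc hf j w z
    rw [← hDj] at a1 a2
    rw [abs_le]
    constructor <;> linarith
  have hdev : ∀ z, |sArea f j z - ∫ x in cell 3, f x| ≤ Dj := by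
    intro z
    have e : sArea f j z - ∫ x in cell 3, f x = ∫ w in (0:ℝ)..1, (sArea f j z - sArea f j w) := by
      rw [intervalIntegral.integral_sub (continuous_const.intervalIntegrable _ _)
        (hq.intervalIntegrable _ _), hV]
      simp
    rw [e]
    have h8 := intervalIntegral.norm_integral_le_of_norm_le_const (a := (0:ℝ)) (b := 1) (C := Dj)
      (f := fun w => sArea f j z - sArea f j w) (fun w _ => hosc z w)
    simpa using h8
  have h9 : ∫ z in (0:ℝ)..1, |sArea f j z - ∫ x in cell 3, f x| ≤ ∫ _z in (0:ℝ)..1, Dj :=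
    intervalIntegral.integral_mono_on zero_le_one
      ((hq.sub continuous_const).abs.intervalIntegrable _ _)
      (continuous_const.intervalIntegrable _ _) fun z _ => hdev z
  have h10 : ∫ _z in (0:ℝ)..1, Dj = Dj := by simp
  linarith

end Vale.Agent.P232
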