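import Vale.Agent.P232.Defs
import Vale.Agent.P232.SliceCommon

/-!
# P232: definitions for the uniqueness of minimizers
-/

open MeasureTheory Set Filter Topology

namespace Vale.Agent.P232

/-- distance to the nearest integer -/
noncomputable def distS (t : ℝ) : ℝ := |t - round t|

/-- geodesic ball in the torus (for `R ≤ 1/2`) -/
def ballT (m : Fin 3 → ℝ) (R : ℝ) : Set (Fin 3 → ℝ) :=
  {x | ∑ i, distS (x i - m i) ^ 2 < R ^ 2}

/-- solid tube about a shortest closed geodesic in direction `i` -/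
def tubeT (m : Fin 3 → ℝ) (i : Fin 3) (R : ℝ) : Set (Fin 3 → ℝ) :=
  {x | ∑ j, (if j = i then 0 else distS (x j - m j) ^ 2) < R ^ 2}

/-- slab `a ≤ x_i < a + V` modulo one -/
def slabT (i : Fin 3) (a V : ℝ) : Set (Fin 3 → ℝ) := {x | Int.fract (x i - a) < V}

/-- equality in the torus up to a null set -/
def AEq {n : ℕ} (E F : Set (Fin n → ℝ)) : Prop := volume ((symmDiff E F) ∩ cell n) = 0

/-- `E` is, up to null sets, invariant in direction `i` -/
def InvDir (E : Set (Fin 3 → ℝ)) (i : Fin 3) : Prop :=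
  ∀ h : ℝ, AEq E {x | Function.update x i (x i + h) ∈ E}

/-- approximating sequence with `limsup hTV ≤ J` -/
structure NM (J : ℝ) (E : Set (Fin 3 → ℝ)) (f : ℕ → (Fin 3 → ℝ) → ℝ) : Prop where
  meas : MeasurableSet E
  per : IsPerSet E
  nice : ∀ k, Nice (f k)
  tv : ∀ ε > 0, ∀ᶠ k in atTop, hTV (f k) ≤ J + ε
  l1 : Tendsto (fun k => ∫ x in cell 3, |f k x - E.indicator (fun _ => (1 : ℝ)) x|) atTop (𝓝 0)

/-- volume in the torus -/
noncomputable def vol (E : Set (Fin 3 → ℝ)) : ℝ := (volume (E ∩ cell 3)).toReal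

/-- second moment of `E` in direction `i` about `m` -/
noncomputable def mom (E : Set (Fin 3 → ℝ)) (i : Fin 3) (m : ℝ) : ℝ :=
  ∫ x in E ∩ cell 3, distS (x i - m) ^ 2

end Vale.Agent.P232
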