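import Vale.Agent.P232.Approx
import Vale.Agent.P232U.Defs

/-! # P232 uniqueness, module APX: approximating sequence (helper8) -/

open MeasureTheory Set Filter Topology
open scoped Convolution

namespace Vale.Agent.P232

/-- `L¹` convergence of the mollified indicators -/
theorem apx_l1 {E : Set (Fin 3 → ℝ)} (hE : MeasurableSet E) :
    Tendsto (fun n : ℕ => ∫ x in cell 3,
      |moll ((mcBump n).normed (volume : Measure (Fin 3 → ℝ))) E x -
        E.indicator (fun _ => (1 : ℝ)) x|) atTop (𝓝 0) := by
  have hae := ContDiffBump.ae_convolution_tendsto_right_of_locallyIntegrable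
    (φ := mcBump) (l := atTop) (K := 2) (μ := (volume : Measure (Fin 3 → ℝ)))
    (g := E.indicator fun _ => (1 : ℝ)) (by
      have h : Tendsto (fun n : ℕ => 2 / ((n : ℝ) + 1)) atTop (𝓝 0) := by
        have h1 := (tendsto_one_div_add_atTop_nhds_zero_nat (𝕜 := ℝ)).const_mul 2
        rw [mul_zero] at h1
        refine h1.congr fun n => ?_
        ring
      exact h) (Filter.Eventually.of_forall fun n => by
        show 2 / ((n : ℝ) + 1) ≤ 2 * (1 / ((n : ℝ) + 1))
        apply le_of_eq
        ring) (mc_locInt hE)
  have hvol : volume (cell 3) = 1 := by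
    unfold cell
    rw [volume_pi_pi]
    simp
  have hcont : ∀ n, Continuous
      (moll ((mcBump n).normed (volume : Measure (Fin 3 → ℝ))) E) := fun n =>
    (moll_contDiff (mc_kern n) hE).continuous
  have hlim : Tendsto (fun n : ℕ => ∫ x in cell 3,
      |moll ((mcBump n).normed (volume : Measure (Fin 3 → ℝ))) E x -
        E.indicator (fun _ => (1 : ℝ)) x|) atTop (𝓝 (∫ x in cell 3, (0 : ℝ))) := by
    refine tendsto_integral_of_dominated_convergence (fun _ => (1 : ℝ)) ?_ ?_ ?_ ?_
    · intro n
      exact (((hcont n).measurable.sub (F2_ind_meas hE)).abs).aestronglyMeasurable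
    · rw [integrable_const_iff]
      right
      rw [isFiniteMeasure_restrict, hvol]
      exact ENNReal.one_ne_top
    · intro n
      refine Filter.Eventually.of_forall fun x => ?_
      obtain ⟨h1, h2⟩ := mc_range (mc_kern n) hE x
      obtain ⟨h3, h4⟩ := F2_ind_bd E x
      rw [Real.norm_eq_abs, abs_abs, abs_le]
      constructor <;> linarith
    · refine ae_restrict_of_ae ?_
      filter_upwards [hae] with x hx
      have hx' : Tendsto (fun n => moll ((mcBump n).normed (volume : Measure (Fin 3 → ℝ))) E x)
          atTop (𝓝 (E.indicator (fun _ => (1 : ℝ)) x)) := by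
        refine hx.congr fun n => ?_
        rw [mc_eq]
      have h0 := (hx'.sub (tendsto_const_nhds (x := E.indicator (fun _ => (1 : ℝ)) x))).abs
      rw [sub_self, abs_zero] at h0
      exact h0
  rw [integral_zero] at hlim
  exact hlim

/-- APX -/
theorem approx_seq {E : Set (Fin 3 → ℝ)} (hE : MeasurableSet E) (hper : IsPerSet E)
    (hfin : perimeter E ≠ ⊤) {J : ℝ} (hJ : (perimeter E).toReal ≤ 2 * J) :
    ∃ f : ℕ → (Fin 3 → ℝ) → ℝ, NM J E f ∧ ∀ k, ∫ x in cell 3, f k x = vol E := by
  refine ⟨fun n => moll ((mcBump n).normed (volume : Measure (Fin 3 → ℝ))) E,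
    ⟨hE, hper, fun n => moll_nice (mc_kern n) hE hper,
      fun ε hε => Filter.Eventually.of_forall fun n => ?_, apx_l1 hE⟩,
    fun n => moll_integral (mc_kern n) hE hper⟩
  have h := tv_le (moll_contDiff (mc_kern n) hE) (moll_nice (mc_kern n) hE hper).per
    (K := (perimeter E).toReal) (fun φ h1 h2 h3 => moll_div_le (mc_kern n) hE hper hfin h1 h2 h3)
  unfold hTV
  linarith

end Vale.Agent.P232
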