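import Vale.Agent.P232U.Defs
import Vale.Agent.P232.Shift
import Vale.Agent.P232.MollBasic

/-! # P232U, module BVOL: volume and moments of geodesic balls -/

open MeasureTheory Set Filter Topology

namespace Vale.Agent.P232

theorem BVOL_distS_add_int (t : ℝ) (k : ℤ) : distS (t + k) = distS t := by
  unfold distS
  rw [round_add_intCast]
  push_cast
  ring_nf

theorem BVOL_distS_small {t : ℝ} (h1 : -(1 / 2) ≤ t) (h2 : t < 1 / 2) : distS t = |t| := by
  unfold distS
  have : round t = 0 := by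
    rw [round_eq, Int.floor_eq_zero_iff]
    constructor <;> linarith
  rw [this]
  simp

theorem BVOL_distS_meas : Measurable distS := by
  unfold distS
  have h : Measurable (fun t : ℝ => ((round t : ℤ) : ℝ)) := by
    have e : (fun t : ℝ => ((round t : ℤ) : ℝ)) = fun t : ℝ => ((⌊t + 1 / 2⌋ : ℤ) : ℝ) := by
      funext t; rw [round_eq]
    rw [e]
    exact (measurable_of_countable _).comp (Int.measurable_floor.comp (measurable_id.add_const _))
  exact (measurable_id.sub h).abs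

theorem BVOL_sum_meas (m : Fin 3 → ℝ) :
    Measurable fun x : Fin 3 → ℝ => ∑ i, distS (x i - m i) ^ 2 :=
  Finset.measurable_fun_sum _ fun i _ =>
    (BVOL_distS_meas.comp ((measurable_pi_apply i).sub_const _)).pow_const 2

/-- reduction to the centered ball -/
theorem BVOL_shift (m : Fin 3 → ℝ) (Ψ : ℝ → ℝ) :
    ∫ x in cell 3, Ψ (∑ i, distS (x i - m i) ^ 2) =
      ∫ x in cell 3, Ψ (∑ i, (x i - 1 / 2) ^ 2) := by
  set F : (Fin 3 → ℝ) → ℝ := fun x => Ψ (∑ i, distS (x i) ^ 2) with hF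
  have hper : IsPer F := by
    intro x k
    simp only [hF, Pi.add_apply, BVOL_distS_add_int]
  have h1 := B1_integral_shift hper (-m)
  have h2 := B1_integral_shift hper (fun _ => -(1 / 2))
  have e1 : ∫ x in cell 3, Ψ (∑ i, distS (x i - m i) ^ 2) = ∫ x in cell 3, F (x + -m) := rfl
  rw [e1, h1, ← h2]
  refine setIntegral_congr_fun (F2_cell_meas 3) fun x hx => ?_
  simp only [hF, Pi.add_apply]
  congr 1
  refine Finset.sum_congr rfl fun i _ => ?_
  have hi := hx i (mem_univ i)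
  rw [BVOL_distS_small (by linarith [hi.1]) (by linarith [hi.2]), sq_abs]
  ring

theorem BVOL_main (m : Fin 3 → ℝ) {R : ℝ} (hR : 0 < R) (hR1 : R ≤ 1 / 2) {Ψ : ℝ → ℝ}
    (hΨ : ∀ s, R ^ 2 ≤ s → Ψ s = 0) :
    ∫ x in cell 3, Ψ (∑ i, distS (x i - m i) ^ 2) =
      4 * Real.pi * ∫ y in Ioi (0 : ℝ), y ^ 2 * Ψ (y ^ 2) := by
  rw [BVOL_shift]
  have h1 : ∫ x in cell 3, Ψ (∑ i, (x i - 1 / 2) ^ 2) =
      ∫ x : Fin 3 → ℝ, Ψ (∑ i, (x i - 1 / 2) ^ 2) := by
    refine setIntegral_eq_integral_of_forall_compl_eq_zero fun x hx => hΨ _ ?_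
    have hx' : ∃ i, x i < 0 ∨ 1 ≤ x i := by
      by_contra hc
      push Not at hc
      exact hx fun i _ => hc i
    obtain ⟨i, hi⟩ := hx'
    have h2 : (1 / 4 : ℝ) ≤ (x i - 1 / 2) ^ 2 := by
      rcases hi with hi | hi <;> nlinarith
    have h3 : (x i - 1 / 2) ^ 2 ≤ ∑ i, (x i - 1 / 2) ^ 2 :=
      Finset.single_le_sum (f := fun i => (x i - 1 / 2) ^ 2) (fun j _ => sq_nonneg _)
        (Finset.mem_univ i)
    nlinarith
  have h2 : ∫ x : Fin 3 → ℝ, Ψ (∑ i, (x i - 1 / 2) ^ 2) = ∫ x : Fin 3 → ℝ, Ψ (∑ i, x i ^ 2) :=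
    integral_sub_right_eq_self (μ := (volume : Measure (Fin 3 → ℝ)))
      (fun x : Fin 3 → ℝ => Ψ (∑ i, x i ^ 2)) (fun _ => 1 / 2)
  have h3 : ∫ x : Fin 3 → ℝ, Ψ (∑ i, x i ^ 2) = ∫ z : EuclideanSpace ℝ (Fin 3), Ψ (‖z‖ ^ 2) := by
    have hp := EuclideanSpace.volume_preserving_symm_measurableEquiv_toLp (Fin 3)
    rw [← hp.integral_comp (MeasurableEquiv.measurableEmbedding _)
      (fun x : Fin 3 → ℝ => Ψ (∑ i, x i ^ 2))]
    refine integral_congr_ae (Eventually.of_forall fun z => ?_)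
    show Ψ (∑ i, (z i) ^ 2) = Ψ (‖z‖ ^ 2)
    rw [EuclideanSpace.norm_sq_eq]
    simp
  rw [h1, h2, h3, MeasureTheory.integral_fun_norm_addHaar (volume : Measure (EuclideanSpace ℝ (Fin 3)))
    (fun t => Ψ (t ^ 2))]
  have hb : (volume : Measure (EuclideanSpace ℝ (Fin 3))).real (Metric.ball 0 1) =
      Real.pi * 4 / 3 := by
    rw [Measure.real, EuclideanSpace.volume_ball_fin_three]
    rw [ENNReal.ofReal_one, one_pow, one_mul, ENNReal.toReal_ofReal (by positivity)]
  rw [hb, finrank_euclideanSpace_fin]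
  simp only [nsmul_eq_mul, smul_eq_mul]
  norm_num
  ring

theorem BVOL_int (R : ℝ) (hR : 0 < R) (g : ℝ → ℝ) (n : ℕ) (hg : ∀ y, g (y ^ 2) * y ^ 2 = y ^ n) :
    ∫ y in Ioi (0 : ℝ), y ^ 2 * (if y ^ 2 < R ^ 2 then g (y ^ 2) else 0) =
      R ^ (n + 1) / (n + 1) := by
  have h1 : ∫ y in Ioi (0 : ℝ), y ^ 2 * (if y ^ 2 < R ^ 2 then g (y ^ 2) else 0) =
      ∫ y in Ioi (0 : ℝ), (Iio R).indicator (fun y => y ^ n) y := by
    refine setIntegral_congr_fun measurableSet_Ioi fun y hy => ?_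
    have hy0 : (0 : ℝ) < y := hy
    by_cases h : y < R
    · have h' : y ^ 2 < R ^ 2 := by nlinarith
      rw [indicator_of_mem (show y ∈ Iio R from h)]
      simp only [h', if_true]
      rw [mul_comm]; exact hg y
    · have h' : ¬ y ^ 2 < R ^ 2 := by
        push Not at h ⊢
        nlinarith
      rw [indicator_of_notMem (show y ∉ Iio R from h)]
      simp only [h', if_false, mul_zero]
  rw [h1, setIntegral_indicator measurableSet_Iio, Ioi_inter_Iio,
    ← integral_Ioc_eq_integral_Ioo, ← intervalIntegral.integral_of_le hR.le, integral_pow]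
  simp

theorem ballT_facts (m : Fin 3 → ℝ) {R : ℝ} (hR : 0 < R) (hR1 : R ≤ 1 / 2) :
    vol (ballT m R) = 4 / 3 * Real.pi * R ^ 3 ∧
    volume ({x : Fin 3 → ℝ | ∑ i, distS (x i - m i) ^ 2 = R ^ 2} ∩ cell 3) = 0 ∧
    ∫ x in ballT m R ∩ cell 3, ∑ i, distS (x i - m i) ^ 2 = 4 / 5 * Real.pi * R ^ 5 := by
  have hbm : MeasurableSet (ballT m R) :=
    measurableSet_lt (BVOL_sum_meas m) measurable_const
  have hsm : MeasurableSet {x : Fin 3 → ℝ | ∑ i, distS (x i - m i) ^ 2 = R ^ 2} :=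
    measurableSet_eq_fun (BVOL_sum_meas m) measurable_const
  have hind : ∀ (S : Set (Fin 3 → ℝ)), MeasurableSet S → ∀ g : (Fin 3 → ℝ) → ℝ,
      ∫ x in S ∩ cell 3, g x = ∫ x in cell 3, S.indicator g x := by
    intro S hS g
    rw [setIntegral_indicator hS, inter_comm]
  have hvol : ∀ (S : Set (Fin 3 → ℝ)), MeasurableSet S →
      (volume (S ∩ cell 3)).toReal = ∫ x in cell 3, S.indicator (fun _ => (1 : ℝ)) x := by
    intro S hS
    rw [← hind S hS, setIntegral_const, smul_eq_mul, mul_one]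
    rfl
  refine ⟨?_, ?_, ?_⟩
  · unfold vol
    rw [hvol _ hbm]
    have e : ∀ x : Fin 3 → ℝ, (ballT m R).indicator (fun _ => (1 : ℝ)) x =
        (fun s : ℝ => if s < R ^ 2 then (1 : ℝ) else 0) (∑ i, distS (x i - m i) ^ 2) := by
      intro x
      by_cases h : x ∈ ballT m R
      · have h' : ∑ i, distS (x i - m i) ^ 2 < R ^ 2 := h
        simp only [indicator_of_mem h, h', if_true]
      · have h' : ¬ ∑ i, distS (x i - m i) ^ 2 < R ^ 2 := h
        simp only [indicator_of_notMem h, h', if_false]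
    simp only [e]
    rw [BVOL_main m hR hR1 (Ψ := fun s : ℝ => if s < R ^ 2 then (1 : ℝ) else 0)
      (fun s hs => if_neg (not_lt.2 hs)), BVOL_int R hR (fun _ => 1) 2 (fun y => by ring)]
    norm_num
    ring
  · have h1 := hvol _ hsm
    have e : ∀ x : Fin 3 → ℝ,
        ({x : Fin 3 → ℝ | ∑ i, distS (x i - m i) ^ 2 = R ^ 2}).indicator (fun _ => (1 : ℝ)) x =
        (fun s : ℝ => if s = R ^ 2 then (1 : ℝ) else 0) (∑ i, distS (x i - m i) ^ 2) := by
      intro x
      by_cases h : ∑ i, distS (x i - m i) ^ 2 = R ^ 2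
      · rw [indicator_of_mem (show x ∈ {x : Fin 3 → ℝ | ∑ i, distS (x i - m i) ^ 2 = R ^ 2} from h)]
        simp only [h, if_true]
      · rw [indicator_of_notMem
          (show x ∉ {x : Fin 3 → ℝ | ∑ i, distS (x i - m i) ^ 2 = R ^ 2} from h)]
        simp only [h, if_false]
    simp only [e] at h1
    rw [BVOL_shift m (fun s : ℝ => if s = R ^ 2 then (1 : ℝ) else 0)] at h1
    have hnull : volume {y : Fin 3 → ℝ | ∑ i, (y i - 1 / 2) ^ 2 = R ^ 2} = 0 := by
      have h2 := PiLp.volume_preserving_toLp (Fin 3)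
      have h3 : {y : Fin 3 → ℝ | ∑ i, (y i - 1 / 2) ^ 2 = R ^ 2} =
          (@WithLp.toLp 2 (Fin 3 → ℝ)) ⁻¹'
            (Metric.sphere (WithLp.toLp 2 (fun _ => (1 / 2 : ℝ))) R) := by
        ext y
        rw [mem_preimage, Metric.mem_sphere, EuclideanSpace.dist_eq,
          Real.sqrt_eq_iff_mul_self_eq (Finset.sum_nonneg fun i _ => sq_nonneg _) hR.le]
        simp only [mem_ofPred_eq, Real.dist_eq, sq_abs]
        rw [← sq, eq_comm]
      rw [h3, h2.measure_preimage Metric.isClosed_sphere.measurableSet.nullMeasurableSet]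
      exact Measure.addHaar_sphere _ _ _
    have h4 : ∫ x in cell 3, (fun s : ℝ => if s = R ^ 2 then (1 : ℝ) else 0)
        (∑ i, (x i - 1 / 2) ^ 2) = 0 := by
      refine integral_eq_zero_of_ae ?_
      refine ae_restrict_of_ae ?_
      have h5 : ∀ᵐ y : Fin 3 → ℝ, ¬ (∑ i, (y i - 1 / 2) ^ 2 = R ^ 2) := by
        rw [ae_iff]
        simpa using hnull
      filter_upwards [h5] with y hy
      simp only [hy, if_false]
      rfl
    rw [h4] at h1
    have hfin : volume ({x : Fin 3 → ℝ | ∑ i, distS (x i - m i) ^ 2 = R ^ 2} ∩ cell 3) ≠ ⊤ :=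
      ne_top_of_le_ne_top (by rw [F2_cell_vol]; exact ENNReal.one_ne_top)
        (measure_mono inter_subset_right)
    exact (ENNReal.toReal_eq_zero_iff _).1 h1 |>.resolve_right hfin
  · rw [hind _ hbm]
    have e : ∀ x : Fin 3 → ℝ, (ballT m R).indicator (fun x => ∑ i, distS (x i - m i) ^ 2) x =
        (fun s : ℝ => if s < R ^ 2 then s else 0) (∑ i, distS (x i - m i) ^ 2) := by
      intro x
      by_cases h : x ∈ ballT m R
      · have h' : ∑ i, distS (x i - m i) ^ 2 < R ^ 2 := h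
        simp only [indicator_of_mem h, h', if_true]
      · have h' : ¬ ∑ i, distS (x i - m i) ^ 2 < R ^ 2 := h
        simp only [indicator_of_notMem h, h', if_false]
    simp only [e]
    rw [BVOL_main m hR hR1 (Ψ := fun s : ℝ => if s < R ^ 2 then s else 0)
      (fun s hs => if_neg (not_lt.2 hs)), BVOL_int R hR (fun s => s) 4 (fun y => by ring)]
    norm_num
    ring

end Vale.Agent.P232
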