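import Mathlib

/-!
# P232, uniqueness, module CORE: the one-dimensional rigidity lemma

`q = g(U)`, `r = √U`, `p = √(U + δ²)`.  On `[0,s]` put `H = t - (p - δ)`, on `[s,1]`
`H = (1 - t) - (p - δ)`; `|1 ∓ U'/(2p)| ≤ 1 + (2/δ) | |U'|/2 - r | ∓ U'/(2p)` pointwise, and
`∫ q U'/(2p)` is computed by the fundamental theorem; `∫_0^b g/√u ≤ ∫_0^b g/√(u+δ²) + 2 δ`.
Hence `∫ q |H'| ≤ 2δ + ε + 2ε/δ`; `q |H|` is pointwise at most `∫ (q + ω) |H'|` by monotonicity.
-/

open MeasureTheory Set Filter Topology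

namespace Vale.Agent.P232

private lemma CORE_pt {U' D r p δ : ℝ} (hδ : 0 < δ) (hp : δ ≤ p) (hr : r ≤ p) (hD : U' ≤ D) :
    |1 - U' / (2 * p)| ≤ 1 + 2 / δ * |1 / 2 * D - r| - U' / (2 * p) := by
  have hp0 : 0 < p := by linarith
  obtain ⟨a, ha⟩ : ∃ a : ℝ, a = |1 / 2 * D - r| := ⟨_, rfl⟩
  have ha0 : 0 ≤ a := by rw [ha]; exact abs_nonneg _
  have ha' : 1 / 2 * D - r ≤ a := by rw [ha]; exact le_abs_self _
  rw [← ha]
  have hpd : 1 ≤ p / δ := (one_le_div hδ).2 hp
  have hy : U' / (2 * p) ≤ 1 + 1 / δ * a := by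
    rw [div_le_iff₀ (by positivity)]
    have h1 : a * 1 ≤ a * (p / δ) := mul_le_mul_of_nonneg_left hpd ha0
    have h2 : (1 + 1 / δ * a) * (2 * p) = 2 * p + 2 * (a * (p / δ)) := by
      field_simp
    rw [h2]
    linarith
  have h3 : 2 / δ * a = 2 * (1 / δ * a) := by ring
  have h4 : 0 ≤ 1 / δ * a := by positivity
  rw [h3, abs_le]
  constructor <;> linarith

/-- `∫_0^b g/√u ≤ ∫_0^b g/√(u+δ²) + 2 δ` -/
private lemma CORE_G {g : ℝ → ℝ} (hg : Continuous g) (hg0 : ∀ u, 0 ≤ g u) (hg1 : ∀ u, g u ≤ 1)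
    {δ b : ℝ} (hδ : 0 < δ) (hb : 0 ≤ b) :
    ∫ u in (0:ℝ)..b, g u / Real.sqrt u
      ≤ 2 * (∫ u in (0:ℝ)..b, g u / (2 * Real.sqrt (|u| + δ ^ 2))) + 2 * δ := by
  have hpos : ∀ u : ℝ, 0 < |u| + δ ^ 2 := fun u => by positivity
  have hSc : Continuous fun u : ℝ => g u / (2 * Real.sqrt (|u| + δ ^ 2)) := by
    refine hg.div (continuous_const.mul (Real.continuous_sqrt.comp
      (continuous_abs.add continuous_const))) fun u => ?_
    have := Real.sqrt_pos.2 (hpos u)
    positivity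
  have hc2 : Continuous fun u : ℝ => 1 / Real.sqrt (|u| + δ ^ 2) := by
    refine continuous_const.div (Real.continuous_sqrt.comp
      (continuous_abs.add continuous_const)) fun u => ?_
    exact (Real.sqrt_pos.2 (hpos u)).ne'
  -- the primitive of `1/√u`
  have hd1 : ∀ u ∈ Ioo (0:ℝ) b, HasDerivAt (fun u : ℝ => 2 * Real.sqrt u) (1 / Real.sqrt u) u := by
    intro u hu
    have h1 := ((hasDerivAt_id u).sqrt (ne_of_gt hu.1)).const_mul 2
    have e : (2 : ℝ) * (1 / (2 * Real.sqrt (id u))) = 1 / Real.sqrt u := by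
      have := Real.sqrt_pos.2 hu.1
      simp only [id]
      field_simp
    rw [e] at h1
    exact h1
  have hcs : Continuous fun u : ℝ => 2 * Real.sqrt u := continuous_const.mul Real.continuous_sqrt
  have hI1 : IntervalIntegrable (fun u : ℝ => 1 / Real.sqrt u) volume 0 b := by
    rw [intervalIntegrable_iff_integrableOn_Ioc_of_le hb]
    exact intervalIntegral.integrableOn_deriv_of_nonneg hcs.continuousOn hd1
      fun u _ => by positivity
  have hIg : IntervalIntegrable (fun u : ℝ => g u * (1 / Real.sqrt u)) volume 0 b :=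
    hI1.continuousOn_mul hg.continuousOn
  have hS2 : ∀ u : ℝ, g u / (2 * Real.sqrt (|u| + δ ^ 2)) * 2
      = g u * (1 / Real.sqrt (|u| + δ ^ 2)) := by
    intro u
    have := Real.sqrt_pos.2 (hpos u)
    field_simp
  have hIs : IntervalIntegrable (fun u : ℝ => g u * (1 / Real.sqrt (|u| + δ ^ 2))) volume 0 b :=
    (hg.mul hc2).intervalIntegrable _ _
  have e1 : ∫ u in (0:ℝ)..b, g u / Real.sqrt u = ∫ u in (0:ℝ)..b, g u * (1 / Real.sqrt u) := by
    congr 1
    funext u
    ring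
  have e2 : 2 * (∫ u in (0:ℝ)..b, g u / (2 * Real.sqrt (|u| + δ ^ 2)))
      = ∫ u in (0:ℝ)..b, g u * (1 / Real.sqrt (|u| + δ ^ 2)) := by
    rw [mul_comm, ← intervalIntegral.integral_mul_const]
    congr 1
    funext u
    exact hS2 u
  rw [e1, e2]
  have h3 : (∫ u in (0:ℝ)..b, g u * (1 / Real.sqrt u))
      - ∫ u in (0:ℝ)..b, g u * (1 / Real.sqrt (|u| + δ ^ 2)) ≤ 2 * δ := by
    rw [← intervalIntegral.integral_sub hIg hIs]
    have h4 : ∫ u in (0:ℝ)..b, (g u * (1 / Real.sqrt u) - g u * (1 / Real.sqrt (|u| + δ ^ 2)))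
        ≤ ∫ u in (0:ℝ)..b, (1 / Real.sqrt u - 1 / Real.sqrt (|u| + δ ^ 2)) := by
      refine intervalIntegral.integral_mono_on_of_le_Ioo hb (hIg.sub hIs)
        (hI1.sub (hc2.intervalIntegrable _ _)) fun u hu => ?_
      rw [← mul_sub]
      have h5 : 0 ≤ 1 / Real.sqrt u - 1 / Real.sqrt (|u| + δ ^ 2) := by
        rw [sub_nonneg]
        apply one_div_le_one_div_of_le (Real.sqrt_pos.2 hu.1)
        apply Real.sqrt_le_sqrt
        rw [abs_of_pos hu.1]
        nlinarith [sq_nonneg δ]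
      calc g u * (1 / Real.sqrt u - 1 / Real.sqrt (|u| + δ ^ 2))
          ≤ 1 * (1 / Real.sqrt u - 1 / Real.sqrt (|u| + δ ^ 2)) :=
            mul_le_mul_of_nonneg_right (hg1 u) h5
        _ = _ := one_mul _
    refine h4.trans ?_
    have h6 : ∀ u ∈ Ioo (0:ℝ) b, HasDerivAt
        (fun u : ℝ => 2 * Real.sqrt u - 2 * Real.sqrt (u + δ ^ 2))
        (1 / Real.sqrt u - 1 / Real.sqrt (|u| + δ ^ 2)) u := by
      intro u hu
      refine (hd1 u hu).sub ?_
      have hp2 : 0 < u + δ ^ 2 := by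
        have := hu.1
        positivity
      have h7 := (((hasDerivAt_id u).add_const (δ ^ 2)).sqrt (ne_of_gt hp2)).const_mul 2
      have e : (2 : ℝ) * (1 / (2 * Real.sqrt (id u + δ ^ 2))) = 1 / Real.sqrt (|u| + δ ^ 2) := by
        have := Real.sqrt_pos.2 hp2
        rw [abs_of_pos hu.1]
        simp only [id]
        field_simp
      rw [e] at h7
      exact h7
    have hcc : ContinuousOn (fun u : ℝ => 2 * Real.sqrt u - 2 * Real.sqrt (u + δ ^ 2))
        (Icc 0 b) :=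
      (hcs.sub (continuous_const.mul (Real.continuous_sqrt.comp
        (continuous_id.add continuous_const)))).continuousOn
    rw [intervalIntegral.integral_eq_sub_of_hasDerivAt_of_le hb hcc h6
      (hI1.sub (hc2.intervalIntegrable _ _))]
    have h8 : Real.sqrt b ≤ Real.sqrt (b + δ ^ 2) := Real.sqrt_le_sqrt (by nlinarith [sq_nonneg δ])
    have h9 : Real.sqrt (0 + δ ^ 2) = δ := by
      rw [zero_add]
      exact Real.sqrt_sq hδ.le
    rw [h9, Real.sqrt_zero]
    linarith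
  linarith

private lemma CORE_fin {m d r q E X δ : ℝ} (hm : 0 ≤ m) (hmd : m ≤ d) (hd : d ≤ 1) (hr0 : 0 ≤ r)
    (hr : r ≤ 1) (hq0 : 0 ≤ q) (hq1 : q ≤ 1) (hδ : 0 ≤ δ) (hX : |d - r| ≤ X + δ)
    (hE : q * X ≤ E) : m ^ 2 * q ≤ q * r ^ 2 + (2 * E + 2 * δ) := by
  have h1 : m ^ 2 ≤ d ^ 2 := pow_le_pow_left₀ hm hmd 2
  have h2 : d ^ 2 - r ^ 2 ≤ 2 * (X + δ) := by
    have h3 : d ^ 2 - r ^ 2 = (d - r) * (d + r) := by ring
    rw [h3]
    calc (d - r) * (d + r) ≤ |d - r| * (d + r) :=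
          mul_le_mul_of_nonneg_right (le_abs_self _) (by linarith)
      _ ≤ |d - r| * 2 := mul_le_mul_of_nonneg_left (by linarith) (abs_nonneg _)
      _ ≤ 2 * (X + δ) := by linarith
  have h4 : q * (m ^ 2 - r ^ 2) ≤ q * (2 * (X + δ)) :=
    mul_le_mul_of_nonneg_left (by linarith) hq0
  have h5 : q * δ ≤ 1 * δ := mul_le_mul_of_nonneg_right hq1 hδ
  nlinarith

private lemma CORE_rD {r D c : ℝ} (hr0 : 0 ≤ r) (hr1 : r ≤ 1) (hc : |1 / 2 * D - r| = c) :
    r ^ 2 ≤ 1 / 2 * (r * D) + c := by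
  have hc0 : 0 ≤ c := by rw [← hc]; exact abs_nonneg _
  have hc1 : r - 1 / 2 * D ≤ c := by
    rw [← hc, abs_sub_comm]
    exact le_abs_self _
  have h1 : r * (r - 1 / 2 * D) ≤ r * c := mul_le_mul_of_nonneg_left hc1 hr0
  have h2 : r * c ≤ 1 * c := mul_le_mul_of_nonneg_right hr1 hc0
  have h3 : r * (r - 1 / 2 * D) = r ^ 2 - 1 / 2 * (r * D) := by ring
  linarith

private lemma CORE_num {ε ω K δ E : ℝ} (hε : 0 ≤ ε) (hω : 0 ≤ ω) (hδ : 0 < δ) (hδ1 : δ ≤ 1)
    (hK0 : 0 ≤ K) (hE : E ≤ 2 * δ + ε + 2 / δ * ε + ω * (1 + 1 / (2 * δ) * K)) :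
    3 / 2 * ε + (2 * E + 2 * δ) ≤ 20 * (δ + ε / δ ^ 2 + ω * (1 + K) / δ) := by
  have hn1 : 1 ≤ 1 / δ := by
    rw [le_div_iff₀ hδ]
    linarith
  obtain ⟨κ, hκ⟩ : ∃ κ : ℝ, κ = 1 / δ := ⟨_, rfl⟩
  have e1 : ε / δ ^ 2 = ε * κ ^ 2 := by
    rw [hκ]
    field_simp
  have e2 : ω * (1 + K) / δ = ω * κ + ω * K * κ := by
    rw [hκ]
    ring
  have e3 : 2 / δ * ε = 2 * (ε * κ) := by
    rw [hκ]
    ring
  have e4 : ω * (1 + 1 / (2 * δ) * K) = ω + 1 / 2 * (ω * K * κ) := by
    rw [hκ]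
    field_simp
  rw [e1, e2]
  rw [e3, e4] at hE
  rw [← hκ] at hn1
  have hκ0 : 0 ≤ κ := by linarith
  have i2 : ε * 1 ≤ ε * κ := mul_le_mul_of_nonneg_left hn1 hε
  have i1 : ε * κ ≤ ε * κ ^ 2 := by
    have : κ * 1 ≤ κ * κ := mul_le_mul_of_nonneg_left hn1 hκ0
    exact mul_le_mul_of_nonneg_left (by rw [pow_two]; linarith) hε
  have i3 : ω * 1 ≤ ω * κ := mul_le_mul_of_nonneg_left hn1 hω
  have i4 : 0 ≤ ω * K * κ := by positivity
  have i5 : 0 ≤ ε * κ ^ 2 := by positivity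
  have i6 : 0 ≤ ω * κ := by positivity
  linarith

theorem core_oneD {g U : ℝ → ℝ} {ρ s ε ω K δ : ℝ} (hρ : 0 < ρ) (hρ1 : ρ ≤ 1)
    (hg : Continuous g) (hg0 : ∀ u, 0 ≤ g u) (hg1 : ∀ u, g u ≤ 1)
    (hU : ContDiff ℝ 1 U) (hper : ∀ t, U (t + 1) = U t) (hU0 : ∀ t, 0 ≤ U t) (hUρ : ∀ t, U t ≤ ρ)
    (hz : U 0 = 0) (hs0 : 0 ≤ s) (hs1 : s ≤ 1) (hsm : ∀ t, U t ≤ U s)
    (hε : 0 ≤ ε) (hω : 0 ≤ ω) (hδ : 0 < δ) (hδ1 : δ ≤ 1)
    (h1 : ∫ t in (0:ℝ)..1, g (U t) * |(1 / 2) * |deriv U t| - Real.sqrt (U t)| ≤ ε)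
    (h2 : ∫ t in (0:ℝ)..1, g (U t) * Real.sqrt (U t) * |deriv U t| ≤
      2 * (∫ u in (0:ℝ)..(U s), g u * Real.sqrt u) + ε)
    (h3 : ∫ t in (0:ℝ)..1, g (U t) ≤ (∫ u in (0:ℝ)..(U s), g u / Real.sqrt u) + ε)
    (h5 : ∀ x y, 0 ≤ x → x ≤ y → y ≤ s → g (U y) ≤ g (U x) + ω)
    (h5' : ∀ x y, s ≤ x → x ≤ y → y ≤ 1 → g (U x) ≤ g (U y) + ω)
    (h6 : ∫ t in (0:ℝ)..1, |deriv U t| ≤ K) :
    ∫ t in (0:ℝ)..1, (min t (1 - t)) ^ 2 * g (U t) ≤
      (∫ u in (0:ℝ)..ρ, g u * Real.sqrt u) + 20 * (δ + ε / δ ^ 2 + ω * (1 + K) / δ) := by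
  have hUc : Continuous U := hU.continuous
  have hU'c : Continuous (deriv U) := hU.continuous_deriv le_rfl
  have hUd : ∀ t, HasDerivAt U (deriv U t) t := fun t =>
    (hU.differentiable one_ne_zero t).hasDerivAt
  have hz1 : U 1 = 0 := by
    have := hper 0
    rw [zero_add] at this
    rw [this, hz]
  have hp2 : ∀ t, 0 < U t + δ ^ 2 := fun t => by
    have := hU0 t
    positivity
  obtain ⟨p, hp⟩ : ∃ p : ℝ → ℝ, p = fun t => Real.sqrt (U t + δ ^ 2) := ⟨_, rfl⟩
  have hpt : ∀ t, p t = Real.sqrt (U t + δ ^ 2) := fun t => by rw [hp]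
  have hpδ : ∀ t, δ ≤ p t := fun t => by
    rw [hpt, Real.le_sqrt' hδ]
    linarith [hU0 t]
  have hp0 : ∀ t, 0 < p t := fun t => lt_of_lt_of_le hδ (hpδ t)
  have hpr : ∀ t, Real.sqrt (U t) ≤ p t := fun t => by
    rw [hpt]
    apply Real.sqrt_le_sqrt
    nlinarith [sq_nonneg δ]
  have hpr2 : ∀ t, p t ≤ Real.sqrt (U t) + δ := fun t => by
    have h7 := Real.sqrt_nonneg (U t)
    rw [hpt, Real.sqrt_le_left (by linarith)]
    have h8 := Real.sq_sqrt (hU0 t)
    nlinarith
  have hpc : Continuous p := by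
    rw [hp]
    exact Real.continuous_sqrt.comp (hUc.add continuous_const)
  have hpd : ∀ t, HasDerivAt p (deriv U t / (2 * p t)) t := fun t => by
    have h7 := ((hUd t).add_const (δ ^ 2)).sqrt (ne_of_gt (hp2 t))
    rw [hpt t, hp]
    exact h7
  have hp_0 : p 0 = δ := by
    rw [hpt, hz, zero_add]
    exact Real.sqrt_sq hδ.le
  have hp_1 : p 1 = δ := by
    rw [hpt, hz1, zero_add]
    exact Real.sqrt_sq hδ.le
  have hqc : Continuous fun t => g (U t) := hg.comp hUc
  have hrc : Continuous fun t => Real.sqrt (U t) := Real.continuous_sqrt.comp hUc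
  have hDc : Continuous fun t => |deriv U t| := hU'c.abs
  have hyc : Continuous fun t => deriv U t / (2 * p t) :=
    hU'c.div (continuous_const.mul hpc) fun t => by
      have := hp0 t
      positivity
  obtain ⟨P, hP⟩ : ∃ P : ℝ → ℝ → ℝ, P = fun σ t => |1 - σ * (deriv U t / (2 * p t))| := ⟨_, rfl⟩
  have hPt : ∀ σ t, P σ t = |1 - σ * (deriv U t / (2 * p t))| := fun σ t => by rw [hP]
  have hPc : ∀ σ, Continuous (P σ) := fun σ => by
    rw [hP]
    exact (continuous_const.sub (continuous_const.mul hyc)).abs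
  have hP0 : ∀ σ t, 0 ≤ P σ t := fun σ t => by
    rw [hPt]
    exact abs_nonneg _
  have hwc : Continuous fun t => g (U t) * |(1 / 2) * |deriv U t| - Real.sqrt (U t)| :=
    hqc.mul ((continuous_const.mul hDc).sub hrc).abs
  have hsc : Continuous fun t => g (U t) * (deriv U t / (2 * p t)) := hqc.mul hyc
  -- the fundamental theorem
  obtain ⟨Γ, hΓ⟩ : ∃ Γ : ℝ, Γ = ∫ u in (0:ℝ)..(U s), g u / (2 * Real.sqrt (|u| + δ ^ 2)) :=
    ⟨_, rfl⟩
  have hSc : Continuous fun u : ℝ => g u / (2 * Real.sqrt (|u| + δ ^ 2)) := by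
    refine hg.div (continuous_const.mul (Real.continuous_sqrt.comp
      (continuous_abs.add continuous_const))) fun u => ?_
    have h7 : 0 < |u| + δ ^ 2 := by positivity
    have := Real.sqrt_pos.2 h7
    positivity
  have hftc : ∀ a b : ℝ, ∫ t in a..b, g (U t) * (deriv U t / (2 * p t))
      = ∫ u in (U a)..(U b), g u / (2 * Real.sqrt (|u| + δ ^ 2)) := by
    intro a b
    rw [← intervalIntegral.integral_comp_mul_deriv (fun x _ => hUd x) hU'c.continuousOn hSc]
    congr 1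
    funext t
    simp only [Function.comp]
    rw [abs_of_nonneg (hU0 t), hpt]
    ring
  have hf1 : ∫ t in (0:ℝ)..s, g (U t) * (deriv U t / (2 * p t)) = Γ := by
    rw [hftc, hz, hΓ]
  have hf2 : ∫ t in s..(1:ℝ), g (U t) * (deriv U t / (2 * p t)) = -Γ := by
    rw [hftc, hz1, hΓ, intervalIntegral.integral_symm]
  -- one half
  have hhalf : ∀ a b σ : ℝ, a ≤ b → |σ| ≤ 1 →
      ∫ t in a..b, g (U t) * P σ t ≤ (∫ t in a..b, g (U t))
        + 2 / δ * (∫ t in a..b, g (U t) * |(1 / 2) * |deriv U t| - Real.sqrt (U t)|)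
        - σ * ∫ t in a..b, g (U t) * (deriv U t / (2 * p t)) := by
    intro a b σ hab hσ
    have e : (∫ t in a..b, g (U t))
        + 2 / δ * (∫ t in a..b, g (U t) * |(1 / 2) * |deriv U t| - Real.sqrt (U t)|)
        - σ * (∫ t in a..b, g (U t) * (deriv U t / (2 * p t)))
        = ∫ t in a..b, (g (U t) + 2 / δ * (g (U t) * |(1 / 2) * |deriv U t| - Real.sqrt (U t)|)
          - σ * (g (U t) * (deriv U t / (2 * p t)))) := by
      rw [intervalIntegral.integral_sub, intervalIntegral.integral_add,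
        intervalIntegral.integral_const_mul, intervalIntegral.integral_const_mul]
      · exact hqc.intervalIntegrable _ _
      · exact (continuous_const.mul hwc).intervalIntegrable _ _
      · exact (hqc.add (continuous_const.mul hwc)).intervalIntegrable _ _
      · exact (continuous_const.mul hsc).intervalIntegrable _ _
    rw [e]
    refine intervalIntegral.integral_mono_on hab ((hqc.mul (hPc σ)).intervalIntegrable _ _)
      (((hqc.add (continuous_const.mul hwc)).sub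
        (continuous_const.mul hsc)).intervalIntegrable _ _) fun t _ => ?_
    have hσU : σ * deriv U t ≤ |deriv U t| := by
      refine (le_abs_self _).trans ?_
      rw [abs_mul]
      exact mul_le_of_le_one_left (abs_nonneg _) hσ
    have h7 := CORE_pt hδ (hpδ t) (hpr t) hσU
    have h8 : σ * deriv U t / (2 * p t) = σ * (deriv U t / (2 * p t)) := by ring
    rw [h8] at h7
    rw [hPt]
    have h9 := mul_le_mul_of_nonneg_left h7 (hg0 (U t))
    refine h9.trans (le_of_eq ?_)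
    ring
  have hq01 : (∫ t in (0:ℝ)..s, g (U t)) + ∫ t in s..(1:ℝ), g (U t)
      = ∫ t in (0:ℝ)..1, g (U t) :=
    intervalIntegral.integral_add_adjacent_intervals (hqc.intervalIntegrable _ _)
      (hqc.intervalIntegrable _ _)
  have hw01 : (∫ t in (0:ℝ)..s, g (U t) * |(1 / 2) * |deriv U t| - Real.sqrt (U t)|)
      + ∫ t in s..(1:ℝ), g (U t) * |(1 / 2) * |deriv U t| - Real.sqrt (U t)|
      = ∫ t in (0:ℝ)..1, g (U t) * |(1 / 2) * |deriv U t| - Real.sqrt (U t)| :=
    intervalIntegral.integral_add_adjacent_intervals (hwc.intervalIntegrable _ _)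
      (hwc.intervalIntegrable _ _)
  have hD01 : (∫ t in (0:ℝ)..s, |deriv U t|) + ∫ t in s..(1:ℝ), |deriv U t|
      = ∫ t in (0:ℝ)..1, |deriv U t| :=
    intervalIntegral.integral_add_adjacent_intervals (hDc.intervalIntegrable _ _)
      (hDc.intervalIntegrable _ _)
  have hA1 := hhalf 0 s 1 hs0 (by norm_num)
  have hA2 := hhalf s 1 (-1) hs1 (by norm_num)
  rw [hf1] at hA1
  rw [hf2] at hA2
  have hG := CORE_G hg hg0 hg1 hδ (hU0 s)
  rw [← hΓ] at hG
  obtain ⟨W1, hW1⟩ : ∃ W : ℝ, W = ∫ t in (0:ℝ)..s,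
    g (U t) * |(1 / 2) * |deriv U t| - Real.sqrt (U t)| := ⟨_, rfl⟩
  obtain ⟨W2, hW2⟩ : ∃ W : ℝ, W = ∫ t in s..(1:ℝ),
    g (U t) * |(1 / 2) * |deriv U t| - Real.sqrt (U t)| := ⟨_, rfl⟩
  rw [← hW1] at hA1 hw01
  rw [← hW2] at hA2 hw01
  rw [← hw01] at h1
  have hWδ : 2 / δ * W1 + 2 / δ * W2 ≤ 2 / δ * ε := by
    rw [← mul_add]
    exact mul_le_mul_of_nonneg_left h1 (by positivity)
  have hmain : (∫ t in (0:ℝ)..s, g (U t) * P 1 t) + ∫ t in s..(1:ℝ), g (U t) * P (-1) t
      ≤ 2 * δ + ε + 2 / δ * ε := by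
    linarith
  -- the integral of `P`
  have hPK : ∀ a b σ : ℝ, a ≤ b → |σ| ≤ 1 →
      ∫ t in a..b, P σ t ≤ (b - a) + 1 / (2 * δ) * ∫ t in a..b, |deriv U t| := by
    intro a b σ hab hσ
    have e : (b - a) + 1 / (2 * δ) * (∫ t in a..b, |deriv U t|)
        = ∫ t in a..b, (1 + 1 / (2 * δ) * |deriv U t|) := by
      have hDK : Continuous fun t => 1 / (2 * δ) * |deriv U t| := continuous_const.mul hDc
      have hone : Continuous fun _ : ℝ => (1 : ℝ) := continuous_const
      rw [intervalIntegral.integral_add (hone.intervalIntegrable _ _)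
        (hDK.intervalIntegrable _ _), intervalIntegral.integral_const_mul,
        intervalIntegral.integral_const]
      simp
    rw [e]
    refine intervalIntegral.integral_mono_on hab ((hPc σ).intervalIntegrable _ _)
      ((continuous_const.add (continuous_const.mul hDc)).intervalIntegrable _ _) fun t _ => ?_
    rw [hPt]
    refine (abs_sub _ _).trans ?_
    rw [abs_one, abs_mul, abs_div, abs_of_pos (by have := hp0 t; positivity : 0 < 2 * p t)]
    have h7 : |deriv U t| / (2 * p t) ≤ 1 / (2 * δ) * |deriv U t| := by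
      rw [div_eq_mul_one_div, mul_comm]
      apply mul_le_mul_of_nonneg_right _ (abs_nonneg _)
      apply one_div_le_one_div_of_le (by positivity)
      linarith [hpδ t]
    have h8 : |σ| * (|deriv U t| / (2 * p t)) ≤ 1 * (|deriv U t| / (2 * p t)) :=
      mul_le_mul_of_nonneg_right hσ (by have := hp0 t; positivity)
    linarith
  have hK1 := hPK 0 s 1 hs0 (by norm_num)
  have hK2 := hPK s 1 (-1) hs1 (by norm_num)
  have hδ2 : 0 < 1 / (2 * δ) := by positivity
  have hPsum : (∫ t in (0:ℝ)..s, P 1 t) + ∫ t in s..(1:ℝ), P (-1) t ≤ 1 + 1 / (2 * δ) * K := by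
    have h7 : 1 / (2 * δ) * ((∫ t in (0:ℝ)..s, |deriv U t|) + ∫ t in s..(1:ℝ), |deriv U t|)
        ≤ 1 / (2 * δ) * K := by
      rw [hD01]
      exact mul_le_mul_of_nonneg_left h6 hδ2.le
    rw [mul_add] at h7
    linarith
  -- the two errors
  obtain ⟨E1, hE1⟩ : ∃ E : ℝ, E = ∫ t in (0:ℝ)..s, (g (U t) + ω) * P 1 t := ⟨_, rfl⟩
  obtain ⟨E2, hE2⟩ : ∃ E : ℝ, E = ∫ t in s..(1:ℝ), (g (U t) + ω) * P (-1) t := ⟨_, rfl⟩
  have hec : ∀ σ, Continuous fun t => (g (U t) + ω) * P σ t := fun σ =>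
    (hqc.add continuous_const).mul (hPc σ)
  have he0 : ∀ σ t, 0 ≤ (g (U t) + ω) * P σ t := fun σ t =>
    mul_nonneg (by linarith [hg0 (U t)]) (hP0 σ t)
  have hEe : ∀ a b σ : ℝ, ∫ t in a..b, (g (U t) + ω) * P σ t
      = (∫ t in a..b, g (U t) * P σ t) + ω * ∫ t in a..b, P σ t := by
    intro a b σ
    have hqP : Continuous fun t => g (U t) * P σ t := hqc.mul (hPc σ)
    have hωP : Continuous fun t => ω * P σ t := continuous_const.mul (hPc σ)
    rw [← intervalIntegral.integral_const_mul, ← intervalIntegral.integral_add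
      (hqP.intervalIntegrable _ _) (hωP.intervalIntegrable _ _)]
    congr 1
    funext t
    ring
  have hE10 : 0 ≤ E1 := by
    rw [hE1]
    exact intervalIntegral.integral_nonneg hs0 fun t _ => he0 1 t
  have hE20 : 0 ≤ E2 := by
    rw [hE2]
    exact intervalIntegral.integral_nonneg hs1 fun t _ => he0 (-1) t
  have hEsum : E1 + E2 ≤ 2 * δ + ε + 2 / δ * ε + ω * (1 + 1 / (2 * δ) * K) := by
    rw [hE1, hE2, hEe, hEe]
    have h7 := mul_le_mul_of_nonneg_left hPsum hω
    rw [mul_add] at h7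
    linarith
  -- FTC for `H`
  have hH : ∀ a b σ : ℝ, ∫ t in a..b, (1 - σ * (deriv U t / (2 * p t)))
      = (b - σ * p b) - (a - σ * p a) := by
    intro a b σ
    refine intervalIntegral.integral_eq_sub_of_hasDerivAt (f := fun t => t - σ * p t)
      (fun t _ => ?_) ((continuous_const.sub (continuous_const.mul hyc)).intervalIntegrable _ _)
    exact (hasDerivAt_id t).sub ((hpd t).const_mul σ)
  have hpt1 : ∀ y, 0 ≤ y → y ≤ s → g (U y) * |y - (p y - δ)| ≤ E1 := by
    intro y hy0 hys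
    have h7 := hH 0 y 1
    have h8 : (y - 1 * p y) - (0 - 1 * p 0) = y - (p y - δ) := by
      rw [hp_0]
      ring
    rw [h8] at h7
    rw [← h7]
    have h9 := intervalIntegral.abs_integral_le_integral_abs (μ := volume)
      (f := fun t => 1 - 1 * (deriv U t / (2 * p t))) hy0
    have h10 : ∫ t in (0:ℝ)..y, |1 - 1 * (deriv U t / (2 * p t))| = ∫ t in (0:ℝ)..y, P 1 t := by
      congr 1
      funext t
      rw [hPt]
    rw [h10] at h9
    calc g (U y) * |∫ t in (0:ℝ)..y, (1 - 1 * (deriv U t / (2 * p t)))|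
        ≤ g (U y) * ∫ t in (0:ℝ)..y, P 1 t := mul_le_mul_of_nonneg_left h9 (hg0 _)
      _ = ∫ t in (0:ℝ)..y, g (U y) * P 1 t := by rw [intervalIntegral.integral_const_mul]
      _ ≤ ∫ t in (0:ℝ)..y, (g (U t) + ω) * P 1 t := by
          refine intervalIntegral.integral_mono_on hy0
            ((continuous_const.mul (hPc 1)).intervalIntegrable _ _)
            ((hec 1).intervalIntegrable _ _) fun t ht => ?_
          exact mul_le_mul_of_nonneg_right (h5 t y ht.1 ht.2 hys) (hP0 1 t)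
      _ ≤ E1 := by
          have h11 := intervalIntegral.integral_add_adjacent_intervals
            ((hec 1).intervalIntegrable (μ := volume) 0 y) ((hec 1).intervalIntegrable y s)
          have h12 : 0 ≤ ∫ t in y..s, (g (U t) + ω) * P 1 t :=
            intervalIntegral.integral_nonneg hys fun t _ => he0 1 t
          rw [hE1]
          linarith
  have hpt2 : ∀ y, s ≤ y → y ≤ 1 → g (U y) * |(1 - y) - (p y - δ)| ≤ E2 := by
    intro y hsy hy1
    have h7 := hH y 1 (-1)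
    have h8 : ((1:ℝ) - (-1) * p 1) - (y - (-1) * p y) = (1 - y) - (p y - δ) := by
      rw [hp_1]
      ring
    rw [h8] at h7
    rw [← h7]
    have h9 := intervalIntegral.abs_integral_le_integral_abs (μ := volume)
      (f := fun t => 1 - (-1) * (deriv U t / (2 * p t))) hy1
    have h10 : ∫ t in y..(1:ℝ), |1 - (-1) * (deriv U t / (2 * p t))|
        = ∫ t in y..(1:ℝ), P (-1) t := by
      congr 1
      funext t
      rw [hPt]
    rw [h10] at h9
    calc g (U y) * |∫ t in y..(1:ℝ), (1 - (-1) * (deriv U t / (2 * p t)))|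
        ≤ g (U y) * ∫ t in y..(1:ℝ), P (-1) t := mul_le_mul_of_nonneg_left h9 (hg0 _)
      _ = ∫ t in y..(1:ℝ), g (U y) * P (-1) t := by rw [intervalIntegral.integral_const_mul]
      _ ≤ ∫ t in y..(1:ℝ), (g (U t) + ω) * P (-1) t := by
          refine intervalIntegral.integral_mono_on hy1
            ((continuous_const.mul (hPc (-1))).intervalIntegrable _ _)
            ((hec (-1)).intervalIntegrable _ _) fun t ht => ?_
          exact mul_le_mul_of_nonneg_right (h5' y t hsy ht.1 ht.2) (hP0 (-1) t)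
      _ ≤ E2 := by
          have h11 := intervalIntegral.integral_add_adjacent_intervals
            ((hec (-1)).intervalIntegrable (μ := volume) s y)
            ((hec (-1)).intervalIntegrable y 1)
          have h12 : 0 ≤ ∫ t in s..y, (g (U t) + ω) * P (-1) t :=
            intervalIntegral.integral_nonneg hsy fun t _ => he0 (-1) t
          rw [hE2]
          linarith
  have hr1 : ∀ t, Real.sqrt (U t) ≤ 1 := fun t =>
    Real.sqrt_le_one.2 ((hUρ t).trans hρ1)
  have hpoint : ∀ t ∈ Icc (0:ℝ) 1, (min t (1 - t)) ^ 2 * g (U t)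
      ≤ g (U t) * U t + (2 * (E1 + E2) + 2 * δ) := by
    intro t ht
    have hr0 := Real.sqrt_nonneg (U t)
    have hsq : Real.sqrt (U t) ^ 2 = U t := Real.sq_sqrt (hU0 t)
    have hdiff : |(p t - δ) - Real.sqrt (U t)| ≤ δ := by
      rw [abs_le]
      constructor
      · linarith [hpr t]
      · linarith [hpr2 t]
    have hm0 : 0 ≤ min t (1 - t) := le_min ht.1 (by linarith [ht.2])
    rcases le_total t s with hts | hts
    · have h7 : |t - Real.sqrt (U t)| ≤ |t - (p t - δ)| + δ := by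
        have := abs_add_le (t - (p t - δ)) ((p t - δ) - Real.sqrt (U t))
        have e : t - (p t - δ) + ((p t - δ) - Real.sqrt (U t)) = t - Real.sqrt (U t) := by ring
        rw [e] at this
        linarith
      have h8 := CORE_fin hm0 (min_le_left _ _) ht.2 hr0 (hr1 t) (hg0 (U t)) (hg1 (U t)) hδ.le h7
        (hpt1 t ht.1 hts)
      rw [hsq] at h8
      linarith
    · have h7 : |(1 - t) - Real.sqrt (U t)| ≤ |(1 - t) - (p t - δ)| + δ := by
        have := abs_add_le ((1 - t) - (p t - δ)) ((p t - δ) - Real.sqrt (U t))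
        have e : (1 - t) - (p t - δ) + ((p t - δ) - Real.sqrt (U t))
            = (1 - t) - Real.sqrt (U t) := by ring
        rw [e] at this
        linarith
      have h8 := CORE_fin hm0 (min_le_right _ _) (by linarith [ht.1]) hr0 (hr1 t) (hg0 (U t))
        (hg1 (U t)) hδ.le h7 (hpt2 t hts ht.2)
      rw [hsq] at h8
      linarith
  have hqU : ∫ t in (0:ℝ)..1, g (U t) * U t ≤ (∫ u in (0:ℝ)..(U s), g u * Real.sqrt u)
      + 3 / 2 * ε := by
    have h7 : ∫ t in (0:ℝ)..1, g (U t) * U t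
        ≤ ∫ t in (0:ℝ)..1, (1 / 2 * (g (U t) * Real.sqrt (U t) * |deriv U t|)
          + g (U t) * |(1 / 2) * |deriv U t| - Real.sqrt (U t)|) := by
      refine intervalIntegral.integral_mono_on zero_le_one
        ((hqc.mul hUc).intervalIntegrable _ _)
        (((continuous_const.mul ((hqc.mul hrc).mul hDc)).add hwc).intervalIntegrable _ _)
        fun t _ => ?_
      have hr0 := Real.sqrt_nonneg (U t)
      have hsq : Real.sqrt (U t) ^ 2 = U t := Real.sq_sqrt (hU0 t)
      have h8 := CORE_rD (D := |deriv U t|) hr0 (hr1 t) rfl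
      rw [hsq] at h8
      have h9 := mul_le_mul_of_nonneg_left h8 (hg0 (U t))
      refine h9.trans (le_of_eq ?_)
      ring
    have hqrD : Continuous fun t => 1 / 2 * (g (U t) * Real.sqrt (U t) * |deriv U t|) :=
      continuous_const.mul ((hqc.mul hrc).mul hDc)
    rw [intervalIntegral.integral_add (hqrD.intervalIntegrable _ _)
      (hwc.intervalIntegrable _ _), intervalIntegral.integral_const_mul] at h7
    rw [hw01] at h1
    linarith
  have hρs : ∫ u in (0:ℝ)..(U s), g u * Real.sqrt u ≤ ∫ u in (0:ℝ)..ρ, g u * Real.sqrt u := by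
    have hc : Continuous fun u : ℝ => g u * Real.sqrt u := hg.mul Real.continuous_sqrt
    have h7 := intervalIntegral.integral_add_adjacent_intervals
      (hc.intervalIntegrable (μ := volume) 0 (U s)) (hc.intervalIntegrable (U s) ρ)
    have h8 : 0 ≤ ∫ u in (U s)..ρ, g u * Real.sqrt u :=
      intervalIntegral.integral_nonneg (hUρ s) fun u _ =>
        mul_nonneg (hg0 u) (Real.sqrt_nonneg u)
    linarith
  have hint : ∫ t in (0:ℝ)..1, (min t (1 - t)) ^ 2 * g (U t)
      ≤ (∫ t in (0:ℝ)..1, g (U t) * U t) + (2 * (E1 + E2) + 2 * δ) := by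
    have hmc : Continuous fun t : ℝ => (min t (1 - t)) ^ 2 * g (U t) :=
      ((continuous_id.min (continuous_const.sub continuous_id)).pow 2).mul hqc
    have hqU' : Continuous fun t => g (U t) * U t := hqc.mul hUc
    have hcst : Continuous fun _ : ℝ => 2 * (E1 + E2) + 2 * δ := continuous_const
    have h7 : ∫ t in (0:ℝ)..1, (min t (1 - t)) ^ 2 * g (U t)
        ≤ ∫ t in (0:ℝ)..1, (g (U t) * U t + (2 * (E1 + E2) + 2 * δ)) :=
      intervalIntegral.integral_mono_on (μ := volume) zero_le_one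
        (hmc.intervalIntegrable _ _)
        ((hqU'.add hcst).intervalIntegrable _ _) hpoint
    rw [intervalIntegral.integral_add (hqU'.intervalIntegrable _ _)
      (hcst.intervalIntegrable _ _), intervalIntegral.integral_const] at h7
    simpa using h7
  -- numbers
  have hK0 : 0 ≤ K := by
    refine le_trans ?_ h6
    exact intervalIntegral.integral_nonneg zero_le_one fun t _ => abs_nonneg _
  have hfinal := CORE_num hε hω hδ hδ1 hK0 hEsum
  linarith

end Vale.Agent.P232
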