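import Vale.Agent.P232U.Defs
import Vale.Agent.P232.ArcVar
import Vale.Agent.P232U.Core

/-!
# P232U, module BALL1: the one-dimensional ball problem
-/

open MeasureTheory Set Filter Topology

namespace Vale.Agent.P232

theorem b1_shift {F : ℝ → ℝ} (hF : Function.Periodic F 1) (m : ℝ) :
    ∫ t in (0:ℝ)..1, F (t + m) = ∫ t in (0:ℝ)..1, F t := by
  rw [intervalIntegral.integral_comp_add_right]
  have := hF.intervalIntegral_add_eq m 0
  rw [zero_add] at this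
  rw [← this, zero_add, add_comm 1 m]

theorem b1_der3 {u : ℝ} (hu : 0 < u) :
    HasDerivAt (fun u => (Real.sqrt u) ^ 3) (3 / 2 * Real.sqrt u) u := by
  have h := (Real.hasDerivAt_sqrt hu.ne').pow 3
  have hs : Real.sqrt u ≠ 0 := (Real.sqrt_pos.2 hu).ne'
  refine HasDerivAt.congr_deriv h ?_
  field_simp
  norm_num
  ring

theorem b1_der5 {u : ℝ} (hu : 0 < u) :
    HasDerivAt (fun u => (Real.sqrt u) ^ 5) (5 / 2 * (Real.sqrt u) ^ 3) u := by
  have h := (Real.hasDerivAt_sqrt hu.ne').pow 5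
  have hs : Real.sqrt u ≠ 0 := (Real.sqrt_pos.2 hu).ne'
  refine HasDerivAt.congr_deriv h ?_
  field_simp
  norm_num
  ring

theorem b1_int_sqrt {T : ℝ} (hT : 0 ≤ T) :
    ∫ u in (0:ℝ)..T, Real.sqrt u = 2 / 3 * (Real.sqrt T) ^ 3 := by
  have h := intervalIntegral.integral_eq_sub_of_hasDerivAt_of_le hT
    (f := fun u => 2 / 3 * (Real.sqrt u) ^ 3) (f' := fun u => Real.sqrt u)
    (by fun_prop) (fun u hu => by
      have := (b1_der3 hu.1).const_mul (2 / 3)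
      refine HasDerivAt.congr_deriv this ?_
      ring) (Real.continuous_sqrt.intervalIntegrable _ _)
  rw [h]
  simp

theorem b1_int_div {x T : ℝ} (hT : 0 ≤ T) (hTx : T ≤ x ^ 2) :
    ∫ u in (0:ℝ)..T, Real.pi * (x ^ 2 - u) / Real.sqrt u =
      Real.pi * (2 * x ^ 2 * Real.sqrt T - 2 / 3 * (Real.sqrt T) ^ 3) := by
  have hcont : ContinuousOn (fun u => Real.pi * (2 * x ^ 2 * Real.sqrt u - 2 / 3 * (Real.sqrt u) ^ 3))
      (Set.Icc 0 T) := by fun_prop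
  have hder : ∀ u ∈ Set.Ioo 0 T, HasDerivAt
      (fun u => Real.pi * (2 * x ^ 2 * Real.sqrt u - 2 / 3 * (Real.sqrt u) ^ 3))
      (Real.pi * (x ^ 2 - u) / Real.sqrt u) u := by
    intro u hu
    have h1 := ((Real.hasDerivAt_sqrt hu.1.ne').const_mul (2 * x ^ 2)).sub
      ((b1_der3 hu.1).const_mul (2 / 3))
    have h2 := h1.const_mul Real.pi
    refine HasDerivAt.congr_deriv h2 ?_
    have hs : Real.sqrt u ≠ 0 := (Real.sqrt_pos.2 hu.1).ne'
    have hss : Real.sqrt u ^ 2 = u := Real.sq_sqrt hu.1.le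
    field_simp
    rw [hss]
  have hint : IntervalIntegrable (fun u => Real.pi * (x ^ 2 - u) / Real.sqrt u) volume 0 T := by
    rw [intervalIntegrable_iff_integrableOn_Ioc_of_le hT]
    refine intervalIntegral.integrableOn_deriv_of_nonneg hcont hder fun u hu => ?_
    have : 0 ≤ x ^ 2 - u := by linarith [hu.2]
    positivity
  have h := intervalIntegral.integral_eq_sub_of_hasDerivAt_of_le hT hcont hder hint
  rw [h]
  simp

theorem b1_int_mul {x T : ℝ} (hT : 0 ≤ T) :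
    ∫ u in (0:ℝ)..T, Real.pi * (x ^ 2 - u) * Real.sqrt u =
      Real.pi * (2 / 3 * x ^ 2 * (Real.sqrt T) ^ 3 - 2 / 5 * (Real.sqrt T) ^ 5) := by
  have hcont : ContinuousOn
      (fun u => Real.pi * (2 / 3 * x ^ 2 * (Real.sqrt u) ^ 3 - 2 / 5 * (Real.sqrt u) ^ 5))
      (Set.Icc 0 T) := by fun_prop
  have hder : ∀ u ∈ Set.Ioo 0 T, HasDerivAt
      (fun u => Real.pi * (2 / 3 * x ^ 2 * (Real.sqrt u) ^ 3 - 2 / 5 * (Real.sqrt u) ^ 5))
      (Real.pi * (x ^ 2 - u) * Real.sqrt u) u := by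
    intro u hu
    have h1 := ((b1_der3 hu.1).const_mul (2 / 3 * x ^ 2)).sub
      ((b1_der5 hu.1).const_mul (2 / 5))
    have h2 := h1.const_mul Real.pi
    refine HasDerivAt.congr_deriv h2 ?_
    have hss : Real.sqrt u ^ 2 = u := Real.sq_sqrt hu.1.le
    have h3 : Real.sqrt u ^ 3 = u * Real.sqrt u := by rw [pow_succ, hss]
    rw [h3]
    ring
  have hint : IntervalIntegrable (fun u => Real.pi * (x ^ 2 - u) * Real.sqrt u) volume 0 T :=
    Continuous.intervalIntegrable (by fun_prop) _ _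
  have h := intervalIntegral.integral_eq_sub_of_hasDerivAt_of_le hT hcont hder hint
  rw [h]
  simp

/-- the `√`-variation between two points -/
theorem b1_ftc {W : ℝ → ℝ} (hW : ContDiff ℝ 1 W) (hW0 : ∀ t, 0 ≤ W t) (u v : ℝ) :
    ∫ z in u..v, Real.sqrt (W z) * deriv W z =
      2 / 3 * (Real.sqrt (W v)) ^ 3 - 2 / 3 * (Real.sqrt (W u)) ^ 3 := by
  have hd : ∀ x, HasDerivAt W (deriv W x) x := fun x =>
    (hW.differentiable (by norm_num) x).hasDerivAt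
  have hdc : Continuous (deriv W) := hW.continuous_deriv le_rfl
  have h1 : ∫ z in u..v, Real.sqrt (W z) * deriv W z = ∫ x in (W u)..(W v), Real.sqrt x :=
    intervalIntegral.integral_comp_mul_deriv (fun x _ => hd x) hdc.continuousOn
      Real.continuous_sqrt
  have h2 : (∫ x in (0:ℝ)..(W u), Real.sqrt x) + ∫ x in (W u)..(W v), Real.sqrt x =
      ∫ x in (0:ℝ)..(W v), Real.sqrt x :=
    intervalIntegral.integral_add_adjacent_intervals
      (Real.continuous_sqrt.intervalIntegrable _ _) (Real.continuous_sqrt.intervalIntegrable _ _)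
  rw [b1_int_sqrt (hW0 u), b1_int_sqrt (hW0 v)] at h2
  rw [h1]
  linarith

/-- lower bound for the absolute variation on an interval, increasing direction -/
theorem b1_up {W : ℝ → ℝ} (hW : ContDiff ℝ 1 W) (hW0 : ∀ t, 0 ≤ W t) {u v : ℝ} (huv : u ≤ v) :
    2 / 3 * (Real.sqrt (W v)) ^ 3 - 2 / 3 * (Real.sqrt (W u)) ^ 3 ≤
      ∫ z in u..v, Real.sqrt (W z) * |deriv W z| := by
  have hdc : Continuous (deriv W) := hW.continuous_deriv le_rfl
  have hWc := hW.continuous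
  rw [← b1_ftc hW hW0]
  refine intervalIntegral.integral_mono_on huv
    (Continuous.intervalIntegrable (by fun_prop) _ _)
    (Continuous.intervalIntegrable (by fun_prop) _ _) fun z _ => ?_
  exact mul_le_mul_of_nonneg_left (le_abs_self _) (Real.sqrt_nonneg _)

theorem b1_down {W : ℝ → ℝ} (hW : ContDiff ℝ 1 W) (hW0 : ∀ t, 0 ≤ W t) {u v : ℝ} (huv : u ≤ v) :
    2 / 3 * (Real.sqrt (W u)) ^ 3 - 2 / 3 * (Real.sqrt (W v)) ^ 3 ≤
      ∫ z in u..v, Real.sqrt (W z) * |deriv W z| := by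
  have hdc : Continuous (deriv W) := hW.continuous_deriv le_rfl
  have hWc := hW.continuous
  have h := b1_ftc hW hW0 u v
  have h2 : ∫ z in u..v, -(Real.sqrt (W z) * deriv W z) ≤
      ∫ z in u..v, Real.sqrt (W z) * |deriv W z| := by
    refine intervalIntegral.integral_mono_on huv
      (Continuous.intervalIntegrable (by fun_prop) _ _)
      (Continuous.intervalIntegrable (by fun_prop) _ _) fun z _ => ?_
    rw [← mul_neg]
    exact mul_le_mul_of_nonneg_left (neg_le_abs _) (Real.sqrt_nonneg _)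
  rw [intervalIntegral.integral_neg, h] at h2
  linarith

theorem b1_split {F : ℝ → ℝ} (hF : Continuous F) (a b c : ℝ) :
    (∫ z in a..b, F z) + ∫ z in b..c, F z = ∫ z in a..c, F z :=
  intervalIntegral.integral_add_adjacent_intervals (hF.intervalIntegrable _ _)
    (hF.intervalIntegrable _ _)

/-- algebra: small difference of cubes -/
theorem b1_cube {v w ε D : ℝ} (hv : 0 ≤ v) (hw : 0 ≤ w)
    (h : 2 / 3 * v ^ 3 - 2 / 3 * w ^ 3 ≤ 3 / 2 * ε) (hD : 0 ≤ D) (hDε : 9 * ε ^ 2 ≤ D ^ 3) :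
    v ^ 2 ≤ w ^ 2 + D := by
  by_contra hcon
  push Not at hcon
  have hvw : w < v := by nlinarith
  have h1 : 3 / 4 * (v ^ 2 - w ^ 2) * (v + w) ≤ v ^ 3 - w ^ 3 := by nlinarith [mul_nonneg (sub_nonneg.2 hvw.le) (sq_nonneg (v - w))]
  have h2 : 3 / 4 * (v ^ 2 - w ^ 2) * (v + w) ≤ 9 / 4 * ε := by linarith
  have h3 : (v ^ 2 - w ^ 2) * (v + w) ≤ 3 * ε := by linarith
  have hpos : 0 < v ^ 2 - w ^ 2 := by linarith
  have h4 : 0 ≤ (v ^ 2 - w ^ 2) * (v + w) := by positivity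
  have h5 : ((v ^ 2 - w ^ 2) * (v + w)) ^ 2 ≤ (3 * ε) ^ 2 := pow_le_pow_left₀ h4 h3 2
  have h6 : (v ^ 2 - w ^ 2) ^ 3 ≤ ((v ^ 2 - w ^ 2) * (v + w)) ^ 2 := by
    have : v ^ 2 - w ^ 2 ≤ (v + w) ^ 2 := by nlinarith
    calc (v ^ 2 - w ^ 2) ^ 3 = (v ^ 2 - w ^ 2) ^ 2 * (v ^ 2 - w ^ 2) := by ring
      _ ≤ (v ^ 2 - w ^ 2) ^ 2 * (v + w) ^ 2 := by gcongr
      _ = _ := by ring
  have h7 : D ^ 3 < (v ^ 2 - w ^ 2) ^ 3 := by
    apply pow_lt_pow_left₀ (by linarith) hD (by norm_num)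
  nlinarith


theorem b1_cs {C S A B N x : ℝ} (hC : 0 ≤ C) (hS : 0 ≤ S) (hA : 0 ≤ A) (hB : 0 ≤ B)
    (hN : 0 ≤ N) (hx : 0 ≤ x) (hCS : C ^ 2 + S ^ 2 = x ^ 2) (hAB : A ^ 2 + B ^ 2 = N ^ 2) :
    C * A + S * B ≤ x * N := by
  have h1 : (C * A + S * B) ^ 2 ≤ (x * N) ^ 2 := by
    rw [mul_pow, ← hCS, ← hAB]
    nlinarith [sq_nonneg (C * B - S * A)]
  exact (sq_le_sq₀ (by positivity) (by positivity)).1 h1

theorem b1_dual {C S A B N x τ : ℝ} (hC : 0 ≤ C) (hS : 0 ≤ S) (hA : 0 ≤ A) (hB : 0 ≤ B)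
    (hN : 0 ≤ N) (hx : 0 ≤ x) (hCS : C ^ 2 + S ^ 2 = x ^ 2) (hAB : A ^ 2 + B ^ 2 = N ^ 2)
    (hτ : 0 < τ) :
    |C * B - S * A| ≤ τ * (x * N) + (x * N - (C * A + S * B)) / (2 * τ) := by
  have h1 := b1_cs hC hS hA hB hN hx hCS hAB
  set P := C * A + S * B with hP
  have hP0 : 0 ≤ P := by positivity
  have hxN : 0 ≤ x * N := by positivity
  have hL : 0 ≤ x * N - P := by linarith
  have h2 : (C * B - S * A) ^ 2 = (x * N - P) * (x * N + P) := by
    have : (x * N - P) * (x * N + P) = (x * N) ^ 2 - P ^ 2 := by ring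
    rw [this, mul_pow, ← hCS, ← hAB, hP]
    ring
  have hr0 : 0 ≤ τ * (x * N) + (x * N - P) / (2 * τ) := by positivity
  refine abs_le_of_sq_le_sq ?_ hr0
  rw [h2]
  have h3 : (τ * (x * N) + (x * N - P) / (2 * τ)) ^ 2 =
      (τ * (x * N) - (x * N - P) / (2 * τ)) ^ 2 + 2 * (x * N) * (x * N - P) := by
    field_simp
    ring
  rw [h3]
  nlinarith [sq_nonneg (τ * (x * N) - (x * N - P) / (2 * τ))]

theorem b1_poly {x y : ℝ} (hx : 0 ≤ x) (hy : 0 ≤ y) :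
    x ^ 3 - 3 / 2 * x * (x ^ 2 - y ^ 2) ≤ y ^ 3 := by
  nlinarith [mul_nonneg (sq_nonneg (x - y)) (by positivity : 0 ≤ x / 2 + y)]


/-- the algebra of the losses -/
theorem b1_num {IN Ie Iq ICA Z x y R ε : ℝ} (hR : 0 < R) (hR2 : R ^ 2 < 1 / 4) (hx : 0 < x)
    (hxle : x ≤ 1) (hε0 : 0 ≤ ε) (hε1 : ε ≤ 1 / 4) (hy0 : 0 ≤ y)
    (hr1 : ICA + Real.pi / 2 * Z ≤ x * IN) (hr2 : Iq ≤ ICA + x * Ie) (hr3 : 4 / 3 * y ^ 3 ≤ Z)
    (hJ : IN ≤ 2 * Real.pi * R ^ 2 + ε) (hei : Ie ≤ ε)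
    (hVk : |Iq - 4 / 3 * Real.pi * R ^ 3| ≤ ε) (hy3 : Real.pi * (x ^ 2 - y ^ 2) ≤ ε) :
    (x - R) ^ 2 * R ≤ ε ∧ Z ≤ 4 / 3 * y ^ 3 + 3 * ε ∧
      x * IN - (ICA + Real.pi / 2 * Z) ≤ 4 * ε ∧ ICA + x * Ie - Iq ≤ 4 * ε ∧ IN ≤ 2 := by
  have hπ := Real.pi_pos
  have hπ3 := Real.pi_gt_three
  have hπ4 : Real.pi < 3.15 := Real.pi_lt_d2
  have hpoly := b1_poly hx.le hy0
  have hlow : 2 / 3 * Real.pi * x ^ 3 - x * ε ≤ 2 / 3 * Real.pi * y ^ 3 := by
    have h1 : 2 / 3 * Real.pi * (x ^ 3 - 3 / 2 * x * (x ^ 2 - y ^ 2)) ≤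
        2 / 3 * Real.pi * y ^ 3 := by gcongr
    have h2 : x * (Real.pi * (x ^ 2 - y ^ 2)) ≤ x * ε := by gcongr
    linarith
  have hVk' := abs_le.1 hVk
  have hxIN : x * IN ≤ x * (2 * Real.pi * R ^ 2 + ε) := by gcongr
  have hxIe : x * Ie ≤ x * ε := by gcongr
  have hxε : x * ε ≤ ε := mul_le_of_le_one_left hε0 hxle
  have htot : x * IN + x * Ie - Iq - 2 / 3 * Real.pi * y ^ 3 ≤
      -(2 / 3 * Real.pi * (x ^ 3 - 3 * R ^ 2 * x + 2 * R ^ 3)) + 4 * ε := by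
    linarith
  have hamgm : 0 ≤ x ^ 3 - 3 * R ^ 2 * x + 2 * R ^ 3 := by
    have : x ^ 3 - 3 * R ^ 2 * x + 2 * R ^ 3 = (x - R) ^ 2 * (x + 2 * R) := by ring
    rw [this]; positivity
  have hamgm' : 0 ≤ 2 / 3 * Real.pi * (x ^ 3 - 3 * R ^ 2 * x + 2 * R ^ 3) := by positivity
  have hZ' : Real.pi / 2 * (4 / 3 * y ^ 3) ≤ Real.pi / 2 * Z := by gcongr
  have hIN2 : IN ≤ 2 := by
    have : Real.pi * R ^ 2 ≤ 3.15 * (1 / 4) := by gcongr
    norm_num at this
    linarith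
  refine ⟨?_, ?_, ?_, ?_, hIN2⟩
  · have h1 : 0 ≤ x * IN + x * Ie - Iq - 2 / 3 * Real.pi * y ^ 3 := by linarith
    have h2 : 2 / 3 * Real.pi * (x ^ 3 - 3 * R ^ 2 * x + 2 * R ^ 3) ≤ 4 * ε := by linarith
    have h3 : x ^ 3 - 3 * R ^ 2 * x + 2 * R ^ 3 = (x - R) ^ 2 * (x + 2 * R) := by ring
    rw [h3] at h2
    have h4 : 0 ≤ (x - R) ^ 2 * R := by positivity
    have h5 : 0 ≤ Real.pi * ((x - R) ^ 2 * x) := by positivity
    have h6 : 0 ≤ (Real.pi - 3) * ((x - R) ^ 2 * R) := mul_nonneg (sub_nonneg.2 hπ3.le) h4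
    have h7 : Real.pi * ((x - R) ^ 2 * (x + 2 * R)) =
      Real.pi * ((x - R) ^ 2 * x) + 2 * ((Real.pi - 3) * ((x - R) ^ 2 * R)) +
        6 * ((x - R) ^ 2 * R) := by ring
    have h8 : 2 / 3 * Real.pi * ((x - R) ^ 2 * (x + 2 * R)) =
      2 / 3 * (Real.pi * ((x - R) ^ 2 * (x + 2 * R))) := by ring
    rw [h8, h7] at h2
    linarith
  · have h1 : Real.pi / 2 * (Z - 4 / 3 * y ^ 3) ≤ 4 * ε := by linarith
    have h2 : 0 ≤ Z - 4 / 3 * y ^ 3 := by linarith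
    have h3 : 3 / 2 * (Z - 4 / 3 * y ^ 3) ≤ Real.pi / 2 * (Z - 4 / 3 * y ^ 3) := by gcongr
    linarith
  · linarith
  · linarith

/-- the pointwise estimate -/
theorem b1_point {q C S A B N e x τ : ℝ} (hC : 0 ≤ C) (hS : 0 ≤ S) (hA : 0 ≤ A) (hB : 0 ≤ B)
    (hN : 0 ≤ N) (hx : 0 ≤ x) (hxle : x ≤ 1) (he : 0 ≤ e) (hCS : C ^ 2 + S ^ 2 = x ^ 2)
    (hAB : A ^ 2 + B ^ 2 = N ^ 2) (hCx : C ≤ x) (hSx : S ≤ x) (hp2 : q ≤ C * A + x * e)
    (hτ : 0 < τ) :
    |C ^ 2 * B - S * q| ≤ (τ * (x * N) + (x * N - (C * A + S * B)) / (2 * τ)) +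
          ((C * A + x * e - q) + x * e) := by
  have hd := b1_dual hC hS hA hB hN hx hCS hAB hτ
  have h2 : C ^ 2 * B - S * q = C * (C * B - S * A) + S * (C * A - q) := by ring
  have h3 : |C ^ 2 * B - S * q| ≤ C * |C * B - S * A| + S * |C * A - q| := by
    rw [h2]
    refine (abs_add_le _ _).trans ?_
    rw [abs_mul, abs_mul, abs_of_nonneg hC, abs_of_nonneg hS]
  have h4 : C * |C * B - S * A| ≤ |C * B - S * A| :=
    mul_le_of_le_one_left (abs_nonneg _) (hCx.trans hxle)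
  have h5 : S * |C * A - q| ≤ |C * A - q| :=
    mul_le_of_le_one_left (abs_nonneg _) (hSx.trans hxle)
  have h6 : |C * A - q| ≤ (C * A + x * e - q) + x * e := by
    have h8 : 0 ≤ x * e := mul_nonneg hx he
    rw [abs_le]
    constructor <;> linarith
  linarith

/-- the losses in the one-dimensional inequality -/
theorem b1_main {q A e U : ℝ → ℝ} {R x ε : ℝ} (hR : 0 < R) (hR1 : R < 1 / 2) (hx : 0 < x)
    (hε0 : 0 ≤ ε) (hε1 : ε ≤ 1 / 4)
    (hq : ContDiff ℝ 1 q) (hper : ∀ t, q (t + 1) = q t)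
    (hq0 : ∀ t, 0 ≤ q t) (hqx : ∀ t, q t ≤ Real.pi * x ^ 2) (hx1 : Real.pi * x ^ 2 ≤ 1)
    (hA : Continuous A) (hA0 : ∀ t, 0 ≤ A t)
    (he : Continuous e) (he0 : ∀ t, 0 ≤ e t) (hei : ∫ t in (0:ℝ)..1, e t ≤ ε)
    (hJ : ∫ t in (0:ℝ)..1, Real.sqrt (A t ^ 2 + (deriv q t / 2) ^ 2) ≤ 2 * Real.pi * R ^ 2 + ε)
    (hiso : ∀ t, Real.sqrt (Real.pi * q t) ≤ A t + e t)
    (hVk : |(∫ t in (0:ℝ)..1, q t) - 4 / 3 * Real.pi * R ^ 3| ≤ ε)
    {m s : ℝ} (hm : q m = Real.pi * x ^ 2) (hs : q s ≤ ε)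
    (hU : ∀ t, U t = x ^ 2 - q t / Real.pi) :
    (x - R) ^ 2 * R ≤ ε ∧
    (∫ t in (0:ℝ)..1, Real.sqrt (U t) * |deriv U t|) ≤ 4 / 3 * (Real.sqrt (U s)) ^ 3 + 3 * ε ∧
    (∀ τ > 0, ∫ t in (0:ℝ)..1, q t * |(1 / 2) * |deriv U t| - Real.sqrt (U t)| ≤
      2 * τ + 2 * ε / τ + 5 * ε) ∧
    ∫ t in (0:ℝ)..1, |deriv U t| ≤ 2 := by
  have hπ := Real.pi_pos
  have hπ3 := Real.pi_gt_three
  have hπ4 := Real.pi_lt_four
  have hUe : U = fun t => x ^ 2 - q t / Real.pi := funext hU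
  have hqc : Continuous q := hq.continuous
  have hdqc : Continuous (deriv q) := hq.continuous_deriv le_rfl
  have hUd : ContDiff ℝ 1 U := by
    rw [hUe]
    exact contDiff_const.sub (hq.div_const _)
  have hUc : Continuous U := hUd.continuous
  have hdUc : Continuous (deriv U) := hUd.continuous_deriv le_rfl
  have hdU : ∀ t, deriv U t = -(deriv q t / Real.pi) := by
    intro t
    have h1 : HasDerivAt q (deriv q t) t := (hq.differentiable (by norm_num) t).hasDerivAt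
    rw [hUe]
    exact ((h1.div_const Real.pi).const_sub (x ^ 2)).deriv
  have hUper : ∀ t, U (t + 1) = U t := fun t => by rw [hU, hU, hper]
  have hU0 : ∀ t, 0 ≤ U t := by
    intro t
    rw [hU, sub_nonneg, div_le_iff₀ hπ]
    linarith [hqx t]
  have hUx : ∀ t, U t ≤ x ^ 2 := by
    intro t
    rw [hU]
    have := div_nonneg (hq0 t) hπ.le
    linarith
  have hx2 : x ^ 2 ≤ 1 / 3 := by nlinarith
  have hxle : x ≤ 1 := by nlinarith
  have hR2 : R ^ 2 < 1 / 4 := by nlinarith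
  -- the functions
  set C : ℝ → ℝ := fun t => Real.sqrt (q t / Real.pi) with hC
  set S : ℝ → ℝ := fun t => Real.sqrt (U t) with hS
  set B : ℝ → ℝ := fun t => |deriv q t| / 2 with hB
  set N : ℝ → ℝ := fun t => Real.sqrt (A t ^ 2 + (deriv q t / 2) ^ 2) with hN
  have hCc : Continuous C := by rw [hC]; fun_prop
  have hSc : Continuous S := by rw [hS]; fun_prop
  have hBc : Continuous B := by rw [hB]; fun_prop
  have hNc : Continuous N := by rw [hN]; fun_prop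
  have hC0 : ∀ t, 0 ≤ C t := fun t => Real.sqrt_nonneg _
  have hS0 : ∀ t, 0 ≤ S t := fun t => Real.sqrt_nonneg _
  have hN0 : ∀ t, 0 ≤ N t := fun t => Real.sqrt_nonneg _
  have hB0 : ∀ t, 0 ≤ B t := fun t => by simp only [hB]; positivity
  have hC2 : ∀ t, C t ^ 2 = q t / Real.pi := fun t => Real.sq_sqrt (div_nonneg (hq0 t) hπ.le)
  have hS2 : ∀ t, S t ^ 2 = U t := fun t => Real.sq_sqrt (hU0 t)
  have hCS : ∀ t, C t ^ 2 + S t ^ 2 = x ^ 2 := fun t => by rw [hC2, hS2, hU]; ring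
  have hAB : ∀ t, A t ^ 2 + B t ^ 2 = N t ^ 2 := fun t => by
    simp only [hB, hN]
    rw [Real.sq_sqrt (by positivity), div_pow, sq_abs, div_pow]
  have hCx : ∀ t, C t ≤ x := fun t => by
    have : C t ^ 2 ≤ x ^ 2 := by nlinarith [hCS t, sq_nonneg (S t)]
    exact (sq_le_sq₀ (hC0 t) hx.le).1 this
  have hSx : ∀ t, S t ≤ x := fun t => by
    have : S t ^ 2 ≤ x ^ 2 := by nlinarith [hCS t, sq_nonneg (C t)]
    exact (sq_le_sq₀ (hS0 t) hx.le).1 this
  have hp1 : ∀ t, C t * A t + S t * B t ≤ x * N t := fun t =>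
    b1_cs (hC0 t) (hS0 t) (hA0 t) (hB0 t) (hN0 t) hx.le (hCS t) (hAB t)
  have hp2 : ∀ t, q t ≤ C t * A t + x * e t := by
    intro t
    have h1 : C t * Real.sqrt (Real.pi * q t) = q t := by
      simp only [hC]
      rw [← Real.sqrt_mul (div_nonneg (hq0 t) hπ.le)]
      have : q t / Real.pi * (Real.pi * q t) = q t ^ 2 := by field_simp
      rw [this, Real.sqrt_sq (hq0 t)]
    have h2 : C t * Real.sqrt (Real.pi * q t) ≤ C t * (A t + e t) :=
      mul_le_mul_of_nonneg_left (hiso t) (hC0 t)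
    have h3 : C t * e t ≤ x * e t := mul_le_mul_of_nonneg_right (hCx t) (he0 t)
    nlinarith
  have hSB : ∀ t, S t * B t = Real.pi / 2 * (Real.sqrt (U t) * |deriv U t|) := by
    intro t
    simp only [hS, hB]
    rw [hdU, abs_neg, abs_div, abs_of_pos hπ]
    field_simp
  -- integrals
  set IN := ∫ t in (0:ℝ)..1, N t with hIN
  set Ie := ∫ t in (0:ℝ)..1, e t with hIe
  set Iq := ∫ t in (0:ℝ)..1, q t with hIq
  set ICA := ∫ t in (0:ℝ)..1, C t * A t with hICA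
  set Z := ∫ t in (0:ℝ)..1, Real.sqrt (U t) * |deriv U t| with hZ
  have hgc : Continuous fun t => Real.sqrt (U t) * |deriv U t| := by fun_prop
  have hint : ∀ {F : ℝ → ℝ}, Continuous F → IntervalIntegrable F volume 0 1 := fun h =>
    h.intervalIntegrable _ _
  have hCAc : Continuous fun t => C t * A t := hCc.mul hA
  have hr1 : ICA + Real.pi / 2 * Z ≤ x * IN := by
    rw [hICA, hZ, hIN, ← intervalIntegral.integral_const_mul, ← intervalIntegral.integral_const_mul,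
      ← intervalIntegral.integral_add (hint hCAc) (hint (hgc.const_mul _))]
    refine intervalIntegral.integral_mono_on zero_le_one
      (hint (hCAc.add (hgc.const_mul _))) (hint (hNc.const_mul _)) fun t _ => ?_
    rw [← hSB]
    exact hp1 t
  have hr2 : Iq ≤ ICA + x * Ie := by
    rw [hICA, hIq, hIe, ← intervalIntegral.integral_const_mul,
      ← intervalIntegral.integral_add (hint hCAc) (hint (he.const_mul _))]
    exact intervalIntegral.integral_mono_on zero_le_one (hint hqc)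
      (hint (hCAc.add (he.const_mul _))) fun t _ => hp2 t
  have hUm : U m = 0 := by
    rw [hU, hm]
    field_simp
    ring
  have hr3 : 4 / 3 * (Real.sqrt (U s)) ^ 3 ≤ Z := by
    have := arc_var hUd hUper Real.continuous_sqrt (fun x => Real.sqrt_nonneg x) (z₁ := m)
      (z₂ := s) (by rw [hUm]; exact hU0 s)
    rw [hUm, b1_int_sqrt (hU0 s)] at this
    linarith
  set y := Real.sqrt (U s) with hy
  have hy0 : 0 ≤ y := Real.sqrt_nonneg _
  have hy2 : y ^ 2 = U s := Real.sq_sqrt (hU0 s)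
  have hy3 : Real.pi * (x ^ 2 - y ^ 2) ≤ ε := by
    rw [hy2, hU]
    have : Real.pi * (x ^ 2 - (x ^ 2 - q s / Real.pi)) = q s := by field_simp; ring
    rw [this]
    exact hs
  obtain ⟨hc1, hc2, hl1, hl2, hIN2⟩ := b1_num hR hR2 hx hxle hε0 hε1 hy0 hr1 hr2 hr3 hJ hei hVk hy3
  have hIN0 : 0 ≤ IN := intervalIntegral.integral_nonneg zero_le_one fun t _ => hN0 t
  refine ⟨hc1, hc2, ?_, ?_⟩
  · intro τ hτ
    have hb : ∀ t, q t * |(1 / 2) * |deriv U t| - Real.sqrt (U t)| ≤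
        (τ * (x * N t) + (x * N t - (C t * A t + S t * B t)) / (2 * τ)) +
          ((C t * A t + x * e t - q t) + x * e t) := by
      intro t
      have h1 : q t * |(1 / 2) * |deriv U t| - Real.sqrt (U t)| =
          |C t ^ 2 * B t - S t * q t| := by
        rw [hC2, hdU, abs_neg, abs_div, abs_of_pos hπ]
        have : q t / Real.pi * B t - S t * q t =
            q t * (1 / 2 * (|deriv q t| / Real.pi) - Real.sqrt (U t)) := by
          simp only [hB, hS]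
          field_simp
        rw [this, abs_mul, abs_of_nonneg (hq0 t)]
      rw [h1]
      exact b1_point (hC0 t) (hS0 t) (hA0 t) (hB0 t) (hN0 t) hx.le hxle (he0 t) (hCS t) (hAB t)
        (hCx t) (hSx t) (hp2 t) hτ
    have hi1 : ∫ t in (0:ℝ)..1, ((τ * (x * N t) + (x * N t - (C t * A t + S t * B t)) / (2 * τ)) +
          ((C t * A t + x * e t - q t) + x * e t)) =
        (τ * (x * IN) + (x * IN - (ICA + Real.pi / 2 * Z)) / (2 * τ)) +
          ((ICA + x * Ie - Iq) + x * Ie) := by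
      have hSBi : ∫ t in (0:ℝ)..1, S t * B t = Real.pi / 2 * Z := by
        rw [hZ, ← intervalIntegral.integral_const_mul]
        exact intervalIntegral.integral_congr fun t _ => hSB t
      rw [intervalIntegral.integral_add (hint (by fun_prop)) (hint (by fun_prop)),
        intervalIntegral.integral_add (hint (by fun_prop)) (hint (by fun_prop)),
        intervalIntegral.integral_add (hint (by fun_prop)) (hint (by fun_prop)),
        intervalIntegral.integral_sub (hint (by fun_prop)) (hint (by fun_prop)),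
        intervalIntegral.integral_add (hint (by fun_prop)) (hint (by fun_prop)),
        intervalIntegral.integral_div,
        intervalIntegral.integral_sub (hint (by fun_prop)) (hint (by fun_prop)),
        intervalIntegral.integral_add (hint (by fun_prop)) (hint (by fun_prop)),
        intervalIntegral.integral_const_mul, intervalIntegral.integral_const_mul,
        intervalIntegral.integral_const_mul, hSBi]
    have hi2 : ∫ t in (0:ℝ)..1, q t * |(1 / 2) * |deriv U t| - Real.sqrt (U t)| ≤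
        (τ * (x * IN) + (x * IN - (ICA + Real.pi / 2 * Z)) / (2 * τ)) +
          ((ICA + x * Ie - Iq) + x * Ie) := by
      rw [← hi1]
      refine intervalIntegral.integral_mono_on zero_le_one (hint (by fun_prop))
        (hint (by fun_prop)) fun t _ => hb t
    have hl3 : (x * IN - (ICA + Real.pi / 2 * Z)) / (2 * τ) ≤ 2 * ε / τ := by
      rw [div_le_div_iff₀ (by positivity) hτ]
      have := mul_le_mul_of_nonneg_right hl1 hτ.le
      linarith
    have hl4 : τ * (x * IN) ≤ 2 * τ := by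
      have h1 : x * IN ≤ 1 * 2 := mul_le_mul hxle hIN2 hIN0 zero_le_one
      have h2 := mul_le_mul_of_nonneg_left h1 hτ.le
      linarith
    have hl5 : x * Ie ≤ ε := by
      have h1 : x * Ie ≤ x * ε := by gcongr
      exact h1.trans (mul_le_of_le_one_left hε0 hxle)
    linarith
  · have h1 : ∀ t, |deriv U t| ≤ N t := by
      intro t
      rw [hdU, abs_neg, abs_div, abs_of_pos hπ, div_le_iff₀ hπ]
      have h2 : B t ≤ N t := (sq_le_sq₀ (hB0 t) (hN0 t)).1 (by nlinarith [hAB t, sq_nonneg (A t)])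
      simp only [hB] at h2
      nlinarith [abs_nonneg (deriv q t), hN0 t]
    refine le_trans ?_ hIN2
    exact intervalIntegral.integral_mono_on zero_le_one (hint hdUc.abs) (hint hNc) fun t _ => h1 t

theorem b1_ext {q : ℝ → ℝ} (hqc : Continuous q) (hper : ∀ t, q (t + 1) = q t) (a : ℝ) :
    (∃ m ∈ Set.Icc a (a + 1), ∀ t, q t ≤ q m) ∧ ∃ s ∈ Set.Icc a (a + 1), ∀ t, q s ≤ q t := by
  have hp : Function.Periodic q 1 := hper
  have hne : (Set.Icc a (a + 1)).Nonempty := ⟨a, by simp⟩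
  have hred : ∀ t, ∃ t' ∈ Set.Icc a (a + 1), q t' = q t := by
    intro t
    obtain ⟨y, hy, hyt⟩ := hp.exists_mem_Ico zero_lt_one t a
    exact ⟨y, ⟨hy.1, hy.2.le⟩, hyt.symm⟩
  obtain ⟨m, hm, hmax⟩ := isCompact_Icc.exists_isMaxOn hne hqc.continuousOn
  obtain ⟨s, hs, hmin⟩ := isCompact_Icc.exists_isMinOn hne hqc.continuousOn
  refine ⟨⟨m, hm, fun t => ?_⟩, ⟨s, hs, fun t => ?_⟩⟩
  · obtain ⟨t', ht', e⟩ := hred t
    rw [← e]
    exact hmax ht'
  · obtain ⟨t', ht', e⟩ := hred t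
    rw [← e]
    exact hmin ht'

/-- quantitative unimodality, first part -/
theorem b1_mono {W : ℝ → ℝ} {s ε D : ℝ} (hW : ContDiff ℝ 1 W) (hW0 : ∀ t, 0 ≤ W t)
    (hz : W 0 = 0) (hz1 : W 1 = 0) (hs1 : s ≤ 1)
    (hZ : ∫ t in (0:ℝ)..1, Real.sqrt (W t) * |deriv W t| ≤ 4 / 3 * (Real.sqrt (W s)) ^ 3 + 3 * ε)
    (hD : 0 ≤ D) (hDε : 9 * ε ^ 2 ≤ D ^ 3) :
    ∀ x y, 0 ≤ x → x ≤ y → y ≤ s → W x ≤ W y + D := by
  intro x y hx hxy hys
  have hdc : Continuous (deriv W) := hW.continuous_deriv le_rfl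
  have hWc := hW.continuous
  have hF : Continuous fun t => Real.sqrt (W t) * |deriv W t| := by fun_prop
  have e1 := b1_split hF 0 x y
  have e2 := b1_split hF 0 y s
  have e3 := b1_split hF 0 s 1
  have i1 := b1_up hW hW0 hx
  have i2 := b1_down hW hW0 hxy
  have i3 := b1_up hW hW0 hys
  have i4 := b1_down hW hW0 hs1
  rw [hz, Real.sqrt_zero] at i1
  rw [hz1, Real.sqrt_zero] at i4
  have h := b1_cube (Real.sqrt_nonneg (W x)) (Real.sqrt_nonneg (W y)) (ε := ε) (D := D)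
    (by linarith) hD hDε
  rwa [Real.sq_sqrt (hW0 x), Real.sq_sqrt (hW0 y)] at h

theorem b1_mono' {W : ℝ → ℝ} {s ε D : ℝ} (hW : ContDiff ℝ 1 W) (hW0 : ∀ t, 0 ≤ W t)
    (hz : W 0 = 0) (hz1 : W 1 = 0) (hs0 : 0 ≤ s)
    (hZ : ∫ t in (0:ℝ)..1, Real.sqrt (W t) * |deriv W t| ≤ 4 / 3 * (Real.sqrt (W s)) ^ 3 + 3 * ε)
    (hD : 0 ≤ D) (hDε : 9 * ε ^ 2 ≤ D ^ 3) :
    ∀ x y, s ≤ x → x ≤ y → y ≤ 1 → W y ≤ W x + D := by
  intro x y hx hxy hys
  have hdc : Continuous (deriv W) := hW.continuous_deriv le_rfl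
  have hWc := hW.continuous
  have hF : Continuous fun t => Real.sqrt (W t) * |deriv W t| := by fun_prop
  have e1 := b1_split hF 0 s x
  have e2 := b1_split hF 0 x y
  have e3 := b1_split hF 0 y 1
  have i1 := b1_up hW hW0 hs0
  have i2 := b1_down hW hW0 hx
  have i3 := b1_up hW hW0 hxy
  have i4 := b1_down hW hW0 hys
  rw [hz, Real.sqrt_zero] at i1
  rw [hz1, Real.sqrt_zero] at i4
  have h := b1_cube (Real.sqrt_nonneg (W y)) (Real.sqrt_nonneg (W x)) (ε := ε) (D := D)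
    (by linarith) hD hDε
  rwa [Real.sq_sqrt (hW0 x), Real.sq_sqrt (hW0 y)] at h

/-- the profile of the ball -/
noncomputable def b1g (x u : ℝ) : ℝ := Real.pi * max (x ^ 2 - max u 0) 0

theorem b1g_cont (x : ℝ) : Continuous (b1g x) := by
  unfold b1g
  fun_prop

theorem b1g_nonneg (x u : ℝ) : 0 ≤ b1g x u :=
  mul_nonneg Real.pi_pos.le (le_max_right _ _)

theorem b1g_le (x u : ℝ) : b1g x u ≤ Real.pi * x ^ 2 := by
  unfold b1g
  refine mul_le_mul_of_nonneg_left (max_le ?_ (sq_nonneg x)) Real.pi_pos.le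
  linarith [le_max_right u 0]

theorem b1g_eq {x u : ℝ} (h0 : 0 ≤ u) (h1 : u ≤ x ^ 2) : b1g x u = Real.pi * (x ^ 2 - u) := by
  unfold b1g
  rw [max_eq_left h0, max_eq_left (by linarith)]

theorem b1g_div {x T : ℝ} (hT : 0 ≤ T) (hTx : T ≤ x ^ 2) :
    ∫ u in (0:ℝ)..T, b1g x u / Real.sqrt u =
      Real.pi * (2 * x ^ 2 * Real.sqrt T - 2 / 3 * (Real.sqrt T) ^ 3) := by
  rw [← b1_int_div hT hTx]
  refine intervalIntegral.integral_congr fun u hu => ?_
  rw [Set.uIcc_of_le hT] at hu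
  rw [b1g_eq hu.1 (hu.2.trans hTx)]

theorem b1g_mul {x T : ℝ} (hT : 0 ≤ T) (hTx : T ≤ x ^ 2) :
    ∫ u in (0:ℝ)..T, b1g x u * Real.sqrt u =
      Real.pi * (2 / 3 * x ^ 2 * (Real.sqrt T) ^ 3 - 2 / 5 * (Real.sqrt T) ^ 5) := by
  rw [← b1_int_mul hT]
  refine intervalIntegral.integral_congr fun u hu => ?_
  rw [Set.uIcc_of_le hT] at hu
  rw [b1g_eq hu.1 (hu.2.trans hTx)]

theorem b1_dist {m : ℝ} {q : ℝ → ℝ} (hqc : Continuous q) (hper : ∀ t, q (t + 1) = q t)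
    (hq0 : ∀ t, 0 ≤ q t) :
    ∫ t in (0:ℝ)..1, distS (t - m) ^ 2 * q t ≤
      ∫ t in (0:ℝ)..1, (min t (1 - t)) ^ 2 * q (t + m) := by
  have hF : Function.Periodic (fun t => distS (t - m) ^ 2 * q t) 1 := by
    intro t
    simp only
    rw [hper, show t + 1 - m = (t - m) + 1 by ring]
    unfold distS
    rw [round_add_one]
    push_cast
    rw [show t - m + 1 - ((round (t - m) : ℝ) + 1) = t - m - (round (t - m) : ℝ) by ring]
  rw [← b1_shift hF m]
  simp only [add_sub_cancel_right]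
  rw [intervalIntegral.integral_of_le zero_le_one, intervalIntegral.integral_of_le zero_le_one]
  have hc : Continuous fun t => (min t (1 - t)) ^ 2 * q (t + m) := by fun_prop
  refine integral_mono_of_nonneg ?_ ?_ ?_
  · exact Eventually.of_forall fun t => mul_nonneg (sq_nonneg _) (hq0 _)
  · exact (hc.integrableOn_Icc (a := 0) (b := 1)).mono_set Ioc_subset_Icc_self
  · refine (ae_restrict_iff' measurableSet_Ioc).2 (Eventually.of_forall fun t ht => ?_)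
    refine mul_le_mul_of_nonneg_right ?_ (hq0 _)
    refine pow_le_pow_left₀ (abs_nonneg _) ?_ 2
    refine le_min ?_ ?_
    · have := round_le t 0
      rw [Int.cast_zero, sub_zero, abs_of_pos ht.1] at this
      exact this
    · have := round_le t 1
      rw [Int.cast_one, abs_sub_comm t 1, abs_of_nonneg (sub_nonneg.2 ht.2)] at this
      exact this


theorem b1_fin {x y R ε κ E : ℝ} (hx : 0 ≤ x) (hx1 : x ≤ 1) (hR : 0 ≤ R) (hR1 : R ≤ 1)
    (hy : 0 ≤ y) (hyx : y ≤ x) (hy3 : Real.pi * (x ^ 2 - y ^ 2) ≤ ε) (hε : 0 ≤ ε)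
    (hκ : |x - R| ≤ κ) (hE : 5 * ε + 13 * κ ≤ E) :
    4 / 3 * Real.pi * R ^ 3 + ε ≤ Real.pi * (2 * x ^ 2 * y - 2 / 3 * y ^ 3) + E := by
  have hπ := Real.pi_pos
  have hπ4 : Real.pi < 3.15 := Real.pi_lt_d2
  have hκ' := abs_le.1 hκ
  have hκ0 : 0 ≤ κ := (abs_nonneg _).trans hκ
  have h1 : R ^ 3 - x ^ 3 ≤ 3 * κ := by
    have e : R ^ 3 - x ^ 3 = (R - x) * (R ^ 2 + R * x + x ^ 2) := by ring
    have h2 : R ^ 2 + R * x + x ^ 2 ≤ 3 := by nlinarith
    have h3 : 0 ≤ R ^ 2 + R * x + x ^ 2 := by positivity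
    calc R ^ 3 - x ^ 3 = (R - x) * (R ^ 2 + R * x + x ^ 2) := e
      _ ≤ κ * (R ^ 2 + R * x + x ^ 2) := by
          refine mul_le_mul_of_nonneg_right ?_ h3
          linarith
      _ ≤ κ * 3 := by gcongr
      _ = 3 * κ := by ring
  have h2 : 4 / 3 * Real.pi * (R ^ 3 - x ^ 3) ≤ 13 * κ := by
    have : 4 / 3 * Real.pi * (R ^ 3 - x ^ 3) ≤ 4 / 3 * Real.pi * (3 * κ) := by gcongr
    nlinarith
  have h3 : (x - y) ^ 2 * (2 * x + y) ≤ 3 * (x ^ 2 - y ^ 2) := by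
    have e1 : (x - y) ^ 2 ≤ x ^ 2 - y ^ 2 := by nlinarith
    have e2 : 2 * x + y ≤ 3 := by linarith
    have e3 : 0 ≤ x ^ 2 - y ^ 2 := by nlinarith
    calc (x - y) ^ 2 * (2 * x + y) ≤ (x ^ 2 - y ^ 2) * 3 := by
          apply mul_le_mul e1 e2 (by positivity) e3
      _ = _ := by ring
  have h4 : Real.pi * ((x - y) ^ 2 * (2 * x + y)) ≤ Real.pi * (3 * (x ^ 2 - y ^ 2)) := by gcongr
  have h5 : 4 / 3 * Real.pi * x ^ 3 - Real.pi * (2 * x ^ 2 * y - 2 / 3 * y ^ 3) =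
      2 / 3 * (Real.pi * ((x - y) ^ 2 * (2 * x + y))) := by ring
  linarith

theorem b1_fin2 {x R κ : ℝ} (hx : 0 ≤ x) (hx1 : x ≤ 1) (hR : 0 ≤ R) (hR1 : R ≤ 1)
    (hκ : |x - R| ≤ κ) :
    Real.pi * (2 / 3 * x ^ 2 * x ^ 3 - 2 / 5 * x ^ 5) ≤ 4 / 15 * Real.pi * R ^ 5 + 5 * κ := by
  have hπ := Real.pi_pos
  have hπ4 : Real.pi < 3.15 := Real.pi_lt_d2
  have hκ' := abs_le.1 hκ
  have hκ0 : 0 ≤ κ := (abs_nonneg _).trans hκ
  have h1 : x ^ 5 - R ^ 5 ≤ 5 * κ := by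
    have e : x ^ 5 - R ^ 5 = (x - R) * (x ^ 4 + x ^ 3 * R + x ^ 2 * R ^ 2 + x * R ^ 3 + R ^ 4) := by
      ring
    have g1 : x ^ 4 ≤ 1 := pow_le_one₀ hx hx1
    have g2 : x ^ 3 * R ≤ 1 := mul_le_one₀ (pow_le_one₀ hx hx1) hR hR1
    have g3 : x ^ 2 * R ^ 2 ≤ 1 :=
      mul_le_one₀ (pow_le_one₀ hx hx1) (by positivity) (pow_le_one₀ hR hR1)
    have g4 : x * R ^ 3 ≤ 1 := mul_le_one₀ hx1 (by positivity) (pow_le_one₀ hR hR1)
    have g5 : R ^ 4 ≤ 1 := pow_le_one₀ hR hR1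
    have h3 : 0 ≤ x ^ 4 + x ^ 3 * R + x ^ 2 * R ^ 2 + x * R ^ 3 + R ^ 4 := by positivity
    calc x ^ 5 - R ^ 5 = (x - R) * (x ^ 4 + x ^ 3 * R + x ^ 2 * R ^ 2 + x * R ^ 3 + R ^ 4) := e
      _ ≤ κ * (x ^ 4 + x ^ 3 * R + x ^ 2 * R ^ 2 + x * R ^ 3 + R ^ 4) := by
          refine mul_le_mul_of_nonneg_right ?_ h3
          linarith
      _ ≤ κ * 5 := by
          refine mul_le_mul_of_nonneg_left ?_ hκ0
          linarith
      _ = 5 * κ := by ring
  have h2 : 4 / 15 * Real.pi * (x ^ 5 - R ^ 5) ≤ 4 / 15 * Real.pi * (5 * κ) := by gcongr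
  have h3 : Real.pi * (2 / 3 * x ^ 2 * x ^ 3 - 2 / 5 * x ^ 5) = 4 / 15 * Real.pi * x ^ 5 := by ring
  rw [h3]
  nlinarith

/-- the estimate for one function -/
theorem b1_one {q A e : ℝ → ℝ} {R ε κ τ ω δ E : ℝ} (hR : 0 < R) (hR1 : R < 1 / 2)
    (hε0 : 0 ≤ ε) (hε1 : ε ≤ 1 / 4) (hεV : ε < 4 / 3 * Real.pi * R ^ 3)
    (hq : ContDiff ℝ 1 q) (hper : ∀ t, q (t + 1) = q t)
    (hq0 : ∀ t, 0 ≤ q t) (hq1 : ∀ t, q t ≤ 1)
    (hA : Continuous A) (hA0 : ∀ t, 0 ≤ A t)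
    (he : Continuous e) (he0 : ∀ t, 0 ≤ e t) (hei : ∫ t in (0:ℝ)..1, e t ≤ ε)
    (hJ : ∫ t in (0:ℝ)..1, Real.sqrt (A t ^ 2 + (deriv q t / 2) ^ 2) ≤ 2 * Real.pi * R ^ 2 + ε)
    (hiso : ∀ t, Real.sqrt (Real.pi * q t) ≤ A t + e t)
    (hVk : |(∫ t in (0:ℝ)..1, q t) - 4 / 3 * Real.pi * R ^ 3| ≤ ε)
    (hmin : ∃ t, q t ≤ ε)
    (hκ : 0 ≤ κ) (hκε : ε ≤ κ ^ 2 * R)
    (hτ : 0 < τ) (hω : 0 < ω) (hωε : 288 * ε ^ 2 ≤ ω ^ 3) (hδ : 0 < δ) (hδ1 : δ ≤ 1)
    (hE : 2 * τ + 2 * ε / τ + 5 * ε + 13 * κ ≤ E) :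
    ∃ m ∈ Set.Icc (0:ℝ) 1, ∫ t in (0:ℝ)..1, distS (t - m) ^ 2 * q t ≤
      4 / 15 * Real.pi * R ^ 5 + 5 * κ + 20 * (δ + E / δ ^ 2 + ω * (1 + 2) / δ) := by
  have hπ := Real.pi_pos
  have hπ3 := Real.pi_gt_three
  have hqc := hq.continuous
  obtain ⟨⟨m, hm, hmax⟩, -⟩ := b1_ext hqc hper 0
  obtain ⟨-, ⟨s₀, hs₀, hmin₀⟩⟩ := b1_ext hqc hper m
  rw [zero_add] at hm
  have hint : ∀ {F : ℝ → ℝ}, Continuous F → IntervalIntegrable F volume 0 1 := fun h =>
    h.intervalIntegrable _ _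
  have hqm : 0 < q m := by
    have h1 : ∫ t in (0:ℝ)..1, q t ≤ ∫ _ in (0:ℝ)..1, q m :=
      intervalIntegral.integral_mono_on zero_le_one (hint hqc) (hint continuous_const)
        fun t _ => hmax t
    have h2 : ∫ _ in (0:ℝ)..1, q m = q m := by simp
    have h3 := (abs_le.1 hVk).1
    linarith
  have hqs : q s₀ ≤ ε := by
    obtain ⟨t, ht⟩ := hmin
    exact (hmin₀ t).trans ht
  set x := Real.sqrt (q m / Real.pi) with hx
  have hx0 : 0 < x := Real.sqrt_pos.2 (by positivity)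
  have hxx : x ^ 2 = q m / Real.pi := Real.sq_sqrt (by positivity)
  have hπx : Real.pi * x ^ 2 = q m := by rw [hxx]; field_simp
  have hπx1 : Real.pi * x ^ 2 ≤ 1 := by rw [hπx]; exact hq1 m
  have hx2 : x ^ 2 ≤ 1 / 3 := by nlinarith
  have hxle : x ≤ 1 := by nlinarith
  set U : ℝ → ℝ := fun t => x ^ 2 - q t / Real.pi with hU
  obtain ⟨hc1, hc2, hc3, hc4⟩ := b1_main (U := U) hR hR1 hx0 hε0 hε1 hq hper hq0
    (fun t => by rw [hπx]; exact hmax t) hπx1 hA hA0 he he0 hei hJ hiso hVk (m := m) (s := s₀)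
    hπx.symm hqs (fun t => rfl)
  have hxR : |x - R| ≤ κ := by
    refine abs_le_of_sq_le_sq ?_ hκ
    have : (x - R) ^ 2 * R ≤ κ ^ 2 * R := hc1.trans hκε
    exact le_of_mul_le_mul_right this hR
  -- translation
  have hUd : ContDiff ℝ 1 U := contDiff_const.sub (hq.div_const _)
  have hUc := hUd.continuous
  have hdUc : Continuous (deriv U) := hUd.continuous_deriv le_rfl
  have hUper : ∀ t, U (t + 1) = U t := fun t => by simp only [hU, hper]
  have hdper : ∀ t, deriv U (t + 1) = deriv U t := by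
    intro t
    have h1 := deriv_comp_add_const U 1 t
    rw [show (fun x => U (x + 1)) = U from funext hUper] at h1
    exact h1.symm
  set W : ℝ → ℝ := fun t => U (t + m) with hW
  have hWd : ContDiff ℝ 1 W := hUd.comp (contDiff_id.add contDiff_const)
  have hWc := hWd.continuous
  have hdWc : Continuous (deriv W) := hWd.continuous_deriv le_rfl
  have hdW : ∀ t, deriv W t = deriv U (t + m) := fun t => deriv_comp_add_const U m t
  have hWper : ∀ t, W (t + 1) = W t := by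
    intro t
    simp only [hW]
    rw [show t + 1 + m = (t + m) + 1 by ring, hUper]
  have hU0 : ∀ t, 0 ≤ U t := by
    intro t
    simp only [hU]
    rw [sub_nonneg, hxx]
    exact div_le_div_of_nonneg_right (hmax t) hπ.le
  have hUx : ∀ t, U t ≤ x ^ 2 := by
    intro t
    simp only [hU]
    have := div_nonneg (hq0 t) hπ.le
    linarith
  have hW0 : ∀ t, 0 ≤ W t := fun t => hU0 _
  have hWx : ∀ t, W t ≤ x ^ 2 := fun t => hUx _
  have hz : W 0 = 0 := by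
    simp only [hW, hU, zero_add]
    rw [hxx, sub_self]
  have hz1 : W 1 = 0 := by
    have := hWper 0
    rw [zero_add, hz] at this
    exact this
  set s := s₀ - m with hs
  have hs0 : 0 ≤ s := by linarith [hs₀.1]
  have hs1 : s ≤ 1 := by linarith [hs₀.2]
  have hWs : W s = U s₀ := by simp only [hW, hs, sub_add_cancel]
  have hsm : ∀ t, W t ≤ W s := by
    intro t
    rw [hWs]
    simp only [hW, hU]
    have := div_le_div_of_nonneg_right (hmin₀ (t + m)) hπ.le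
    linarith
  have hgW : ∀ t, b1g x (W t) = q (t + m) := by
    intro t
    rw [b1g_eq (hW0 t) (hWx t)]
    simp only [hW, hU]
    field_simp
    ring
  -- the integrals
  have hZW : ∫ t in (0:ℝ)..1, Real.sqrt (W t) * |deriv W t| ≤
      4 / 3 * (Real.sqrt (W s)) ^ 3 + 3 * ε := by
    rw [hWs]
    refine le_trans (le_of_eq ?_) hc2
    simp_rw [hdW]
    exact b1_shift (F := fun t => Real.sqrt (U t) * |deriv U t|)
      (fun t => by simp only [hUper, hdper]) m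
  have hE0 : 0 ≤ E := by
    have : 0 ≤ 2 * ε / τ := by positivity
    linarith
  have hτε : 0 ≤ 2 * ε / τ := by positivity
  have hh1 : ∫ t in (0:ℝ)..1, b1g x (W t) * |(1 / 2) * |deriv W t| - Real.sqrt (W t)| ≤ E := by
    have h1 := hc3 τ hτ
    have h2 := b1_shift (F := fun t => q t * |(1 / 2) * |deriv U t| - Real.sqrt (U t)|)
      (fun t => by simp only [hUper, hdper, hper]) m
    simp_rw [hgW, hdW]
    have h3 : ∫ t in (0:ℝ)..1, q (t + m) * |(1 / 2) * |deriv U (t + m)| - Real.sqrt (W t)| =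
        ∫ t in (0:ℝ)..1, q t * |(1 / 2) * |deriv U t| - Real.sqrt (U t)| := h2
    rw [h3]
    linarith
  have hh2 : ∫ t in (0:ℝ)..1, b1g x (W t) * Real.sqrt (W t) * |deriv W t| ≤
      2 * (∫ u in (0:ℝ)..(W s), b1g x u * Real.sqrt u) + E := by
    have hgc := b1g_cont x
    have h1 := arc_var hWd hWper (S := fun u => (1 - b1g x u) * Real.sqrt u) (by fun_prop)
      (fun u => mul_nonneg (sub_nonneg.2 ((b1g_le x u).trans hπx1)) (Real.sqrt_nonneg _))
      (z₁ := 0) (z₂ := s) (by rw [hz]; exact hW0 s)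
    rw [hz] at h1
    have h2 : ∫ u in (0:ℝ)..(W s), (1 - b1g x u) * Real.sqrt u =
        (∫ u in (0:ℝ)..(W s), Real.sqrt u) - ∫ u in (0:ℝ)..(W s), b1g x u * Real.sqrt u := by
      rw [← intervalIntegral.integral_sub (Real.continuous_sqrt.intervalIntegrable _ _)
        (Continuous.intervalIntegrable (by fun_prop) _ _)]
      refine intervalIntegral.integral_congr fun u _ => ?_
      ring
    have h3 : ∫ t in (0:ℝ)..1, (1 - b1g x (W t)) * Real.sqrt (W t) * |deriv W t| =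
        (∫ t in (0:ℝ)..1, Real.sqrt (W t) * |deriv W t|) -
          ∫ t in (0:ℝ)..1, b1g x (W t) * Real.sqrt (W t) * |deriv W t| := by
      rw [← intervalIntegral.integral_sub (hint (by fun_prop)) (hint (by fun_prop))]
      refine intervalIntegral.integral_congr fun u _ => ?_
      ring
    rw [h2, b1_int_sqrt (hW0 s)] at h1
    have h4 : 2 * (2 / 3 * Real.sqrt (W s) ^ 3 - ∫ u in (0:ℝ)..(W s), b1g x u * Real.sqrt u) ≤
        (∫ t in (0:ℝ)..1, Real.sqrt (W t) * |deriv W t|) -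
          ∫ t in (0:ℝ)..1, b1g x (W t) * Real.sqrt (W t) * |deriv W t| := by
      rw [← h3]
      exact h1
    linarith
  have hy3 : Real.pi * (x ^ 2 - Real.sqrt (W s) ^ 2) ≤ ε := by
    rw [Real.sq_sqrt (hW0 s), hWs]
    simp only [hU]
    have : Real.pi * (x ^ 2 - (x ^ 2 - q s₀ / Real.pi)) = q s₀ := by field_simp; ring
    rw [this]
    exact hqs
  have hyx : Real.sqrt (W s) ≤ x := by
    rw [Real.sqrt_le_left hx0.le]
    exact hWx s
  have hh3 : ∫ t in (0:ℝ)..1, b1g x (W t) ≤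
      (∫ u in (0:ℝ)..(W s), b1g x u / Real.sqrt u) + E := by
    simp_rw [hgW]
    rw [b1_shift (F := q) hper m, b1g_div (hW0 s) (hWx s)]
    have h1 := (abs_le.1 hVk).2
    have h2 := b1_fin hx0.le hxle hR.le (by linarith) (Real.sqrt_nonneg (W s)) hyx hy3 hε0 hxR
      (E := E) (by linarith)
    linarith
  have hπ3' : Real.pi ^ 3 ≤ 32 := by
    have h1 : Real.pi ≤ 3.15 := Real.pi_lt_d2.le
    calc Real.pi ^ 3 ≤ 3.15 ^ 3 := by gcongr
      _ ≤ 32 := by norm_num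
  have hD : 0 ≤ ω / Real.pi := by positivity
  have hDε : 9 * ε ^ 2 ≤ (ω / Real.pi) ^ 3 := by
    rw [div_pow, le_div_iff₀ (by positivity)]
    have : 9 * ε ^ 2 * Real.pi ^ 3 ≤ 9 * ε ^ 2 * 32 := by gcongr
    linarith
  have hm1 := b1_mono hWd hW0 hz hz1 hs1 hZW hD hDε
  have hm2 := b1_mono' hWd hW0 hz hz1 hs0 hZW hD hDε
  have hωπ : Real.pi * (ω / Real.pi) = ω := by field_simp
  have hh5 : ∀ a b, 0 ≤ a → a ≤ b → b ≤ s → b1g x (W b) ≤ b1g x (W a) + ω := by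
    intro a b h1 h2 h3
    rw [b1g_eq (hW0 _) (hWx _), b1g_eq (hW0 _) (hWx _)]
    have h4 := mul_le_mul_of_nonneg_left (hm1 a b h1 h2 h3) hπ.le
    rw [mul_add, hωπ] at h4
    linarith
  have hh5' : ∀ a b, s ≤ a → a ≤ b → b ≤ 1 → b1g x (W a) ≤ b1g x (W b) + ω := by
    intro a b h1 h2 h3
    rw [b1g_eq (hW0 _) (hWx _), b1g_eq (hW0 _) (hWx _)]
    have h4 := mul_le_mul_of_nonneg_left (hm2 a b h1 h2 h3) hπ.le
    rw [mul_add, hωπ] at h4
    linarith
  have hh6 : ∫ t in (0:ℝ)..1, |deriv W t| ≤ 2 := by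
    refine le_trans (le_of_eq ?_) hc4
    simp_rw [hdW]
    exact b1_shift (F := fun t => |deriv U t|) (fun t => by simp only [hdper]) m
  have hcore := core_oneD (g := b1g x) (U := W) (ρ := x ^ 2) (s := s) (ε := E) (ω := ω) (K := 2)
    (δ := δ) (by positivity) (by linarith) (b1g_cont x) (b1g_nonneg x)
    (fun u => (b1g_le x u).trans hπx1) hWd hWper hW0 hWx hz hs0 hs1 hsm hE0 hω.le hδ hδ1
    hh1 hh2 hh3 hh5 hh5' hh6
  refine ⟨m, hm, (b1_dist hqc hper hq0).trans ?_⟩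
  simp_rw [hgW] at hcore
  rw [b1g_mul (sq_nonneg x) le_rfl, Real.sqrt_sq hx0.le] at hcore
  have hfin := b1_fin2 hx0.le hxle hR.le (by linarith) hxR
  linarith


/- BALL1 -/
theorem ball_oneD {q A e : ℕ → ℝ → ℝ} {V R : ℝ} {ε : ℕ → ℝ} (hR : 0 < R) (hR1 : R < 1 / 2)
    (hV : V = 4 / 3 * Real.pi * R ^ 3) (hε : Tendsto ε atTop (𝓝 0))
    (hq : ∀ k, ContDiff ℝ 1 (q k)) (hper : ∀ k t, q k (t + 1) = q k t)
    (hq0 : ∀ k t, 0 ≤ q k t) (hq1 : ∀ k t, q k t ≤ 1)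
    (hA : ∀ k, Continuous (A k)) (hA0 : ∀ k t, 0 ≤ A k t)
    (he : ∀ k, Continuous (e k)) (he0 : ∀ k t, 0 ≤ e k t) (hei : ∀ k, ∫ t in (0:ℝ)..1, e k t ≤ ε k)
    (hJ : ∀ k, ∫ t in (0:ℝ)..1, Real.sqrt (A k t ^ 2 + (deriv (q k) t / 2) ^ 2) ≤
      2 * Real.pi * R ^ 2 + ε k)
    (hiso : ∀ k t, Real.sqrt (Real.pi * q k t) ≤ A k t + e k t)
    (hVk : ∀ k, |(∫ t in (0:ℝ)..1, q k t) - V| ≤ ε k) (hmin : ∀ k, ∃ t, q k t ≤ ε k) :
    ∀ η > 0, ∀ᶠ k in atTop, ∃ m ∈ Set.Icc (0:ℝ) 1,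
      ∫ t in (0:ℝ)..1, distS (t - m) ^ 2 * q k t ≤ 4 / 15 * Real.pi * R ^ 5 + η := by
  intro η hη
  have hπ := Real.pi_pos
  set δ := min 1 (η / 100) with hδdef
  have hδ : 0 < δ := lt_min one_pos (by positivity)
  have hδ1 : δ ≤ 1 := min_le_left _ _
  have hδ2 : δ ≤ η / 100 := min_le_right _ _
  set E := δ ^ 2 * η / 100 with hEdef
  have hE : 0 < E := by positivity
  set ω := δ * η / 300 with hωdef
  have hω : 0 < ω := by positivity
  set κ := min (E / 52) (η / 25) with hκdef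
  have hκ : 0 < κ := lt_min (by positivity) (by positivity)
  have hκ1 : κ ≤ E / 52 := min_le_left _ _
  have hκ2 : κ ≤ η / 25 := min_le_right _ _
  have hτ : 0 < E / 8 := by positivity
  have g1 : ∀ᶠ k in atTop, ε k ≤ 1 / 4 := hε.eventually_le_const (by norm_num)
  have g2 : ∀ᶠ k in atTop, ε k < 4 / 3 * Real.pi * R ^ 3 := hε.eventually_lt_const (by positivity)
  have g3 : ∀ᶠ k in atTop, ε k ≤ κ ^ 2 * R := hε.eventually_le_const (by positivity)
  have g4 : ∀ᶠ k in atTop, ε k ≤ ω ^ 3 / 288 := hε.eventually_le_const (by positivity)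
  have g5 : ∀ᶠ k in atTop, ε k ≤ E ^ 2 / 64 := hε.eventually_le_const (by positivity)
  have g6 : ∀ᶠ k in atTop, ε k ≤ E / 20 := hε.eventually_le_const (by positivity)
  filter_upwards [g1, g2, g3, g4, g5, g6] with k k1 k2 k3 k4 k5 k6
  have hε0 : 0 ≤ ε k := (intervalIntegral.integral_nonneg zero_le_one fun t _ => he0 k t).trans (hei k)
  have hVk' : |(∫ t in (0:ℝ)..1, q k t) - 4 / 3 * Real.pi * R ^ 3| ≤ ε k := by
    rw [← hV]
    exact hVk k
  have hωε : 288 * ε k ^ 2 ≤ ω ^ 3 := by nlinarith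
  have hEs : 2 * (E / 8) + 2 * ε k / (E / 8) + 5 * ε k + 13 * κ ≤ E := by
    have : 2 * ε k / (E / 8) ≤ E / 4 := by
      rw [div_le_iff₀ hτ]
      nlinarith
    linarith
  obtain ⟨m, hm, hle⟩ := b1_one hR hR1 hε0 k1 k2 (hq k) (hper k) (hq0 k) (hq1 k) (hA k) (hA0 k)
    (he k) (he0 k) (hei k) (hJ k) (hiso k) hVk' (hmin k) hκ.le k3 hτ hω hωε hδ hδ1 hEs
  refine ⟨m, hm, hle.trans ?_⟩
  have e1 : E / δ ^ 2 = η / 100 := by
    rw [hEdef]
    field_simp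
  have e2 : ω * (1 + 2) / δ = η / 100 := by
    rw [hωdef]
    field_simp
    norm_num
  rw [e1, e2]
  linarith

end Vale.Agent.P232
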