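import Vale.Agent.P232U.Defs
import Vale.Agent.P232.Joint

/-! # P232U, module HTVC (helper41) -/

open MeasureTheory Set Filter Topology

namespace Vale.Agent.P232

/-- the total variation of the slices depends continuously on the height -/
theorem hTV_slice_cont {f : (Fin 3 → ℝ) → ℝ} (hf : Nice f) (i : Fin 3) :
    Continuous fun z => hTV (slice f i z) := by
  unfold hTV
  refine continuous_const.mul ?_
  have h : (fun z => ∫ x in cell 2, gradN (slice f i z) x) =
      fun z => ∫ y in cell 2, j3_g f i (i.insertNth z y) := by
    funext z
    simp only [j3_g_ins hf]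
  rw [h]
  exact e3_cont_param (F := fun z y => j3_g f i (i.insertNth z y)) ((j3_g_cont hf i).comp (e3_ins i))

end Vale.Agent.P232
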