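import Vale.Agent.P232.Joint
import Vale.Agent.P232U.Defs

/-! # P232 uniqueness, module JENS -/

open MeasureTheory Set

namespace Vale.Agent.P232

theorem JENS_cs {x y N : ℝ} (hx : 0 ≤ x) (hy : 0 ≤ y)
    (h : ∀ C S : ℝ, 0 ≤ C → 0 ≤ S → C ^ 2 + S ^ 2 = 1 → C * x + S * y ≤ N) :
    Real.sqrt (x ^ 2 + y ^ 2) ≤ N := by
  by_cases h0 : x ^ 2 + y ^ 2 = 0
  · rw [h0, Real.sqrt_zero]
    have := h 1 0 (by norm_num) le_rfl (by norm_num)
    linarith
  · have hp : 0 < x ^ 2 + y ^ 2 := lt_of_le_of_ne (by positivity) (Ne.symm h0)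
    have hR : 0 < Real.sqrt (x ^ 2 + y ^ 2) := Real.sqrt_pos.2 hp
    have hR2 : Real.sqrt (x ^ 2 + y ^ 2) ^ 2 = x ^ 2 + y ^ 2 := Real.sq_sqrt hp.le
    have h1 := h (x / Real.sqrt (x ^ 2 + y ^ 2)) (y / Real.sqrt (x ^ 2 + y ^ 2))
      (by positivity) (by positivity) (by
        rw [div_pow, div_pow, ← add_div, hR2]
        exact div_self h0)
    have h2 : x / Real.sqrt (x ^ 2 + y ^ 2) * x + y / Real.sqrt (x ^ 2 + y ^ 2) * y =
        Real.sqrt (x ^ 2 + y ^ 2) := by
      rw [div_mul_eq_mul_div, div_mul_eq_mul_div, ← add_div, div_eq_iff hR.ne']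
      nlinarith
    linarith

theorem jensen_slice {f : (Fin 3 → ℝ) → ℝ} (hf : Nice f) (i : Fin 3) :
    ∫ z in (0:ℝ)..1, Real.sqrt (hTV (slice f i z) ^ 2 + (deriv (sArea f i) z / 2) ^ 2) ≤
      hTV f := by
  have hgc : Continuous (gradN f) := e3_gradN hf.smooth
  have hTVeq : ∀ z, hTV (slice f i z) =
      (1 / 2) * ∫ y in cell 2, j3_g f i (i.insertNth z y) := by
    intro z
    unfold hTV
    congr 1
    refine integral_congr_ae (Filter.Eventually.of_forall fun y => ?_)
    exact (j3_g_ins hf i z y).symm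
  have hAc : Continuous fun z => hTV (slice f i z) := by
    simp_rw [hTVeq]
    exact continuous_const.mul (e3_cont_param (F := fun z y => j3_g f i (i.insertNth z y))
      ((j3_g_cont hf i).comp (e3_ins i)))
  have hpd : Continuous (deriv (sArea f i)) := (sArea_contDiff hf i).continuous_deriv le_rfl
  have hGc : Continuous fun z => ∫ y in cell 2, gradN f (i.insertNth z y) :=
    e3_cont_param (F := fun z y => gradN f (i.insertNth z y)) (hgc.comp (e3_ins i))
  have hpt : ∀ z, Real.sqrt (hTV (slice f i z) ^ 2 + (deriv (sArea f i) z / 2) ^ 2) ≤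
      (1 / 2) * ∫ y in cell 2, gradN f (i.insertNth z y) := by
    intro z
    have hs := slice_nice hf i z
    have h1 : Continuous fun y : Fin 2 → ℝ => gradN (slice f i z) y := e3_gradN hs.smooth
    have hins : Continuous fun y : Fin 2 → ℝ => (i.insertNth z y : Fin 3 → ℝ) :=
      (e3_ins i).comp (continuous_const.prodMk continuous_id)
    have h2 : Continuous fun y : Fin 2 → ℝ => |fderiv ℝ f (i.insertNth z y) (Pi.single i 1)| :=
      (((hf.smooth.continuous_fderiv one_ne_zero).comp hins).clm_apply continuous_const).abs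
    have hA0 : 0 ≤ hTV (slice f i z) := by
      unfold hTV
      exact mul_nonneg (by norm_num) (integral_nonneg fun y => Real.sqrt_nonneg _)
    rw [← sq_abs (deriv (sArea f i) z / 2)]
    refine JENS_cs hA0 (abs_nonneg _) (fun C S hC hS hCS => ?_)
    have h3 : C * (∫ y in cell 2, gradN (slice f i z) y) +
        S * (∫ y in cell 2, |fderiv ℝ f (i.insertNth z y) (Pi.single i 1)|) ≤
          ∫ y in cell 2, gradN f (i.insertNth z y) := by
      rw [← integral_const_mul, ← integral_const_mul, ← integral_add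
        ((e3_int h1).const_mul _) ((e3_int h2).const_mul _)]
      refine setIntegral_mono (((e3_int h1).const_mul _).add ((e3_int h2).const_mul _))
        (e3_int (hgc.comp hins)) fun y => ?_
      exact e3_cs (Real.sqrt_nonneg _) (Real.sqrt_nonneg _) hC hS (gradN_slice hf i z y) hCS
    have h4 := sArea_deriv_le hf i z
    have h5 : S * |deriv (sArea f i) z| ≤
        S * (∫ y in cell 2, |fderiv ℝ f (i.insertNth z y) (Pi.single i 1)|) :=
      mul_le_mul_of_nonneg_left h4 hS
    have h6 : |deriv (sArea f i) z / 2| = |deriv (sArea f i) z| / 2 := by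
      rw [abs_div]
      norm_num
    have h8 : hTV (slice f i z) = (1 / 2) * ∫ y in cell 2, gradN (slice f i z) y := rfl
    rw [h6, h8]
    linarith
  have hint : ∫ z in (0:ℝ)..1,
      Real.sqrt (hTV (slice f i z) ^ 2 + (deriv (sArea f i) z / 2) ^ 2) ≤
      ∫ z in (0:ℝ)..1, (1 / 2) * ∫ y in cell 2, gradN f (i.insertNth z y) :=
    intervalIntegral.integral_mono_on zero_le_one
      ((((hAc.pow 2).add ((hpd.div_const 2).pow 2)).sqrt).intervalIntegrable _ _)
      ((continuous_const.mul hGc).intervalIntegrable _ _) fun z _ => hpt z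
  refine hint.trans (le_of_eq ?_)
  rw [intervalIntegral.integral_const_mul, hTV, fubini_slice hgc i]

end Vale.Agent.P232
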