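import Vale.Agent.P232U.Defs

/-! # P232U, module NM1: elementary properties of approximating sequences (helper70) -/

open MeasureTheory Set Filter Topology

namespace Vale.Agent.P232

theorem nm1_distS_eq (t : ℝ) : distS t = ‖(t : UnitAddCircle)‖ := by
  rw [UnitAddCircle.norm_eq]
  rfl

theorem nm1_distS_cont : Continuous distS := by
  have h : distS = fun t : ℝ => ‖(t : UnitAddCircle)‖ := funext nm1_distS_eq
  rw [h]
  exact continuous_norm.comp (AddCircle.continuous_mk' 1)

theorem nm1_distS_nonneg (t : ℝ) : 0 ≤ distS t := abs_nonneg _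

theorem nm1_distS_le (t : ℝ) : distS t ≤ 1 / 2 := abs_sub_round t

theorem nm1_distS_sq_le (t : ℝ) : distS t ^ 2 ≤ 1 := by
  have h0 := nm1_distS_nonneg t
  have h1 := nm1_distS_le t
  nlinarith

theorem NM.sub {J : ℝ} {E : Set (Fin 3 → ℝ)} {f : ℕ → (Fin 3 → ℝ) → ℝ} (h : NM J E f)
    {φ : ℕ → ℕ} (hφ : StrictMono φ) : NM J E (fun k => f (φ k)) where
  meas := h.meas
  per := h.per
  nice := fun k => h.nice (φ k)
  tv := fun ε hε => hφ.tendsto_atTop.eventually (h.tv ε hε)
  l1 := h.l1.comp hφ.tendsto_atTop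

theorem nm1_int_f {J : ℝ} {E : Set (Fin 3 → ℝ)} {f : ℕ → (Fin 3 → ℝ) → ℝ} (h : NM J E f) (k : ℕ) :
    IntegrableOn (f k) (cell 3) := by
  refine Integrable.mono' (integrable_const (1 : ℝ))
    (h.nice k).smooth.continuous.aestronglyMeasurable (Eventually.of_forall fun x => ?_)
  rw [Real.norm_eq_abs, abs_of_nonneg ((h.nice k).nonneg x)]
  exact (h.nice k).le_one x

theorem nm1_int_E {E : Set (Fin 3 → ℝ)} (hE : MeasurableSet E) :
    IntegrableOn (E.indicator (fun _ => (1 : ℝ))) (cell 3) :=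
  (integrable_const (1 : ℝ)).indicator hE

theorem nm1_int_diff {J : ℝ} {E : Set (Fin 3 → ℝ)} {f : ℕ → (Fin 3 → ℝ) → ℝ} (h : NM J E f)
    (k : ℕ) : IntegrableOn (fun x => |f k x - E.indicator (fun _ => (1 : ℝ)) x|) (cell 3) :=
  ((nm1_int_f h k).sub (nm1_int_E h.meas)).abs

theorem nm1_vol_eq {E : Set (Fin 3 → ℝ)} (hE : MeasurableSet E) :
    ∫ x in cell 3, E.indicator (fun _ => (1 : ℝ)) x = vol E := by
  rw [setIntegral_indicator hE, setIntegral_const, smul_eq_mul, mul_one, inter_comm]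
  rfl

theorem NM.vol_tendsto {J : ℝ} {E : Set (Fin 3 → ℝ)} {f : ℕ → (Fin 3 → ℝ) → ℝ} (h : NM J E f) :
    Tendsto (fun k => ∫ x in cell 3, f k x) atTop (𝓝 (vol E)) := by
  rw [tendsto_iff_norm_sub_tendsto_zero]
  refine squeeze_zero (fun k => norm_nonneg _) (fun k => ?_) h.l1
  rw [← nm1_vol_eq h.meas, ← integral_sub (nm1_int_f h k) (nm1_int_E h.meas)]
  exact norm_integral_le_integral_norm _

theorem NM.err_tendsto {J : ℝ} {E : Set (Fin 3 → ℝ)} {f : ℕ → (Fin 3 → ℝ) → ℝ} (h : NM J E f) :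
    Tendsto (fun k => ∫ x in cell 3, f k x * (1 - f k x)) atTop (𝓝 0) := by
  refine squeeze_zero (fun k => ?_) (fun k => ?_) h.l1
  · exact integral_nonneg fun x => mul_nonneg ((h.nice k).nonneg x)
      (sub_nonneg.2 ((h.nice k).le_one x))
  · refine integral_mono_of_nonneg (Eventually.of_forall fun x => ?_) (nm1_int_diff h k)
      (Eventually.of_forall fun x => ?_)
    · exact mul_nonneg ((h.nice k).nonneg x) (sub_nonneg.2 ((h.nice k).le_one x))
    · have h0 := (h.nice k).nonneg x
      have h1 := (h.nice k).le_one x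
      show f k x * (1 - f k x) ≤ |f k x - E.indicator (fun _ => (1 : ℝ)) x|
      by_cases hx : x ∈ E
      · rw [indicator_of_mem hx, abs_sub_comm, abs_of_nonneg (sub_nonneg.2 h1)]
        nlinarith
      · rw [indicator_of_notMem hx, sub_zero, abs_of_nonneg h0]
        nlinarith

theorem nm1_mom_eq {E : Set (Fin 3 → ℝ)} (hE : MeasurableSet E) (i : Fin 3) (m : ℝ) :
    mom E i m = ∫ x in cell 3, distS (x i - m) ^ 2 * E.indicator (fun _ => (1 : ℝ)) x := by
  unfold mom
  rw [inter_comm, ← setIntegral_indicator hE]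
  refine integral_congr_ae (Eventually.of_forall fun x => ?_)
  show E.indicator (fun x => distS (x i - m) ^ 2) x =
    distS (x i - m) ^ 2 * E.indicator (fun _ => (1 : ℝ)) x
  by_cases hx : x ∈ E
  · rw [indicator_of_mem hx, indicator_of_mem hx, mul_one]
  · rw [indicator_of_notMem hx, indicator_of_notMem hx, mul_zero]

theorem nm1_mom_cont {E : Set (Fin 3 → ℝ)} (hE : MeasurableSet E) (i : Fin 3) :
    Continuous fun m => mom E i m := by
  have e : (fun m => mom E i m) =
      fun m => ∫ x in cell 3, distS (x i - m) ^ 2 * E.indicator (fun _ => (1 : ℝ)) x :=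
    funext fun m => nm1_mom_eq hE i m
  rw [e]
  refine continuous_of_dominated (bound := fun _ => 1) (fun m => ?_) (fun m => ?_)
    (integrable_const _) ?_
  · have h1 : Continuous fun x : Fin 3 → ℝ => distS (x i - m) ^ 2 :=
      (nm1_distS_cont.comp ((continuous_apply i).sub continuous_const)).pow 2
    exact h1.aestronglyMeasurable.mul (measurable_const.indicator hE).aestronglyMeasurable
  · refine Eventually.of_forall fun x => ?_
    rw [Real.norm_eq_abs, abs_mul, abs_of_nonneg (sq_nonneg _)]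
    have h1 := nm1_distS_sq_le (x i - m)
    have h2 : |E.indicator (fun _ => (1 : ℝ)) x| ≤ 1 := by
      by_cases hx : x ∈ E
      · rw [indicator_of_mem hx, abs_one]
      · rw [indicator_of_notMem hx, abs_zero]
        exact zero_le_one
    exact mul_le_one₀ h1 (abs_nonneg _) h2
  · refine Eventually.of_forall fun x => ?_
    have h1 : Continuous fun m : ℝ => distS (x i - m) ^ 2 :=
      (nm1_distS_cont.comp (continuous_const.sub continuous_id)).pow 2
    exact h1.mul continuous_const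

theorem nm1_fub {f : (Fin 3 → ℝ) → ℝ} (hf : Nice f) (i : Fin 3) (m : ℝ) :
    ∫ x in cell 3, distS (x i - m) ^ 2 * f x =
      ∫ t in (0:ℝ)..1, distS (t - m) ^ 2 * sArea f i t := by
  have h1 : Continuous fun x : Fin 3 → ℝ => distS (x i - m) ^ 2 :=
    (nm1_distS_cont.comp ((continuous_apply i).sub continuous_const)).pow 2
  have h2 : Continuous fun x : Fin 3 → ℝ => distS (x i - m) ^ 2 * f x :=
    h1.mul hf.smooth.continuous
  rw [fubini_slice h2 i]
  refine intervalIntegral.integral_congr fun t _ => ?_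
  show ∫ y in cell 2, distS ((i.insertNth t y : Fin 3 → ℝ) i - m) ^ 2 * f (i.insertNth t y) =
    distS (t - m) ^ 2 * sArea f i t
  unfold sArea
  rw [← integral_const_mul]
  refine integral_congr_ae (Eventually.of_forall fun y => ?_)
  show distS ((i.insertNth t y : Fin 3 → ℝ) i - m) ^ 2 * f (i.insertNth t y) = _
  rw [Fin.insertNth_apply_same]
  rfl

theorem NM.mom_le {J : ℝ} {E : Set (Fin 3 → ℝ)} {f : ℕ → (Fin 3 → ℝ) → ℝ} (h : NM J E f)
    (i : Fin 3) {M : ℝ}
    (hM : ∀ η > 0, ∃ᶠ k in atTop, ∃ m ∈ Set.Icc (0:ℝ) 1,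
      ∫ t in (0:ℝ)..1, distS (t - m) ^ 2 * sArea (f k) i t ≤ M + η) :
    ∃ m, mom E i m ≤ M := by
  obtain ⟨m, -, hm⟩ := (isCompact_Icc (a := (0:ℝ)) (b := 1)).exists_isMinOn
    ⟨0, left_mem_Icc.2 zero_le_one⟩ (nm1_mom_cont h.meas i).continuousOn
  refine ⟨m, le_of_forall_pos_le_add fun η hη => ?_⟩
  have hev : ∀ᶠ k in atTop,
      ∫ x in cell 3, |f k x - E.indicator (fun _ => (1 : ℝ)) x| < η / 2 :=
    h.l1.eventually (gt_mem_nhds (half_pos hη))
  obtain ⟨k, ⟨m', hm', hk⟩, hk2⟩ := ((hM (η / 2) (half_pos hη)).and_eventually hev).exists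
  have h1 : mom E i m ≤ mom E i m' := hm hm'
  have hc : Continuous fun x : Fin 3 → ℝ => distS (x i - m') ^ 2 :=
    (nm1_distS_cont.comp ((continuous_apply i).sub continuous_const)).pow 2
  have hi1 : IntegrableOn (fun x : Fin 3 → ℝ => distS (x i - m') ^ 2 * f k x) (cell 3) := by
    refine Integrable.mono' (integrable_const (1 : ℝ))
      (hc.mul (h.nice k).smooth.continuous).aestronglyMeasurable (Eventually.of_forall fun x => ?_)
    rw [Real.norm_eq_abs, abs_of_nonneg (mul_nonneg (sq_nonneg _) ((h.nice k).nonneg x))]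
    exact mul_le_one₀ (nm1_distS_sq_le _) ((h.nice k).nonneg x) ((h.nice k).le_one x)
  have h2 : mom E i m' ≤ ∫ x in cell 3, (distS (x i - m') ^ 2 * f k x +
      |f k x - E.indicator (fun _ => (1 : ℝ)) x|) := by
    rw [nm1_mom_eq h.meas]
    refine integral_mono_of_nonneg (Eventually.of_forall fun x => ?_)
      (hi1.add (nm1_int_diff h k)) (Eventually.of_forall fun x => ?_)
    · exact mul_nonneg (sq_nonneg _) (indicator_nonneg (fun _ _ => zero_le_one) x)
    · show distS (x i - m') ^ 2 * E.indicator (fun _ => (1 : ℝ)) x ≤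
        distS (x i - m') ^ 2 * f k x + |f k x - E.indicator (fun _ => (1 : ℝ)) x|
      have a0 := sq_nonneg (distS (x i - m'))
      have a1 := nm1_distS_sq_le (x i - m')
      have a2 := neg_abs_le (f k x - E.indicator (fun _ => (1 : ℝ)) x)
      have a3 := abs_nonneg (f k x - E.indicator (fun _ => (1 : ℝ)) x)
      nlinarith
  rw [integral_add hi1 (nm1_int_diff h k), nm1_fub (h.nice k) i m'] at h2
  linarith

end Vale.Agent.P232
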