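import Vale.Agent.P232U.Defs
import Vale.Agent.P232.SliceCut
import Vale.Agent.P232U.Nm1
import Vale.Agent.P232U.Jens
import Vale.Agent.P232U.Htvc
import Vale.Agent.P232U.Ball1

/-! # P232: module BALLM (uniqueness of minimizers, ball case): second moments -/

open MeasureTheory Set Filter Topology

namespace Vale.Agent.P232

/-- BALLM -/
theorem ball_moment {E : Set (Fin 3 → ℝ)} {f : ℕ → (Fin 3 → ℝ) → ℝ} {R : ℝ} (hR : 0 < R)
    (hR1 : R < 1 / 2) (h : NM (2 * Real.pi * R ^ 2) E f) (hV : vol E = 4 / 3 * Real.pi * R ^ 3)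
    (hlo : ∀ ε > 0, ∃ᶠ k in atTop, ∀ j, ∃ z, sArea (f k) j z ≤ ε) (i : Fin 3) :
    ∃ m, mom E i m ≤ 4 / 15 * Real.pi * R ^ 5 := by
  have hε0 : ∀ n : ℕ, 0 < 1 / ((n : ℝ) + 1) := fun n => Nat.one_div_pos_of_nat
  have herr : Tendsto (fun k => Real.sqrt (2 * Real.pi * ∫ x in cell 3, f k x * (1 - f k x))) atTop
      (𝓝 0) := by
    have h1 := ((h.err_tendsto).const_mul (2 * Real.pi)).sqrt
    simpa using h1
  obtain ⟨φ, hφ, hP⟩ := Filter.extraction_forall_of_frequently (P := fun n k =>
    (∀ j, ∃ z, sArea (f k) j z ≤ 1 / ((n : ℝ) + 1)) ∧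
    hTV (f k) ≤ 2 * Real.pi * R ^ 2 + 1 / ((n : ℝ) + 1) ∧
    |(∫ x in cell 3, f k x) - vol E| ≤ 1 / ((n : ℝ) + 1) ∧
    Real.sqrt (2 * Real.pi * ∫ x in cell 3, f k x * (1 - f k x)) ≤ 1 / ((n : ℝ) + 1)) (by
      intro n
      have e1 := h.tv _ (hε0 n)
      have e2 : ∀ᶠ k in atTop, |(∫ x in cell 3, f k x) - vol E| ≤ 1 / ((n : ℝ) + 1) := by
        have := (Metric.tendsto_nhds.1 h.vol_tendsto) _ (hε0 n)
        filter_upwards [this] with k hk
        rw [Real.dist_eq] at hk
        exact hk.le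
      have e3 : ∀ᶠ k in atTop,
          Real.sqrt (2 * Real.pi * ∫ x in cell 3, f k x * (1 - f k x)) ≤ 1 / ((n : ℝ) + 1) := by
        filter_upwards [(tendsto_order.1 herr).2 _ (hε0 n)] with k hk
        exact hk.le
      exact ((hlo _ (hε0 n)).and_eventually (e1.and (e2.and e3))))
  choose t0 ht0 using fun n => (hP n).1 (i.succAbove 0)
  choose t1 ht1 using fun n => (hP n).1 (i.succAbove 1)
  have hf : ∀ n, Nice (f (φ n)) := fun n => h.nice _
  have hlim : Tendsto (fun n : ℕ => 3 * (1 / ((n : ℝ) + 1))) atTop (𝓝 0) := by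
    have := tendsto_one_div_add_atTop_nhds_zero_nat.const_mul (3 : ℝ)
    simpa using this
  have key := ball_oneD (q := fun n => sArea (f (φ n)) i)
    (A := fun n z => hTV (slice (f (φ n)) i z))
    (e := fun n z => slBd (f (φ n)) i (t0 n) (t1 n) z +
      Real.sqrt (2 * Real.pi * slErr (f (φ n)) i z))
    (V := 4 / 3 * Real.pi * R ^ 3) (R := R) (ε := fun n => 3 * (1 / ((n : ℝ) + 1))) hR hR1 rfl hlim
    (fun n => sArea_contDiff (hf n) i) (fun n t => sArea_per (hf n) i t)
    (fun n t => (sl_area_mem (hf n) i t).1) (fun n t => (sl_area_mem (hf n) i t).2)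
    (fun n => hTV_slice_cont (hf n) i)
    (fun n t => mul_nonneg (by norm_num) (integral_nonneg fun x => Real.sqrt_nonneg _))
    (fun n => ((slBd_cont1 (hf n) i (t0 n)).add (slBd_cont2 (hf n) i (t1 n))).add
      (continuous_const.mul (slErr_cont (hf n) i)).sqrt)
    (fun n t => add_nonneg (slBd_nonneg (hf n) i _ _ t) (Real.sqrt_nonneg _))
    (fun n => by
      have c1 : Continuous (slBd (f (φ n)) i (t0 n) (t1 n)) :=
        (slBd_cont1 (hf n) i (t0 n)).add (slBd_cont2 (hf n) i (t1 n))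
      have c2 : Continuous fun z => Real.sqrt (2 * Real.pi * slErr (f (φ n)) i z) :=
        (continuous_const.mul (slErr_cont (hf n) i)).sqrt
      rw [intervalIntegral.integral_add (c1.intervalIntegrable _ _) (c2.intervalIntegrable _ _)]
      have h1 : ∫ z in (0:ℝ)..1, slBd (f (φ n)) i (t0 n) (t1 n) z =
          sArea (f (φ n)) (i.succAbove 0) (t0 n) + sArea (f (φ n)) (i.succAbove 1) (t1 n) := by
        unfold slBd
        rw [intervalIntegral.integral_add ((slBd_cont1 (hf n) i (t0 n)).intervalIntegrable _ _)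
          ((slBd_cont2 (hf n) i (t1 n)).intervalIntegrable _ _), (slice_swap (hf n) i (t0 n)).1,
          (slice_swap (hf n) i (t1 n)).2]
      have h2 := sl_err_int (hf n) i
      have h3 := (hP n).2.2.2
      have h4 := ht0 n
      have h5 := ht1 n
      linarith)
    (fun n => by
      have h1 := jensen_slice (hf n) i
      have h2 := (hP n).2.1
      have h3 := hε0 n
      refine h1.trans (h2.trans ?_)
      linarith)
    (fun n z => by
      have h1 := holder_avg (slice_nice (hf n) i z) (F := fun a => Real.sqrt (Real.pi * a))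
        (fun x y hx hx1 hy hy1 => sqrt_holder x y hx hx1 hy hy1)
      have h2 := cut_plane (slice_nice (hf n) i z) ![t0 n, t1 n]
      have h3 : ∫ s in (0:ℝ)..1, Real.sqrt (Real.pi * lev (slice (f (φ n)) i z) s) =
          Real.sqrt Real.pi * ∫ s in (0:ℝ)..1, Real.sqrt (lev (slice (f (φ n)) i z) s) := by
        rw [← intervalIntegral.integral_const_mul]
        refine intervalIntegral.integral_congr fun s _ => ?_
        exact Real.sqrt_mul Real.pi_pos.le _
      simp only [h3] at h1
      have h4 : hTV (slice (f (φ n)) i z) + slBd (f (φ n)) i (t0 n) (t1 n) z =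
          hTV (slice (f (φ n)) i z) +
          (∫ y in (0:ℝ)..1, slice (f (φ n)) i z ![(![t0 n, t1 n] : Fin 2 → ℝ) 0, y]) +
          ∫ x in (0:ℝ)..1, slice (f (φ n)) i z ![x, (![t0 n, t1 n] : Fin 2 → ℝ) 1] := by
        unfold slBd
        simp [add_assoc]
      have h5 := h1.trans h2
      rw [← h4] at h5
      have h6 : Real.sqrt (Real.pi * sArea (f (φ n)) i z) -
          Real.sqrt (2 * Real.pi * slErr (f (φ n)) i z) ≤
          hTV (slice (f (φ n)) i z) + slBd (f (φ n)) i (t0 n) (t1 n) z := h5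
      linarith)
    (fun n => by
      have h1 := fubini_slice (hf n).smooth.continuous i
      have h2 := (hP n).2.2.1
      have h3 := hε0 n
      have h4 : ∫ t in (0:ℝ)..1, sArea (f (φ n)) i t = ∫ x in cell 3, f (φ n) x := h1.symm
      rw [h4, ← hV]
      linarith)
    (fun n => by
      obtain ⟨z, hz⟩ := (hP n).1 i
      exact ⟨z, by
        have := hε0 n
        show sArea (f (φ n)) i z ≤ 3 * (1 / ((n : ℝ) + 1))
        linarith⟩)
  exact h.mom_le i fun η hη => hφ.tendsto_atTop.frequently (key η hη).frequently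

end Vale.Agent.P232
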