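import Vale.Agent.P232U.Defs

/-!
# P232: bathtub principle
-/

open MeasureTheory Set Filter Topology

namespace Vale.Agent.P232

private theorem bath_cell_meas : MeasurableSet (cell 3) :=
  MeasurableSet.univ_pi fun _ => measurableSet_Ico

private theorem bath_cell_vol : volume (cell 3) = 1 := by
  unfold cell
  rw [Real.volume_pi_Ico]
  simp

theorem bathtub {E : Set (Fin 3 → ℝ)} (hE : MeasurableSet E) {φ : (Fin 3 → ℝ) → ℝ}
    (hφ : Measurable φ) {K r : ℝ} (hK : ∀ x, |φ x| ≤ K)
    (hvol : vol E = vol {x | φ x < r}) (hnull : volume ({x | φ x = r} ∩ cell 3) = 0)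
    (hle : ∫ x in E ∩ cell 3, φ x ≤ ∫ x in {x | φ x < r} ∩ cell 3, φ x) :
    AEq E {x | φ x < r} := by
  obtain ⟨B, hBdef⟩ : ∃ B : Set (Fin 3 → ℝ), B = {x | φ x < r} := ⟨_, rfl⟩
  have hB : MeasurableSet B := by rw [hBdef]; exact measurableSet_lt hφ measurable_const
  have hC := bath_cell_meas
  have hfin : ∀ S : Set (Fin 3 → ℝ), volume (S ∩ cell 3) ≠ ⊤ := fun S =>
    ne_top_of_le_ne_top (by rw [bath_cell_vol]; exact ENNReal.one_ne_top)
      (measure_mono inter_subset_right)
  have hfinC : volume (cell 3) ≠ ⊤ := by rw [bath_cell_vol]; exact ENNReal.one_ne_top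
  have hint : ∀ S : Set (Fin 3 → ℝ), volume S ≠ ⊤ → IntegrableOn φ S := by
    intro S hS
    refine Measure.integrableOn_of_bounded (M := K) hS hφ.aestronglyMeasurable ?_
    exact Eventually.of_forall fun x => by rw [Real.norm_eq_abs]; exact hK x
  have hconst : ∀ S : Set (Fin 3 → ℝ), volume S ≠ ⊤ → IntegrableOn (fun _ : Fin 3 → ℝ => r) S :=
    fun S hS => integrableOn_const hS
  have hψint : ∀ S : Set (Fin 3 → ℝ), MeasurableSet S →
      ∫ x in S ∩ cell 3, (φ x - r) = (∫ x in S ∩ cell 3, φ x) - r * vol S := by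
    intro S _
    rw [integral_sub (hint _ (hfin S)) (hconst _ (hfin S)), setIntegral_const]
    unfold vol
    rw [Measure.real, smul_eq_mul, mul_comm]
  have h1 : ∫ x in E ∩ cell 3, (φ x - r) ≤ ∫ x in B ∩ cell 3, (φ x - r) := by
    rw [hψint E hE, hψint B hB, hBdef, ← hvol]
    linarith
  have hψC : IntegrableOn (fun x => φ x - r) (cell 3) :=
    (hint _ hfinC).sub (hconst _ hfinC)
  obtain ⟨g, hg⟩ : ∃ g : (Fin 3 → ℝ) → ℝ, g = fun x =>
      E.indicator (fun x => φ x - r) x - B.indicator (fun x => φ x - r) x := ⟨_, rfl⟩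
  have hg0 : ∀ x, 0 ≤ g x := by
    intro x
    rw [hg]
    by_cases hxE : x ∈ E <;> by_cases hxB : x ∈ B
    · simp [hxE, hxB]
    · have hx : ¬ φ x < r := by rw [hBdef] at hxB; exact hxB
      simp only [hxE, hxB, indicator_of_mem, indicator_of_notMem, not_false_eq_true, sub_zero]
      linarith
    · have hx : φ x < r := by rw [hBdef] at hxB; exact hxB
      simp only [hxE, hxB, indicator_of_mem, indicator_of_notMem, not_false_eq_true, zero_sub]
      linarith
    · simp [hxE, hxB]
  have hgint : IntegrableOn g (cell 3) := by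
    rw [hg]
    exact (hψC.indicator hE).sub (hψC.indicator hB)
  have hgI : ∫ x in cell 3, g x = 0 := by
    apply le_antisymm
    · have e1 : ∫ x in cell 3, g x = (∫ x in E ∩ cell 3, (φ x - r)) -
          ∫ x in B ∩ cell 3, (φ x - r) := by
        rw [hg]
        rw [integral_sub (hψC.indicator hE) (hψC.indicator hB), setIntegral_indicator hE,
          setIntegral_indicator hB, inter_comm (cell 3) E, inter_comm (cell 3) B]
      rw [e1]
      linarith
    · exact integral_nonneg hg0
  have hae : g =ᵐ[volume.restrict (cell 3)] 0 :=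
    (integral_eq_zero_iff_of_nonneg hg0 hgint).1 hgI
  have hae2 : volume ({x | g x ≠ 0} ∩ cell 3) = 0 := by
    have := ae_iff.1 hae
    rw [Measure.restrict_apply₀'] at this
    · exact this
    · exact hC.nullMeasurableSet
  unfold AEq
  refine measure_mono_null ?_ (measure_union_null hae2 hnull)
  rintro x ⟨hx, hxC⟩
  rw [← hBdef] at hx
  rcases hx with ⟨hxE, hxB⟩ | ⟨hxB, hxE⟩
  · by_cases hr : φ x = r
    · exact Or.inr ⟨hr, hxC⟩
    · left
      refine ⟨?_, hxC⟩
      show g x ≠ 0
      rw [hg]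
      simp only [hxE, hxB, indicator_of_mem, indicator_of_notMem, not_false_eq_true, sub_zero]
      exact sub_ne_zero.2 hr
  · left
    refine ⟨?_, hxC⟩
    show g x ≠ 0
    have hx : φ x < r := by rw [hBdef] at hxB; exact hxB
    rw [hg]
    simp only [hxE, hxB, indicator_of_mem, indicator_of_notMem, not_false_eq_true, zero_sub]
    intro h
    linarith

end Vale.Agent.P232
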