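import Mathlib

/-! # P232: CORE, step 4: weighted Hardy-type estimates on an interval of length at most one -/

open MeasureTheory Set Filter Topology

namespace Vale.Agent.P232

/-- step 4 on `[0,s]` -/
theorem core_step4 {q H H' : ℝ → ℝ} {s ω : ℝ} (hs0 : 0 ≤ s) (hs1 : s ≤ 1) (hω : 0 ≤ ω)
    (hq : Continuous q) (hq0 : ∀ t, 0 ≤ q t) (hH : ∀ t, HasDerivAt H (H' t) t)
    (hH' : Continuous H') (h0 : H 0 = 0)
    (hm : ∀ x y, 0 ≤ x → x ≤ y → y ≤ s → q y ≤ q x + ω) :
    ∫ t in (0:ℝ)..s, q t * |H t| ≤
      (∫ t in (0:ℝ)..s, q t * |H' t|) + ω * ∫ t in (0:ℝ)..s, |H' t| := by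
  have hHc : Continuous H := continuous_iff_continuousAt.2 fun t => (hH t).continuousAt
  have ha : Continuous fun t => |H' t| := hH'.abs
  set G : ℝ → ℝ := fun t => ∫ x in (0:ℝ)..t, |H' x| with hG
  set Q : ℝ → ℝ := fun t => -∫ x in s..t, q x with hQ
  have dG : ∀ t, HasDerivAt G (|H' t|) t := fun t => (ha.integral_hasStrictDerivAt 0 t).hasDerivAt
  have dQ : ∀ t, HasDerivAt Q (-q t) t := fun t => (hq.integral_hasStrictDerivAt s t).hasDerivAt.neg
  have cG : Continuous G := continuous_iff_continuousAt.2 fun t => (dG t).continuousAt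
  have cQ : Continuous Q := continuous_iff_continuousAt.2 fun t => (dQ t).continuousAt
  have h1 : ∀ t ∈ Icc (0:ℝ) s, |H t| ≤ G t := by
    intro t ht
    have e : ∫ x in (0:ℝ)..t, H' x = H t - H 0 :=
      intervalIntegral.integral_eq_sub_of_hasDerivAt (fun x _ => hH x)
        (hH'.intervalIntegrable _ _)
    rw [h0, sub_zero] at e
    rw [← e]
    exact intervalIntegral.abs_integral_le_integral_abs ht.1
  have h2 : ∫ t in (0:ℝ)..s, (Q t * |H' t| - q t * G t) = 0 := by
    have e : ∫ t in (0:ℝ)..s, (-q t * G t + Q t * |H' t|) = Q s * G s - Q 0 * G 0 :=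
      intervalIntegral.integral_eq_sub_of_hasDerivAt (fun x _ => (dQ x).mul (dG x))
        (((hq.neg.mul cG).add (cQ.mul ha)).intervalIntegrable _ _)
    have e1 : Q s = 0 := by simp [hQ]
    have e2 : G 0 = 0 := by simp [hG]
    rw [e1, e2, zero_mul, mul_zero, sub_zero] at e
    have e3 : ∫ t in (0:ℝ)..s, (Q t * |H' t| - q t * G t) =
        ∫ t in (0:ℝ)..s, (-q t * G t + Q t * |H' t|) :=
      intervalIntegral.integral_congr fun t _ => by
        show Q t * |H' t| - q t * G t = -q t * G t + Q t * |H' t|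
        ring
    rw [e3, e]
  have c1 : Continuous fun t => Q t * |H' t| := cQ.mul ha
  have c2 : Continuous fun t => q t * G t := hq.mul cG
  rw [intervalIntegral.integral_sub (c1.intervalIntegrable _ _) (c2.intervalIntegrable _ _)] at h2
  have h3 : ∫ t in (0:ℝ)..s, q t * |H t| ≤ ∫ t in (0:ℝ)..s, q t * G t :=
    intervalIntegral.integral_mono_on hs0 ((hq.mul hHc.abs).intervalIntegrable _ _)
      ((hq.mul cG).intervalIntegrable _ _) fun t ht =>
        mul_le_mul_of_nonneg_left (h1 t ht) (hq0 t)
  have h4 : ∫ t in (0:ℝ)..s, Q t * |H' t| ≤ ∫ t in (0:ℝ)..s, (q t * |H' t| + ω * |H' t|) := by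
    refine intervalIntegral.integral_mono_on hs0 ((cQ.mul ha).intervalIntegrable _ _)
      (((hq.mul ha).add (continuous_const.mul ha)).intervalIntegrable _ _) fun t ht => ?_
    have h5 : Q t ≤ q t + ω := by
      have e1 : Q t = ∫ x in t..s, q x := by
        show -(∫ x in s..t, q x) = ∫ x in t..s, q x
        rw [intervalIntegral.integral_symm t s, neg_neg]
      have e2 : ∫ x in t..s, q x ≤ ∫ _ in t..s, (q t + ω) :=
        intervalIntegral.integral_mono_on ht.2 (hq.intervalIntegrable _ _)
          (continuous_const.intervalIntegrable _ _) fun x hx => hm t x ht.1 hx.1 hx.2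
      rw [intervalIntegral.integral_const, smul_eq_mul] at e2
      rw [e1]
      refine e2.trans ?_
      have e3 : 0 ≤ q t + ω := add_nonneg (hq0 t) hω
      have e4 : s - t ≤ 1 := by linarith [ht.1]
      nlinarith
    calc Q t * |H' t| ≤ (q t + ω) * |H' t| := mul_le_mul_of_nonneg_right h5 (abs_nonneg _)
      _ = q t * |H' t| + ω * |H' t| := by ring
  have c3 : Continuous fun t => q t * |H' t| := hq.mul ha
  have c4 : Continuous fun t => ω * |H' t| := continuous_const.mul ha
  rw [intervalIntegral.integral_add (c3.intervalIntegrable _ _) (c4.intervalIntegrable _ _),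
    intervalIntegral.integral_const_mul] at h4
  linarith

/-- step 4 on `[s,1]` -/
theorem core_step4' {q H H' : ℝ → ℝ} {s ω : ℝ} (hs0 : 0 ≤ s) (hs1 : s ≤ 1) (hω : 0 ≤ ω)
    (hq : Continuous q) (hq0 : ∀ t, 0 ≤ q t) (hH : ∀ t, HasDerivAt H (H' t) t)
    (hH' : Continuous H') (h0 : H 1 = 0)
    (hm : ∀ x y, s ≤ x → x ≤ y → y ≤ 1 → q x ≤ q y + ω) :
    ∫ t in s..1, q t * |H t| ≤
      (∫ t in s..1, q t * |H' t|) + ω * ∫ t in s..1, |H' t| := by
  have hHc : Continuous H := continuous_iff_continuousAt.2 fun t => (hH t).continuousAt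
  have ha : Continuous fun t => |H' t| := hH'.abs
  set G : ℝ → ℝ := fun t => -∫ x in (1:ℝ)..t, |H' x| with hG
  set Q : ℝ → ℝ := fun t => ∫ x in s..t, q x with hQ
  have dG : ∀ t, HasDerivAt G (-|H' t|) t := fun t =>
    (ha.integral_hasStrictDerivAt 1 t).hasDerivAt.neg
  have dQ : ∀ t, HasDerivAt Q (q t) t := fun t => (hq.integral_hasStrictDerivAt s t).hasDerivAt
  have cG : Continuous G := continuous_iff_continuousAt.2 fun t => (dG t).continuousAt
  have cQ : Continuous Q := continuous_iff_continuousAt.2 fun t => (dQ t).continuousAt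
  have h1 : ∀ t ∈ Icc s (1:ℝ), |H t| ≤ G t := by
    intro t ht
    have e : ∫ x in t..1, H' x = H 1 - H t :=
      intervalIntegral.integral_eq_sub_of_hasDerivAt (fun x _ => hH x)
        (hH'.intervalIntegrable _ _)
    rw [h0, zero_sub] at e
    have e1 : G t = ∫ x in t..1, |H' x| := by
      show -(∫ x in (1:ℝ)..t, |H' x|) = ∫ x in t..1, |H' x|
      rw [intervalIntegral.integral_symm t 1, neg_neg]
    rw [e1, ← abs_neg, ← e]
    exact intervalIntegral.abs_integral_le_integral_abs ht.2
  have h2 : ∫ t in s..1, (Q t * |H' t| - q t * G t) = 0 := by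
    have e : ∫ t in s..1, (q t * G t + Q t * -|H' t|) = Q 1 * G 1 - Q s * G s :=
      intervalIntegral.integral_eq_sub_of_hasDerivAt (fun x _ => (dQ x).mul (dG x))
        (((hq.mul cG).add (cQ.mul ha.neg)).intervalIntegrable _ _)
    have e1 : Q s = 0 := by simp [hQ]
    have e2 : G 1 = 0 := by simp [hG]
    rw [e1, e2, zero_mul, mul_zero, sub_zero] at e
    have e3 : ∫ t in s..1, (Q t * |H' t| - q t * G t) =
        -∫ t in s..1, (q t * G t + Q t * -|H' t|) := by
      rw [← intervalIntegral.integral_neg]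
      exact intervalIntegral.integral_congr fun t _ => by
        show Q t * |H' t| - q t * G t = -(q t * G t + Q t * -|H' t|)
        ring
    rw [e3, e, neg_zero]
  have c1 : Continuous fun t => Q t * |H' t| := cQ.mul ha
  have c2 : Continuous fun t => q t * G t := hq.mul cG
  rw [intervalIntegral.integral_sub (c1.intervalIntegrable _ _) (c2.intervalIntegrable _ _)] at h2
  have h3 : ∫ t in s..1, q t * |H t| ≤ ∫ t in s..1, q t * G t :=
    intervalIntegral.integral_mono_on hs1 ((hq.mul hHc.abs).intervalIntegrable _ _)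
      ((hq.mul cG).intervalIntegrable _ _) fun t ht =>
        mul_le_mul_of_nonneg_left (h1 t ht) (hq0 t)
  have h4 : ∫ t in s..1, Q t * |H' t| ≤ ∫ t in s..1, (q t * |H' t| + ω * |H' t|) := by
    refine intervalIntegral.integral_mono_on hs1 ((cQ.mul ha).intervalIntegrable _ _)
      (((hq.mul ha).add (continuous_const.mul ha)).intervalIntegrable _ _) fun t ht => ?_
    have h5 : Q t ≤ q t + ω := by
      have e2 : ∫ x in s..t, q x ≤ ∫ _ in s..t, (q t + ω) :=
        intervalIntegral.integral_mono_on ht.1 (hq.intervalIntegrable _ _)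
          (continuous_const.intervalIntegrable _ _) fun x hx => hm x t hx.1 hx.2 ht.2
      rw [intervalIntegral.integral_const, smul_eq_mul] at e2
      refine e2.trans ?_
      have e3 : 0 ≤ q t + ω := add_nonneg (hq0 t) hω
      have e4 : t - s ≤ 1 := by linarith [ht.2]
      nlinarith
    calc Q t * |H' t| ≤ (q t + ω) * |H' t| := mul_le_mul_of_nonneg_right h5 (abs_nonneg _)
      _ = q t * |H' t| + ω * |H' t| := by ring
  have c3 : Continuous fun t => q t * |H' t| := hq.mul ha
  have c4 : Continuous fun t => ω * |H' t| := continuous_const.mul ha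
  rw [intervalIntegral.integral_add (c3.intervalIntegrable _ _) (c4.intervalIntegrable _ _),
    intervalIntegral.integral_const_mul] at h4
  linarith

end Vale.Agent.P232
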