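import Vale.Agent.P232U.Defs
import Vale.Agent.P232.Shift
import Vale.Agent.P232.Slicing

/-! # P232 uniqueness, module CYL: approximating sequences independent of one coordinate
(helper3) -/

open MeasureTheory Set Filter Topology

namespace Vale.Agent.P232

/-- averaging over the fixed coordinate -/
theorem CYL_avg {F : ℝ → (Fin 3 → ℝ) → ℝ} (hm : Measurable (Function.uncurry F)) {B : ℝ}
    (hB : ∀ z x, |F z x| ≤ B) (hper : ∀ z x, F (z + 1) x = F z x) (i : Fin 3) {A : ℝ}
    (hA : ∀ h, ∫ x in cell 3, F (x i + h) x ≤ A) : ∃ z, ∫ x in cell 3, F z x ≤ A := by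
  have hv1 : (volume : Measure ℝ) (Ioc 0 1) = 1 := by simp
  have : IsProbabilityMeasure ((volume : Measure ℝ).restrict (Ioc 0 1)) :=
    ⟨by rw [Measure.restrict_apply_univ, hv1]⟩
  have : IsFiniteMeasure ((volume : Measure (Fin 3 → ℝ)).restrict (cell 3)) :=
    ⟨by rw [Measure.restrict_apply_univ, sl_cell_vol]; exact ENNReal.one_lt_top⟩
  set μ1 := (volume : Measure ℝ).restrict (Ioc 0 1) with hμ1
  set μ3 := (volume : Measure (Fin 3 → ℝ)).restrict (cell 3) with hμ3
  have i1 : Integrable (Function.uncurry F) (μ1.prod μ3) :=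
    Integrable.of_bound hm.aestronglyMeasurable B
      (Eventually.of_forall fun p => by rw [Real.norm_eq_abs]; exact hB p.1 p.2)
  have hm2 : Measurable (Function.uncurry fun (h : ℝ) (x : Fin 3 → ℝ) => F (x i + h) x) := by
    have : (Function.uncurry fun (h : ℝ) (x : Fin 3 → ℝ) => F (x i + h) x) =
        (Function.uncurry F) ∘ fun p : ℝ × (Fin 3 → ℝ) => (p.2 i + p.1, p.2) := rfl
    rw [this]
    refine hm.comp ?_
    have hx : Measurable fun p : ℝ × (Fin 3 → ℝ) => p.2 i :=
      (measurable_pi_apply i).comp measurable_snd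
    exact (hx.add measurable_fst).prodMk measurable_snd
  have i2 : Integrable (Function.uncurry fun (h : ℝ) (x : Fin 3 → ℝ) => F (x i + h) x)
      (μ1.prod μ3) :=
    Integrable.of_bound hm2.aestronglyMeasurable B
      (Eventually.of_forall fun p => by rw [Real.norm_eq_abs]; exact hB _ p.2)
  have i3 : Integrable (fun z => ∫ x, F z x ∂μ3) μ1 := i1.integral_prod_left
  obtain ⟨z, hz⟩ := exists_le_integral i3
  refine ⟨z, hz.trans ?_⟩
  have e1 : ∫ z, ∫ x, F z x ∂μ3 ∂μ1 = ∫ x, ∫ z, F z x ∂μ1 ∂μ3 := integral_integral_swap i1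
  have e2 : ∫ h, ∫ x, F (x i + h) x ∂μ3 ∂μ1 = ∫ x, ∫ h, F (x i + h) x ∂μ1 ∂μ3 :=
    integral_integral_swap i2
  have e3 : ∀ x : Fin 3 → ℝ, ∫ z, F z x ∂μ1 = ∫ h, F (x i + h) x ∂μ1 := by
    intro x
    rw [hμ1, ← intervalIntegral.integral_of_le zero_le_one,
      ← intervalIntegral.integral_of_le zero_le_one]
    rw [intervalIntegral.integral_comp_add_left (fun z => F z x)]
    have hp : Function.Periodic (fun z => F z x) 1 := fun z => hper z x
    have := hp.intervalIntegral_add_eq 0 (x i + 0)
    rw [zero_add] at this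
    rw [this]
    congr 1
    ring
  rw [e1]
  simp only [e3]
  rw [← e2]
  have e4 : ∫ h, ∫ x, F (x i + h) x ∂μ3 ∂μ1 ≤ ∫ _h, A ∂μ1 :=
    integral_mono i2.integral_prod_left (integrable_const _) hA
  simpa using e4

/-- the map fixing the coordinate `i` -/
theorem CYL_cd (i : Fin 3) (z : ℝ) :
    ContDiff ℝ 1 (fun x : Fin 3 → ℝ => Function.update x i z) := by
  rw [contDiff_pi]
  intro j
  by_cases h : j = i
  · subst h
    simp only [Function.update_self]
    exact contDiff_const
  · simp only [Function.update_of_ne h]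
    exact contDiff_apply ℝ ℝ j

theorem CYL_nice {f : (Fin 3 → ℝ) → ℝ} (hf : Nice f) (i : Fin 3) (z : ℝ) :
    Nice (fun x => f (Function.update x i z)) where
  smooth := hf.smooth.comp (CYL_cd i z)
  per := by
    intro x k
    have h := hf.per (Function.update x i z) (Function.update k i 0)
    show f _ = f _
    rw [← h]
    congr 1
    funext j
    by_cases hj : j = i
    · subst hj
      simp
    · simp [Function.update_of_ne hj]
  nonneg := fun x => hf.nonneg _
  le_one := fun x => hf.le_one _

theorem CYL_gradN_per {f : (Fin 3 → ℝ) → ℝ} (hf : IsPer f) : IsPer (gradN f) := by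
  intro x k
  have h1 : fderiv ℝ f (x + fun i => (k i : ℝ)) = fderiv ℝ f x := by
    rw [← fderiv_comp_add_right]
    congr 1
    funext y
    exact hf y k
  unfold gradN
  rw [h1]

theorem CYL_gradN_le {f : (Fin 3 → ℝ) → ℝ} (hf : Nice f) (i : Fin 3) (z : ℝ) (x : Fin 3 → ℝ) :
    gradN (fun y => f (Function.update y i z)) x ≤ gradN f (Function.update x i z) := by
  have hg := CYL_nice hf i z
  unfold gradN
  refine Real.sqrt_le_sqrt (Finset.sum_le_sum fun j _ => ?_)
  have d1 : DifferentiableAt ℝ (fun y => f (Function.update y i z)) x :=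
    (hg.smooth.differentiable one_ne_zero) x
  have d2 : DifferentiableAt ℝ f (Function.update x i z) :=
    (hf.smooth.differentiable one_ne_zero) _
  rw [← d1.lineDeriv_eq_fderiv, ← d2.lineDeriv_eq_fderiv]
  unfold lineDeriv
  by_cases hj : j = i
  · subst hj
    have : (fun t : ℝ => f (Function.update (x + t • (Pi.single j 1 : Fin 3 → ℝ)) j z)) =
        fun _ => f (Function.update x j z) := by
      funext t
      congr 1
      funext l
      by_cases hl : l = j
      · subst hl; simp
      · simp [Function.update_of_ne hl, Pi.single_eq_of_ne hl]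
    rw [this, deriv_const]
    calc (0 : ℝ) ^ 2 = 0 := by norm_num
      _ ≤ _ := sq_nonneg _
  · have : (fun t : ℝ => f (Function.update (x + t • (Pi.single j 1 : Fin 3 → ℝ)) i z)) =
        fun t => f (Function.update x i z + t • (Pi.single j 1 : Fin 3 → ℝ)) := by
      funext t
      congr 1
      funext l
      by_cases hl : l = i
      · subst hl
        simp [Pi.single_eq_of_ne (Ne.symm hj)]
      · simp [Function.update_of_ne hl]
    rw [this]

theorem CYL_bound {G : (Fin 3 → ℝ) → ℝ} (hG : Continuous G) (hper : IsPer G) :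
    ∃ C, ∀ x, |G x| ≤ C := by
  obtain ⟨C, hC⟩ := (isCompact_Icc (a := (0 : Fin 3 → ℝ)) (b := 1)).exists_bound_of_continuousOn
    hG.continuousOn
  refine ⟨C, fun x => ?_⟩
  have h1 : (x + fun i => ((-⌊x i⌋ : ℤ) : ℝ)) ∈ Icc (0 : Fin 3 → ℝ) 1 := by
    constructor
    · intro i
      simp only [Pi.zero_apply, Pi.add_apply, Int.cast_neg]
      linarith [Int.floor_le (x i)]
    · intro i
      simp only [Pi.one_apply, Pi.add_apply, Int.cast_neg]
      linarith [(Int.lt_floor_add_one (x i)).le]
  have h2 := hC _ h1
  rw [hper x (fun i => -⌊x i⌋), Real.norm_eq_abs] at h2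
  exact h2

/-- one step: a good slice -/
theorem CYL_step {E : Set (Fin 3 → ℝ)} (hE : MeasurableSet E) (hper : IsPerSet E)
    {f : (Fin 3 → ℝ) → ℝ} (hf : Nice f) (i : Fin 3) (hinv : InvDir E i) {s : ℝ} (hs : 0 < s)
    (hl : ∫ x in cell 3, |f x - E.indicator (fun _ => (1 : ℝ)) x| ≤ s ^ 2) :
    ∃ z, hTV (fun x => f (Function.update x i z)) ≤ hTV f + s ∧
      ∫ x in cell 3, |f (Function.update x i z) - E.indicator (fun _ => (1 : ℝ)) x| ≤
        s * (hTV f + s) := by
  have : IsFiniteMeasure ((volume : Measure (Fin 3 → ℝ)).restrict (cell 3)) :=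
    ⟨by rw [Measure.restrict_apply_univ, sl_cell_vol]; exact ENNReal.one_lt_top⟩
  set e : (Fin 3 → ℝ) → ℝ := E.indicator (fun _ => (1 : ℝ)) with he
  have hem : Measurable e := measurable_const.indicator hE
  have he0 : ∀ x, 0 ≤ e x := fun x => Set.indicator_nonneg (fun _ _ => zero_le_one) x
  have he1 : ∀ x, e x ≤ 1 := fun x => Set.indicator_le_self' (fun _ _ => zero_le_one) x |>.trans
    (le_refl _)
  have hgc : Continuous (gradN f) := e3_gradN hf.smooth
  obtain ⟨C, hC⟩ := CYL_bound hgc (CYL_gradN_per hf.per)
  have huc : Continuous fun p : ℝ × (Fin 3 → ℝ) => Function.update p.2 i p.1 :=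
    continuous_snd.update i continuous_fst
  have hfe : ∀ x y, |f x - e y| ≤ 1 := by
    intro x y
    rw [abs_le]
    constructor <;> linarith [hf.nonneg x, hf.le_one x, he0 y, he1 y]
  set F : ℝ → (Fin 3 → ℝ) → ℝ := fun z x =>
    (1 / 2) * gradN f (Function.update x i z) + s⁻¹ * |f (Function.update x i z) - e x| with hF
  have hmf : Measurable fun p : ℝ × (Fin 3 → ℝ) => |f (Function.update p.2 i p.1) - e p.2| := by
    have h1 : Measurable fun p : ℝ × (Fin 3 → ℝ) => f (Function.update p.2 i p.1) :=
      (hf.smooth.continuous.comp huc).measurable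
    exact (h1.sub (hem.comp measurable_snd)).abs
  have hmg : Measurable fun p : ℝ × (Fin 3 → ℝ) => gradN f (Function.update p.2 i p.1) :=
    (hgc.comp huc).measurable
  have hper1 : ∀ (z : ℝ) (x : Fin 3 → ℝ) (G : (Fin 3 → ℝ) → ℝ), IsPer G →
      G (Function.update x i (z + 1)) = G (Function.update x i z) := by
    intro z x G hG
    rw [← hG (Function.update x i z) (Pi.single i 1)]
    congr 1
    funext j
    by_cases hj : j = i
    · subst hj; simp
    · simp [Function.update_of_ne hj, Pi.single_eq_of_ne hj]
  -- the average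
  have hsh : ∀ (h : ℝ) (x : Fin 3 → ℝ), Function.update x i (x i + h) =
      x + (Pi.single i h : Fin 3 → ℝ) := by
    intro h x
    funext j
    by_cases hj : j = i
    · subst hj; simp
    · simp [Function.update_of_ne hj, Pi.single_eq_of_ne hj]
  have heper : IsPer e := by
    intro x k
    have hk := hper x k
    by_cases hx : x ∈ E
    · rw [he, Set.indicator_of_mem hx, Set.indicator_of_mem (hk.2 hx)]
    · rw [he, Set.indicator_of_notMem hx, Set.indicator_of_notMem fun h => hx (hk.1 h)]
  have key : ∀ h, ∫ x in cell 3, F (x i + h) x ≤ hTV f + s := by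
    intro h
    have a1 : ∫ x in cell 3, F (x i + h) x =
        (∫ x in cell 3, (1 / 2) * gradN f (x + Pi.single i h)) +
          ∫ x in cell 3, s⁻¹ * |f (x + Pi.single i h) - e (x + Pi.single i h)| := by
      rw [← integral_add]
      · refine integral_congr_ae ?_
        have hae : ∀ᵐ x ∂((volume : Measure (Fin 3 → ℝ)).restrict (cell 3)),
            e x = e (x + Pi.single i h) := by
          have h0 := hinv h
          unfold AEq at h0
          have hms : MeasurableSet (symmDiff E {x | Function.update x i (x i + h) ∈ E}) := by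
            refine hE.symmDiff ?_
            have : Measurable fun x : Fin 3 → ℝ => Function.update x i (x i + h) := by
              simp only [hsh]
              exact measurable_id.add_const _
            exact this hE
          have h1 : ∀ᵐ x ∂((volume : Measure (Fin 3 → ℝ)).restrict (cell 3)),
              x ∉ symmDiff E {x | Function.update x i (x i + h) ∈ E} := by
            rw [ae_iff]
            simp only [not_not]
            rw [Measure.restrict_apply (by exact hms)]
            exact h0
          filter_upwards [h1] with x hx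
          rw [Set.mem_symmDiff] at hx
          have hx' : ¬ (x ∈ E ∧ x + Pi.single i h ∉ E ∨ x + Pi.single i h ∈ E ∧ x ∉ E) := by
            intro hc
            apply hx
            rcases hc with hc | hc
            · left
              refine ⟨hc.1, fun h2 => hc.2 ?_⟩
              have h3 : Function.update x i (x i + h) ∈ E := h2
              rwa [hsh] at h3
            · right
              refine ⟨?_, hc.2⟩
              show Function.update x i (x i + h) ∈ E
              rw [hsh]
              exact hc.1
          by_cases hxE : x ∈ E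
          · by_cases hyE : x + Pi.single i h ∈ E
            · rw [he, Set.indicator_of_mem hxE, Set.indicator_of_mem hyE]
            · exact absurd (Or.inl ⟨hxE, hyE⟩) hx'
          · by_cases hyE : x + Pi.single i h ∈ E
            · exact absurd (Or.inr ⟨hyE, hxE⟩) hx'
            · rw [he, Set.indicator_of_notMem hxE, Set.indicator_of_notMem hyE]
        filter_upwards [hae] with x hx
        simp only [hF, hsh]
        rw [← hx]
      · refine Integrable.of_bound (C := (1 / 2) * C) ?_ (Eventually.of_forall fun x => ?_)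
        · exact (continuous_const.mul (hgc.comp
            (continuous_id.add continuous_const))).aestronglyMeasurable
        · rw [Real.norm_eq_abs, abs_mul, abs_of_nonneg (by norm_num : (0:ℝ) ≤ 1 / 2)]
          exact mul_le_mul_of_nonneg_left (hC _) (by norm_num)
      · refine Integrable.of_bound (C := s⁻¹) ?_ (Eventually.of_forall fun x => ?_)
        · have h1 : Measurable fun x : Fin 3 → ℝ => f (x + Pi.single i h) :=
            (hf.smooth.continuous.comp (continuous_id.add continuous_const)).measurable
          exact (((h1.sub (hem.comp (measurable_id.add_const _))).abs).const_mul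
            _).aestronglyMeasurable
        · rw [Real.norm_eq_abs, abs_mul, abs_abs, abs_of_nonneg (inv_nonneg.2 hs.le)]
          have := hfe (x + Pi.single i h) (x + Pi.single i h)
          have h2 : 0 ≤ s⁻¹ := inv_nonneg.2 hs.le
          nlinarith
    have p1 : IsPer fun x => (1 / 2) * gradN f x := fun x k => by
      simp only; rw [CYL_gradN_per hf.per x k]
    have p2 : IsPer fun x => s⁻¹ * |f x - e x| := fun x k => by
      simp only; rw [hf.per x k, heper x k]
    rw [a1, B1_integral_shift p1 (Pi.single i h), B1_integral_shift p2 (Pi.single i h),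
      integral_const_mul, integral_const_mul]
    have : s⁻¹ * ∫ x in cell 3, |f x - e x| ≤ s := by
      rw [inv_mul_le_iff₀ hs]
      nlinarith
    unfold hTV
    linarith
  obtain ⟨z, hz⟩ := CYL_avg (F := F) (B := (1 / 2) * C + s⁻¹)
    ((hmg.const_mul _).add (hmf.const_mul _)) (by
      intro z x
      have h1 := abs_add_le ((1 / 2) * gradN f (Function.update x i z))
        (s⁻¹ * |f (Function.update x i z) - e x|)
      refine h1.trans (add_le_add ?_ ?_)
      · rw [abs_mul, abs_of_nonneg (by norm_num : (0:ℝ) ≤ 1 / 2)]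
        exact mul_le_mul_of_nonneg_left (hC _) (by norm_num)
      · rw [abs_mul, abs_abs, abs_of_nonneg (inv_nonneg.2 hs.le)]
        have := hfe (Function.update x i z) x
        have h2 : 0 ≤ s⁻¹ := inv_nonneg.2 hs.le
        nlinarith)
    (by
      intro z x
      simp only [hF]
      rw [hper1 z x (gradN f) (CYL_gradN_per hf.per), hper1 z x f hf.per]) i key
  have q1 : Integrable (fun x => (1 / 2) * gradN f (Function.update x i z))
      ((volume : Measure (Fin 3 → ℝ)).restrict (cell 3)) := by
    refine Integrable.of_bound (C := (1 / 2) * C) ?_ (Eventually.of_forall fun x => ?_)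
    · exact (continuous_const.mul (hgc.comp
        (CYL_cd i z).continuous)).aestronglyMeasurable
    · rw [Real.norm_eq_abs, abs_mul, abs_of_nonneg (by norm_num : (0:ℝ) ≤ 1 / 2)]
      exact mul_le_mul_of_nonneg_left (hC _) (by norm_num)
  have q2 : Integrable (fun x => s⁻¹ * |f (Function.update x i z) - e x|)
      ((volume : Measure (Fin 3 → ℝ)).restrict (cell 3)) := by
    refine Integrable.of_bound (C := s⁻¹) ?_ (Eventually.of_forall fun x => ?_)
    · have h1 : Measurable fun x : Fin 3 → ℝ => f (Function.update x i z) :=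
        (hf.smooth.continuous.comp (CYL_cd i z).continuous).measurable
      exact (((h1.sub hem).abs).const_mul _).aestronglyMeasurable
    · rw [Real.norm_eq_abs, abs_mul, abs_abs, abs_of_nonneg (inv_nonneg.2 hs.le)]
      have := hfe (Function.update x i z) x
      have h2 : 0 ≤ s⁻¹ := inv_nonneg.2 hs.le
      nlinarith
  simp only [hF] at hz
  rw [integral_add q1 q2, integral_const_mul, integral_const_mul] at hz
  set B : ℝ := ∫ x in cell 3, |f (Function.update x i z) - e x| with hBdef
  have hB0 : 0 ≤ B := integral_nonneg fun x => abs_nonneg _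
  set G : ℝ := ∫ x in cell 3, gradN f (Function.update x i z) with hGdef
  have hG0 : 0 ≤ G := integral_nonneg fun x => Real.sqrt_nonneg _
  have hsi : 0 < s⁻¹ := inv_pos.2 hs
  refine ⟨z, ?_, ?_⟩
  · have r1 : ∫ x in cell 3, gradN (fun y => f (Function.update y i z)) x ≤ G := by
      refine integral_mono ?_ ?_ fun x => CYL_gradN_le hf i z x
      · exact e3_int (e3_gradN (CYL_nice hf i z).smooth)
      · exact e3_int (hgc.comp (CYL_cd i z).continuous)
    unfold hTV at hz ⊢
    have : 0 ≤ s⁻¹ * B := by positivity
    linarith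
  · have r2 : s⁻¹ * B ≤ hTV f + s := by linarith
    rw [inv_mul_le_iff₀ hs] at r2
    exact r2

theorem cyl_seq {E : Set (Fin 3 → ℝ)} {f : ℕ → (Fin 3 → ℝ) → ℝ} {J : ℝ} (h : NM J E f)
    (i : Fin 3) (hinv : InvDir E i) :
    ∃ g : ℕ → (Fin 3 → ℝ) → ℝ, NM J E g ∧ ∀ k x t, g k (Function.update x i t) = g k x := by
  set l : ℕ → ℝ := fun k => ∫ x in cell 3, |f k x - E.indicator (fun _ => (1 : ℝ)) x| with hl
  have hl0 : ∀ k, 0 ≤ l k := fun k => integral_nonneg fun x => abs_nonneg _
  set s : ℕ → ℝ := fun k => Real.sqrt (l k + 1 / ((k : ℝ) + 1)) with hs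
  have hpos : ∀ k, 0 < l k + 1 / ((k : ℝ) + 1) := fun k => by
    have : 0 < 1 / ((k : ℝ) + 1) := by positivity
    linarith [hl0 k]
  have hs0 : ∀ k, 0 < s k := fun k => Real.sqrt_pos.2 (hpos k)
  have hsl : Tendsto s atTop (𝓝 0) := by
    have h1 : Tendsto (fun k => l k + 1 / ((k : ℝ) + 1)) atTop (𝓝 (0 + 0)) :=
      h.l1.add tendsto_one_div_add_atTop_nhds_zero_nat
    have h2 := (Real.continuous_sqrt.tendsto (0 + 0)).comp h1
    rw [add_zero, Real.sqrt_zero] at h2
    exact h2
  have hstep : ∀ k, ∃ z, hTV (fun x => f k (Function.update x i z)) ≤ hTV (f k) + s k ∧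
      ∫ x in cell 3, |f k (Function.update x i z) - E.indicator (fun _ => (1 : ℝ)) x| ≤
        s k * (hTV (f k) + s k) := by
    intro k
    refine CYL_step h.meas h.per (h.nice k) i hinv (hs0 k) ?_
    rw [hs, Real.sq_sqrt (hpos k).le]
    have : 0 < 1 / ((k : ℝ) + 1) := by positivity
    show l k ≤ _
    linarith
  choose z hz1 hz2 using hstep
  refine ⟨fun k x => f k (Function.update x i (z k)), ⟨h.meas, h.per, fun k =>
    CYL_nice (h.nice k) i (z k), ?_, ?_⟩, ?_⟩
  · intro ε hε
    filter_upwards [h.tv (ε / 2) (by linarith), hsl.eventually (gt_mem_nhds (half_pos hε))]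
      with k hk1 hk2
    linarith [hz1 k]
  · have hub : Tendsto (fun k => s k * (J + 1 + s k)) atTop (𝓝 0) := by
      have := hsl.mul ((tendsto_const_nhds (x := J + 1)).add hsl)
      simpa using this
    refine squeeze_zero' (Eventually.of_forall fun k => integral_nonneg fun x => abs_nonneg _)
      ?_ hub
    filter_upwards [h.tv 1 one_pos] with k hk
    exact (hz2 k).trans (mul_le_mul_of_nonneg_left (by linarith) (hs0 k).le)
  · intro k x t
    simp only [Function.update_idem]

end Vale.Agent.P232
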