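import Vale.Agent.P232U.Defs
import Vale.Agent.P232.Joint

/-! # P232U, module DIR: Cauchy-Schwarz for one partial derivative -/

open MeasureTheory Set Filter Topology

namespace Vale.Agent.P232

private theorem dir_gen {A B D : (Fin 3 → ℝ) → ℝ} (hA : Continuous A) (hB : Continuous B)
    (hD : Continuous D) (hA0 : ∀ x, 0 ≤ A x) (hB0 : ∀ x, 0 ≤ B x)
    (h : ∀ x, D x ^ 2 ≤ A x * B x) :
    (∫ x in cell 3, D x) ^ 2 ≤ (∫ x in cell 3, A x) * ∫ x in cell 3, B x := by
  have key : ∀ t : ℝ, 0 ≤ (∫ x in cell 3, A x) * (t * t) + (-(2 * ∫ x in cell 3, D x)) * t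
      + ∫ x in cell 3, B x := by
    intro t
    have e : ∫ x in cell 3, ((A x * (t * t) - 2 * D x * t) + B x) =
        (∫ x in cell 3, A x) * (t * t) + (-(2 * ∫ x in cell 3, D x)) * t
          + ∫ x in cell 3, B x := by
      rw [integral_add, integral_sub, integral_mul_const, integral_mul_const, integral_const_mul]
      · ring
      · exact (e3_int hA).mul_const _
      · exact ((e3_int hD).const_mul 2).mul_const _
      · exact ((e3_int hA).mul_const _).sub (((e3_int hD).const_mul 2).mul_const _)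
      · exact e3_int hB
    rw [← e]
    refine integral_nonneg fun x => ?_
    show 0 ≤ (A x * (t * t) - 2 * D x * t) + B x
    have h1 := h x
    rcases (hA0 x).eq_or_lt with h0 | h0
    · rw [← h0, zero_mul] at h1
      have h2 : D x = 0 := by nlinarith [sq_nonneg (D x)]
      rw [← h0, h2]
      simpa using hB0 x
    · have h2 : 0 ≤ A x * ((A x * (t * t) - 2 * D x * t) + B x) := by
        nlinarith [sq_nonneg (A x * t - D x)]
      exact nonneg_of_mul_nonneg_right h2 h0
  have h1 := discrim_le_zero key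
  unfold discrim at h1
  nlinarith

private theorem dir_hTV {f : (Fin 3 → ℝ) → ℝ} : ∫ x in cell 3, gradN f x = 2 * hTV f := by
  unfold hTV
  ring

private theorem dir_sq_le {f : (Fin 3 → ℝ) → ℝ} (x : Fin 3 → ℝ) :
    gradN f x ^ 2 = ∑ i, (fderiv ℝ f x (Pi.single i 1)) ^ 2 := by
  unfold gradN
  rw [Real.sq_sqrt]
  exact Finset.sum_nonneg fun i _ => sq_nonneg _

theorem dir_cs {f : (Fin 3 → ℝ) → ℝ} (hf : Nice f) (i : Fin 3) :
    (∫ x in cell 3, |fderiv ℝ f x (Pi.single i 1)|) ^ 2 ≤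
      8 * hTV f * (hTV f - ∫ z in (0:ℝ)..1, hTV (slice f i z)) := by
  have hN : Continuous (gradN f) := e3_gradN hf.smooth
  have hG := j3_g_cont hf i
  have hd := j3_d_cont hf i
  have hN0 : ∀ x, 0 ≤ gradN f x := fun x => Real.sqrt_nonneg _
  have hG0 : ∀ x, 0 ≤ j3_g f i x := fun x => Real.sqrt_nonneg _
  have hdN : ∀ x, (fderiv ℝ f x (Pi.single i 1)) ^ 2 ≤ gradN f x ^ 2 := by
    intro x
    rw [dir_sq_le]
    exact Finset.single_le_sum (f := fun j => (fderiv ℝ f x (Pi.single j 1)) ^ 2)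
      (fun j _ => sq_nonneg _) (Finset.mem_univ i)
  have hG2 : ∀ x, j3_g f i x ^ 2 = gradN f x ^ 2 - (fderiv ℝ f x (Pi.single i 1)) ^ 2 := by
    intro x
    unfold j3_g
    exact Real.sq_sqrt (by linarith [hdN x])
  have hGN : ∀ x, j3_g f i x ≤ gradN f x := by
    intro x
    refine abs_le_of_sq_le_sq' ?_ (hN0 x) |>.2
    rw [hG2]
    linarith [sq_nonneg (fderiv ℝ f x (Pi.single i 1))]
  have h := dir_gen (A := fun x => 2 * gradN f x) (B := fun x => gradN f x - j3_g f i x)
    (D := fun x => |fderiv ℝ f x (Pi.single i 1)|) (continuous_const.mul hN) (hN.sub hG) hd.abs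
    (fun x => by have := hN0 x; positivity) (fun x => by linarith [hGN x]) (fun x => by
      show |fderiv ℝ f x (Pi.single i 1)| ^ 2 ≤ 2 * gradN f x * (gradN f x - j3_g f i x)
      rw [sq_abs]
      have h1 := hG2 x
      nlinarith [hG0 x, hN0 x, hGN x, mul_nonneg (sub_nonneg.2 (hGN x)) (sub_nonneg.2 (hGN x))])
  refine h.trans (le_of_eq ?_)
  have e1 : ∫ x in cell 3, j3_g f i x = 2 * ∫ z in (0:ℝ)..1, hTV (slice f i z) := by
    rw [fubini_slice hG i, ← intervalIntegral.integral_const_mul]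
    refine intervalIntegral.integral_congr fun z _ => ?_
    simp only [j3_g_ins hf]
    unfold hTV
    ring
  rw [integral_const_mul, integral_sub (e3_int hN) (e3_int hG), e1, dir_hTV]
  ring

theorem dir_cs2 {f : (Fin 3 → ℝ) → ℝ} (hf : Nice f) {i j : Fin 3} (hij : i ≠ j) :
    (∫ x in cell 3, |fderiv ℝ f x (Pi.single j 1)|) ^ 2 ≤
      8 * hTV f * (hTV f - (1 / 2) * ∫ x in cell 3, |fderiv ℝ f x (Pi.single i 1)|) := by
  have hN : Continuous (gradN f) := e3_gradN hf.smooth
  have hdi := j3_d_cont hf i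
  have hdj := j3_d_cont hf j
  have hN0 : ∀ x, 0 ≤ gradN f x := fun x => Real.sqrt_nonneg _
  have hdN : ∀ x, (fderiv ℝ f x (Pi.single i 1)) ^ 2 + (fderiv ℝ f x (Pi.single j 1)) ^ 2
      ≤ gradN f x ^ 2 := by
    intro x
    rw [dir_sq_le]
    have h1 := Finset.add_le_sum (s := Finset.univ)
      (f := fun k => (fderiv ℝ f x (Pi.single k 1)) ^ 2) (fun k _ => sq_nonneg _)
      (Finset.mem_univ i) (Finset.mem_univ j) hij
    exact h1
  have hGN : ∀ x, |fderiv ℝ f x (Pi.single i 1)| ≤ gradN f x := by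
    intro x
    refine abs_le_of_sq_le_sq' ?_ (hN0 x) |>.2
    rw [sq_abs]
    linarith [hdN x, sq_nonneg (fderiv ℝ f x (Pi.single j 1))]
  have h := dir_gen (A := fun x => 2 * gradN f x)
    (B := fun x => gradN f x - |fderiv ℝ f x (Pi.single i 1)|)
    (D := fun x => |fderiv ℝ f x (Pi.single j 1)|) (continuous_const.mul hN)
    (hN.sub hdi.abs) hdj.abs
    (fun x => by have := hN0 x; positivity) (fun x => by linarith [hGN x]) (fun x => by
      show |fderiv ℝ f x (Pi.single j 1)| ^ 2 ≤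
        2 * gradN f x * (gradN f x - |fderiv ℝ f x (Pi.single i 1)|)
      rw [sq_abs]
      have h1 := hdN x
      have h2 := sq_abs (fderiv ℝ f x (Pi.single i 1))
      have h3 := abs_nonneg (fderiv ℝ f x (Pi.single i 1))
      nlinarith [hN0 x, hGN x, mul_nonneg (sub_nonneg.2 (hGN x)) (sub_nonneg.2 (hGN x))])
  refine h.trans (le_of_eq ?_)
  rw [integral_const_mul, integral_sub (e3_int hN) (e3_int hdi.abs), dir_hTV]
  ring

end Vale.Agent.P232
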