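import Vale.Agent.P232U.Ball1

/-!
# P232U, module DISC1 (helper28): the one-dimensional disc problem
-/

open MeasureTheory Set Filter Topology

namespace Vale.Agent.P232

/-- `∫_0^y √(c² - a²) da` -/
noncomputable def d1H (c y : ℝ) : ℝ := ∫ a in (0:ℝ)..y, Real.sqrt (c ^ 2 - a ^ 2)

theorem d1_cont (c : ℝ) : Continuous fun a : ℝ => Real.sqrt (c ^ 2 - a ^ 2) := by fun_prop

theorem d1H_sub (c x y : ℝ) : d1H c y - d1H c x = ∫ a in x..y, Real.sqrt (c ^ 2 - a ^ 2) := by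
  have h : (∫ a in (0:ℝ)..x, Real.sqrt (c ^ 2 - a ^ 2)) + ∫ a in x..y, Real.sqrt (c ^ 2 - a ^ 2) =
      ∫ a in (0:ℝ)..y, Real.sqrt (c ^ 2 - a ^ 2) := intervalIntegral.integral_add_adjacent_intervals
    ((d1_cont c).intervalIntegrable _ _) ((d1_cont c).intervalIntegrable _ _)
  unfold d1H
  linarith

theorem d1H_deriv (c y : ℝ) : HasDerivAt (d1H c) (Real.sqrt (c ^ 2 - y ^ 2)) y :=
  intervalIntegral.integral_hasDerivAt_right ((d1_cont c).intervalIntegrable _ _)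
    ((d1_cont c).stronglyMeasurableAtFilter _ _) (d1_cont c).continuousAt

theorem d1H_full {c : ℝ} (hc : 0 < c) : d1H c c = Real.pi * c ^ 2 / 4 := by
  have h0 : ∫ x in (-1:ℝ)..1, Real.sqrt (1 - x ^ 2) = Real.pi / 2 := integral_sqrt_one_sub_sq
  have hc1 : Continuous fun x : ℝ => Real.sqrt (1 - x ^ 2) := by fun_prop
  have h1 : (∫ x in (-1:ℝ)..0, Real.sqrt (1 - x ^ 2)) + ∫ x in (0:ℝ)..1, Real.sqrt (1 - x ^ 2) =
      Real.pi / 2 := by
    rw [← h0]
    exact intervalIntegral.integral_add_adjacent_intervals (hc1.intervalIntegrable _ _)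
      (hc1.intervalIntegrable _ _)
  have h2 : ∫ x in (-1:ℝ)..0, Real.sqrt (1 - x ^ 2) = ∫ x in (0:ℝ)..1, Real.sqrt (1 - x ^ 2) := by
    have := intervalIntegral.integral_comp_neg (a := 0) (b := 1)
      (fun x : ℝ => Real.sqrt (1 - x ^ 2))
    simp only [neg_sq, neg_zero] at this
    exact this.symm
  have h3 : ∫ x in (0:ℝ)..1, Real.sqrt (1 - x ^ 2) = Real.pi / 4 := by linarith
  have h4 : ∫ x in (0:ℝ)..1, Real.sqrt (c ^ 2 - (c * x) ^ 2) = c⁻¹ • ∫ x in (c * 0)..(c * 1),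
      Real.sqrt (c ^ 2 - x ^ 2) :=
    intervalIntegral.integral_comp_mul_left (fun x : ℝ => Real.sqrt (c ^ 2 - x ^ 2)) hc.ne'
  have h5 : ∀ x : ℝ, Real.sqrt (c ^ 2 - (c * x) ^ 2) = c * Real.sqrt (1 - x ^ 2) := by
    intro x
    rw [show c ^ 2 - (c * x) ^ 2 = c ^ 2 * (1 - x ^ 2) by ring, Real.sqrt_mul (sq_nonneg c),
      Real.sqrt_sq hc.le]
  simp_rw [h5] at h4
  rw [intervalIntegral.integral_const_mul, h3, mul_zero, mul_one, smul_eq_mul] at h4
  unfold d1H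
  have h6 : ∫ x in (0:ℝ)..c, Real.sqrt (c ^ 2 - x ^ 2) = c * (c * (Real.pi / 4)) := by
    rw [h4]
    field_simp
  rw [h6]
  ring

/-- increments of `H` -/
theorem d1H_le {c x y : ℝ} (hc : 0 ≤ c) (hxy : x ≤ y) : d1H c y - d1H c x ≤ c * (y - x) := by
  rw [d1H_sub]
  have h := intervalIntegral.integral_mono_on (μ := volume) hxy
    ((d1_cont c).intervalIntegrable _ _) (continuous_const.intervalIntegrable (μ := volume) x y)
    (g := fun _ => c) (fun a _ => by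
      rw [Real.sqrt_le_left hc]
      linarith [sq_nonneg a])
  rw [intervalIntegral.integral_const, smul_eq_mul] at h
  linarith

theorem d1H_mono {c x y : ℝ} (hxy : x ≤ y) : d1H c x ≤ d1H c y := by
  have h : 0 ≤ d1H c y - d1H c x := by
    rw [d1H_sub]
    exact intervalIntegral.integral_nonneg hxy fun a _ => Real.sqrt_nonneg _
  linarith

/-- small difference of `H` -/
theorem d1_cube {c v w ω L : ℝ} (hw : 0 ≤ w) (hv : v ≤ c) (hω : 0 < ω)
    (h : d1H c v - d1H c w ≤ L) (hL : L ^ 2 < c * ω ^ 3 / 8) : v ≤ w + ω := by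
  by_contra hcon
  push Not at hcon
  have hc : 0 < c := by linarith
  have h1 : d1H c (w + ω / 2) ≤ d1H c v := d1H_mono (by linarith)
  have h2 : (ω / 2) * Real.sqrt (c * ω / 2) ≤ d1H c (w + ω / 2) - d1H c w := by
    rw [d1H_sub]
    have h := intervalIntegral.integral_mono_on (μ := volume) (a := w) (b := w + ω / 2)
      (by linarith) (continuous_const.intervalIntegrable (μ := volume) w (w + ω / 2))
      ((d1_cont c).intervalIntegrable _ _)
      (f := fun _ => Real.sqrt (c * ω / 2)) (fun a ha => by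
        refine Real.sqrt_le_sqrt ?_
        have h3 : ω / 2 ≤ c - a := by linarith [ha.2]
        have h4 : 0 ≤ a := hw.trans ha.1
        have h5 : c * (ω / 2) ≤ c * (c - a) := mul_le_mul_of_nonneg_left h3 hc.le
        have h6 : 0 ≤ a * (c - a) := mul_nonneg h4 (by linarith)
        nlinarith)
    rw [intervalIntegral.integral_const, smul_eq_mul] at h
    linarith
  have h3 : (ω / 2) * Real.sqrt (c * ω / 2) ≤ L := by linarith
  have h4 : ((ω / 2) * Real.sqrt (c * ω / 2)) ^ 2 ≤ L ^ 2 :=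
    pow_le_pow_left₀ (by positivity) h3 2
  rw [mul_pow, Real.sq_sqrt (by positivity)] at h4
  have h5 : (ω / 2) ^ 2 * (c * ω / 2) = c * ω ^ 3 / 8 := by ring
  linarith

/-- variation of `H ∘ q` -/
theorem d1_ftc {q : ℝ → ℝ} (hq : ContDiff ℝ 1 q) (c u v : ℝ) :
    ∫ z in u..v, Real.sqrt (c ^ 2 - q z ^ 2) * deriv q z = d1H c (q v) - d1H c (q u) := by
  have hd : ∀ x, HasDerivAt q (deriv q x) x := fun x =>
    (hq.differentiable (by norm_num) x).hasDerivAt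
  have hdc : Continuous (deriv q) := hq.continuous_deriv le_rfl
  have h1 : ∫ z in u..v, Real.sqrt (c ^ 2 - q z ^ 2) * deriv q z =
      ∫ x in (q u)..(q v), Real.sqrt (c ^ 2 - x ^ 2) :=
    intervalIntegral.integral_comp_mul_deriv (f := q) (g := fun a => Real.sqrt (c ^ 2 - a ^ 2))
      (fun x _ => hd x) hdc.continuousOn (d1_cont c)
  rw [h1, d1H_sub]

theorem d1_up {q : ℝ → ℝ} (hq : ContDiff ℝ 1 q) (c : ℝ) {u v : ℝ} (huv : u ≤ v) :
    d1H c (q v) - d1H c (q u) ≤ ∫ z in u..v, Real.sqrt (c ^ 2 - q z ^ 2) * |deriv q z| := by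
  have hdc : Continuous (deriv q) := hq.continuous_deriv le_rfl
  have hqc := hq.continuous
  rw [← d1_ftc hq]
  refine intervalIntegral.integral_mono_on huv
    (Continuous.intervalIntegrable (by fun_prop) _ _)
    (Continuous.intervalIntegrable (by fun_prop) _ _) fun z _ => ?_
  exact mul_le_mul_of_nonneg_left (le_abs_self _) (Real.sqrt_nonneg _)

theorem d1_down {q : ℝ → ℝ} (hq : ContDiff ℝ 1 q) (c : ℝ) {u v : ℝ} (huv : u ≤ v) :
    d1H c (q u) - d1H c (q v) ≤ ∫ z in u..v, Real.sqrt (c ^ 2 - q z ^ 2) * |deriv q z| := by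
  have hdc : Continuous (deriv q) := hq.continuous_deriv le_rfl
  have hqc := hq.continuous
  have h := d1_ftc hq c u v
  have h2 : ∫ z in u..v, -(Real.sqrt (c ^ 2 - q z ^ 2) * deriv q z) ≤
      ∫ z in u..v, Real.sqrt (c ^ 2 - q z ^ 2) * |deriv q z| := by
    refine intervalIntegral.integral_mono_on huv
      (Continuous.intervalIntegrable (by fun_prop) _ _)
      (Continuous.intervalIntegrable (by fun_prop) _ _) fun z _ => ?_
    rw [← mul_neg]
    exact mul_le_mul_of_nonneg_left (neg_le_abs _) (Real.sqrt_nonneg _)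
  rw [intervalIntegral.integral_neg, h] at h2
  linarith

/-- the profile of the disc -/
noncomputable def d1g (c u : ℝ) : ℝ := Real.sqrt (c ^ 2 - 4 * max u 0)

theorem d1g_cont (c : ℝ) : Continuous (d1g c) := by
  unfold d1g
  fun_prop

theorem d1g_nonneg (c u : ℝ) : 0 ≤ d1g c u := Real.sqrt_nonneg _

theorem d1g_le {c : ℝ} (hc : 0 ≤ c) (u : ℝ) : d1g c u ≤ c := by
  unfold d1g
  rw [Real.sqrt_le_left hc]
  linarith [le_max_right u 0]

theorem d1g_eq {c u : ℝ} (h0 : 0 ≤ u) : d1g c u = Real.sqrt (c ^ 2 - 4 * u) := by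
  unfold d1g
  rw [max_eq_left h0]

theorem d1g_q {c q : ℝ} (hq : 0 ≤ q) (hqc : q ≤ c) : d1g c ((c ^ 2 - q ^ 2) / 4) = q := by
  rw [d1g_eq (by
    have : q ^ 2 ≤ c ^ 2 := pow_le_pow_left₀ hq hqc 2
    linarith)]
  rw [show c ^ 2 - 4 * ((c ^ 2 - q ^ 2) / 4) = q ^ 2 by ring, Real.sqrt_sq hq]

theorem d1g_div {c T : ℝ} (hT : 0 ≤ T) :
    ∫ u in (0:ℝ)..T, d1g c u / Real.sqrt u = d1H c (2 * Real.sqrt T) := by
  have hHc : Continuous (d1H c) :=
    continuous_iff_continuousAt.2 fun y => (d1H_deriv c y).continuousAt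
  have hcont : ContinuousOn (fun u => d1H c (2 * Real.sqrt u)) (Set.Icc 0 T) :=
    (hHc.comp (continuous_const.mul Real.continuous_sqrt)).continuousOn
  have hder : ∀ u ∈ Set.Ioo 0 T, HasDerivAt (fun u => d1H c (2 * Real.sqrt u))
      (d1g c u / Real.sqrt u) u := by
    intro u hu
    have h1 := (d1H_deriv c (2 * Real.sqrt u)).comp u
      ((Real.hasDerivAt_sqrt hu.1.ne').const_mul 2)
    refine HasDerivAt.congr_deriv h1 ?_
    have hs : Real.sqrt u ≠ 0 := (Real.sqrt_pos.2 hu.1).ne'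
    rw [d1g_eq hu.1.le, show c ^ 2 - (2 * Real.sqrt u) ^ 2 = c ^ 2 - 4 * u by
      rw [mul_pow, Real.sq_sqrt hu.1.le]; ring]
    field_simp
  have hint : IntervalIntegrable (fun u => d1g c u / Real.sqrt u) volume 0 T := by
    rw [intervalIntegrable_iff_integrableOn_Ioc_of_le hT]
    refine intervalIntegral.integrableOn_deriv_of_nonneg hcont hder fun u hu => ?_
    exact div_nonneg (d1g_nonneg _ _) (Real.sqrt_nonneg _)
  have h := intervalIntegral.integral_eq_sub_of_hasDerivAt_of_le hT hcont hder hint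
  rw [h]
  simp [d1H]

theorem d1g_mul {c b : ℝ} (hb : 0 ≤ b) (hbc : b ≤ c) :
    ∫ u in (0:ℝ)..((c ^ 2 - b ^ 2) / 4), d1g c u * Real.sqrt u =
      ∫ a in b..c, a ^ 2 / 4 * Real.sqrt (c ^ 2 - a ^ 2) := by
  have hd : ∀ a : ℝ, HasDerivAt (fun a : ℝ => (c ^ 2 - a ^ 2) / 4) (-(a / 2)) a := by
    intro a
    have h1 := (((hasDerivAt_id a).pow 2).const_sub (c ^ 2)).div_const 4
    refine HasDerivAt.congr_deriv h1 ?_
    simp
    ring
  have h1 : ∫ a in b..c, ((fun u => d1g c u * Real.sqrt u) ∘ fun a : ℝ => (c ^ 2 - a ^ 2) / 4) a *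
      (-(a / 2)) = ∫ u in ((c ^ 2 - b ^ 2) / 4)..((c ^ 2 - c ^ 2) / 4), d1g c u * Real.sqrt u :=
    intervalIntegral.integral_comp_mul_deriv (fun x _ => hd x) (by fun_prop)
      ((d1g_cont c).mul Real.continuous_sqrt)
  rw [sub_self, zero_div, intervalIntegral.integral_symm 0] at h1
  have h2 : ∫ a in b..c, ((fun u => d1g c u * Real.sqrt u) ∘ fun a : ℝ => (c ^ 2 - a ^ 2) / 4) a *
      (-(a / 2)) = ∫ a in b..c, -(a ^ 2 / 4 * Real.sqrt (c ^ 2 - a ^ 2)) := by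
    refine intervalIntegral.integral_congr fun a ha => ?_
    rw [Set.uIcc_of_le hbc] at ha
    have ha0 : 0 ≤ a := hb.trans ha.1
    simp only [Function.comp]
    rw [d1g_q ha0 ha.2]
    have h3 : Real.sqrt ((c ^ 2 - a ^ 2) / 4) = Real.sqrt (c ^ 2 - a ^ 2) / 2 := by
      rw [Real.sqrt_div' _ (by norm_num), show (4:ℝ) = 2 ^ 2 by norm_num,
        Real.sqrt_sq (by norm_num)]
    rw [h3]
    ring
  rw [h2, intervalIntegral.integral_neg] at h1
  linarith

theorem d1_moment {c : ℝ} (hc : 0 < c) :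
    ∫ a in (0:ℝ)..c, a ^ 2 / 4 * Real.sqrt (c ^ 2 - a ^ 2) = Real.pi * c ^ 4 / 64 := by
  have hcont : ContinuousOn (fun a : ℝ => a * Real.sqrt (c ^ 2 - a ^ 2) ^ 3) (Set.Icc 0 c) := by
    fun_prop
  have hder : ∀ a ∈ Set.Ioo 0 c, HasDerivAt (fun a : ℝ => a * Real.sqrt (c ^ 2 - a ^ 2) ^ 3)
      (c ^ 2 * Real.sqrt (c ^ 2 - a ^ 2) - 16 * (a ^ 2 / 4 * Real.sqrt (c ^ 2 - a ^ 2))) a := by
    intro a ha
    have hp : 0 < c ^ 2 - a ^ 2 := by
      have : a ^ 2 < c ^ 2 := pow_lt_pow_left₀ ha.2 ha.1.le two_ne_zero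
      linarith
    have h1 : HasDerivAt (fun a : ℝ => c ^ 2 - a ^ 2) (-(2 * a)) a := by
      have := ((hasDerivAt_id a).pow 2).const_sub (c ^ 2)
      refine HasDerivAt.congr_deriv this ?_
      simp
    have h2 := (h1.sqrt hp.ne').pow 3
    have h3 := (hasDerivAt_id a).mul h2
    refine HasDerivAt.congr_deriv h3 ?_
    have hs : Real.sqrt (c ^ 2 - a ^ 2) ≠ 0 := (Real.sqrt_pos.2 hp).ne'
    have hss : Real.sqrt (c ^ 2 - a ^ 2) ^ 2 = c ^ 2 - a ^ 2 := Real.sq_sqrt hp.le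
    have h4 : Real.sqrt (c ^ 2 - a ^ 2) ^ 3 = (c ^ 2 - a ^ 2) * Real.sqrt (c ^ 2 - a ^ 2) := by
      rw [pow_succ, hss]
    simp only [id, Pi.pow_apply]
    rw [h4]
    norm_num
    rw [hss]
    field_simp
    rw [hss]
    ring
  have hci : Continuous fun a : ℝ =>
      c ^ 2 * Real.sqrt (c ^ 2 - a ^ 2) - 16 * (a ^ 2 / 4 * Real.sqrt (c ^ 2 - a ^ 2)) := by
    fun_prop
  have h := intervalIntegral.integral_eq_sub_of_hasDerivAt_of_le hc.le hcont hder
    (hci.intervalIntegrable _ _)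
  rw [intervalIntegral.integral_sub (Continuous.intervalIntegrable (by fun_prop) _ _)
    (Continuous.intervalIntegrable (by fun_prop) _ _), intervalIntegral.integral_const_mul,
    intervalIntegral.integral_const_mul] at h
  have h2 := d1H_full hc
  unfold d1H at h2
  rw [h2] at h
  simp only [sub_self, Real.sqrt_zero, zero_mul] at h
  norm_num at h
  linarith


/-- the algebra of the losses -/
theorem d1_num {IN Ie Iq ICA Z c b P V ε M : ℝ} (hc : 0 < c) (hc1 : c ≤ 1) (hb : b ≤ ε)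
    (hb0 : 0 ≤ b) (hP : 0 ≤ P) (hP1 : P ≤ 1) (hPV : P ^ 2 = Real.pi * V) (hM : 1 ≤ M)
    (hε0 : 0 ≤ ε) (hε1 : ε ≤ 1)
    (hr1 : ICA + Z / 2 ≤ c * IN) (hr2 : Iq ≤ ICA + M * Ie)
    (hr3 : 2 * (Real.pi * c ^ 2 / 4 - c * b) ≤ Z)
    (hJ : IN ≤ P + ε) (hei : Ie ≤ ε) (hVk : |Iq - V| ≤ ε) :
    (Real.pi * c / 2 - P) ^ 2 ≤ 16 * M * ε ∧ Z ≤ 2 * (Real.pi * c ^ 2 / 4) + 8 * M * ε ∧
      c * IN - (ICA + Z / 2) ≤ 4 * M * ε ∧ ICA + M * Ie - Iq ≤ 4 * M * ε ∧ IN ≤ 2 := by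
  have hπ := Real.pi_pos
  have hπ4 := Real.pi_lt_four
  have hVk' := abs_le.1 hVk
  have e1 : c * IN ≤ c * (P + ε) := by gcongr
  have e2 : c * ε ≤ ε := mul_le_of_le_one_left hε0 hc1
  have e3 : c * b ≤ ε := (mul_le_of_le_one_left hb0 hc1).trans hb
  have e4 : M * Ie ≤ M * ε := by gcongr
  have e5 : 1 * ε ≤ M * ε := by gcongr
  have e6 : Real.pi * (V + Real.pi * c ^ 2 / 4 - c * P) = (Real.pi * c / 2 - P) ^ 2 := by
    have : (Real.pi * c / 2 - P) ^ 2 = Real.pi ^ 2 * c ^ 2 / 4 - Real.pi * c * P + P ^ 2 := by ring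
    rw [this, hPV]
    ring
  have e7 : 0 ≤ V + Real.pi * c ^ 2 / 4 - c * P := by
    have h : 0 ≤ Real.pi * (V + Real.pi * c ^ 2 / 4 - c * P) := by
      rw [e6]
      positivity
    exact nonneg_of_mul_nonneg_right h hπ
  have e8 : V + Real.pi * c ^ 2 / 4 - c * P ≤ 4 * M * ε := by linarith
  refine ⟨?_, ?_, ?_, ?_, ?_⟩
  · rw [← e6]
    have h1 : Real.pi * (V + Real.pi * c ^ 2 / 4 - c * P) ≤ 4 * (4 * M * ε) :=
      mul_le_mul hπ4.le e8 e7 (by norm_num)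
    linarith
  · linarith
  · linarith
  · linarith
  · linarith

/-- the losses in the one-dimensional inequality -/
theorem d1_main {q A e U : ℝ → ℝ} {c P V ε M : ℝ} (hc : 0 < c) (hc1 : c ≤ 1)
    (hP : 0 ≤ P) (hP1 : P ≤ 1) (hPV : P ^ 2 = Real.pi * V) (hM : 1 ≤ M)
    (hε0 : 0 ≤ ε) (hε1 : ε ≤ 1)
    (hq : ContDiff ℝ 1 q) (hper : ∀ t, q (t + 1) = q t)
    (hq0 : ∀ t, 0 ≤ q t) (hqx : ∀ t, q t ≤ c)
    (hA : Continuous A) (hA0 : ∀ t, 0 ≤ A t)
    (he : Continuous e) (he0 : ∀ t, 0 ≤ e t) (hei : ∫ t in (0:ℝ)..1, e t ≤ ε)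
    (hJ : ∫ t in (0:ℝ)..1, Real.sqrt (A t ^ 2 + (deriv q t / 2) ^ 2) ≤ P + ε)
    (hiso : ∀ t, q t ≤ q t * A t + M * e t)
    (hVk : |(∫ t in (0:ℝ)..1, q t) - V| ≤ ε)
    {m s : ℝ} (hm : q m = c) (hs : q s ≤ ε)
    (hU : ∀ t, U t = (c ^ 2 - q t ^ 2) / 4) :
    (Real.pi * c / 2 - P) ^ 2 ≤ 16 * M * ε ∧
    (∫ t in (0:ℝ)..1, Real.sqrt (c ^ 2 - q t ^ 2) * |deriv q t|) ≤
      2 * (Real.pi * c ^ 2 / 4) + 8 * M * ε ∧
    (∀ τ > 0, ∫ t in (0:ℝ)..1, q t * |(1 / 2) * |deriv U t| - Real.sqrt (U t)| ≤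
      2 * τ + 2 * M * ε / τ + 5 * M * ε) ∧
    ∫ t in (0:ℝ)..1, |deriv U t| ≤ 2 := by
  have hπ := Real.pi_pos
  have hUe : U = fun t => (c ^ 2 - q t ^ 2) / 4 := funext hU
  have hqc : Continuous q := hq.continuous
  have hdqc : Continuous (deriv q) := hq.continuous_deriv le_rfl
  have hUd : ContDiff ℝ 1 U := by
    rw [hUe]
    exact (contDiff_const.sub (hq.pow 2)).div_const _
  have hUc : Continuous U := hUd.continuous
  have hdUc : Continuous (deriv U) := hUd.continuous_deriv le_rfl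
  have hdU : ∀ t, deriv U t = -(q t * deriv q t / 2) := by
    intro t
    have h1 : HasDerivAt q (deriv q t) t := (hq.differentiable (by norm_num) t).hasDerivAt
    rw [hUe]
    have h2 : HasDerivAt (fun t => (c ^ 2 - q t ^ 2) / 4) (-(q t * deriv q t / 2)) t := by
      refine HasDerivAt.congr_deriv (((h1.pow 2).const_sub (c ^ 2)).div_const 4) ?_
      norm_num
      ring
    exact h2.deriv
  have hU0 : ∀ t, 0 ≤ U t := by
    intro t
    rw [hU]
    have : q t ^ 2 ≤ c ^ 2 := pow_le_pow_left₀ (hq0 t) (hqx t) 2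
    linarith
  -- the functions
  set S : ℝ → ℝ := fun t => Real.sqrt (c ^ 2 - q t ^ 2) with hS
  set B : ℝ → ℝ := fun t => |deriv q t| / 2 with hB
  set N : ℝ → ℝ := fun t => Real.sqrt (A t ^ 2 + (deriv q t / 2) ^ 2) with hN
  have hSc : Continuous S := by rw [hS]; fun_prop
  have hBc : Continuous B := by rw [hB]; fun_prop
  have hNc : Continuous N := by rw [hN]; fun_prop
  have hS0 : ∀ t, 0 ≤ S t := fun t => Real.sqrt_nonneg _
  have hN0 : ∀ t, 0 ≤ N t := fun t => Real.sqrt_nonneg _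
  have hB0 : ∀ t, 0 ≤ B t := fun t => by simp only [hB]; positivity
  have hS2 : ∀ t, S t ^ 2 = c ^ 2 - q t ^ 2 := fun t => Real.sq_sqrt (by
    have : q t ^ 2 ≤ c ^ 2 := pow_le_pow_left₀ (hq0 t) (hqx t) 2
    linarith)
  have hCS : ∀ t, q t ^ 2 + S t ^ 2 = c ^ 2 := fun t => by rw [hS2]; ring
  have hAB : ∀ t, A t ^ 2 + B t ^ 2 = N t ^ 2 := fun t => by
    simp only [hB, hN]
    rw [Real.sq_sqrt (by positivity), div_pow, sq_abs, div_pow]
  have hSx : ∀ t, S t ≤ c := fun t => by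
    have : S t ^ 2 ≤ c ^ 2 := by nlinarith [hCS t, sq_nonneg (q t)]
    exact (sq_le_sq₀ (hS0 t) hc.le).1 this
  have hSU : ∀ t, Real.sqrt (U t) = S t / 2 := by
    intro t
    simp only [hS]
    rw [hU, Real.sqrt_div' _ (by norm_num), show (4:ℝ) = 2 ^ 2 by norm_num,
      Real.sqrt_sq (by norm_num)]
  have hp1 : ∀ t, q t * A t + S t * B t ≤ c * N t := fun t =>
    b1_cs (hq0 t) (hS0 t) (hA0 t) (hB0 t) (hN0 t) hc.le (hCS t) (hAB t)
  have hce : ∀ t, c * (M * e t / c) = M * e t := fun t => by field_simp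
  have hp2 : ∀ t, q t ≤ q t * A t + c * (M * e t / c) := fun t => by
    rw [hce]
    exact hiso t
  -- integrals
  set IN := ∫ t in (0:ℝ)..1, N t with hIN
  set Ie := ∫ t in (0:ℝ)..1, e t with hIe
  set Iq := ∫ t in (0:ℝ)..1, q t with hIq
  set ICA := ∫ t in (0:ℝ)..1, q t * A t with hICA
  set Z := ∫ t in (0:ℝ)..1, S t * |deriv q t| with hZ
  have hgc : Continuous fun t => S t * |deriv q t| := by fun_prop
  have hint : ∀ {F : ℝ → ℝ}, Continuous F → IntervalIntegrable F volume 0 1 := fun h =>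
    h.intervalIntegrable _ _
  have hSB : ∀ t, S t * B t = (1 / 2) * (S t * |deriv q t|) := by
    intro t
    simp only [hB]
    ring
  have hSBi : ∫ t in (0:ℝ)..1, S t * B t = Z / 2 := by
    simp_rw [hSB]
    rw [intervalIntegral.integral_const_mul, ← hZ]
    ring
  have hCAc : Continuous fun t => q t * A t := hqc.mul hA
  have hr1 : ICA + Z / 2 ≤ c * IN := by
    have hSBc : Continuous fun t => S t * B t := hSc.mul hBc
    rw [hICA, ← hSBi, hIN, ← intervalIntegral.integral_const_mul,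
      ← intervalIntegral.integral_add (hint hCAc) (hint hSBc)]
    exact intervalIntegral.integral_mono_on zero_le_one
      (hint (hCAc.add hSBc)) (hint (hNc.const_mul _)) fun t _ => hp1 t
  have hr2 : Iq ≤ ICA + M * Ie := by
    rw [hICA, hIq, hIe, ← intervalIntegral.integral_const_mul,
      ← intervalIntegral.integral_add (hint hCAc) (hint (he.const_mul _))]
    exact intervalIntegral.integral_mono_on zero_le_one (hint hqc)
      (hint (hCAc.add (he.const_mul _))) fun t _ => hiso t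
  have hr3 : 2 * (Real.pi * c ^ 2 / 4 - c * q s) ≤ Z := by
    have := arc_var hq hper (d1_cont c) (fun x => Real.sqrt_nonneg _) (z₁ := s)
      (z₂ := m) (by rw [hm]; exact hqx s)
    rw [hm, ← d1H_sub, d1H_full hc] at this
    have h2 := d1H_le (c := c) (x := 0) (y := q s) hc.le (hq0 s)
    have h3 : d1H c 0 = 0 := by simp [d1H]
    rw [h3] at h2
    have h4 : 2 * (Real.pi * c ^ 2 / 4 - d1H c (q s)) ≤ Z := this
    linarith
  obtain ⟨hc1', hc2, hl1, hl2, hIN2⟩ := d1_num hc hc1 hs (hq0 s) hP hP1 hPV hM hε0 hε1 hr1 hr2 hr3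
    hJ hei hVk
  have hIN0 : 0 ≤ IN := intervalIntegral.integral_nonneg zero_le_one fun t _ => hN0 t
  refine ⟨hc1', hc2, ?_, ?_⟩
  · intro τ hτ
    have hb : ∀ t, q t * |(1 / 2) * |deriv U t| - Real.sqrt (U t)| ≤
        (τ * (c * N t) + (c * N t - (q t * A t + S t * B t)) / (2 * τ)) +
          ((q t * A t + M * e t - q t) + M * e t) := by
      intro t
      have h1 : q t * |(1 / 2) * |deriv U t| - Real.sqrt (U t)| =
          1 / 2 * |q t ^ 2 * B t - S t * q t| := by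
        rw [hdU, abs_neg, hSU, abs_div, abs_mul, abs_of_nonneg (hq0 t), abs_of_pos (two_pos (α := ℝ))]
        have : q t ^ 2 * B t - S t * q t =
            2 * (q t * (1 / 2 * (q t * |deriv q t| / 2) - S t / 2)) := by
          simp only [hB]
          ring
        rw [this, abs_mul, abs_mul, abs_of_nonneg (hq0 t), abs_of_pos (two_pos (α := ℝ))]
        ring
      have h2 := b1_point (hq0 t) (hS0 t) (hA0 t) (hB0 t) (hN0 t) hc.le hc1
        (e := M * e t / c) (div_nonneg (mul_nonneg (by linarith) (he0 t)) hc.le) (hCS t) (hAB t)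
        (hqx t) (hSx t) (hp2 t) hτ
      rw [hce] at h2
      have h3 : 0 ≤ |q t ^ 2 * B t - S t * q t| := abs_nonneg _
      rw [h1]
      linarith
    have hi1 : ∫ t in (0:ℝ)..1, ((τ * (c * N t) + (c * N t - (q t * A t + S t * B t)) / (2 * τ)) +
          ((q t * A t + M * e t - q t) + M * e t)) =
        (τ * (c * IN) + (c * IN - (ICA + Z / 2)) / (2 * τ)) +
          ((ICA + M * Ie - Iq) + M * Ie) := by
      rw [intervalIntegral.integral_add (hint (by fun_prop)) (hint (by fun_prop)),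
        intervalIntegral.integral_add (hint (by fun_prop)) (hint (by fun_prop)),
        intervalIntegral.integral_add (hint (by fun_prop)) (hint (by fun_prop)),
        intervalIntegral.integral_sub (hint (by fun_prop)) (hint (by fun_prop)),
        intervalIntegral.integral_add (hint (by fun_prop)) (hint (by fun_prop)),
        intervalIntegral.integral_div,
        intervalIntegral.integral_sub (hint (by fun_prop)) (hint (by fun_prop)),
        intervalIntegral.integral_add (hint (by fun_prop)) (hint (by fun_prop)),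
        intervalIntegral.integral_const_mul, intervalIntegral.integral_const_mul,
        intervalIntegral.integral_const_mul, hSBi]
    have hi2 : ∫ t in (0:ℝ)..1, q t * |(1 / 2) * |deriv U t| - Real.sqrt (U t)| ≤
        (τ * (c * IN) + (c * IN - (ICA + Z / 2)) / (2 * τ)) +
          ((ICA + M * Ie - Iq) + M * Ie) := by
      rw [← hi1]
      refine intervalIntegral.integral_mono_on zero_le_one (hint (by fun_prop))
        (hint (by fun_prop)) fun t _ => hb t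
    have hl3 : (c * IN - (ICA + Z / 2)) / (2 * τ) ≤ 2 * M * ε / τ := by
      rw [div_le_div_iff₀ (by positivity) hτ]
      have := mul_le_mul_of_nonneg_right hl1 hτ.le
      linarith
    have hl4 : τ * (c * IN) ≤ 2 * τ := by
      have h1 : c * IN ≤ 1 * 2 := mul_le_mul hc1 hIN2 hIN0 zero_le_one
      have h2 := mul_le_mul_of_nonneg_left h1 hτ.le
      linarith
    have hl5 : M * Ie ≤ M * ε := by gcongr
    linarith
  · have h1 : ∀ t, |deriv U t| ≤ N t := by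
      intro t
      rw [hdU, abs_neg, abs_div, abs_mul, abs_of_nonneg (hq0 t), abs_of_pos (two_pos (α := ℝ))]
      have h2 : B t ≤ N t := (sq_le_sq₀ (hB0 t) (hN0 t)).1 (by nlinarith [hAB t, sq_nonneg (A t)])
      have h3 : q t * |deriv q t| / 2 ≤ 1 * |deriv q t| / 2 := by
        have := (hqx t).trans hc1
        gcongr
      simp only [hB] at h2
      linarith
    refine le_trans ?_ hIN2
    exact intervalIntegral.integral_mono_on zero_le_one (hint hdUc.abs) (hint hNc) fun t _ => h1 t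


/-- quantitative unimodality -/
theorem d1_mono {q : ℝ → ℝ} {c s L : ℝ} (hq : ContDiff ℝ 1 q) (hz : q 0 = c) (hz1 : q 1 = c)
    (hs1 : s ≤ 1)
    (hZ : ∫ t in (0:ℝ)..1, Real.sqrt (c ^ 2 - q t ^ 2) * |deriv q t| ≤
      2 * (d1H c c - d1H c (q s)) + 2 * L) :
    ∀ x y, 0 ≤ x → x ≤ y → y ≤ s → d1H c (q y) - d1H c (q x) ≤ L := by
  intro x y hx hxy hys
  have hdc : Continuous (deriv q) := hq.continuous_deriv le_rfl
  have hqc := hq.continuous
  have hF : Continuous fun t => Real.sqrt (c ^ 2 - q t ^ 2) * |deriv q t| := by fun_prop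
  have e1 := b1_split hF 0 x y
  have e2 := b1_split hF 0 y s
  have e3 := b1_split hF 0 s 1
  have i1 := d1_down hq c hx
  have i2 := d1_up hq c hxy
  have i3 := d1_down hq c hys
  have i4 := d1_up hq c hs1
  rw [hz] at i1
  rw [hz1] at i4
  linarith

theorem d1_mono' {q : ℝ → ℝ} {c s L : ℝ} (hq : ContDiff ℝ 1 q) (hz : q 0 = c) (hz1 : q 1 = c)
    (hs0 : 0 ≤ s)
    (hZ : ∫ t in (0:ℝ)..1, Real.sqrt (c ^ 2 - q t ^ 2) * |deriv q t| ≤
      2 * (d1H c c - d1H c (q s)) + 2 * L) :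
    ∀ x y, s ≤ x → x ≤ y → y ≤ 1 → d1H c (q x) - d1H c (q y) ≤ L := by
  intro x y hx hxy hys
  have hdc : Continuous (deriv q) := hq.continuous_deriv le_rfl
  have hqc := hq.continuous
  have hF : Continuous fun t => Real.sqrt (c ^ 2 - q t ^ 2) * |deriv q t| := by fun_prop
  have e1 := b1_split hF 0 s x
  have e2 := b1_split hF 0 x y
  have e3 := b1_split hF 0 y 1
  have i1 := d1_down hq c hs0
  have i2 := d1_up hq c hx
  have i3 := d1_down hq c hxy
  have i4 := d1_up hq c hys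
  rw [hz] at i1
  rw [hz1] at i4
  linarith

/-- the numbers -/
theorem d1_fin {c P V κ : ℝ} (hc : 0 ≤ c) (hc1 : c ≤ 1) (hP : 0 ≤ P) (hP1 : P ≤ 1)
    (hPV : P ^ 2 = Real.pi * V) (hκ : |Real.pi * c / 2 - P| ≤ κ) :
    V ≤ Real.pi * c ^ 2 / 4 + κ ∧ Real.pi * c ^ 4 / 64 ≤ V ^ 2 / (4 * Real.pi) + κ := by
  have hπ := Real.pi_pos
  have hπ3 := Real.pi_gt_three
  have hπ4 : Real.pi < 3.15 := Real.pi_lt_d2
  have hκ' := abs_le.1 hκ
  have hκ0 : 0 ≤ κ := (abs_nonneg _).trans hκ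
  obtain ⟨X, hX⟩ : ∃ X, X = Real.pi * c / 2 := ⟨_, rfl⟩
  have hX0 : 0 ≤ X := by rw [hX]; positivity
  have hX1 : X ≤ 1.6 := by
    rw [hX]
    have : Real.pi * c ≤ 3.15 * 1 := by gcongr
    linarith
  rw [← hX] at hκ'
  have hcX : c = 2 * X / Real.pi := by rw [hX]; field_simp
  have hVP : V = P ^ 2 / Real.pi := by rw [hPV]; field_simp
  constructor
  · have h1 : P ^ 2 - X ^ 2 ≤ 3 * κ := by
      have e : P ^ 2 - X ^ 2 = (P - X) * (P + X) := by ring
      have h2 : (P - X) * (P + X) ≤ κ * (P + X) :=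
        mul_le_mul_of_nonneg_right (by linarith) (by linarith)
      have h3 : κ * (P + X) ≤ κ * 3 := mul_le_mul_of_nonneg_left (by linarith) hκ0
      linarith
    have h2 : Real.pi * c ^ 2 / 4 = X ^ 2 / Real.pi := by
      rw [hcX]
      field_simp
      ring
    rw [h2, hVP]
    have h3 : κ = Real.pi * κ / Real.pi := by field_simp
    have h4 : P ^ 2 / Real.pi - X ^ 2 / Real.pi ≤ κ := by
      rw [← sub_div, div_le_iff₀ hπ]
      nlinarith
    linarith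
  · have h1 : X ^ 4 - P ^ 4 ≤ 20 * κ := by
      have e : X ^ 4 - P ^ 4 = (X - P) * ((X + P) * (X ^ 2 + P ^ 2)) := by ring
      have g1 : (X + P) * (X ^ 2 + P ^ 2) ≤ 3 * 4 := by
        have g2 : X ^ 2 ≤ 3 := by
          have : X ^ 2 ≤ 1.6 ^ 2 := pow_le_pow_left₀ hX0 hX1 2
          refine this.trans ?_
          norm_num
        have g3 : P ^ 2 ≤ 1 := pow_le_one₀ hP hP1
        exact mul_le_mul (by linarith) (by linarith) (by positivity) (by norm_num)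
      have g0 : 0 ≤ (X + P) * (X ^ 2 + P ^ 2) := by positivity
      have h2 : (X - P) * ((X + P) * (X ^ 2 + P ^ 2)) ≤ κ * ((X + P) * (X ^ 2 + P ^ 2)) :=
        mul_le_mul_of_nonneg_right (by linarith) g0
      have h3 : κ * ((X + P) * (X ^ 2 + P ^ 2)) ≤ κ * (3 * 4) := mul_le_mul_of_nonneg_left g1 hκ0
      linarith
    have h2 : Real.pi * c ^ 4 / 64 = X ^ 4 / (4 * Real.pi ^ 3) := by
      rw [hcX]
      field_simp
      ring
    have h3 : V ^ 2 / (4 * Real.pi) = P ^ 4 / (4 * Real.pi ^ 3) := by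
      rw [hVP]; field_simp
    rw [h2, h3]
    have h4 : X ^ 4 / (4 * Real.pi ^ 3) - P ^ 4 / (4 * Real.pi ^ 3) ≤ κ := by
      rw [← sub_div, div_le_iff₀ (by positivity)]
      have h5 : (27:ℝ) ≤ Real.pi ^ 3 := by
        calc (27:ℝ) = 3 ^ 3 := by norm_num
          _ ≤ Real.pi ^ 3 := by gcongr
      have h6 : κ * (4 * 27) ≤ κ * (4 * Real.pi ^ 3) := by gcongr
      linarith
    linarith

/-- the second hypothesis of the core lemma -/
theorem d1_h2 {p W : ℝ → ℝ} {c s L : ℝ} (hc : 0 < c) (hc1 : c ≤ 1)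
    (hpd : ContDiff ℝ 1 p) (hpper : ∀ t, p (t + 1) = p t)
    (hp0 : ∀ t, 0 ≤ p t) (hpx : ∀ t, p t ≤ c) (hpz : p 0 = c) (hpsm : ∀ t, p s ≤ p t)
    (hW : W = fun t => (c ^ 2 - p t ^ 2) / 4)
    (hZp : ∫ t in (0:ℝ)..1, Real.sqrt (c ^ 2 - p t ^ 2) * |deriv p t| ≤
      2 * (d1H c c - d1H c (p s)) + 2 * L) :
    ∫ t in (0:ℝ)..1, d1g c (W t) * Real.sqrt (W t) * |deriv W t| ≤
      2 * (∫ u in (0:ℝ)..(W s), d1g c u * Real.sqrt u) + 2 * L := by
  have hpc := hpd.continuous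
  have hdpc : Continuous (deriv p) := hpd.continuous_deriv le_rfl
  have hint : ∀ {F : ℝ → ℝ}, Continuous F → IntervalIntegrable F volume 0 1 := fun h =>
    h.intervalIntegrable _ _
  have hWp : ∀ t, W t = (c ^ 2 - p t ^ 2) / 4 := fun t => by rw [hW]
  have hWd : ContDiff ℝ 1 W := by
    rw [hW]
    exact (contDiff_const.sub (hpd.pow 2)).div_const _
  have hWc := hWd.continuous
  have hdWc : Continuous (deriv W) := hWd.continuous_deriv le_rfl
  have hgc := d1g_cont c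
  have hgW : ∀ t, d1g c (W t) = p t := fun t => by
    rw [hWp]
    exact d1g_q (hp0 t) (hpx t)
  have hdWp : ∀ t, deriv W t = -(p t * deriv p t / 2) := by
    intro t
    have h1 : HasDerivAt p (deriv p t) t := (hpd.differentiable (by norm_num) t).hasDerivAt
    have h2 : HasDerivAt (fun t => (c ^ 2 - p t ^ 2) / 4) (-(p t * deriv p t / 2)) t := by
      refine HasDerivAt.congr_deriv (((h1.pow 2).const_sub (c ^ 2)).div_const 4) ?_
      norm_num
      ring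
    rw [hW]
    exact h2.deriv
  have hSW : ∀ t, Real.sqrt (W t) = Real.sqrt (c ^ 2 - p t ^ 2) / 2 := by
    intro t
    rw [hWp, Real.sqrt_div' _ (by norm_num), show (4:ℝ) = 2 ^ 2 by norm_num,
      Real.sqrt_sq (by norm_num)]
  have h1 := arc_var hpd hpper (S := fun a => (1 - a ^ 2 / 4) * Real.sqrt (c ^ 2 - a ^ 2))
    (by fun_prop)
    (fun a => by
      rcases le_total (c ^ 2) (a ^ 2) with h | h
      · rw [Real.sqrt_eq_zero_of_nonpos (by linarith), mul_zero]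
      · refine mul_nonneg ?_ (Real.sqrt_nonneg _)
        have : c ^ 2 ≤ 1 := pow_le_one₀ hc.le hc1
        linarith)
    (z₁ := s) (z₂ := 0) (hpsm 0)
  rw [hpz] at h1
  have h2 : ∫ a in (p s)..c, (1 - a ^ 2 / 4) * Real.sqrt (c ^ 2 - a ^ 2) =
      (∫ a in (p s)..c, Real.sqrt (c ^ 2 - a ^ 2)) -
        ∫ a in (p s)..c, a ^ 2 / 4 * Real.sqrt (c ^ 2 - a ^ 2) := by
    rw [← intervalIntegral.integral_sub (Continuous.intervalIntegrable (by fun_prop) _ _)
      (Continuous.intervalIntegrable (by fun_prop) _ _)]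
    refine intervalIntegral.integral_congr fun u _ => ?_
    ring
  have h3 : ∫ t in (0:ℝ)..1, (1 - p t ^ 2 / 4) * Real.sqrt (c ^ 2 - p t ^ 2) * |deriv p t| =
      (∫ t in (0:ℝ)..1, Real.sqrt (c ^ 2 - p t ^ 2) * |deriv p t|) -
        ∫ t in (0:ℝ)..1, d1g c (W t) * Real.sqrt (W t) * |deriv W t| := by
    rw [← intervalIntegral.integral_sub (hint (by fun_prop)) (hint (by fun_prop))]
    refine intervalIntegral.integral_congr fun u _ => ?_
    change (1 - p u ^ 2 / 4) * Real.sqrt (c ^ 2 - p u ^ 2) * |deriv p u| =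
      Real.sqrt (c ^ 2 - p u ^ 2) * |deriv p u| - d1g c (W u) * Real.sqrt (W u) * |deriv W u|
    rw [hgW, hSW, hdWp, abs_neg, abs_div, abs_mul, abs_of_nonneg (hp0 u),
      abs_of_pos (two_pos (α := ℝ))]
    ring
  rw [h2, ← d1H_sub] at h1
  have h4 : 2 * (d1H c c - d1H c (p s) -
        ∫ a in (p s)..c, a ^ 2 / 4 * Real.sqrt (c ^ 2 - a ^ 2)) ≤
      (∫ t in (0:ℝ)..1, Real.sqrt (c ^ 2 - p t ^ 2) * |deriv p t|) -
        ∫ t in (0:ℝ)..1, d1g c (W t) * Real.sqrt (W t) * |deriv W t| := by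
    rw [← h3]
    exact h1
  rw [hWp s, d1g_mul (hp0 s) (hpx s)]
  linarith

/-- the third hypothesis of the core lemma -/
theorem d1_h3 {W : ℝ → ℝ} {c s b ε : ℝ} (hc : 0 < c) (hc1 : c ≤ 1) (hb : 0 ≤ b) (hbc : b ≤ c)
    (hbε : b ≤ ε) (hWs : W s = (c ^ 2 - b ^ 2) / 4) :
    Real.pi * c ^ 2 / 4 - ε ≤ ∫ u in (0:ℝ)..(W s), d1g c u / Real.sqrt u := by
  have hW0 : 0 ≤ W s := by
    rw [hWs]
    have : b ^ 2 ≤ c ^ 2 := pow_le_pow_left₀ hb hbc 2
    linarith
  have hSW : Real.sqrt (W s) = Real.sqrt (c ^ 2 - b ^ 2) / 2 := by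
    rw [hWs, Real.sqrt_div' _ (by norm_num), show (4:ℝ) = 2 ^ 2 by norm_num,
      Real.sqrt_sq (by norm_num)]
  rw [d1g_div hW0, hSW]
  have h2 : c - b ≤ 2 * (Real.sqrt (c ^ 2 - b ^ 2) / 2) := by
    rw [mul_div_cancel₀ _ (two_ne_zero)]
    refine Real.le_sqrt_of_sq_le ?_
    have : 0 ≤ b * (c - b) := mul_nonneg hb (by linarith)
    nlinarith
  have h3 := d1H_le (c := c) (x := c - b) (y := c) hc.le (by linarith)
  have h4 : d1H c (c - b) ≤ d1H c (2 * (Real.sqrt (c ^ 2 - b ^ 2) / 2)) := d1H_mono h2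
  rw [d1H_full hc] at h3
  have h5 : c * (c - (c - b)) ≤ ε := by
    rw [sub_sub_cancel]
    exact (mul_le_of_le_one_left hb hc1).trans hbε
  linarith

/-- the estimate for one function with maximum at `0` -/
theorem d1_core {p W : ℝ → ℝ} {c s P V ε M κ ω δ E : ℝ}
    (hc : 0 < c) (hc1 : c ≤ 1) (hM : 1 ≤ M) (hε0 : 0 ≤ ε)
    (hpd : ContDiff ℝ 1 p) (hpper : ∀ t, p (t + 1) = p t)
    (hp0 : ∀ t, 0 ≤ p t) (hpx : ∀ t, p t ≤ c) (hpz : p 0 = c)
    (hs0 : 0 ≤ s) (hs1 : s ≤ 1) (hpsm : ∀ t, p s ≤ p t) (hps : p s ≤ ε)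
    (hW : W = fun t => (c ^ 2 - p t ^ 2) / 4)
    (hZ : ∫ t in (0:ℝ)..1, Real.sqrt (c ^ 2 - p t ^ 2) * |deriv p t| ≤
      2 * (Real.pi * c ^ 2 / 4) + 8 * M * ε)
    (hh1 : ∫ t in (0:ℝ)..1, p t * |(1 / 2) * |deriv W t| - Real.sqrt (W t)| ≤ E)
    (hh6 : ∫ t in (0:ℝ)..1, |deriv W t| ≤ 2)
    (hV : ∫ t in (0:ℝ)..1, p t ≤ V + ε) (hf1 : V ≤ Real.pi * c ^ 2 / 4 + κ)
    (hf2 : Real.pi * c ^ 4 / 64 ≤ V ^ 2 / (4 * Real.pi) + κ) (hcP2 : P / 2 ≤ c)
    (hω : 0 < ω) (hωε : (5 * M * ε) ^ 2 < P / 2 * ω ^ 3 / 8) (hδ : 0 < δ)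
    (hδ1 : δ ≤ 1) (hκ : 0 ≤ κ) (hE : 10 * M * ε + κ ≤ E) :
    ∫ t in (0:ℝ)..1, (min t (1 - t)) ^ 2 * p t ≤
      V ^ 2 / (4 * Real.pi) + κ + 20 * (δ + E / δ ^ 2 + ω * (1 + 2) / δ) := by
  have hMε : ε ≤ M * ε := le_mul_of_one_le_left hε0 hM
  have hE0 : 0 ≤ E := by linarith
  have hpc := hpd.continuous
  have hdpc : Continuous (deriv p) := hpd.continuous_deriv le_rfl
  have hint : ∀ {F : ℝ → ℝ}, Continuous F → IntervalIntegrable F volume 0 1 := fun h =>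
    h.intervalIntegrable _ _
  have hWp : ∀ t, W t = (c ^ 2 - p t ^ 2) / 4 := fun t => by rw [hW]
  have hWd : ContDiff ℝ 1 W := by
    rw [hW]
    exact (contDiff_const.sub (hpd.pow 2)).div_const _
  have hWc := hWd.continuous
  have hdWc : Continuous (deriv W) := hWd.continuous_deriv le_rfl
  have hWper : ∀ t, W (t + 1) = W t := fun t => by rw [hWp, hWp, hpper]
  have hW0 : ∀ t, 0 ≤ W t := by
    intro t
    rw [hWp]
    have : p t ^ 2 ≤ c ^ 2 := pow_le_pow_left₀ (hp0 t) (hpx t) 2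
    linarith
  have hWx : ∀ t, W t ≤ c ^ 2 / 4 := by
    intro t
    rw [hWp]
    have := sq_nonneg (p t)
    linarith
  have hpz1 : p 1 = c := by
    have := hpper 0
    rw [zero_add, hpz] at this
    exact this
  have hz : W 0 = 0 := by rw [hWp, hpz]; ring
  have hsm : ∀ t, W t ≤ W s := by
    intro t
    rw [hWp, hWp]
    have : p s ^ 2 ≤ p t ^ 2 := pow_le_pow_left₀ (hp0 s) (hpsm t) 2
    linarith
  have hgW : ∀ t, d1g c (W t) = p t := fun t => by
    rw [hWp]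
    exact d1g_q (hp0 t) (hpx t)
  have hHs : d1H c (p s) ≤ ε := by
    have h2 := d1H_le (c := c) (x := 0) (y := p s) hc.le (hp0 s)
    have h3 : d1H c 0 = 0 := by simp [d1H]
    rw [h3, sub_zero, sub_zero] at h2
    exact h2.trans ((mul_le_of_le_one_left (hp0 _) hc1).trans hps)
  have hZp : ∫ t in (0:ℝ)..1, Real.sqrt (c ^ 2 - p t ^ 2) * |deriv p t| ≤
      2 * (d1H c c - d1H c (p s)) + 2 * (5 * M * ε) := by
    rw [d1H_full hc]
    linarith
  have hh1' : ∫ t in (0:ℝ)..1, d1g c (W t) * |(1 / 2) * |deriv W t| - Real.sqrt (W t)| ≤ E := by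
    simp_rw [hgW]
    exact hh1
  have hh2 := d1_h2 (L := 5 * M * ε) hc hc1 hpd hpper hp0 hpx hpz hpsm hW hZp
  have hh3 := d1_h3 (W := W) (s := s) hc hc1 (hp0 s) (hpx s) hps (hWp s)
  have hh3' : ∫ t in (0:ℝ)..1, d1g c (W t) ≤
      (∫ u in (0:ℝ)..(W s), d1g c u / Real.sqrt u) + E := by
    simp_rw [hgW]
    linarith
  have hL : (5 * M * ε) ^ 2 < c * ω ^ 3 / 8 := by
    refine hωε.trans_le ?_
    have h1 : 0 ≤ ω ^ 3 := by positivity
    have h2 := mul_le_mul_of_nonneg_right hcP2 h1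
    linarith
  have hm1 := d1_mono hpd hpz hpz1 hs1 hZp
  have hm2 := d1_mono' hpd hpz hpz1 hs0 hZp
  have hh5 : ∀ a b, 0 ≤ a → a ≤ b → b ≤ s → d1g c (W b) ≤ d1g c (W a) + ω := by
    intro a b h1 h2 h3
    rw [hgW, hgW]
    exact d1_cube (hp0 a) (hpx b) hω (hm1 a b h1 h2 h3) hL
  have hh5' : ∀ a b, s ≤ a → a ≤ b → b ≤ 1 → d1g c (W a) ≤ d1g c (W b) + ω := by
    intro a b h1 h2 h3
    rw [hgW, hgW]
    exact d1_cube (hp0 b) (hpx a) hω (hm2 a b h1 h2 h3) hL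
  have hcc : c ^ 2 ≤ 1 := pow_le_one₀ hc.le hc1
  have hcore := core_oneD (g := d1g c) (U := W) (ρ := c ^ 2 / 4) (s := s) (ε := E) (ω := ω)
    (K := 2) (δ := δ) (by positivity) (by linarith) (d1g_cont c) (d1g_nonneg c)
    (fun u => (d1g_le hc.le u).trans hc1) hWd hWper hW0 hWx hz hs0 hs1 hsm hE0 hω.le hδ hδ1
    hh1' (by linarith) hh3' hh5 hh5' hh6
  simp_rw [hgW] at hcore
  have hmul := d1g_mul (c := c) (b := 0) le_rfl hc.le
  rw [show (c ^ 2 - (0:ℝ) ^ 2) / 4 = c ^ 2 / 4 by ring, d1_moment hc] at hmul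
  rw [hmul] at hcore
  linarith

/-- the estimate for one function -/
theorem d1_one {q A e : ℝ → ℝ} {P V ε M κ τ ω δ E : ℝ}
    (hP : 0 < P) (hP1 : P ≤ 1) (hPV : P ^ 2 = Real.pi * V) (hM : 1 ≤ M)
    (hε0 : 0 ≤ ε) (hε1 : ε ≤ 1) (hεV : ε < V)
    (hq : ContDiff ℝ 1 q) (hper : ∀ t, q (t + 1) = q t)
    (hq0 : ∀ t, 0 ≤ q t) (hq1 : ∀ t, q t ≤ 1)
    (hA : Continuous A) (hA0 : ∀ t, 0 ≤ A t)
    (he : Continuous e) (he0 : ∀ t, 0 ≤ e t) (hei : ∫ t in (0:ℝ)..1, e t ≤ ε)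
    (hJ : ∫ t in (0:ℝ)..1, Real.sqrt (A t ^ 2 + (deriv q t / 2) ^ 2) ≤ P + ε)
    (hiso : ∀ t, q t ≤ q t * A t + M * e t)
    (hVk : |(∫ t in (0:ℝ)..1, q t) - V| ≤ ε)
    (hmin : ∃ t, q t ≤ ε)
    (hκ : 0 ≤ κ) (hκP : κ ≤ P / 10) (hκε : 16 * M * ε ≤ κ ^ 2)
    (hτ : 0 < τ) (hω : 0 < ω) (hωε : (5 * M * ε) ^ 2 < P / 2 * ω ^ 3 / 8) (hδ : 0 < δ)
    (hδ1 : δ ≤ 1)
    (hE : 2 * τ + 2 * M * ε / τ + 10 * M * ε + κ ≤ E) :
    ∃ m ∈ Set.Icc (0:ℝ) 1, ∫ t in (0:ℝ)..1, distS (t - m) ^ 2 * q t ≤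
      V ^ 2 / (4 * Real.pi) + κ + 20 * (δ + E / δ ^ 2 + ω * (1 + 2) / δ) := by
  have hπ := Real.pi_pos
  have hπ4 : Real.pi < 3.15 := Real.pi_lt_d2
  have hqc := hq.continuous
  obtain ⟨⟨m, hm, hmax⟩, -⟩ := b1_ext hqc hper 0
  obtain ⟨-, ⟨s₀, hs₀, hmin₀⟩⟩ := b1_ext hqc hper m
  rw [zero_add] at hm
  have hint : ∀ {F : ℝ → ℝ}, Continuous F → IntervalIntegrable F volume 0 1 := fun h =>
    h.intervalIntegrable _ _
  obtain ⟨c, hcq⟩ : ∃ c, c = q m := ⟨_, rfl⟩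
  rw [← hcq] at hmax
  have hVk2 := abs_le.1 hVk
  have hc : 0 < c := by
    have h1 : ∫ t in (0:ℝ)..1, q t ≤ ∫ _ in (0:ℝ)..1, c :=
      intervalIntegral.integral_mono_on zero_le_one (hint hqc) (hint continuous_const)
        fun t _ => hmax t
    have h2 : ∫ _ in (0:ℝ)..1, c = c := by simp
    linarith
  have hc1 : c ≤ 1 := by rw [hcq]; exact hq1 m
  have hqs : q s₀ ≤ ε := by
    obtain ⟨t, ht⟩ := hmin
    exact (hmin₀ t).trans ht
  have hMε : ε ≤ M * ε := le_mul_of_one_le_left hε0 hM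
  obtain ⟨U, hU⟩ : ∃ U : ℝ → ℝ, U = fun t => (c ^ 2 - q t ^ 2) / 4 := ⟨_, rfl⟩
  obtain ⟨hl1, hl2, hl3, hl4⟩ := d1_main (U := U) hc hc1 hP.le hP1 hPV hM hε0 hε1 hq hper hq0
    hmax hA hA0 he he0 hei hJ hiso hVk (m := m) (s := s₀) hcq.symm hqs (fun t => by rw [hU])
  have hcP : |Real.pi * c / 2 - P| ≤ κ := abs_le_of_sq_le_sq (hl1.trans hκε) hκ
  obtain ⟨hf1, hf2⟩ := d1_fin hc.le hc1 hP.le hP1 hPV hcP
  have hcP2 : P / 2 ≤ c := by
    have := (abs_le.1 hcP).1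
    nlinarith
  -- translation
  have hUper : ∀ t, U (t + 1) = U t := fun t => by rw [hU]; simp only [hper]
  have hdper : ∀ t, deriv U (t + 1) = deriv U t := by
    intro t
    have h1 := deriv_comp_add_const U 1 t
    rw [show (fun x => U (x + 1)) = U from funext hUper] at h1
    exact h1.symm
  have hdqper : ∀ t, deriv q (t + 1) = deriv q t := by
    intro t
    have h1 := deriv_comp_add_const q 1 t
    rw [show (fun x => q (x + 1)) = q from funext hper] at h1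
    exact h1.symm
  have hpd : ContDiff ℝ 1 fun t => q (t + m) := hq.comp (contDiff_id.add contDiff_const)
  have hdW : ∀ t, deriv (fun t => U (t + m)) t = deriv U (t + m) :=
    fun t => deriv_comp_add_const U m t
  have hdp : ∀ t, deriv (fun t => q (t + m)) t = deriv q (t + m) :=
    fun t => deriv_comp_add_const q m t
  have hτε : 0 ≤ 2 * M * ε / τ := by positivity
  refine ⟨m, hm, (b1_dist hqc hper hq0).trans ?_⟩
  refine d1_core (p := fun t => q (t + m)) (W := fun t => U (t + m)) (s := s₀ - m) (P := P)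
    hc hc1 hM hε0 hpd ?_ (fun t => hq0 _) (fun t => hmax _) ?_ ?_ ?_ ?_ ?_ ?_ ?_ ?_ ?_ ?_ hf1 hf2
    hcP2 hω hωε hδ hδ1 hκ (by linarith)
  · intro t
    rw [show t + 1 + m = (t + m) + 1 by ring, hper]
  · change q (0 + m) = c
    rw [zero_add]
    exact hcq.symm
  · linarith [hs₀.1]
  · linarith [hs₀.2]
  · intro t
    rw [sub_add_cancel]
    exact hmin₀ _
  · change q (s₀ - m + m) ≤ ε
    rw [sub_add_cancel]
    exact hqs
  · rw [hU]
  · have h1 : ∫ t in (0:ℝ)..1, Real.sqrt (c ^ 2 - q (t + m) ^ 2) * |deriv q (t + m)| =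
        ∫ t in (0:ℝ)..1, Real.sqrt (c ^ 2 - q t ^ 2) * |deriv q t| :=
      b1_shift (F := fun t => Real.sqrt (c ^ 2 - q t ^ 2) * |deriv q t|)
        (fun t => by simp only [hper, hdqper]) m
    simp_rw [hdp]
    rw [h1]
    exact hl2
  · have h1 := hl3 τ hτ
    have h2 : ∫ t in (0:ℝ)..1, q (t + m) * |(1 / 2) * |deriv U (t + m)| - Real.sqrt (U (t + m))| =
        ∫ t in (0:ℝ)..1, q t * |(1 / 2) * |deriv U t| - Real.sqrt (U t)| :=
      b1_shift (F := fun t => q t * |(1 / 2) * |deriv U t| - Real.sqrt (U t)|)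
        (fun t => by simp only [hUper, hdper, hper]) m
    simp_rw [hdW]
    rw [h2]
    linarith
  · simp_rw [hdW]
    have h2 : ∫ t in (0:ℝ)..1, |deriv U (t + m)| = ∫ t in (0:ℝ)..1, |deriv U t| :=
      b1_shift (F := fun t => |deriv U t|) (fun t => by simp only [hdper]) m
    rw [h2]
    exact hl4
  · have h2 : ∫ t in (0:ℝ)..1, q (t + m) = ∫ t in (0:ℝ)..1, q t := b1_shift (F := q) hper m
    rw [h2]
    linarith

/- DISC1 -/
theorem disc_oneD {q A e : ℕ → ℝ → ℝ} {V c₀ : ℝ} {ε : ℕ → ℝ} (hV : 0 < V) (hV1 : V ≤ 1 / 2)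
    (hπV : Real.pi * V ≤ 1) (hc₀ : c₀ < 1) (hε : Tendsto ε atTop (𝓝 0))
    (hq : ∀ k, ContDiff ℝ 1 (q k)) (hper : ∀ k t, q k (t + 1) = q k t)
    (hq0 : ∀ k t, 0 ≤ q k t) (hq1 : ∀ k t, q k t ≤ c₀)
    (hA : ∀ k, Continuous (A k)) (hA0 : ∀ k t, 0 ≤ A k t)
    (he : ∀ k, Continuous (e k)) (he0 : ∀ k t, 0 ≤ e k t) (hei : ∀ k, ∫ t in (0:ℝ)..1, e k t ≤ ε k)
    (hJ : ∀ k, ∫ t in (0:ℝ)..1, Real.sqrt (A k t ^ 2 + (deriv (q k) t / 2) ^ 2) ≤
      Real.sqrt (Real.pi * V) + ε k)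
    (hiso : ∀ k t, q k t * (1 - q k t) * (1 - A k t) ≤ e k t)
    (hVk : ∀ k, |(∫ t in (0:ℝ)..1, q k t) - V| ≤ ε k) (hmin : ∀ k, ∃ t, q k t ≤ ε k) :
    ∀ η > 0, ∀ᶠ k in atTop, ∃ m ∈ Set.Icc (0:ℝ) 1,
      ∫ t in (0:ℝ)..1, distS (t - m) ^ 2 * q k t ≤ V ^ 2 / (4 * Real.pi) + η := by
  intro η hη
  have hπ := Real.pi_pos
  obtain ⟨P, hPdef⟩ : ∃ P, P = Real.sqrt (Real.pi * V) := ⟨_, rfl⟩
  have hP : 0 < P := by rw [hPdef]; exact Real.sqrt_pos.2 (by positivity)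
  have hP1 : P ≤ 1 := by rw [hPdef, Real.sqrt_le_one]; exact hπV
  have hPV : P ^ 2 = Real.pi * V := by rw [hPdef]; exact Real.sq_sqrt (by positivity)
  have hc₀0 : 0 ≤ c₀ := (hq0 0 0).trans (hq1 0 0)
  obtain ⟨M, hMdef⟩ : ∃ M, M = 1 / (1 - c₀) := ⟨_, rfl⟩
  have hc₀p : 0 < 1 - c₀ := by linarith
  have hM : 1 ≤ M := by
    rw [hMdef, le_div_iff₀ hc₀p]
    linarith
  have hM0 : 0 < M := by linarith
  set δ := min 1 (η / 100) with hδdef
  have hδ : 0 < δ := lt_min one_pos (by positivity)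
  have hδ1 : δ ≤ 1 := min_le_left _ _
  have hδ2 : δ ≤ η / 100 := min_le_right _ _
  set E := δ ^ 2 * η / 100 with hEdef
  have hE : 0 < E := by positivity
  set ω := δ * η / 300 with hωdef
  have hω : 0 < ω := by positivity
  set κ := min (E / 4) (min (η / 25) (P / 10)) with hκdef
  have hκ : 0 < κ := lt_min (by positivity) (lt_min (by positivity) (by positivity))
  have hκ1 : κ ≤ E / 4 := min_le_left _ _
  have hκ2 : κ ≤ η / 25 := (min_le_right _ _).trans (min_le_left _ _)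
  have hκ3 : κ ≤ P / 10 := (min_le_right _ _).trans (min_le_right _ _)
  have hτ : 0 < E / 8 := by positivity
  have g1 : ∀ᶠ k in atTop, ε k ≤ 1 := hε.eventually_le_const (by norm_num)
  have g2 : ∀ᶠ k in atTop, ε k < V := hε.eventually_lt_const hV
  have g3 : ∀ᶠ k in atTop, ε k ≤ κ ^ 2 / (16 * M) := hε.eventually_le_const (by positivity)
  have g4 : ∀ᶠ k in atTop, ε k < (P / 2 * ω ^ 3 / 8) / (25 * M ^ 2) :=
    hε.eventually_lt_const (by positivity)
  have g5 : ∀ᶠ k in atTop, ε k ≤ E ^ 2 / (64 * M) := hε.eventually_le_const (by positivity)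
  have g6 : ∀ᶠ k in atTop, ε k ≤ E / (40 * M) := hε.eventually_le_const (by positivity)
  filter_upwards [g1, g2, g3, g4, g5, g6] with k k1 k2 k3 k4 k5 k6
  have hε0 : 0 ≤ ε k := (intervalIntegral.integral_nonneg zero_le_one fun t _ => he0 k t).trans (hei k)
  rw [le_div_iff₀ (by positivity)] at k3 k5 k6
  rw [lt_div_iff₀ (by positivity)] at k4
  have hiso' : ∀ t, q k t ≤ q k t * A k t + M * e k t := by
    intro t
    have h1 := hiso k t
    have h2 : 1 - c₀ ≤ 1 - q k t := by linarith [hq1 k t]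
    have h3 : q k t * (1 - A k t) ≤ M * e k t := by
      rcases le_total (A k t) 1 with h | h
      · have h4 : 0 ≤ q k t * (1 - A k t) := mul_nonneg (hq0 k t) (by linarith)
        have h5 : (1 - c₀) * (q k t * (1 - A k t)) ≤ (1 - q k t) * (q k t * (1 - A k t)) :=
          mul_le_mul_of_nonneg_right h2 h4
        rw [hMdef, one_div, inv_mul_eq_div, le_div_iff₀ hc₀p]
        linarith
      · have h4 : q k t * (1 - A k t) ≤ 0 := mul_nonpos_of_nonneg_of_nonpos (hq0 k t) (by linarith)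
        exact h4.trans (mul_nonneg hM0.le (he0 k t))
    linarith
  have hωε : (5 * M * ε k) ^ 2 < P / 2 * ω ^ 3 / 8 := by
    have h1 : ε k * ε k ≤ ε k * 1 := mul_le_mul_of_nonneg_left k1 hε0
    have h2 : (5 * M * ε k) ^ 2 = (ε k * ε k) * (25 * M ^ 2) := by ring
    rw [h2]
    refine lt_of_le_of_lt (mul_le_mul_of_nonneg_right h1 (by positivity)) ?_
    rw [mul_one]
    exact k4
  have hEs : 2 * (E / 8) + 2 * M * ε k / (E / 8) + 10 * M * ε k + κ ≤ E := by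
    have h1 : 2 * M * ε k / (E / 8) ≤ E / 4 := by
      rw [div_le_iff₀ hτ]
      nlinarith
    have h2 : 10 * M * ε k ≤ E / 4 := by linarith
    linarith
  obtain ⟨m, hm, hle⟩ := d1_one (κ := κ) (τ := E / 8) (ω := ω) (δ := δ) (E := E) hP hP1 hPV hM hε0
    k1 k2 (hq k) (hper k) (hq0 k) (fun t => (hq1 k t).trans hc₀.le) (hA k) (hA0 k)
    (he k) (he0 k) (hei k) (by rw [hPdef]; exact hJ k) hiso' (hVk k) (hmin k) hκ.le hκ3
    (by linarith) hτ hω hωε hδ hδ1 hEs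
  refine ⟨m, hm, hle.trans ?_⟩
  have e1 : E / δ ^ 2 = η / 100 := by
    rw [hEdef]
    field_simp
  have e2 : ω * (1 + 2) / δ = η / 100 := by
    rw [hωdef]
    field_simp
    norm_num
  rw [e1, e2]
  linarith

end Vale.Agent.P232
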