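import Vale.Agent.P232U.Bath
import Vale.Agent.P232U.BVol

/-!
# P232U module ENDS (helper29): ball_end, tube_end
-/

open MeasureTheory Set Filter Topology

namespace Vale.Agent.P232

theorem ENDS_meas : Measurable distS := by
  have : distS = fun t => |t - ((⌊t + 1 / 2⌋ : ℤ) : ℝ)| := by
    funext t
    unfold distS
    rw [round_eq]
  rw [this]
  have h1 : Measurable (fun t : ℝ => ((⌊t + 1 / 2⌋ : ℤ) : ℝ)) := by
    have h2 : Measurable (fun t : ℝ => ⌊t + 1 / 2⌋) := (measurable_id.add_const _).floor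
    exact (measurable_of_countable (fun n : ℤ => (n : ℝ))).comp h2
  have h3 : Measurable (fun t : ℝ => t - ((⌊t + 1 / 2⌋ : ℤ) : ℝ)) := measurable_id.sub h1
  exact measurable_norm.comp h3

theorem ENDS_bd (t : ℝ) : distS t ^ 2 ≤ 1 := by
  have h1 : distS t ≤ 1 / 2 := abs_sub_round t
  have h0 : 0 ≤ distS t := abs_nonneg _
  nlinarith

theorem ENDS_meas_i (i : Fin 3) (m : ℝ) : Measurable (fun x : Fin 3 → ℝ => distS (x i - m) ^ 2) :=
  by
  have h : Measurable (fun x : Fin 3 → ℝ => x i - m) := (measurable_pi_apply i).sub measurable_const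
  exact (ENDS_meas.comp h).pow_const 2

theorem ENDS_int (E : Set (Fin 3 → ℝ)) (i : Fin 3) (m : ℝ) :
    IntegrableOn (fun x : Fin 3 → ℝ => distS (x i - m) ^ 2) (E ∩ cell 3) := by
  have hfin : volume (E ∩ cell 3) ≠ ⊤ := by
    refine ne_top_of_le_ne_top ?_ (measure_mono inter_subset_right)
    rw [sl_cell_vol]
    exact ENNReal.one_ne_top
  refine Measure.integrableOn_of_bounded (M := 1) hfin (ENDS_meas_i i m).aestronglyMeasurable ?_
  refine Eventually.of_forall fun x => ?_
  rw [Real.norm_eq_abs, abs_of_nonneg (sq_nonneg _)]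
  exact ENDS_bd _

/- BALLE, TUBEE -/
theorem ball_end {E : Set (Fin 3 → ℝ)} (hE : MeasurableSet E) {R : ℝ} (hR : 0 < R)
    (hR1 : R ≤ 1 / 2) (hV : vol E = 4 / 3 * Real.pi * R ^ 3)
    (hm : ∀ i, ∃ m, mom E i m ≤ 4 / 15 * Real.pi * R ^ 5) : ∃ m, AEq E (ballT m R) := by
  choose m hm using hm
  refine ⟨m, ?_⟩
  obtain ⟨f1, f2, f3⟩ := ballT_facts m hR hR1
  have hmeas : Measurable (fun x : Fin 3 → ℝ => ∑ i, distS (x i - m i) ^ 2) :=
    Finset.measurable_sum _ fun i _ => ENDS_meas_i i (m i)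
  refine bathtub (φ := fun x => ∑ i, distS (x i - m i) ^ 2) (K := 3) (r := R ^ 2) hE hmeas
    (fun x => ?_) (hV.trans f1.symm) f2 ?_
  · rw [abs_of_nonneg (Finset.sum_nonneg fun i _ => sq_nonneg _), Fin.sum_univ_three]
    have := ENDS_bd (x 0 - m 0)
    have := ENDS_bd (x 1 - m 1)
    have := ENDS_bd (x 2 - m 2)
    linarith
  · have e1 : ∫ x in E ∩ cell 3, ∑ i, distS (x i - m i) ^ 2 = ∑ i, mom E i (m i) := by
      rw [integral_finsetSum _ fun i _ => ENDS_int E i (m i)]
      rfl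
    have e2 : ∫ x in {x : Fin 3 → ℝ | ∑ i, distS (x i - m i) ^ 2 < R ^ 2} ∩ cell 3,
        ∑ i, distS (x i - m i) ^ 2 = 4 / 5 * Real.pi * R ^ 5 := f3
    rw [e1, e2, Fin.sum_univ_three]
    have := hm 0
    have := hm 1
    have := hm 2
    linarith

theorem tube_end_of (facts : ∀ (m : Fin 3 → ℝ) (i : Fin 3) {R : ℝ}, 0 < R → R ≤ 1 / 2 →
      vol (tubeT m i R) = Real.pi * R ^ 2 ∧
      volume ({x : Fin 3 → ℝ | ∑ j, (if j = i then 0 else distS (x j - m j) ^ 2) = R ^ 2} ∩
        cell 3) = 0 ∧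
      ∫ x in tubeT m i R ∩ cell 3, ∑ j, (if j = i then 0 else distS (x j - m j) ^ 2) =
        Real.pi * R ^ 4 / 2)
    {E : Set (Fin 3 → ℝ)} (hE : MeasurableSet E) (i : Fin 3)
    (h0 : 0 < vol E) (hπ : Real.pi * vol E ≤ 1)
    (hm : ∀ j, j ≠ i → ∃ m, mom E j m ≤ vol E ^ 2 / (4 * Real.pi)) :
    ∃ m, AEq E (tubeT m i (Real.sqrt (vol E / Real.pi))) := by
  have hpi := Real.pi_pos
  have hpi3 := Real.pi_gt_three
  have hm' : ∀ j, ∃ m, j ≠ i → mom E j m ≤ vol E ^ 2 / (4 * Real.pi) := by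
    intro j
    by_cases h : j = i
    · exact ⟨0, fun h' => absurd h h'⟩
    · obtain ⟨m, h1⟩ := hm j h
      exact ⟨m, fun _ => h1⟩
  choose m hm using hm'
  refine ⟨m, ?_⟩
  set R := Real.sqrt (vol E / Real.pi) with hRdef
  have hq : 0 < vol E / Real.pi := by positivity
  have hR : 0 < R := Real.sqrt_pos.2 hq
  have hR2 : R ^ 2 = vol E / Real.pi := Real.sq_sqrt hq.le
  have hR1 : R ≤ 1 / 2 := by
    rw [hRdef]
    refine Real.sqrt_le_iff.2 ⟨by norm_num, ?_⟩
    rw [div_le_iff₀ hpi]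
    nlinarith
  obtain ⟨f1, f2, f3⟩ := facts m i hR hR1
  have hmj : ∀ j, Measurable (fun x : Fin 3 → ℝ => if j = i then (0:ℝ) else distS (x j - m j) ^ 2) := by
    intro j
    by_cases h : j = i
    · simp only [h, if_true]
      exact measurable_const
    · simp only [h, if_false]
      exact ENDS_meas_i j (m j)
  have hmeas : Measurable (fun x : Fin 3 → ℝ => ∑ j, (if j = i then 0 else distS (x j - m j) ^ 2)) :=
    Finset.measurable_sum _ fun j _ => hmj j
  have hbd : ∀ (j : Fin 3) (x : Fin 3 → ℝ), 0 ≤ (if j = i then (0:ℝ) else distS (x j - m j) ^ 2) ∧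
      (if j = i then (0:ℝ) else distS (x j - m j) ^ 2) ≤ 1 := by
    intro j x
    by_cases h : j = i
    · simp [h]
    · simp only [h, if_false]
      exact ⟨sq_nonneg _, ENDS_bd _⟩
  refine bathtub (φ := fun x => ∑ j, (if j = i then 0 else distS (x j - m j) ^ 2)) (K := 3)
    (r := R ^ 2) hE hmeas (fun x => ?_) ?_ f2 ?_
  · rw [abs_of_nonneg (Finset.sum_nonneg fun j _ => (hbd j x).1), Fin.sum_univ_three]
    have := (hbd 0 x).2
    have := (hbd 1 x).2
    have := (hbd 2 x).2
    linarith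
  · show vol E = vol (tubeT m i R)
    rw [f1, hR2]
    field_simp
  · have hint : ∀ j : Fin 3, IntegrableOn (fun x : Fin 3 → ℝ =>
        if j = i then (0:ℝ) else distS (x j - m j) ^ 2) (E ∩ cell 3) := by
      intro j
      by_cases h : j = i
      · simp only [h, if_true]
        exact integrableOn_zero
      · simp only [h, if_false]
        exact ENDS_int E j (m j)
    have e1 : ∫ x in E ∩ cell 3, ∑ j, (if j = i then 0 else distS (x j - m j) ^ 2) =
        ∑ j, (if j = i then 0 else mom E j (m j)) := by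
      rw [integral_finsetSum _ fun j _ => hint j]
      refine Finset.sum_congr rfl fun j _ => ?_
      by_cases h : j = i
      · simp [h]
      · simp only [h, if_false]
        rfl
    have e2 : ∫ x in {x : Fin 3 → ℝ | ∑ j, (if j = i then 0 else distS (x j - m j) ^ 2) < R ^ 2}
        ∩ cell 3, ∑ j, (if j = i then 0 else distS (x j - m j) ^ 2) = Real.pi * R ^ 4 / 2 := f3
    rw [e1, e2]
    have e3 : ∑ j, (if j = i then 0 else mom E j (m j))
        ≤ ∑ j, (if j = i then 0 else vol E ^ 2 / (4 * Real.pi)) := by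
      refine Finset.sum_le_sum fun j _ => ?_
      by_cases h : j = i
      · simp [h]
      · simp only [h, if_false]
        exact hm j h
    have e4 : ∑ j : Fin 3, (if j = i then 0 else vol E ^ 2 / (4 * Real.pi))
        = 2 * (vol E ^ 2 / (4 * Real.pi)) := by
      fin_cases i <;> simp [Fin.sum_univ_three] <;> ring
    have e5 : Real.pi * R ^ 4 / 2 = 2 * (vol E ^ 2 / (4 * Real.pi)) := by
      have : R ^ 4 = (R ^ 2) ^ 2 := by ring
      rw [this, hR2]
      field_simp
      ring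
    rw [e5]
    exact e3.trans e4.le

end Vale.Agent.P232
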