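import Vale.Agent.P232U.Defs

/-! # P232U, module TVOL: volume and moments of solid tubes (helper58) -/

open MeasureTheory Set Filter Topology

namespace Vale.Agent.P232

noncomputable def tvWrap (m t : ℝ) : ℝ := (t - m) - round (t - m)

theorem tv_wrap_mem (m t : ℝ) : tvWrap m t ∈ Ico (-(1 / 2) : ℝ) (1 / 2) := by
  unfold tvWrap
  rw [round_eq]
  constructor
  · linarith [Int.floor_le (t - m + 1 / 2)]
  · linarith [Int.lt_floor_add_one (t - m + 1 / 2)]

theorem tv_wrap_meas (m : ℝ) : Measurable (tvWrap m) := by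
  unfold tvWrap
  have h1 : Measurable fun t : ℝ => t - m := measurable_id.sub_const m
  have h2 : Measurable fun t : ℝ => ((round (t - m) : ℤ) : ℝ) := by
    simp_rw [round_eq]
    exact (measurable_from_top (f := fun k : ℤ => (k : ℝ))).comp
      (Int.measurable_floor.comp (h1.add_const (1 / 2)))
  exact h1.sub h2

theorem tv_wrap_per (m t : ℝ) (k : ℤ) : tvWrap m (t + k) = tvWrap m t := by
  unfold tvWrap
  have h : t + (k : ℝ) - m = (t - m) + k := by ring
  rw [h, round_add_intCast]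
  push_cast
  ring

theorem tv_wrap_eq {m t : ℝ} (h : t ∈ Ico (m - 1 / 2) (m + 1 / 2)) : tvWrap m t = t - m := by
  unfold tvWrap
  have h1 : round (t - m) = 0 := by
    rw [round_eq, Int.floor_eq_zero_iff]
    constructor
    · linarith [h.1]
    · linarith [h.2]
  rw [h1]
  simp

theorem tv_distS (m t : ℝ) : distS (t - m) ^ 2 = (tvWrap m t) ^ 2 := by
  unfold distS tvWrap
  rw [sq_abs]

theorem tv_mp (m : ℝ) : MeasurePreserving (tvWrap m) (volume.restrict (Ico (0:ℝ) 1))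
    (volume.restrict (Ico (-(1 / 2) : ℝ) (1 / 2))) := by
  refine ⟨tv_wrap_meas m, ?_⟩
  ext s hs
  rw [Measure.map_apply (tv_wrap_meas m) hs, Measure.restrict_apply (tv_wrap_meas m hs),
    Measure.restrict_apply hs]
  set A : Set ℝ := tvWrap m ⁻¹' s with hA
  have hAm : MeasurableSet A := tv_wrap_meas m hs
  have h1 := isAddFundamentalDomain_Ioc (T := (1:ℝ)) one_pos 0 (volume : Measure ℝ)
  have h2 := isAddFundamentalDomain_Ioc (T := (1:ℝ)) one_pos (m - 1 / 2) (volume : Measure ℝ)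
  have h3 : volume (A ∩ Ioc (0:ℝ) (0 + 1)) = volume (A ∩ Ioc (m - 1 / 2) (m - 1 / 2 + 1)) := by
    refine h1.measure_set_eq h2 hAm fun g => ?_
    obtain ⟨g, hg⟩ := g
    obtain ⟨k, hk⟩ := AddSubgroup.mem_zmultiples_iff.mp hg
    ext x
    have e1 : ((⟨g, hg⟩ : AddSubgroup.zmultiples (1:ℝ)) +ᵥ x) = x + (k : ℤ) := by
      change g + x = x + k
      rw [← hk]
      simp [add_comm]
    change tvWrap m ((⟨g, hg⟩ : AddSubgroup.zmultiples (1:ℝ)) +ᵥ x) ∈ s ↔ tvWrap m x ∈ s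
    rw [e1, tv_wrap_per]
  have h4 : volume (A ∩ Ico (0:ℝ) 1) = volume (A ∩ Ioc (0:ℝ) (0 + 1)) := by
    rw [zero_add]
    exact measure_congr ((ae_eq_refl A).inter Ico_ae_eq_Ioc)
  have h5 : volume (A ∩ Ioc (m - 1 / 2) (m - 1 / 2 + 1)) =
      volume (A ∩ Ico (m - 1 / 2) (m + 1 / 2)) := by
    have : m - 1 / 2 + 1 = m + 1 / 2 := by ring
    rw [this]
    exact measure_congr ((ae_eq_refl A).inter Ico_ae_eq_Ioc.symm)
  rw [h4, h3, h5]
  have h6 : A ∩ Ico (m - 1 / 2) (m + 1 / 2) =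
      (fun t => t - m) ⁻¹' (s ∩ Ico (-(1 / 2) : ℝ) (1 / 2)) := by
    ext t
    constructor
    · rintro ⟨h7, h8⟩
      rw [hA, mem_preimage, tv_wrap_eq h8] at h7
      exact ⟨h7, by linarith [h8.1], by linarith [h8.2]⟩
    · rintro ⟨h7, h8⟩
      have h8' : -(1 / 2) ≤ t - m ∧ t - m < 1 / 2 := h8
      have h9 : t ∈ Ico (m - 1 / 2) (m + 1 / 2) := ⟨by linarith [h8'.1], by linarith [h8'.2]⟩
      exact ⟨by rw [hA, mem_preimage, tv_wrap_eq h9]; exact h7, h9⟩
  rw [h6]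
  have h7 := measurePreserving_sub_right (volume : Measure ℝ) m
  exact h7.measure_preimage (hs.inter measurableSet_Ico).nullMeasurableSet

/-- centered cell -/
def tvBox : Set (Fin 3 → ℝ) := Set.pi Set.univ fun _ => Set.Ico (-(1 / 2) : ℝ) (1 / 2)

theorem tv_mp3 (m : Fin 3 → ℝ) : MeasurePreserving (fun (x : Fin 3 → ℝ) j => tvWrap (m j) (x j))
    (volume.restrict (cell 3)) (volume.restrict tvBox) := by
  have h1 : (volume : Measure (Fin 3 → ℝ)) = Measure.pi fun _ => (volume : Measure ℝ) := rfl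
  unfold cell tvBox
  rw [h1, Measure.restrict_pi_pi, Measure.restrict_pi_pi]
  exact measurePreserving_pi _ _ fun j => tv_mp (m j)

/-- open disc -/
def tvDisc (R : ℝ) : Set (Fin 2 → ℝ) := {y | (y 0) ^ 2 + (y 1) ^ 2 < R ^ 2}

theorem tv_disc_meas (R : ℝ) : MeasurableSet (tvDisc R) := by
  unfold tvDisc
  exact measurableSet_lt (by fun_prop) measurable_const

theorem tv_disc_vol {R : ℝ} (hR : 0 < R) :
    volume (tvDisc R) = ENNReal.ofReal (Real.pi * R ^ 2) := by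
  have h1 := PiLp.volume_preserving_toLp (Fin 2)
  have h2 : tvDisc R = (@WithLp.toLp 2 (Fin 2 → ℝ)) ⁻¹' (Metric.ball 0 R) := by
    ext y
    rw [mem_preimage, Metric.mem_ball, dist_zero_right, EuclideanSpace.norm_eq, Real.sqrt_lt' hR]
    simp only [tvDisc, mem_ofPred_eq, Fin.sum_univ_two, Real.norm_eq_abs, sq_abs]
  rw [h2, h1.measure_preimage measurableSet_ball.nullMeasurableSet,
    EuclideanSpace.volume_ball_fin_two, ← ENNReal.ofReal_pow hR.le,
    ← ENNReal.ofReal_mul (by positivity)]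
  congr 1
  ring

theorem tv_disc_mom {R : ℝ} (hR : 0 < R) :
    ∫ y in tvDisc R, ((y 0) ^ 2 + (y 1) ^ 2) = Real.pi * R ^ 4 / 2 := by
  have h1 := volume_preserving_finTwoArrow ℝ
  have h2 : ∫ y in tvDisc R, ((y 0) ^ 2 + (y 1) ^ 2) =
      ∫ p in {p : ℝ × ℝ | p.1 ^ 2 + p.2 ^ 2 < R ^ 2}, (p.1 ^ 2 + p.2 ^ 2) := by
    have h3 := h1.setIntegral_preimage_emb (MeasurableEquiv.measurableEmbedding _)
      (fun p : ℝ × ℝ => p.1 ^ 2 + p.2 ^ 2) {p : ℝ × ℝ | p.1 ^ 2 + p.2 ^ 2 < R ^ 2}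
    rw [← h3]
    rfl
  rw [h2]
  have hm : MeasurableSet {p : ℝ × ℝ | p.1 ^ 2 + p.2 ^ 2 < R ^ 2} :=
    measurableSet_lt (by fun_prop) measurable_const
  rw [← integral_indicator hm, ← integral_comp_polarCoord_symm]
  have h4 : ∀ p ∈ polarCoord.target, p.1 • ({p : ℝ × ℝ | p.1 ^ 2 + p.2 ^ 2 < R ^ 2}.indicator
      (fun p : ℝ × ℝ => p.1 ^ 2 + p.2 ^ 2) (polarCoord.symm p)) =
      (Ioo (0:ℝ) R).indicator (fun r => r ^ 3) p.1 * 1 := by
    rintro ⟨r, θ⟩ hp
    have hr : 0 < r := hp.1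
    rw [polarCoord_symm_apply]
    have e1 : (r * Real.cos θ) ^ 2 + (r * Real.sin θ) ^ 2 = r ^ 2 := by
      have := Real.sin_sq_add_cos_sq θ
      nlinarith
    simp only [indicator, mem_ofPred_eq, smul_eq_mul, e1, mem_Ioo]
    by_cases h : r < R
    · rw [if_pos (pow_lt_pow_left₀ h hr.le two_ne_zero), if_pos ⟨hr, h⟩]
      ring
    · rw [if_neg, if_neg]
      · ring
      · rintro ⟨_, h6⟩
        exact h h6
      · rw [not_lt]
        exact pow_le_pow_left₀ hR.le (not_lt.mp h) 2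
  have ht : polarCoord.target = Ioi (0:ℝ) ×ˢ Ioo (-Real.pi) Real.pi := rfl
  rw [setIntegral_congr_fun polarCoord.open_target.measurableSet h4, ht]
  have h5 : (volume : Measure (ℝ × ℝ)) = (volume : Measure ℝ).prod volume := rfl
  rw [h5, setIntegral_prod_mul (fun r => (Ioo (0:ℝ) R).indicator (fun r => r ^ 3) r)
    (fun _ => (1:ℝ))]
  have h6 : ∫ r in Ioi (0:ℝ), (Ioo (0:ℝ) R).indicator (fun r => r ^ 3) r = R ^ 4 / 4 := by
    rw [setIntegral_indicator measurableSet_Ioo]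
    have : Ioi (0:ℝ) ∩ Ioo 0 R = Ioo 0 R := by
      ext x
      simp only [mem_inter_iff, mem_Ioi, mem_Ioo]
      tauto
    rw [this, ← integral_Ioc_eq_integral_Ioo, ← intervalIntegral.integral_of_le hR.le,
      integral_pow]
    norm_num
  have h7 : ∫ _ in Ioo (-Real.pi) Real.pi, (1:ℝ) = 2 * Real.pi := by
    rw [← integral_Ioc_eq_integral_Ioo,
      ← intervalIntegral.integral_of_le (by linarith [Real.pi_pos])]
    simp
    ring
  rw [h6, h7]
  ring

theorem tv_circle {R : ℝ} (hR : 0 < R) :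
    volume {y : Fin 2 → ℝ | (y 0) ^ 2 + (y 1) ^ 2 = R ^ 2} = 0 := by
  have h1 := PiLp.volume_preserving_toLp (Fin 2)
  have h2 : {y : Fin 2 → ℝ | (y 0) ^ 2 + (y 1) ^ 2 = R ^ 2} =
      (@WithLp.toLp 2 (Fin 2 → ℝ)) ⁻¹' (Metric.sphere 0 R) := by
    ext y
    rw [mem_preimage, mem_sphere_zero_iff_norm, EuclideanSpace.norm_eq,
      Real.sqrt_eq_iff_mul_self_eq (Finset.sum_nonneg fun i _ => sq_nonneg _) hR.le]
    simp only [mem_ofPred_eq, Fin.sum_univ_two, Real.norm_eq_abs, sq_abs]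
    rw [← sq, eq_comm]
  rw [h2, h1.measure_preimage Metric.isClosed_sphere.measurableSet.nullMeasurableSet]
  exact Measure.addHaar_sphere _ _ _

/-- cylinder -/
def tvCyl (i : Fin 3) (R : ℝ) : Set (Fin 3 → ℝ) :=
  {y | ∑ j, (if j = i then 0 else (y j) ^ 2) < R ^ 2}

theorem tv_cyl_meas (i : Fin 3) (R : ℝ) : MeasurableSet (tvCyl i R) := by
  unfold tvCyl
  refine measurableSet_lt (Finset.measurable_sum _ fun j _ => ?_) measurable_const
  by_cases h : j = i
  · simp only [h, if_true]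
    exact measurable_const
  · simp only [h, if_false]
    fun_prop

theorem tv_tube_eq (m : Fin 3 → ℝ) (i : Fin 3) (R : ℝ) :
    tubeT m i R = (fun (x : Fin 3 → ℝ) j => tvWrap (m j) (x j)) ⁻¹' (tvCyl i R) := by
  ext x
  unfold tubeT tvCyl
  rw [mem_preimage, mem_ofPred_eq, mem_ofPred_eq]
  simp only [tv_distS]

theorem tv_tube_meas (m : Fin 3 → ℝ) (i : Fin 3) (R : ℝ) : MeasurableSet (tubeT m i R) := by
  rw [tv_tube_eq]
  exact (tv_mp3 m).measurable (tv_cyl_meas i R)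

theorem tv_tube_per (m : Fin 3 → ℝ) (i : Fin 3) (R : ℝ) : IsPerSet (tubeT m i R) := by
  intro x k
  rw [tv_tube_eq]
  rw [mem_preimage, mem_preimage]
  have : (fun j => tvWrap (m j) ((x + fun i => (k i : ℝ)) j)) =
      fun j => tvWrap (m j) (x j) := by
    funext j
    rw [Pi.add_apply, tv_wrap_per]
  rw [this]

theorem tv_cyl_box {i : Fin 3} {R : ℝ} (hR0 : 0 < R) (hR : R ≤ 1 / 2) :
    tvCyl i R ∩ tvBox = (MeasurableEquiv.piFinSuccAbove (fun _ : Fin 3 => ℝ) i) ⁻¹'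
      (Set.Ico (-(1 / 2) : ℝ) (1 / 2) ×ˢ tvDisc R) := by
  ext x
  have e1 : (MeasurableEquiv.piFinSuccAbove (fun _ : Fin 3 => ℝ) i) x =
      (x i, fun j => x (i.succAbove j)) := rfl
  rw [mem_preimage, e1, mem_prod]
  have e2 : ∑ j, (if j = i then 0 else (x j) ^ 2) =
      (x (i.succAbove 0)) ^ 2 + (x (i.succAbove 1)) ^ 2 := by
    rw [Fin.sum_univ_succAbove _ i, Fin.sum_univ_two]
    simp [Fin.succAbove_ne]
  unfold tvCyl tvBox tvDisc
  rw [mem_inter_iff, mem_ofPred_eq, e2, Set.mem_univ_pi, mem_ofPred_eq]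
  constructor
  · rintro ⟨h1, h2⟩
    exact ⟨h2 i, h1⟩
  · rintro ⟨h1, h2⟩
    refine ⟨h2, fun j => ?_⟩
    have hq : ∀ t : ℝ, t ^ 2 < R ^ 2 → t ∈ Set.Ico (-(1 / 2) : ℝ) (1 / 2) := by
      intro t ht
      have := abs_lt_of_sq_lt_sq ht hR0.le
      rw [abs_lt] at this
      exact ⟨by linarith [this.1], by linarith [this.2]⟩
    by_cases hj : j = i
    · rw [hj]
      exact h1
    · obtain ⟨k, rfl⟩ := Fin.exists_succAbove_eq hj
      fin_cases k
      · exact hq _ (by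
          have := sq_nonneg (x (i.succAbove 1))
          change (x (i.succAbove 0)) ^ 2 < R ^ 2
          linarith)
      · exact hq _ (by
          have := sq_nonneg (x (i.succAbove 0))
          change (x (i.succAbove 1)) ^ 2 < R ^ 2
          linarith)

theorem tv_cyl_vol {i : Fin 3} {R : ℝ} (hR0 : 0 < R) (hR : R ≤ 1 / 2) :
    volume (tvCyl i R ∩ tvBox) = ENNReal.ofReal (Real.pi * R ^ 2) := by
  have h1 := volume_preserving_piFinSuccAbove (fun _ : Fin 3 => ℝ) i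
  rw [tv_cyl_box hR0 hR, h1.measure_preimage_equiv]
  have h4 : (volume : Measure (ℝ × (Fin 2 → ℝ))) = (volume : Measure ℝ).prod volume := rfl
  rw [h4, Measure.prod_prod, tv_disc_vol hR0, Real.volume_Ico]
  norm_num

theorem tv_sum (i : Fin 3) (x : Fin 3 → ℝ) : ∑ j, (if j = i then 0 else (x j) ^ 2) =
    (x (i.succAbove 0)) ^ 2 + (x (i.succAbove 1)) ^ 2 := by
  rw [Fin.sum_univ_succAbove _ i, Fin.sum_univ_two]
  simp [Fin.succAbove_ne]

theorem tv_cyl_mom {i : Fin 3} {R : ℝ} (hR0 : 0 < R) (hR : R ≤ 1 / 2) :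
    ∫ y in tvCyl i R ∩ tvBox, ∑ j, (if j = i then 0 else (y j) ^ 2) = Real.pi * R ^ 4 / 2 := by
  have h1 := volume_preserving_piFinSuccAbove (fun _ : Fin 3 => ℝ) i
  rw [tv_cyl_box hR0 hR]
  have h3 := h1.setIntegral_preimage_emb (MeasurableEquiv.measurableEmbedding _)
      (fun z : ℝ × (Fin 2 → ℝ) => (z.2 0) ^ 2 + (z.2 1) ^ 2)
      (Set.Ico (-(1 / 2) : ℝ) (1 / 2) ×ˢ tvDisc R)
  have e0 : ∀ (k : Fin 2) (y : Fin 3 → ℝ),
      ((MeasurableEquiv.piFinSuccAbove (fun _ : Fin 3 => ℝ) i) y).2 k =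
      y (i.succAbove k) := fun k y => rfl
  simp only [e0] at h3
  simp only [tv_sum]
  rw [h3]
  have h4 : (volume : Measure (ℝ × (Fin 2 → ℝ))) = (volume : Measure ℝ).prod volume := rfl
  have h5 := setIntegral_prod_mul (μ := (volume : Measure ℝ)) (ν := (volume : Measure (Fin 2 → ℝ)))
    (fun _ : ℝ => (1:ℝ)) (fun y : Fin 2 → ℝ => (y 0) ^ 2 + (y 1) ^ 2)
    (Set.Ico (-(1 / 2) : ℝ) (1 / 2)) (tvDisc R)
  rw [h4]
  simp only [one_mul] at h5
  rw [h5]
  have h6 : ∫ _ in Set.Ico (-(1 / 2) : ℝ) (1 / 2), (1:ℝ) = 1 := by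
    simp
    norm_num
  rw [h6, one_mul, tv_disc_mom hR0]

theorem tv_cyl_bd {i : Fin 3} {R : ℝ} (hR0 : 0 < R) :
    volume ({y : Fin 3 → ℝ | ∑ j, (if j = i then 0 else (y j) ^ 2) = R ^ 2} ∩ tvBox) = 0 := by
  have h1 := volume_preserving_piFinSuccAbove (fun _ : Fin 3 => ℝ) i
  have h2 : {y : Fin 3 → ℝ | ∑ j, (if j = i then 0 else (y j) ^ 2) = R ^ 2} ∩ tvBox ⊆
      (MeasurableEquiv.piFinSuccAbove (fun _ : Fin 3 => ℝ) i) ⁻¹'
      (Set.Ico (-(1 / 2) : ℝ) (1 / 2) ×ˢ {y : Fin 2 → ℝ | (y 0) ^ 2 + (y 1) ^ 2 = R ^ 2}) := by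
    rintro x ⟨h3, h4⟩
    have e1 : (MeasurableEquiv.piFinSuccAbove (fun _ : Fin 3 => ℝ) i) x =
        (x i, fun j => x (i.succAbove j)) := rfl
    rw [mem_preimage, e1]
    rw [mem_ofPred_eq, tv_sum] at h3
    unfold tvBox at h4
    rw [Set.mem_univ_pi] at h4
    exact ⟨h4 i, h3⟩
  refine measure_mono_null h2 ?_
  rw [h1.measure_preimage_equiv]
  have h4 : (volume : Measure (ℝ × (Fin 2 → ℝ))) = (volume : Measure ℝ).prod volume := rfl
  rw [h4, Measure.prod_prod, tv_circle hR0, mul_zero]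

theorem tv_sum_meas (i : Fin 3) :
    Measurable fun y : Fin 3 → ℝ => ∑ j, (if j = i then 0 else (y j) ^ 2) := by
  simp only [tv_sum]
  fun_prop

theorem tubeT_facts (m : Fin 3 → ℝ) (i : Fin 3) {R : ℝ} (hR : 0 < R) (hR1 : R ≤ 1 / 2) :
    vol (tubeT m i R) = Real.pi * R ^ 2 ∧
    volume ({x : Fin 3 → ℝ | ∑ j, (if j = i then 0 else distS (x j - m j) ^ 2) = R ^ 2} ∩
      cell 3) = 0 ∧
    ∫ x in tubeT m i R ∩ cell 3, ∑ j, (if j = i then 0 else distS (x j - m j) ^ 2) =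
      Real.pi * R ^ 4 / 2 := by
  refine ⟨?_, ?_, ?_⟩
  · unfold vol
    rw [← Measure.restrict_apply (tv_tube_meas m i R), tv_tube_eq,
      (tv_mp3 m).measure_preimage (tv_cyl_meas i R).nullMeasurableSet,
      Measure.restrict_apply (tv_cyl_meas i R), tv_cyl_vol hR hR1,
      ENNReal.toReal_ofReal (by positivity)]
  · have e1 : {x : Fin 3 → ℝ | ∑ j, (if j = i then 0 else distS (x j - m j) ^ 2) = R ^ 2} =
        (fun (x : Fin 3 → ℝ) j => tvWrap (m j) (x j)) ⁻¹'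
          {y : Fin 3 → ℝ | ∑ j, (if j = i then 0 else (y j) ^ 2) = R ^ 2} := by
      ext x
      rw [mem_preimage, mem_ofPred_eq, mem_ofPred_eq]
      simp only [tv_distS]
    have e2 : MeasurableSet {y : Fin 3 → ℝ | ∑ j, (if j = i then 0 else (y j) ^ 2) = R ^ 2} :=
      measurableSet_eq_fun (tv_sum_meas i) measurable_const
    have e3 : MeasurableSet
        {x : Fin 3 → ℝ | ∑ j, (if j = i then 0 else distS (x j - m j) ^ 2) = R ^ 2} := by
      rw [e1]
      exact (tv_mp3 m).measurable e2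
    rw [← Measure.restrict_apply e3, e1, (tv_mp3 m).measure_preimage e2.nullMeasurableSet,
      Measure.restrict_apply e2, tv_cyl_bd hR]
  · have h1 : ∫ x in tubeT m i R ∩ cell 3,
        ∑ j, (if j = i then 0 else distS (x j - m j) ^ 2) =
        ∫ x, (tvCyl i R).indicator (fun y => ∑ j, (if j = i then 0 else (y j) ^ 2))
          (fun l => tvWrap (m l) (x l)) ∂(volume.restrict (cell 3)) := by
      rw [← Measure.restrict_restrict (tv_tube_meas m i R),
        ← integral_indicator (tv_tube_meas m i R)]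
      refine integral_congr_ae (ae_of_all _ fun x => ?_)
      have hx : x ∈ tubeT m i R ↔ (fun l => tvWrap (m l) (x l)) ∈ tvCyl i R := by
        rw [tv_tube_eq]
        rfl
      by_cases h : x ∈ tubeT m i R
      · simp only [indicator_of_mem h, indicator_of_mem (hx.mp h), tv_distS]
      · simp only [indicator_of_notMem h, indicator_of_notMem fun h' => h (hx.mpr h')]
    rw [h1]
    have h2 : AEStronglyMeasurable ((tvCyl i R).indicator
        (fun y : Fin 3 → ℝ => ∑ j, (if j = i then 0 else (y j) ^ 2)))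
        (Measure.map (fun (x : Fin 3 → ℝ) l => tvWrap (m l) (x l)) (volume.restrict (cell 3))) :=
      (Measurable.indicator (tv_sum_meas i) (tv_cyl_meas i R)).aestronglyMeasurable
    have h3 := integral_map (tv_mp3 m).measurable.aemeasurable h2
    rw [← h3, (tv_mp3 m).map_eq, integral_indicator (tv_cyl_meas i R),
      Measure.restrict_restrict (tv_cyl_meas i R)]
    exact tv_cyl_mom hR hR1

end Vale.Agent.P232
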