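import Vale.Agent.P232U.Ends
import Vale.Agent.P232U.TVol

/-!
# P232U module ENDS, part 2 (helper29): tube_end
-/

open MeasureTheory Set Filter Topology

namespace Vale.Agent.P232

theorem tube_end {E : Set (Fin 3 → ℝ)} (hE : MeasurableSet E) (i : Fin 3)
    (h0 : 0 < vol E) (hπ : Real.pi * vol E ≤ 1)
    (hm : ∀ j, j ≠ i → ∃ m, mom E j m ≤ vol E ^ 2 / (4 * Real.pi)) :
    ∃ m, AEq E (tubeT m i (Real.sqrt (vol E / Real.pi))) :=
  tube_end_of (fun m i {_} hR hR1 => tubeT_facts m i hR hR1) hE i h0 hπ hm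

end Vale.Agent.P232
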