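import Vale.Agent.P232U.Defs

/-!
# P232U, module FIN: all minimizers, from the other modules

`minimizers_of` has the statements of the other modules as hypotheses (`FinDeps`); the final
theorem is `minimizers_of ⟨@approx_seq, @NM.err_tendsto, @flat_inv, @slab_end,
@cyl_seq, @ball_moment, @two_dir, @ball_end, @tube_end, @classify⟩`.
-/

open MeasureTheory Set Filter Topology

namespace Vale.Agent.P232

/-- pigeonhole for monotone alternatives -/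
theorem FIN_pigeon {ι : Type} [Finite ι] (P : ι → ℝ → ℕ → Prop)
    (hmono : ∀ o ε ε' k, ε ≤ ε' → P o ε k → P o ε' k)
    (h : ∀ ε > 0, ∀ᶠ k in atTop, ∃ o, P o ε k) :
    ∃ o, ∀ ε > 0, ∃ᶠ k in atTop, P o ε k := by
  by_contra hcon
  push Not at hcon
  choose ε hε hf using hcon
  have h1 : ∀ᶠ x in 𝓝[>] (0 : ℝ), ∀ o, x ≤ ε o :=
    eventually_all.2 fun o => mem_nhdsWithin_of_mem_nhds (Iic_mem_nhds (hε o))
  obtain ⟨x, hx, hx0⟩ := (h1.and self_mem_nhdsWithin).exists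
  have h2 : ∀ᶠ k in atTop, ∀ o, ¬ P o (ε o) k := eventually_all.2 fun o => hf o
  obtain ⟨k, ⟨o, ho⟩, hk⟩ := ((h x hx0).and h2).exists
  exact hk o (hmono o x (ε o) k (hx o) ho)

theorem FIN_third : ∀ i j : Fin 3, j ≠ i → ∃ l : Fin 3, ∀ j' : Fin 3, j' ≠ l → j' = i ∨ j' = j := by
  decide

/-- radius of the ball of volume `V` -/
theorem FIN_radius' {V : ℝ} (hV : 0 < V) :
    0 < (3 * V / (4 * Real.pi)) ^ (1 / 3 : ℝ) ∧
    V = 4 / 3 * Real.pi * ((3 * V / (4 * Real.pi)) ^ (1 / 3 : ℝ)) ^ 3 ∧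
      2 * Real.pi * ((3 * V / (4 * Real.pi)) ^ (1 / 3 : ℝ)) ^ 2 =
        (9 * Real.pi / 2) ^ (1 / 3 : ℝ) * V ^ (2 / 3 : ℝ) := by
  have hπ := Real.pi_pos
  have h0 : 0 < 3 * V / (4 * Real.pi) := by positivity
  set R : ℝ := (3 * V / (4 * Real.pi)) ^ (1 / 3 : ℝ) with hR
  have hR0 : 0 < R := Real.rpow_pos_of_pos h0 _
  have hR3 : R ^ 3 = 3 * V / (4 * Real.pi) := by
    rw [hR, ← Real.rpow_natCast, ← Real.rpow_mul h0.le]
    norm_num
  refine ⟨hR0, ?_, ?_⟩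
  · rw [hR3]
    field_simp
  · have h1 : ((9 * Real.pi / 2) ^ (1 / 3 : ℝ)) ^ 3 = 9 * Real.pi / 2 := by
      rw [← Real.rpow_natCast, ← Real.rpow_mul (by positivity)]
      norm_num
    have h2 : (V ^ (2 / 3 : ℝ)) ^ 3 = V ^ 2 := by
      rw [← Real.rpow_natCast, ← Real.rpow_mul hV.le, ← Real.rpow_natCast]
      norm_num
    have h3 : (2 * Real.pi * R ^ 2) ^ 3 =
        ((9 * Real.pi / 2) ^ (1 / 3 : ℝ) * V ^ (2 / 3 : ℝ)) ^ 3 := by
      rw [mul_pow ((9 * Real.pi / 2) ^ (1 / 3 : ℝ)), h1, h2]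
      have e : (2 * Real.pi * R ^ 2) ^ 3 = 8 * Real.pi ^ 3 * (R ^ 3) ^ 2 := by ring
      rw [e, hR3]
      field_simp
      ring
    have hx : 0 ≤ 2 * Real.pi * R ^ 2 := by positivity
    have hy : 0 ≤ (9 * Real.pi / 2) ^ (1 / 3 : ℝ) * V ^ (2 / 3 : ℝ) := by positivity
    exact (pow_left_inj₀ hx hy three_ne_zero).1 h3

theorem FIN_radius {V : ℝ} (hV : 0 < V) :
    ∃ R : ℝ, 0 < R ∧ V = 4 / 3 * Real.pi * R ^ 3 ∧
      2 * Real.pi * R ^ 2 = (9 * Real.pi / 2) ^ (1 / 3 : ℝ) * V ^ (2 / 3 : ℝ) :=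
  ⟨_, FIN_radius' hV⟩

/-- the results of the other modules, as hypotheses (each field is the exact statement of the
theorem of the same name) -/
structure FinDeps : Prop where
  approx_seq : ∀ {E : Set (Fin 3 → ℝ)}, MeasurableSet E → IsPerSet E →
    perimeter E ≠ ⊤ → ∀ {J : ℝ}, (perimeter E).toReal ≤ 2 * J →
    ∃ f : ℕ → (Fin 3 → ℝ) → ℝ, NM J E f ∧ ∀ k, ∫ x in cell 3, f k x = vol E
  err_tendsto : ∀ {J : ℝ} {E : Set (Fin 3 → ℝ)} {f : ℕ → (Fin 3 → ℝ) → ℝ}, NM J E f →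
    Tendsto (fun k => ∫ x in cell 3, f k x * (1 - f k x)) atTop (𝓝 0)
  flat_inv : ∀ {E : Set (Fin 3 → ℝ)} {f : ℕ → (Fin 3 → ℝ) → ℝ} {V : ℝ}, NM (I2 V) E f →
    0 < V → V < 1 → ∀ i : Fin 3,
    (∀ ε > 0, ∃ᶠ k in atTop, ∫ z in (0:ℝ)..1, |sArea (f k) i z - V| ≤ ε) → InvDir E i
  slab_end : ∀ {E : Set (Fin 3 → ℝ)} {f : ℕ → (Fin 3 → ℝ) → ℝ} {J : ℝ}, J ≤ 1 →
    NM J E f → 0 < vol E → vol E < 1 → ∀ i : Fin 3,
    (∀ j, j ≠ i → InvDir E j) → ∃ a, AEq E (slabT i a (vol E))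
  cyl_seq : ∀ {E : Set (Fin 3 → ℝ)} {f : ℕ → (Fin 3 → ℝ) → ℝ} {J : ℝ}, NM J E f →
    ∀ i : Fin 3, InvDir E i →
    ∃ g : ℕ → (Fin 3 → ℝ) → ℝ, NM J E g ∧ ∀ k x t, g k (Function.update x i t) = g k x
  ball_moment : ∀ {E : Set (Fin 3 → ℝ)} {f : ℕ → (Fin 3 → ℝ) → ℝ} {R : ℝ}, 0 < R →
    R < 1 / 2 → NM (2 * Real.pi * R ^ 2) E f → vol E = 4 / 3 * Real.pi * R ^ 3 →
    (∀ ε > 0, ∃ᶠ k in atTop, ∀ j, ∃ z, sArea (f k) j z ≤ ε) → ∀ i : Fin 3,
    ∃ m, mom E i m ≤ 4 / 15 * Real.pi * R ^ 5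
  two_dir : ∀ {E : Set (Fin 3 → ℝ)} {f : ℕ → (Fin 3 → ℝ) → ℝ},
    0 < vol E → vol E ≤ 1 / 2 →
    NM (min (Real.sqrt (Real.pi * vol E)) 1) E f → ∀ {i j : Fin 3}, j ≠ i →
    (∀ k x t, f k (Function.update x i t) = f k x) →
    InvDir E j ∨ (∀ l, l ≠ j → InvDir E l) ∨
      (Real.pi * vol E ≤ 1 ∧ ∃ m, mom E j m ≤ vol E ^ 2 / (4 * Real.pi))
  ball_end : ∀ {E : Set (Fin 3 → ℝ)}, MeasurableSet E → ∀ {R : ℝ}, 0 < R →
    R ≤ 1 / 2 → vol E = 4 / 3 * Real.pi * R ^ 3 →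
    (∀ i, ∃ m, mom E i m ≤ 4 / 15 * Real.pi * R ^ 5) → ∃ m, AEq E (ballT m R)
  tube_end : ∀ {E : Set (Fin 3 → ℝ)}, MeasurableSet E → ∀ i : Fin 3,
    0 < vol E → Real.pi * vol E ≤ 1 →
    (∀ j, j ≠ i → ∃ m, mom E j m ≤ vol E ^ 2 / (4 * Real.pi)) →
    ∃ m, AEq E (tubeT m i (Real.sqrt (vol E / Real.pi)))
  classify : ∀ {V : ℝ}, 0 < V → V ≤ 1 / 2 → ∀ {ε : ℝ}, 0 < ε →
    ∃ δ > 0, ∀ f : (Fin 3 → ℝ) → ℝ, Nice f → ∫ x in cell 3, f x = V →
      ∫ x in cell 3, f x * (1 - f x) ≤ δ → hTV f ≤ Jh V + δ →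
      (I2 V = Jh V ∧ ∃ i, ∫ z in (0:ℝ)..1, |sArea f i z - V| ≤ ε) ∨
      (Jh V = (9 * Real.pi / 2) ^ (1 / 3 : ℝ) * V ^ (2 / 3 : ℝ) ∧ ∀ i, ∃ z, sArea f i z ≤ ε)

/-- FIN: all minimizers, from the other modules. -/
theorem minimizers_of (D : FinDeps) {E : Set (Fin 3 → ℝ)} (hE : MeasurableSet E) (hper : IsPerSet E)
    (h0 : 0 < vol E) (h1 : vol E ≤ 1 / 2) (hP : perimeter E = ENNReal.ofReal (2 * Jh (vol E))) :
    (∃ m R, 0 < R ∧ R < 1 / 2 ∧ AEq E (ballT m R)) ∨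
    (∃ m i R, 0 < R ∧ R < 1 / 2 ∧ AEq E (tubeT m i R)) ∨
    (∃ i a, AEq E (slabT i a (vol E))) := by
  have hπ := Real.pi_pos
  have hπ3 := Real.pi_gt_three
  set V := vol E with hV
  have hJ0 : 0 ≤ Jh V := by
    unfold Jh
    positivity
  have hJ1 : Jh V ≤ 1 := min_le_right _ _
  have hV1 : V < 1 := by linarith
  obtain ⟨f, hf, hfV⟩ := D.approx_seq hE hper (J := Jh V) (by rw [hP]; exact ENNReal.ofReal_ne_top)
    (by rw [hP, ENNReal.toReal_ofReal (by positivity)])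
  have hfV' : ∀ k, ∫ x in cell 3, f k x = V := hfV
  -- the alternatives
  let P : Fin 3 ⊕ Unit → ℝ → ℕ → Prop := fun o ε k =>
    match o with
    | Sum.inl i => I2 V = Jh V ∧ ∫ z in (0:ℝ)..1, |sArea (f k) i z - V| ≤ ε
    | Sum.inr _ => Jh V = (9 * Real.pi / 2) ^ (1 / 3 : ℝ) * V ^ (2 / 3 : ℝ) ∧
        ∀ i, ∃ z, sArea (f k) i z ≤ ε
  have hex : ∃ o, ∀ ε > 0, ∃ᶠ k in atTop, P o ε k := by
    refine FIN_pigeon P ?_ ?_
    · rintro (i | u) ε ε' k hεε' h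
      · exact ⟨h.1, h.2.trans hεε'⟩
      · refine ⟨h.1, fun i => ?_⟩
        obtain ⟨z, hz⟩ := h.2 i
        exact ⟨z, hz.trans hεε'⟩
    · intro ε hε
      obtain ⟨δ, hδ, hcl⟩ := D.classify h0 h1 hε
      have e1 := (D.err_tendsto hf).eventually (Iic_mem_nhds hδ)
      filter_upwards [e1, hf.tv δ hδ] with k hk1 hk2
      rcases hcl (f k) (hf.nice k) (hfV' k) hk1 hk2 with ⟨h1, i, h2⟩ | ⟨h1, h2⟩
      · exact ⟨Sum.inl i, h1, h2⟩
      · exact ⟨Sum.inr (), h1, h2⟩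
  obtain ⟨o, ho⟩ := hex
  rcases o with i | u
  · -- flat direction
    have hI : I2 V = Jh V := (ho 1 one_pos).exists.choose_spec.1
    have hmin : Jh V = min (Real.sqrt (Real.pi * V)) 1 := by
      rw [← hI]
      unfold I2
      refine min_eq_left ((min_le_left _ _).trans (Real.sqrt_le_sqrt ?_))
      nlinarith
    have hfI : NM (I2 V) E f := by
      rw [hI]
      exact hf
    have hinv : InvDir E i := D.flat_inv hfI h0 hV1 i fun ε hε => (ho ε hε).mono fun k hk => hk.2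
    obtain ⟨g, hg, hgi⟩ := D.cyl_seq hf i hinv
    have hg' : NM (min (Real.sqrt (Real.pi * vol E)) 1) E g := by
      rw [← hV, ← hmin]
      exact hg
    by_cases hc : ∃ j, j ≠ i ∧ (InvDir E j ∨ ∀ l, l ≠ j → InvDir E l)
    · right
      right
      obtain ⟨j, hji, hj | hj⟩ := hc
      · obtain ⟨l, hl⟩ := FIN_third i j hji
        obtain ⟨a, ha⟩ := D.slab_end hJ1 hf h0 hV1 l fun j' hj' => by
          rcases hl j' hj' with rfl | rfl
          · exact hinv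
          · exact hj
        exact ⟨l, a, ha⟩
      · obtain ⟨a, ha⟩ := D.slab_end hJ1 hf h0 hV1 j hj
        exact ⟨j, a, ha⟩
    · right
      left
      push Not at hc
      have h3 : ∀ j, j ≠ i → Real.pi * vol E ≤ 1 ∧ ∃ m, mom E j m ≤ vol E ^ 2 / (4 * Real.pi) := by
        intro j hji
        rcases D.two_dir h0 h1 hg' hji hgi with h | h | h
        · exact absurd h (hc j hji).1
        · obtain ⟨l, hl, hl2⟩ := (hc j hji).2
          exact absurd (h l hl) hl2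
        · exact h
      obtain ⟨j, hji⟩ : ∃ j, j ≠ i := exists_ne i
      have hπV := (h3 j hji).1
      obtain ⟨m, hm⟩ := D.tube_end hE i h0 hπV fun j hj => (h3 j hj).2
      refine ⟨m, i, Real.sqrt (vol E / Real.pi), Real.sqrt_pos.2 (div_pos h0 hπ), ?_, hm⟩
      rw [Real.sqrt_lt' (by norm_num), div_lt_iff₀ hπ]
      have h4 : vol E ≤ 1 / Real.pi := by
        rw [le_div_iff₀ hπ]
        linarith
      have h5 : 1 / Real.pi < 1 / 3 := one_div_lt_one_div_of_lt (by norm_num) hπ3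
      nlinarith
  · -- ball
    left
    have hJ : Jh V = (9 * Real.pi / 2) ^ (1 / 3 : ℝ) * V ^ (2 / 3 : ℝ) :=
      (ho 1 one_pos).exists.choose_spec.1
    obtain ⟨R, hR, hR3, hR2⟩ := FIN_radius h0
    have hfR : NM (2 * Real.pi * R ^ 2) E f := by
      rw [hR2, ← hJ]
      exact hf
    have hR1 : R < 1 / 2 := by
      have h3 : 2 * Real.pi * R ^ 2 ≤ 1 := by
        rw [hR2, ← hJ]
        exact hJ1
      nlinarith
    obtain ⟨m, hm⟩ := D.ball_end hE hR hR1.le hR3 fun i =>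
      D.ball_moment hR hR1 hfR hR3 (fun ε hε => (ho ε hε).mono fun k hk => hk.2) i
    exact ⟨m, R, hR, hR1, hm⟩

/-- in a slab the level is one (exported by module SLABE) -/
def SlabOne : Prop :=
  ∀ {E : Set (Fin 3 → ℝ)} {f : ℕ → (Fin 3 → ℝ) → ℝ} {J : ℝ}, NM J E f →
    0 < vol E → vol E < 1 → ∀ i : Fin 3, (∀ j, j ≠ i → InvDir E j) → 1 ≤ J

/-- FIN: all minimizers, with the volume ranges, from the other modules. -/
theorem minimizers2_of (D : FinDeps) (D1 : SlabOne) {E : Set (Fin 3 → ℝ)} (hE : MeasurableSet E) (hper : IsPerSet E)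
    (h0 : 0 < vol E) (h1 : vol E ≤ 1 / 2) (hP : perimeter E = ENNReal.ofReal (2 * Jh (vol E))) :
    (Jh (vol E) = (9 * Real.pi / 2) ^ (1 / 3 : ℝ) * vol E ^ (2 / 3 : ℝ) ∧
      ∃ m, AEq E (ballT m ((3 * vol E / (4 * Real.pi)) ^ (1 / 3 : ℝ)))) ∨
    (Jh (vol E) = Real.sqrt (Real.pi * vol E) ∧
      ∃ m i, AEq E (tubeT m i (Real.sqrt (vol E / Real.pi)))) ∨
    (Jh (vol E) = 1 ∧ ∃ i a, AEq E (slabT i a (vol E))) := by
  have hπ := Real.pi_pos
  have hπ3 := Real.pi_gt_three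
  set V := vol E with hV
  have hJ0 : 0 ≤ Jh V := by
    unfold Jh
    positivity
  have hJ1 : Jh V ≤ 1 := min_le_right _ _
  have hV1 : V < 1 := by linarith
  obtain ⟨f, hf, hfV⟩ := D.approx_seq hE hper (J := Jh V) (by rw [hP]; exact ENNReal.ofReal_ne_top)
    (by rw [hP, ENNReal.toReal_ofReal (by positivity)])
  have hfV' : ∀ k, ∫ x in cell 3, f k x = V := hfV
  -- the alternatives
  let P : Fin 3 ⊕ Unit → ℝ → ℕ → Prop := fun o ε k =>
    match o with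
    | Sum.inl i => I2 V = Jh V ∧ ∫ z in (0:ℝ)..1, |sArea (f k) i z - V| ≤ ε
    | Sum.inr _ => Jh V = (9 * Real.pi / 2) ^ (1 / 3 : ℝ) * V ^ (2 / 3 : ℝ) ∧
        ∀ i, ∃ z, sArea (f k) i z ≤ ε
  have hex : ∃ o, ∀ ε > 0, ∃ᶠ k in atTop, P o ε k := by
    refine FIN_pigeon P ?_ ?_
    · rintro (i | u) ε ε' k hεε' h
      · exact ⟨h.1, h.2.trans hεε'⟩
      · refine ⟨h.1, fun i => ?_⟩
        obtain ⟨z, hz⟩ := h.2 i
        exact ⟨z, hz.trans hεε'⟩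
    · intro ε hε
      obtain ⟨δ, hδ, hcl⟩ := D.classify h0 h1 hε
      have e1 := (D.err_tendsto hf).eventually (Iic_mem_nhds hδ)
      filter_upwards [e1, hf.tv δ hδ] with k hk1 hk2
      rcases hcl (f k) (hf.nice k) (hfV' k) hk1 hk2 with ⟨h1, i, h2⟩ | ⟨h1, h2⟩
      · exact ⟨Sum.inl i, h1, h2⟩
      · exact ⟨Sum.inr (), h1, h2⟩
  obtain ⟨o, ho⟩ := hex
  rcases o with i | u
  · -- flat direction
    have hI : I2 V = Jh V := (ho 1 one_pos).exists.choose_spec.1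
    have hmin : Jh V = min (Real.sqrt (Real.pi * V)) 1 := by
      rw [← hI]
      unfold I2
      refine min_eq_left ((min_le_left _ _).trans (Real.sqrt_le_sqrt ?_))
      nlinarith
    have hfI : NM (I2 V) E f := by
      rw [hI]
      exact hf
    have hinv : InvDir E i := D.flat_inv hfI h0 hV1 i fun ε hε => (ho ε hε).mono fun k hk => hk.2
    obtain ⟨g, hg, hgi⟩ := D.cyl_seq hf i hinv
    have hg' : NM (min (Real.sqrt (Real.pi * vol E)) 1) E g := by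
      rw [← hV, ← hmin]
      exact hg
    by_cases hc : ∃ j, j ≠ i ∧ (InvDir E j ∨ ∀ l, l ≠ j → InvDir E l)
    · right
      right
      obtain ⟨j, hji, hj | hj⟩ := hc
      · obtain ⟨l, hl⟩ := FIN_third i j hji
        obtain ⟨a, ha⟩ := D.slab_end hJ1 hf h0 hV1 l fun j' hj' => by
          rcases hl j' hj' with rfl | rfl
          · exact hinv
          · exact hj
        refine ⟨le_antisymm hJ1 (D1 hf h0 hV1 l fun j' hj' => ?_), l, a, ha⟩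
        rcases hl j' hj' with rfl | rfl
        · exact hinv
        · exact hj
      · obtain ⟨a, ha⟩ := D.slab_end hJ1 hf h0 hV1 j hj
        exact ⟨le_antisymm hJ1 (D1 hf h0 hV1 j hj), j, a, ha⟩
    · right
      left
      push Not at hc
      have h3 : ∀ j, j ≠ i → Real.pi * vol E ≤ 1 ∧ ∃ m, mom E j m ≤ vol E ^ 2 / (4 * Real.pi) := by
        intro j hji
        rcases D.two_dir h0 h1 hg' hji hgi with h | h | h
        · exact absurd h (hc j hji).1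
        · obtain ⟨l, hl, hl2⟩ := (hc j hji).2
          exact absurd (h l hl) hl2
        · exact h
      obtain ⟨j, hji⟩ : ∃ j, j ≠ i := exists_ne i
      have hπV := (h3 j hji).1
      obtain ⟨m, hm⟩ := D.tube_end hE i h0 hπV fun j hj => (h3 j hj).2
      refine ⟨?_, m, i, hm⟩
      rw [hmin, min_eq_left]
      rw [Real.sqrt_le_one]
      exact hπV
  · -- ball
    left
    have hJ : Jh V = (9 * Real.pi / 2) ^ (1 / 3 : ℝ) * V ^ (2 / 3 : ℝ) :=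
      (ho 1 one_pos).exists.choose_spec.1
    obtain ⟨hR, hR3, hR2⟩ := FIN_radius' h0
    set R : ℝ := (3 * vol E / (4 * Real.pi)) ^ (1 / 3 : ℝ) with hRdef
    have hfR : NM (2 * Real.pi * R ^ 2) E f := by
      rw [hR2, ← hJ]
      exact hf
    have hR1 : R < 1 / 2 := by
      have h3 : 2 * Real.pi * R ^ 2 ≤ 1 := by
        rw [hR2, ← hJ]
        exact hJ1
      nlinarith
    obtain ⟨m, hm⟩ := D.ball_end hE hR hR1.le hR3 fun i =>
      D.ball_moment hR hR1 hfR hR3 (fun ε hε => (ho ε hε).mono fun k hk => hk.2) i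
    exact ⟨hJ, m, hm⟩


end Vale.Agent.P232
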