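import Vale.Agent.P232U.Defs
import Vale.Agent.P232.Shift

/-! # P232U, module INV: invariance from vanishing derivative (helper31) -/

open MeasureTheory Set Filter Topology

namespace Vale.Agent.P232

theorem INV_cont {f : (Fin 3 → ℝ) → ℝ} (hf : Nice f) (i : Fin 3) :
    Continuous fun x => |fderiv ℝ f x (Pi.single i 1)| :=
  ((hf.smooth.continuous_fderiv (by norm_num)).clm_apply continuous_const).abs

theorem INV_per {f : (Fin 3 → ℝ) → ℝ} (hf : Nice f) (i : Fin 3) :
    IsPer fun x => |fderiv ℝ f x (Pi.single i 1)| := by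
  intro x k
  have h1 : (fun y => f (y + fun j => (k j : ℝ))) = f := by
    funext y
    exact hf.per y k
  have h2 := fderiv_comp_add_right (𝕜 := ℝ) (f := f) (x := x) (fun j => (k j : ℝ))
  rw [h1] at h2
  show |fderiv ℝ f (x + fun j => (k j : ℝ)) (Pi.single i 1)| = |fderiv ℝ f x (Pi.single i 1)|
  rw [← h2]

theorem INV_line {f : (Fin 3 → ℝ) → ℝ} (hf : Nice f) (i : Fin 3) (h : ℝ) (x : Fin 3 → ℝ) :
    |f (x + Pi.single i h) - f x| ≤
      ∫ s in (0:ℝ)..1, |h| * |fderiv ℝ f (x + s • (Pi.single i h : Fin 3 → ℝ)) (Pi.single i 1)| := by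
  have hs : (Pi.single i h : Fin 3 → ℝ) = h • (Pi.single i 1 : Fin 3 → ℝ) := by
    rw [← Pi.single_smul, smul_eq_mul, mul_one]
  have hd : ∀ s : ℝ, HasDerivAt (fun s : ℝ => f (x + s • (Pi.single i h : Fin 3 → ℝ)))
      (h * fderiv ℝ f (x + s • (Pi.single i h : Fin 3 → ℝ)) (Pi.single i 1)) s := by
    intro s
    have h1 : HasDerivAt (fun s : ℝ => x + s • (Pi.single i h : Fin 3 → ℝ))
        (Pi.single i h : Fin 3 → ℝ) s := by
      have := ((hasDerivAt_id s).smul_const (Pi.single i h : Fin 3 → ℝ)).const_add x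
      simpa using this
    have h2 := ((hf.smooth.differentiable (by norm_num)) (x + s • (Pi.single i h : Fin 3 → ℝ))).hasFDerivAt.comp_hasDerivAt s h1
    have e : fderiv ℝ f (x + s • (Pi.single i h : Fin 3 → ℝ)) (Pi.single i h) =
        h * fderiv ℝ f (x + s • (Pi.single i h : Fin 3 → ℝ)) (Pi.single i 1) := by
      conv_lhs => rw [show (Pi.single i h : Fin 3 → ℝ) = h • (Pi.single i 1 : Fin 3 → ℝ) from hs]
      rw [ContinuousLinearMap.map_smul, smul_eq_mul]
      rw [← hs]
    rw [← e]
    exact h2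
  have hc : Continuous fun s : ℝ =>
      h * fderiv ℝ f (x + s • (Pi.single i h : Fin 3 → ℝ)) (Pi.single i 1) := by
    have h1 := (hf.smooth.continuous_fderiv (by norm_num)).clm_apply
      (continuous_const (y := (Pi.single i 1 : Fin 3 → ℝ)))
    have h2 : Continuous fun s : ℝ => x + s • (Pi.single i h : Fin 3 → ℝ) := by fun_prop
    exact continuous_const.mul (h1.comp h2)
  have h3 := intervalIntegral.integral_eq_sub_of_hasDerivAt (a := 0) (b := 1)
    (fun s _ => hd s) (hc.intervalIntegrable _ _)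
  have h4 : f (x + Pi.single i h) - f x = ∫ s in (0:ℝ)..1,
      h * fderiv ℝ f (x + s • (Pi.single i h : Fin 3 → ℝ)) (Pi.single i 1) := by
    rw [h3]
    simp
  rw [h4]
  refine (intervalIntegral.abs_integral_le_integral_abs zero_le_one).trans_eq ?_
  refine intervalIntegral.integral_congr fun s _ => ?_
  exact abs_mul _ _

theorem INV_l1 {f : (Fin 3 → ℝ) → ℝ} (hf : Nice f) (i : Fin 3) (h : ℝ) :
    ∫ x in cell 3, |f (x + Pi.single i h) - f x| ≤
      |h| * ∫ x in cell 3, |fderiv ℝ f x (Pi.single i 1)| := by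
  set D : (Fin 3 → ℝ) → ℝ := fun x => |fderiv ℝ f x (Pi.single i 1)| with hD
  have hDc : Continuous D := INV_cont hf i
  have hDp : IsPer D := INV_per hf i
  have hjc : Continuous (fun p : (Fin 3 → ℝ) × ℝ =>
      |h| * D (p.1 + p.2 • (Pi.single i h : Fin 3 → ℝ))) := by
    fun_prop
  have hint : Integrable (Function.uncurry fun (x : Fin 3 → ℝ) (s : ℝ) =>
      |h| * D (x + s • (Pi.single i h : Fin 3 → ℝ)))
      ((volume.restrict (cell 3)).prod (volume.restrict (Set.Ioc (0:ℝ) 1))) := by
    rw [Measure.prod_restrict]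
    have hK : IsCompact ((Set.pi Set.univ fun _ : Fin 3 => Set.Icc (0:ℝ) 1) ×ˢ
        (Set.Icc (0:ℝ) 1)) :=
      (isCompact_univ_pi fun _ => isCompact_Icc).prod isCompact_Icc
    have h1 := (hjc.continuousOn (s := (Set.pi Set.univ fun _ : Fin 3 => Set.Icc (0:ℝ) 1) ×ˢ
        (Set.Icc (0:ℝ) 1))).integrableOn_compact (μ := (volume : Measure (Fin 3 → ℝ)).prod
          (volume : Measure ℝ)) hK
    refine h1.mono_set (Set.prod_mono ?_ Set.Ioc_subset_Icc_self)
    intro x hx j hj
    exact Set.Ico_subset_Icc_self (hx j hj)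
  have hcell1 : ∫ x in cell 3, |f (x + Pi.single i h) - f x| ≤
      ∫ x in cell 3, ∫ s in (0:ℝ)..1, |h| * D (x + s • (Pi.single i h : Fin 3 → ℝ)) := by
    refine integral_mono_of_nonneg (Eventually.of_forall fun x => abs_nonneg _) ?_
      (Eventually.of_forall fun x => INV_line hf i h x)
    have h2 := hint.integral_prod_left
    refine h2.congr (Eventually.of_forall fun x => ?_)
    simp only [Function.uncurry]
    rw [intervalIntegral.integral_of_le zero_le_one]
  refine hcell1.trans_eq ?_
  have h3 : ∫ x in cell 3, ∫ s in (0:ℝ)..1, |h| * D (x + s • (Pi.single i h : Fin 3 → ℝ)) =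
      ∫ s in (0:ℝ)..1, ∫ x in cell 3, |h| * D (x + s • (Pi.single i h : Fin 3 → ℝ)) := by
    rw [intervalIntegral.integral_of_le zero_le_one, ← integral_integral_swap hint]
    refine integral_congr_ae (Eventually.of_forall fun x => ?_)
    simp only
    rw [intervalIntegral.integral_of_le zero_le_one]
  rw [h3]
  have h4 : ∀ s : ℝ, ∫ x in cell 3, |h| * D (x + s • (Pi.single i h : Fin 3 → ℝ)) =
      |h| * ∫ x in cell 3, D x := by
    intro s
    rw [integral_const_mul, B1_integral_shift hDp]
  simp_rw [h4]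
  simp

/-- INV -/
theorem inv_of_deriv {J : ℝ} {E : Set (Fin 3 → ℝ)} {f : ℕ → (Fin 3 → ℝ) → ℝ} (h : NM J E f)
    (i : Fin 3) (hd : ∀ ε > 0, ∃ᶠ k in atTop,
      ∫ x in cell 3, |fderiv ℝ (f k) x (Pi.single i 1)| ≤ ε) : InvDir E i := by
  intro t
  set v : Fin 3 → ℝ := Pi.single i t with hv
  have hupd : ∀ x : Fin 3 → ℝ, Function.update x i (x i + t) = x + v := by
    intro x
    ext j
    by_cases hj : j = i
    · subst hj
      simp [hv]
    · simp [hv, hj]
  simp only [hupd]
  set χ : (Fin 3 → ℝ) → ℝ := E.indicator fun _ => (1 : ℝ) with hχ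
  have hχm : Measurable χ := measurable_const.indicator h.meas
  have hχ0 : ∀ x, 0 ≤ χ x := fun x => Set.indicator_nonneg (fun _ _ => zero_le_one) x
  have hχ1 : ∀ x, χ x ≤ 1 := fun x => Set.indicator_le_self' (fun _ _ => zero_le_one) x |>.trans
    le_rfl
  have hχp : IsPer χ := by
    intro x k
    have := h.per x k
    by_cases hx : x ∈ E
    · rw [hχ, Set.indicator_of_mem hx, Set.indicator_of_mem (this.2 hx)]
    · rw [hχ, Set.indicator_of_notMem hx, Set.indicator_of_notMem (fun h' => hx (this.1 h'))]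
  have hsh : Measurable fun x : Fin 3 → ℝ => x + v := measurable_id.add_const v
  -- the key estimate
  have key : ∀ k, ∫ x in cell 3, |χ (x + v) - χ x| ≤
      2 * (∫ x in cell 3, |f k x - χ x|) +
        |t| * ∫ x in cell 3, |fderiv ℝ (f k) x (Pi.single i 1)| := by
    intro k
    have hfk := h.nice k
    have hfm : Measurable (f k) := hfk.smooth.continuous.measurable
    have bd : ∀ g : (Fin 3 → ℝ) → ℝ, Measurable g → (∀ x, |g x| ≤ 1) →
        IntegrableOn g (cell 3) := by
      intro g hg hb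
      refine Integrable.of_bound hg.aestronglyMeasurable 1 (Eventually.of_forall fun x => ?_)
      rw [Real.norm_eq_abs]
      exact hb x
    have a1 : ∀ x y : Fin 3 → ℝ, |f k x - χ y| ≤ 1 := by
      intro x y
      rw [abs_le]
      constructor <;> linarith [hfk.nonneg x, hfk.le_one x, hχ0 y, hχ1 y]
    have a2 : ∀ x y : Fin 3 → ℝ, |f k x - f k y| ≤ 1 := by
      intro x y
      rw [abs_le]
      constructor <;> linarith [hfk.nonneg x, hfk.le_one x, hfk.nonneg y, hfk.le_one y]
    have i1 : IntegrableOn (fun x => |f k (x + v) - χ (x + v)|) (cell 3) :=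
      bd _ ((hfm.comp hsh).sub (hχm.comp hsh)).abs (fun x => by rw [abs_abs]; exact a1 _ _)
    have i2 : IntegrableOn (fun x => |f k (x + v) - f k x|) (cell 3) :=
      bd _ ((hfm.comp hsh).sub hfm).abs (fun x => by rw [abs_abs]; exact a2 _ _)
    have i3 : IntegrableOn (fun x => |f k x - χ x|) (cell 3) :=
      bd _ (hfm.sub hχm).abs (fun x => by rw [abs_abs]; exact a1 _ _)
    have e1 : ∫ x in cell 3, |χ (x + v) - χ x| ≤
        ∫ x in cell 3, (|f k (x + v) - χ (x + v)| + |f k (x + v) - f k x| + |f k x - χ x|) := by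
      refine integral_mono_of_nonneg (Eventually.of_forall fun x => abs_nonneg _)
        ((i1.add i2).add i3) (Eventually.of_forall fun x => ?_)
      show |χ (x + v) - χ x| ≤ _
      have e : χ (x + v) - χ x =
          -(f k (x + v) - χ (x + v)) + (f k (x + v) - f k x) + (f k x - χ x) := by ring
      rw [e]
      refine (abs_add_three _ _ _).trans_eq ?_
      rw [abs_neg]
    refine e1.trans ?_
    have e4 : ∫ x in cell 3,
        (|f k (x + v) - χ (x + v)| + |f k (x + v) - f k x| + |f k x - χ x|) =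
        (∫ x in cell 3, |f k (x + v) - χ (x + v)|) + (∫ x in cell 3, |f k (x + v) - f k x|) +
          ∫ x in cell 3, |f k x - χ x| := by
      have h5 := integral_add (i1.add i2) i3
      have h6 := integral_add i1 i2
      simp only [Pi.add_apply] at h5 h6
      rw [h5, h6]
    rw [e4]
    have e2 : ∫ x in cell 3, |f k (x + v) - χ (x + v)| = ∫ x in cell 3, |f k x - χ x| := by
      refine B1_integral_shift (F := fun x => |f k x - χ x|) ?_ v
      intro x m
      show |f k (x + _) - χ (x + _)| = _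
      rw [hfk.per x m, hχp x m]
    have e3 := INV_l1 hfk i t
    rw [← hv] at e3
    rw [e2]
    linarith
  have hzero : ∫ x in cell 3, |χ (x + v) - χ x| = 0 := by
    refine le_antisymm ?_ (integral_nonneg fun x => abs_nonneg _)
    refine le_of_forall_pos_le_add fun ε hε => ?_
    have hp : 0 < ε / (2 + |t|) := by positivity
    have h1 : ∀ᶠ k in atTop, ∫ x in cell 3, |f k x - χ x| < ε / (2 + |t|) :=
      h.l1.eventually (gt_mem_nhds hp)
    obtain ⟨k, hk1, hk2⟩ := ((hd _ hp).and_eventually h1).exists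
    have h2 := key k
    have h3 : 0 + ε = 2 * (ε / (2 + |t|)) + |t| * (ε / (2 + |t|)) := by
      field_simp
      ring
    rw [h3]
    have h4 : |t| * ∫ x in cell 3, |fderiv ℝ (f k) x (Pi.single i 1)| ≤
        |t| * (ε / (2 + |t|)) := mul_le_mul_of_nonneg_left hk1 (abs_nonneg _)
    linarith
  have hind : ∀ x, |χ (x + v) - χ x| =
      (symmDiff E {x | x + v ∈ E}).indicator (fun _ => (1 : ℝ)) x := by
    intro x
    by_cases h1 : x ∈ E <;> by_cases h2 : x + v ∈ E <;>
      simp [hχ, h1, h2, Set.mem_symmDiff, Set.indicator]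
  have hms : MeasurableSet (symmDiff E {x | x + v ∈ E}) :=
    h.meas.symmDiff (hsh h.meas)
  simp_rw [hind] at hzero
  rw [integral_indicator hms, setIntegral_const] at hzero
  have hz2 : (volume.restrict (cell 3)).real (symmDiff E {x | x + v ∈ E}) = 0 := by
    simpa using hzero
  unfold AEq
  rw [measureReal_eq_zero_iff (measure_ne_top _ _), Measure.restrict_apply hms] at hz2
  exact hz2

end Vale.Agent.P232
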