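import Vale.Agent.P232U.Defs
import Vale.Agent.P232U.Nm1
import Vale.Agent.P232U.Dir
import Vale.Agent.P232U.Htvc
import Vale.Agent.P232U.Inv
import Vale.Agent.P232.SliceTorus

/-!
# P232U, module FLAT (helper83)
-/

open MeasureTheory Set Filter Topology

namespace Vale.Agent.P232

theorem FLAT_slice {f : (Fin 3 → ℝ) → ℝ} (hf : Nice f) (i : Fin 3) {V η : ℝ} (hV0 : 0 < V)
    (hV1 : V < 1) (hosc : ∀ z, |sArea f i z - V| ≤ η) :
    I2 V - Real.sqrt (Real.pi * η) - Real.sqrt (2 * Real.pi * ∫ x in cell 3, f x * (1 - f x)) ≤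
      ∫ z in (0:ℝ)..1, hTV (slice f i z) := by
  have h3 := sl_err_int hf i
  have hc1 : Continuous fun z => Real.sqrt (2 * Real.pi * slErr f i z) :=
    (continuous_const.mul (slErr_cont hf i)).sqrt
  have hpt : ∀ z, I2 V - Real.sqrt (Real.pi * η) - Real.sqrt (2 * Real.pi * slErr f i z) ≤
      hTV (slice f i z) := by
    intro z
    have h1 := holder_avg (slice_nice hf i z) (F := I2)
      (fun x y hx hx1 hy hy1 => I2_holder x y hx hx1 hy hy1)
    have h2 := torus_two (slice_nice hf i z)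
    have hm := sl_area_mem hf i z
    have h4 := I2_holder (sArea f i z) V hm.1 hm.2 hV0.le hV1.le
    have h5 : Real.sqrt (Real.pi * |sArea f i z - V|) ≤ Real.sqrt (Real.pi * η) :=
      Real.sqrt_le_sqrt (mul_le_mul_of_nonneg_left (hosc z) Real.pi_pos.le)
    have h6 := (abs_le.1 h4).1
    have h7 : I2 (sArea f i z) - Real.sqrt (2 * Real.pi * slErr f i z) ≤ hTV (slice f i z) :=
      h1.trans h2
    linarith
  have hint : ∫ z in (0:ℝ)..1,
      (I2 V - Real.sqrt (Real.pi * η) - Real.sqrt (2 * Real.pi * slErr f i z)) ≤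
      ∫ z in (0:ℝ)..1, hTV (slice f i z) := by
    refine intervalIntegral.integral_mono_on zero_le_one ?_ ?_ (fun z _ => hpt z)
    · exact (continuous_const.sub hc1).intervalIntegrable _ _
    · exact (hTV_slice_cont hf i).intervalIntegrable _ _
  rw [intervalIntegral.integral_sub (continuous_const.intervalIntegrable _ _)
    (hc1.intervalIntegrable _ _), intervalIntegral.integral_const] at hint
  simp only [sub_zero, one_smul] at hint
  linarith

/- FLAT -/
theorem flat_inv {E : Set (Fin 3 → ℝ)} {f : ℕ → (Fin 3 → ℝ) → ℝ} {V : ℝ} (h : NM (I2 V) E f)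
    (hV0 : 0 < V) (hV1 : V < 1) (i : Fin 3)
    (hosc : ∀ ε > 0, ∃ᶠ k in atTop, ∀ z, |sArea (f k) i z - V| ≤ ε) : InvDir E i := by
  refine inv_of_deriv h i (fun ε hε => ?_)
  obtain ⟨t, ht⟩ : ∃ t : ℝ, t = min 1 (ε ^ 2 / 64) := ⟨_, rfl⟩
  have ht0 : 0 < t := by rw [ht]; positivity
  have ht1 : t ≤ 1 := by rw [ht]; exact min_le_left _ _
  have ht2 : 64 * t ≤ ε ^ 2 := by
    have : t ≤ ε ^ 2 / 64 := by rw [ht]; exact min_le_right _ _
    linarith
  have hη : 0 < t ^ 2 := by positivity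
  have e1 := h.tv (t ^ 2) hη
  have e2 : ∀ᶠ k in atTop, 2 * Real.pi * ∫ x in cell 3, f k x * (1 - f k x) ≤ (t ^ 2) ^ 2 := by
    have hlim := (h.err_tendsto).const_mul (2 * Real.pi)
    rw [mul_zero] at hlim
    exact hlim.eventually_le_const (by positivity)
  refine ((hosc (t ^ 2) hη).and_eventually (e1.and e2)).mono ?_
  rintro k ⟨h1, h2, h3⟩
  have hn := h.nice k
  have hs := FLAT_slice hn i hV0 hV1 h1
  have hd := dir_cs hn i
  have hI1 : I2 V ≤ 1 := (min_le_left _ _).trans (min_le_right _ _)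
  have hs1 : Real.sqrt (2 * Real.pi * ∫ x in cell 3, f k x * (1 - f k x)) ≤ t ^ 2 := by
    rw [Real.sqrt_le_left hη.le]
    exact h3
  have hs2 : Real.sqrt (Real.pi * t ^ 2) ≤ 2 * t := by
    rw [Real.sqrt_le_left (by linarith)]
    have : Real.pi * t ^ 2 ≤ 4 * t ^ 2 :=
      mul_le_mul_of_nonneg_right Real.pi_le_four hη.le
    calc Real.pi * t ^ 2 ≤ 4 * t ^ 2 := this
      _ = (2 * t) ^ 2 := by ring
  have ht3 : t ^ 2 ≤ t := by nlinarith
  have hTV0 : 0 ≤ hTV (f k) := by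
    unfold hTV
    have : 0 ≤ ∫ x in cell 3, gradN (f k) x :=
      integral_nonneg fun x => Real.sqrt_nonneg _
    linarith
  have hTV2 : hTV (f k) ≤ 2 := by linarith
  have hgap : hTV (f k) - ∫ z in (0:ℝ)..1, hTV (slice (f k) i z) ≤ 4 * t := by linarith
  have hsq : (∫ x in cell 3, |fderiv ℝ (f k) x (Pi.single i 1)|) ^ 2 ≤ ε ^ 2 := by
    calc (∫ x in cell 3, |fderiv ℝ (f k) x (Pi.single i 1)|) ^ 2
        ≤ 8 * hTV (f k) * (hTV (f k) - ∫ z in (0:ℝ)..1, hTV (slice (f k) i z)) := hd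
      _ ≤ 8 * hTV (f k) * (4 * t) := mul_le_mul_of_nonneg_left hgap (by linarith)
      _ ≤ 8 * 2 * (4 * t) := mul_le_mul_of_nonneg_right (by linarith) (by linarith)
      _ = 64 * t := by ring
      _ ≤ ε ^ 2 := ht2
  exact le_of_sq_le_sq hsq hε.le

end Vale.Agent.P232
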