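import Vale.Agent.P232.TubeSmall
import Vale.Agent.P232U.Defs

/-! # P232U, module K4: `tube_small` with the factor `1 + 10^-6` -/

open MeasureTheory Set

namespace Vale.Agent.P232

open N5

namespace TubeSmallS

open TubeSmall

theorem Jh_le_tube {V τ : ℝ} (hV : 0 ≤ V) (hτ : 0 < τ) :
    (1 + 1 / 10 ^ 6) * Jh V ≤ (3.1416 * V / τ + τ) / 2 := by
  have h0 : (1 + 1 / 10 ^ 6) * Jh V ≤ (1 + 1 / 10 ^ 6) * Real.sqrt (Real.pi * V) :=
    mul_le_mul_of_nonneg_left (Jh_le_sqrt V) (by norm_num)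
  refine h0.trans ?_
  have hpi : Real.pi ≤ 3.141593 := Real.pi_lt_d6.le
  set y := (1 + 1 / 10 ^ 6) * Real.sqrt (Real.pi * V) with hy
  have hy2 : y ^ 2 = (1 + 1 / 10 ^ 6) ^ 2 * (Real.pi * V) := by
    rw [hy, mul_pow, Real.sq_sqrt (mul_nonneg Real.pi_pos.le hV)]
  have h1 : y ^ 2 ≤ 3.1416 * V := by
    rw [hy2, ← mul_assoc]
    refine mul_le_mul_of_nonneg_right ?_ hV
    norm_num at hpi ⊢
    linarith
  rw [le_div_iff₀ (by norm_num), ← sub_nonneg]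
  have e : 3.1416 * V / τ + τ - y * 2 = ((3.1416 * V - y ^ 2) + (y - τ) ^ 2) / τ := by
    field_simp
    ring
  rw [e]
  apply div_nonneg _ hτ.le
  nlinarith [sq_nonneg (y - τ)]

theorem Jh_le_ball {V τ : ℝ} (hV : 0 ≤ V) (hτ : 0 < τ) :
    (1 + 1 / 10 ^ 6) * Jh V ≤ 2.418 * (2 * V + τ ^ 3) / (3 * τ) := by
  have h0 : (1 + 1 / 10 ^ 6) * Jh V ≤
      (1 + 1 / 10 ^ 6) * ((9 * Real.pi / 2) ^ (1 / 3 : ℝ) * V ^ (2 / 3 : ℝ)) :=
    mul_le_mul_of_nonneg_left ((min_le_left _ _).trans (min_le_left _ _)) (by norm_num)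
  refine h0.trans ?_
  have hpi : Real.pi ≤ 3.141593 := Real.pi_lt_d6.le
  have h1 : (9 * Real.pi / 2) ^ (1 / 3 : ℝ) ≤ 2.41799 := by
    have : (9 * Real.pi / 2) ≤ (2.41799 : ℝ) ^ (3 : ℝ) := by
      rw [show (2.41799 : ℝ) ^ (3 : ℝ) = (2.41799 : ℝ) ^ (3 : ℕ) by
        rw [← Real.rpow_natCast]; norm_num]
      norm_num at hpi ⊢
      linarith
    calc (9 * Real.pi / 2) ^ (1 / 3 : ℝ) ≤ ((2.41799 : ℝ) ^ (3 : ℝ)) ^ (1 / 3 : ℝ) :=
          Real.rpow_le_rpow (by positivity) this (by norm_num)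
      _ = 2.41799 := by
          rw [← Real.rpow_mul (by norm_num)]; norm_num
  set y := V ^ (1 / 3 : ℝ) with hy
  have hy0 : 0 ≤ y := Real.rpow_nonneg hV _
  have hy3 : y ^ 3 = V := by
    rw [hy, ← Real.rpow_natCast, ← Real.rpow_mul hV]; norm_num
  have hy2 : V ^ (2 / 3 : ℝ) = y ^ 2 := by
    rw [hy, ← Real.rpow_natCast, ← Real.rpow_mul hV]; norm_num
  rw [hy2, ← mul_assoc]
  have h2 : y ^ 2 ≤ (2 * V + τ ^ 3) / (3 * τ) := by
    rw [le_div_iff₀ (by positivity), ← hy3]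
    nlinarith [mul_nonneg (sq_nonneg (y - τ)) (by linarith : 0 ≤ 2 * y + τ)]
  have h3 : (1 + 1 / 10 ^ 6) * (9 * Real.pi / 2) ^ (1 / 3 : ℝ) ≤ 2.418 := by
    have := mul_le_mul_of_nonneg_left h1 (show (0 : ℝ) ≤ 1 + 1 / 10 ^ 6 by norm_num)
    refine this.trans ?_
    norm_num
  calc (1 + 1 / 10 ^ 6) * (9 * Real.pi / 2) ^ (1 / 3 : ℝ) * y ^ 2
      ≤ 2.418 * ((2 * V + τ ^ 3) / (3 * τ)) :=
        mul_le_mul h3 h2 (sq_nonneg _) (by norm_num)
    _ = _ := by ring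

/-- the conclusion -/
def GoodS (V b c : ℝ) : Prop :=
  ∃ α κ : ℝ, (∀ a ∈ Set.Icc b c, 0 ≤ α + κ * a) ∧ (∀ a ∈ Set.Icc b c, α + κ * a ≤ I2 a) ∧
    (1 + 1 / 10 ^ 6) * Jh V ≤ α + κ * V + cal I2 α κ b c

/-- soundness of the tube test -/
theorem test0_soundS {b1 c2 la mu T Va Vb : ℕ} (hbc : b1 < c2) (ha1 : b1 ≤ Va)
    (ha2 : Va ≤ c2) (hb1 : b1 ≤ Vb) (hb2 : Vb ≤ c2) {t : ℕ}
    (ht : test0 b1 c2 la mu T Va Vb t = true) {v : ℝ} (hv : v ∈ Icc (Va : ℝ) Vb) :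
    (1 + 1 / 10 ^ 6) * Jh (v / 1000000) ≤
      (ap b1 c2 la mu + kp b1 c2 la mu * (v / 1000000)) + (T : ℝ) / 2000000000000 := by
  rw [line_val hbc]
  have hD : (0 : ℝ) < (c2 : ℝ) - b1 := by
    have : (b1 : ℝ) < c2 := by exact_mod_cast hbc
    linarith
  have hv0 : 0 ≤ v := (Nat.cast_nonneg Va).trans hv.1
  have eva := ev_cast (la := la) (mu := mu) (T := T) ha1 ha2
  have evb := ev_cast (la := la) (mu := mu) (T := T) hb1 hb2
  have hsub : ((c2 - b1 : ℕ) : ℝ) = (c2 : ℝ) - b1 := Nat.cast_sub hbc.le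
  set D : ℝ := (c2 : ℝ) - b1 with hDdef
  have key : ((la : ℝ) * (c2 - v) + mu * (v - b1)) / (1000000 * D) + (T : ℝ) / 2000000000000 =
      (2000000 * ((la : ℝ) * (c2 - v) + mu * (v - b1)) + D * T) / (2000000000000 * D) := by
    field_simp
    ring
  rw [key, le_div_iff₀ (by positivity)]
  unfold test0 at ht
  simp only [Bool.and_eq_true, Nat.ble_eq] at ht
  obtain ⟨⟨ht1, ka⟩, kb⟩ := ht
  have htr : (0 : ℝ) < t := by exact_mod_cast ht1
  have ka' := (Nat.cast_le (α := ℝ)).mpr ka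
  have kb' := (Nat.cast_le (α := ℝ)).mpr kb
  push_cast [hsub, M_real, eva] at ka'
  push_cast [hsub, M_real, evb] at kb'
  have G := aff (P := (2000000 * ((la : ℝ) * c2 - mu * b1) + D * T) * 10000 * t
      - D * (t ^ 2 * 1000000 * 10000)) (Q := 2000000 * ((mu : ℝ) - la) * 10000 * t
      - D * (31416 * 1000000 ^ 2)) hv (by linarith) (by linarith)
  have J := Jh_le_tube (V := v / 1000000) (τ := t / 1000000) (by positivity) (by positivity)
  have e : (3.1416 * (v / 1000000) / ((t : ℝ) / 1000000) + t / 1000000) / 2 *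
      (2000000000000 * D) = D * (31416 * v * 1000000 ^ 2 + t ^ 2 * 1000000 * 10000) /
        (10000 * t) := by
    field_simp
    ring
  calc (1 + 1 / 10 ^ 6) * Jh (v / 1000000) * (2000000000000 * D)
      ≤ (3.1416 * (v / 1000000) / ((t : ℝ) / 1000000) + t / 1000000) / 2 *
      (2000000000000 * D) := mul_le_mul_of_nonneg_right J (by positivity)
    _ = _ := e
    _ ≤ _ := by
      rw [div_le_iff₀ (by positivity)]
      linarith

/-- soundness of the ball test -/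
theorem test1_soundS {b1 c2 la mu T Va Vb : ℕ} (hbc : b1 < c2) (ha1 : b1 ≤ Va)
    (ha2 : Va ≤ c2) (hb1 : b1 ≤ Vb) (hb2 : Vb ≤ c2) {t : ℕ}
    (ht : test1 b1 c2 la mu T Va Vb t = true) {v : ℝ} (hv : v ∈ Icc (Va : ℝ) Vb) :
    (1 + 1 / 10 ^ 6) * Jh (v / 1000000) ≤
      (ap b1 c2 la mu + kp b1 c2 la mu * (v / 1000000)) + (T : ℝ) / 2000000000000 := by
  rw [line_val hbc]
  have hD : (0 : ℝ) < (c2 : ℝ) - b1 := by
    have : (b1 : ℝ) < c2 := by exact_mod_cast hbc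
    linarith
  have hv0 : 0 ≤ v := (Nat.cast_nonneg Va).trans hv.1
  have eva := ev_cast (la := la) (mu := mu) (T := T) ha1 ha2
  have evb := ev_cast (la := la) (mu := mu) (T := T) hb1 hb2
  have hsub : ((c2 - b1 : ℕ) : ℝ) = (c2 : ℝ) - b1 := Nat.cast_sub hbc.le
  set D : ℝ := (c2 : ℝ) - b1 with hDdef
  have key : ((la : ℝ) * (c2 - v) + mu * (v - b1)) / (1000000 * D) + (T : ℝ) / 2000000000000 =
      (2000000 * ((la : ℝ) * (c2 - v) + mu * (v - b1)) + D * T) / (2000000000000 * D) := by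
    field_simp
    ring
  rw [key, le_div_iff₀ (by positivity)]
  unfold test1 at ht
  simp only [Bool.and_eq_true, Nat.ble_eq] at ht
  obtain ⟨⟨ht1, ka⟩, kb⟩ := ht
  have htr : (0 : ℝ) < t := by exact_mod_cast ht1
  have ka' := (Nat.cast_le (α := ℝ)).mpr ka
  have kb' := (Nat.cast_le (α := ℝ)).mpr kb
  push_cast [hsub, M_real, eva] at ka'
  push_cast [hsub, M_real, evb] at kb'
  have G := aff (P := (2000000 * ((la : ℝ) * c2 - mu * b1) + D * T) * 3000 * t * 1000000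
      - D * (4836 * 1000000 * t ^ 3)) (Q := 2000000 * ((mu : ℝ) - la) * 3000 * t * 1000000
      - D * (4836 * 1000000 ^ 3 * 2)) hv (by linarith) (by linarith)
  have J := Jh_le_ball (V := v / 1000000) (τ := t / 1000000) (by positivity) (by positivity)
  have e : 2.418 * (2 * (v / 1000000) + ((t : ℝ) / 1000000) ^ 3) / (3 * (t / 1000000)) *
      (2000000000000 * D) = D * (4836 * 1000000 ^ 3 * 2 * v + 4836 * 1000000 * t ^ 3) /
        (3000 * t * 1000000) := by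
    field_simp
    ring
  calc (1 + 1 / 10 ^ 6) * Jh (v / 1000000) * (2000000000000 * D)
      ≤ 2.418 * (2 * (v / 1000000) + ((t : ℝ) / 1000000) ^ 3) / (3 * (t / 1000000)) *
      (2000000000000 * D) := mul_le_mul_of_nonneg_right J (by positivity)
    _ = _ := e
    _ ≤ _ := by
      rw [div_le_iff₀ (by positivity)]
      linarith

theorem leafB_soundS {b1 b2 c1 c2 V1 V2 : ℕ} (h : leafB b1 b2 c1 c2 V1 V2 = true)
    {V b c : ℝ} (hb1 : (b1 : ℝ) / 1000000 ≤ b) (hb2 : b ≤ (b2 : ℝ) / 1000000)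
    (hc1 : (c1 : ℝ) / 1000000 ≤ c) (hc2 : c ≤ (c2 : ℝ) / 1000000)
    (hV1 : (V1 : ℝ) / 1000000 ≤ V) (hV2 : V ≤ (V2 : ℝ) / 1000000) (hbV : b ≤ V) (hVc : V ≤ c) :
    GoodS V b c := by
  unfold leafB at h
  simp only [Bool.and_eq_true, Nat.blt_eq, Bool.or_eq_true] at h
  obtain ⟨⟨⟨hn1, hn2⟩, hbc⟩, h⟩ := h
  set la := i2 b1
  set mu := i2 c2
  have N1 := nodeOK_sound hbc hn1
  have N2 := nodeOK_sound hbc hn2
  rw [Nat.cast_zero, zero_div] at N1 N2
  have hD : (0 : ℝ) < (c2 : ℝ) - b1 := by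
    have : (b1 : ℝ) < c2 := by exact_mod_cast hbc
    linarith
  have p1 : 0 ≤ ap b1 c2 la mu + kp b1 c2 la mu * ((b1 : ℝ) / 1000000) := by
    rw [line_val hbc]
    have : (la : ℝ) * (c2 - b1) + mu * ((b1 : ℝ) - b1) = la * ((c2 : ℝ) - b1) := by ring
    rw [this]
    positivity
  have p2 : 0 ≤ ap b1 c2 la mu + kp b1 c2 la mu * ((c2 : ℝ) / 1000000) := by
    rw [line_val hbc]
    have : (la : ℝ) * (c2 - c2) + mu * ((c2 : ℝ) - b1) = mu * ((c2 : ℝ) - b1) := by ring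
    rw [this]
    positivity
  have hline : ∀ a ∈ Icc b c, 0 ≤ ap b1 c2 la mu + kp b1 c2 la mu * a ∧
      ap b1 c2 la mu + kp b1 c2 la mu * a ≤ I2 a := fun a ha =>
    line_ok N1 N2 p1 p2 ⟨hb1.trans ha.1, ha.2.trans hc2⟩
  refine ⟨ap b1 c2 la mu, kp b1 c2 la mu, fun a ha => (hline a ha).1, fun a ha => (hline a ha).2,
    ?_⟩
  set v : ℝ := V * 1000000 with hv
  have hVv : V = v / 1000000 := by rw [hv]; field_simp
  have hva : ((max V1 b1 : ℕ) : ℝ) ≤ v := by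
    rw [Nat.cast_max]
    apply max_le
    · rw [div_le_iff₀ (by norm_num)] at hV1; exact hV1
    · have := hb1.trans hbV
      rw [div_le_iff₀ (by norm_num)] at this; exact this
  have hvb : v ≤ ((min V2 c2 : ℕ) : ℝ) := by
    rw [Nat.cast_min]
    apply le_min
    · rw [le_div_iff₀ (by norm_num)] at hV2; exact hV2
    · have := hVc.trans hc2
      rw [le_div_iff₀ (by norm_num)] at this; exact this
  have hab : max V1 b1 ≤ min V2 c2 := by exact_mod_cast hva.trans hvb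
  have hfin : (1 + 1 / 10 ^ 6) * Jh V ≤ (ap b1 c2 la mu + kp b1 c2 la mu * V) +
      (tt b1 b2 c1 c2 la mu : ℝ) / 2000000000000 := by
    rw [hVv]
    rcases h with h | h | h
    · exact absurd h (not_lt.mpr hab)
    · exact test0_soundS hbc (le_max_right V1 b1) (hab.trans (min_le_right _ _))
        ((le_max_right V1 b1).trans hab) (min_le_right _ _) h ⟨hva, hvb⟩
    · exact test1_soundS hbc (le_max_right V1 b1) (hab.trans (min_le_right _ _))
        ((le_max_right V1 b1).trans hab) (min_le_right _ _) h ⟨hva, hvb⟩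
  refine hfin.trans ?_
  have h2 := tt_sound (b1 := b1) (b2 := b2) (c1 := c1) (c2 := c2) (la := la) (mu := mu) hbc
    hb2 hc1 (hbV.trans hVc)
  linarith

theorem searchB_soundS (V1 V2 : ℕ) {V : ℝ} (hV1 : (V1 : ℝ) / 1000000 ≤ V)
    (hV2 : V ≤ (V2 : ℝ) / 1000000) {b c : ℝ} (hbV : b ≤ V) (hVc : V ≤ c) (hbc : b < c) :
    ∀ (k b1 b2 c1 c2 : ℕ), searchB V1 V2 k b1 b2 c1 c2 = true →
      (b1 : ℝ) / 1000000 ≤ b → b ≤ (b2 : ℝ) / 1000000 → (c1 : ℝ) / 1000000 ≤ c →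
      c ≤ (c2 : ℝ) / 1000000 → GoodS V b c := by
  have base : ∀ b1 b2 c1 c2 : ℕ, (Nat.blt c2 V1 || Nat.blt V2 b1 || Nat.ble c2 b1 ||
      leafB b1 b2 c1 c2 V1 V2) = true →
      (b1 : ℝ) / 1000000 ≤ b → b ≤ (b2 : ℝ) / 1000000 → (c1 : ℝ) / 1000000 ≤ c →
      c ≤ (c2 : ℝ) / 1000000 → GoodS V b c := by
    intro b1 b2 c1 c2 h hb1 hb2 hc1 hc2
    simp only [Bool.or_eq_true, Nat.blt_eq, Nat.ble_eq] at h
    rcases h with ((h | h) | h) | h
    · exfalso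
      have e : (c2 : ℝ) < V1 := by exact_mod_cast h
      have : (c2 : ℝ) / 1000000 < (V1 : ℝ) / 1000000 := by linarith
      linarith
    · exfalso
      have e : (V2 : ℝ) < b1 := by exact_mod_cast h
      have : (V2 : ℝ) / 1000000 < (b1 : ℝ) / 1000000 := by linarith
      linarith
    · exfalso
      have e : (c2 : ℝ) ≤ b1 := by exact_mod_cast h
      have : (c2 : ℝ) / 1000000 ≤ (b1 : ℝ) / 1000000 := by linarith
      linarith
    · exact leafB_soundS h hb1 hb2 hc1 hc2 hV1 hV2 hbV hVc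
  intro k
  induction k with
  | zero =>
    intro b1 b2 c1 c2 h
    unfold searchB at h
    exact base b1 b2 c1 c2 h
  | succ k ih =>
    intro b1 b2 c1 c2 h hb1 hb2 hc1 hc2
    unfold searchB at h
    rcases Bool.or_eq_true_iff.mp h with h | h
    · exact base b1 b2 c1 c2 h hb1 hb2 hc1 hc2
    · rw [Bool.cond_eq_ite] at h
      split_ifs at h with hq
      · rw [Bool.and_eq_true] at h
        rcases le_total b ((((b1 + b2) / 2 : ℕ) : ℝ) / 1000000) with hm | hm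
        · exact ih _ _ _ _ h.1 hb1 hm hc1 hc2
        · exact ih _ _ _ _ h.2 hm hb2 hc1 hc2
      · rw [Bool.and_eq_true] at h
        rcases le_total c ((((c1 + c2) / 2 : ℕ) : ℝ) / 1000000) with hm | hm
        · exact ih _ _ _ _ h.1 hb1 hb2 hc1 hm
        · exact ih _ _ _ _ h.2 hb1 hb2 hm hc2

theorem useS {V1 V2 : ℕ} (hrun : searchB V1 V2 22 5000 V2 V1 1000000 = true) {V b c : ℝ}
    (hV1 : (V1 : ℝ) / 1000000 ≤ V) (hV2 : V ≤ (V2 : ℝ) / 1000000) (hb : 0.005 ≤ b) (hbV : b ≤ V)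
    (hc : V ≤ c) (hc1 : c ≤ 1) (hbc : b < c) :
    ∃ α κ : ℝ, (∀ a ∈ Set.Icc b c, 0 ≤ α + κ * a) ∧ (∀ a ∈ Set.Icc b c, α + κ * a ≤ I2 a) ∧
      (1 + 1 / 10 ^ 6) * Jh V ≤ α + κ * V + cal I2 α κ b c := by
  obtain ⟨α, κ, h1, h2, h3⟩ := searchB_soundS V1 V2 hV1 hV2 hbV hc hbc 22 5000 V2 V1 1000000 hrun
    (by norm_num; linarith) (hbV.trans hV2) (hV1.trans hc) (by norm_num; linarith)
  exact ⟨α, κ, h1, h2, h3⟩

end TubeSmallS

open TubeSmall TubeSmallS in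
theorem tube_small_s {V b c : ℝ} (hV : V ∈ Set.Icc (0.005 : ℝ) 0.12) (hb : 0.005 ≤ b)
    (hbV : b ≤ V) (hc : V ≤ c) (hc1 : c ≤ 1) (hbc : b < c) :
    ∃ α κ : ℝ, (∀ a ∈ Set.Icc b c, 0 ≤ α + κ * a) ∧ (∀ a ∈ Set.Icc b c, α + κ * a ≤ I2 a) ∧
      (1 + 1 / 10 ^ 6) * Jh V ≤ α + κ * V + cal I2 α κ b c := by
  rcases le_total V 0.01 with h1 | h1
  · exact useS run_1 (by norm_num; linarith [hV.1]) (by norm_num; linarith) hb hbV hc hc1 hbc
  rcases le_total V 0.02 with h2 | h2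
  · exact useS run_2 (by norm_num; linarith) (by norm_num; linarith) hb hbV hc hc1 hbc
  rcases le_total V 0.03 with h3 | h3
  · exact useS run_3 (by norm_num; linarith) (by norm_num; linarith) hb hbV hc hc1 hbc
  rcases le_total V 0.045 with h4 | h4
  · exact useS run_4 (by norm_num; linarith) (by norm_num; linarith) hb hbV hc hc1 hbc
  rcases le_total V 0.06 with h5 | h5
  · exact useS run_5 (by norm_num; linarith) (by norm_num; linarith) hb hbV hc hc1 hbc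
  rcases le_total V 0.08 with h6 | h6
  · exact useS run_6 (by norm_num; linarith) (by norm_num; linarith) hb hbV hc hc1 hbc
  rcases le_total V 0.1 with h7 | h7
  · exact useS run_7 (by norm_num; linarith) (by norm_num; linarith) hb hbV hc hc1 hbc
  · exact useS run_8 (by norm_num; linarith) (by norm_num; linarith [hV.2]) hb hbV hc hc1 hbc

end Vale.Agent.P232
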