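import Vale.Agent.P232.N4

/-!
# P232U, module K6: the inequality `ball_tiny_s` (`ball_tiny` with `2 b` replaced by
`2 b + b / 10^6`)

The test line is the chord of `a ↦ √(π a)` over `[b, c]` (as in `N4`).
-/

open MeasureTheory Set

namespace Vale.Agent.P232

private theorem K6_mono {w W : ℝ} (hw : 0 ≤ w) (hwW : w ≤ W) (hW : W ≤ 0.071) :
    w * (1.5017 - 4.5 * w) ^ 2 ≤ W * (1.5017 - 4.5 * W) ^ 2 := by
  have h1 : 0 ≤ (W - w) * (2.2551 - 13.5153 * (W + w)) := by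
    apply mul_nonneg (by linarith)
    linarith
  have h2 : 0 ≤ (W - w) * (20.25 * (W ^ 2 + W * w + w ^ 2)) := by
    apply mul_nonneg (by linarith)
    have : 0 ≤ W * w := mul_nonneg (hw.trans hwW) hw
    positivity
  nlinarith

/-- discriminant inequality, `m ≥ 0.188` -/
private theorem K6_P1 {m w : ℝ} (hm : 0.188 ≤ m) (hm' : m ≤ 0.5425) (hw : 0 ≤ w)
    (hw' : w ≤ 0.07072) :
    w * (1.5017 - 4.5 * w) ^ 2 ≤
      16 / 3 * m * ((1.5017 - 4.5 * w) * m - 2 * m ^ 2 - 2.5 * w ^ 2) := by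
  have h1 := K6_mono hw hw' (by norm_num)
  have h2 : (0.07072 : ℝ) * (1.5017 - 4.5 * 0.07072) ^ 2 ≤ 0.09906 := by norm_num
  have h3 : w ^ 2 ≤ 0.0050014 := by nlinarith
  have h4 : 1.18346 * m - 2 * m ^ 2 - 0.0125035 ≤
      (1.5017 - 4.5 * w) * m - 2 * m ^ 2 - 2.5 * w ^ 2 := by nlinarith
  have h5 : 0.09906 ≤ 16 / 3 * m * (1.18346 * m - 2 * m ^ 2 - 0.0125035) := by
    nlinarith [mul_nonneg (mul_nonneg (sub_nonneg.mpr hm) (sub_nonneg.mpr hm'))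
      (by linarith : (0:ℝ) ≤ m), mul_nonneg (sub_nonneg.mpr hm) (sub_nonneg.mpr hm')]
  have h6 : 16 / 3 * m * (1.18346 * m - 2 * m ^ 2 - 0.0125035) ≤
      16 / 3 * m * ((1.5017 - 4.5 * w) * m - 2 * m ^ 2 - 2.5 * w ^ 2) :=
    mul_le_mul_of_nonneg_left h4 (by linarith)
  linarith

private theorem K6_chord {n : ℝ} (hn : 0.316 ≤ n) (hn' : n ≤ 0.434) :
    n ^ 3 ≤ 0.42537 * n - 0.10286 ∧ n ^ 4 ≤ 0.21616 * n - 0.05833 ∧
      n ^ 5 ≤ 0.10379 * n - 0.02964 := by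
  have hn0 : 0 < n := by linarith
  have h2 : n ^ 2 ≤ 0.75 * n - 0.137144 := by nlinarith
  have h3 : n ^ 3 ≤ 0.42537 * n - 0.10286 := by
    have h := mul_le_mul_of_nonneg_right h2 hn0.le
    nlinarith
  have h3' : n ^ 3 ≤ 0.425356 * n - 0.102858 := by
    have h := mul_le_mul_of_nonneg_right h2 hn0.le
    nlinarith
  have h4 : n ^ 4 ≤ 0.21616 * n - 0.05833 := by
    have h := mul_le_mul_of_nonneg_right h3' hn0.le
    nlinarith
  have h5 : n ^ 5 ≤ 0.10379 * n - 0.02964 := by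
    have h := mul_le_mul_of_nonneg_right h4 hn0.le
    nlinarith
  exact ⟨h3, h4, h5⟩

private theorem K6_g {n W : ℝ} (hn : 0.316 ≤ n) (hn' : n ≤ 0.434) (hW : W = 0.8674 * n ^ 3) :
    0.32 ≤ n * ((1.5017 - 4.5 * W) - 2 * n ^ 2 - 1.881 * n ^ 4) := by
  obtain ⟨h3, h4, h5⟩ := K6_chord hn hn'
  have e : n * ((1.5017 - 4.5 * W) - 2 * n ^ 2 - 1.881 * n ^ 4) =
      1.5017 * n - 2 * n ^ 3 - 3.9033 * n ^ 4 - 1.881 * n ^ 5 := by rw [hW]; ring
  rw [e]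
  linarith

private theorem K6_cmp {n w W : ℝ} (hw : 0 ≤ w) (hw' : w ≤ W) (hW : W = 0.8674 * n ^ 3) :
    (1.5017 - 4.5 * W) * n ^ 2 - 2 * (n ^ 2) ^ 2 - 1.881 * n ^ 6 ≤
      (1.5017 - 4.5 * w) * n ^ 2 - 2 * (n ^ 2) ^ 2 - 2.5 * w ^ 2 := by
  have a1 : 0 ≤ (W - w) * n ^ 2 := mul_nonneg (by linarith) (sq_nonneg n)
  have a2 : w ^ 2 ≤ W ^ 2 := pow_le_pow_left₀ hw hw' 2
  have a3 : W ^ 2 = 0.75238276 * n ^ 6 := by rw [hW]; ring
  have a4 : 0 ≤ n ^ 6 := by positivity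
  linarith

/-- discriminant inequality, `0.1 ≤ m = n ^ 2 ≤ 0.188` -/
private theorem K6_P2 {n w : ℝ} (hn : 0.316 ≤ n) (hn' : n ≤ 0.434) (hw : 0 ≤ w)
    (hw' : w ≤ 0.8674 * n ^ 3) :
    w * (1.5017 - 4.5 * w) ^ 2 ≤
      16 / 3 * n ^ 2 * ((1.5017 - 4.5 * w) * n ^ 2 - 2 * (n ^ 2) ^ 2 - 2.5 * w ^ 2) := by
  have hn0 : 0 < n := by linarith
  have h3l : 0.03155 ≤ n ^ 3 := by
    have : (0.316 : ℝ) ^ 3 ≤ n ^ 3 := by gcongr
    norm_num at this ⊢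
    linarith
  have h3u : n ^ 3 ≤ 0.08175 := by
    have : n ^ 3 ≤ (0.434 : ℝ) ^ 3 := by gcongr
    norm_num at this ⊢
    linarith
  obtain ⟨W, hW⟩ : ∃ W : ℝ, W = 0.8674 * n ^ 3 := ⟨_, rfl⟩
  rw [← hW] at hw'
  have hW1 : W ≤ 0.071 := by linarith
  have h6 := K6_mono hw hw' hW1
  have hW0 : 0 ≤ W := hw.trans hw'
  have hF1 : 1.5017 - 4.5 * W ≤ 1.3786 := by linarith
  have hF0 : 0 ≤ 1.5017 - 4.5 * W := by linarith
  have h7 : W * (1.5017 - 4.5 * W) ^ 2 ≤ W * 1.9006 := by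
    apply mul_le_mul_of_nonneg_left _ hW0
    have := pow_le_pow_left₀ hF0 hF1 2
    norm_num at this ⊢
    linarith
  have hg := K6_g hn hn' hW
  have h8 : W * 1.9006 ≤ n ^ 3 * (16 / 3 * 0.32) := by
    have : 0 ≤ n ^ 3 := by positivity
    linarith
  have h9 : n ^ 3 * (16 / 3 * 0.32) ≤
      n ^ 3 * (16 / 3 * (n * ((1.5017 - 4.5 * W) - 2 * n ^ 2 - 1.881 * n ^ 4))) := by
    apply mul_le_mul_of_nonneg_left _ (by positivity)
    linarith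
  have h10 : n ^ 3 * (16 / 3 * (n * ((1.5017 - 4.5 * W) - 2 * n ^ 2 - 1.881 * n ^ 4))) =
      16 / 3 * n ^ 2 * ((1.5017 - 4.5 * W) * n ^ 2 - 2 * (n ^ 2) ^ 2 - 1.881 * n ^ 6) := by ring
  have h12 : 16 / 3 * n ^ 2 * ((1.5017 - 4.5 * W) * n ^ 2 - 2 * (n ^ 2) ^ 2 - 1.881 * n ^ 6) ≤
      16 / 3 * n ^ 2 * ((1.5017 - 4.5 * w) * n ^ 2 - 2 * (n ^ 2) ^ 2 - 2.5 * w ^ 2) :=
    mul_le_mul_of_nonneg_left (K6_cmp hw hw' hW) (by positivity)
  linarith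

/-- completing the square -/
private theorem K6_sq {m v w : ℝ} (hm : 0 < m) (hv : 0 ≤ v) (hw : 0 ≤ w)
    (hP : w * (1.5017 - 4.5 * w) ^ 2 ≤
      16 / 3 * m * ((1.5017 - 4.5 * w) * m - 2 * m ^ 2 - 2.5 * w ^ 2)) :
    0 ≤ 2 / 3 * (v - m) ^ 2 * (v + 2 * m) +
      w * ((1.5017 - 4.5 * w) * v - 2 * m ^ 2 - 2.5 * w ^ 2) := by
  have h1 : 0 ≤ 2 / 3 * (v - m) ^ 2 * v := by positivity
  set F := 1.5017 - 4.5 * w with hF
  have h2 : 0 ≤ (8 / 3 * m * (v - m) + w * F) ^ 2 := sq_nonneg _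
  have h3 := mul_le_mul_of_nonneg_left hP hw
  have h4 : 0 ≤ 16 / 3 * m * (4 / 3 * m * (v - m) ^ 2 + w * (F * v - 2 * m ^ 2 - 2.5 * w ^ 2)) := by
    nlinarith
  have h5 : 0 ≤ 4 / 3 * m * (v - m) ^ 2 + w * (F * v - 2 * m ^ 2 - 2.5 * w ^ 2) :=
    nonneg_of_mul_nonneg_right h4 (by positivity)
  nlinarith

/-- very small volumes -/
private theorem K6_small {n v w : ℝ} (hn : 0 < n) (hn' : n ≤ 0.3163) (hv : 0 ≤ v) (hw : 0 ≤ w)
    (hw' : w ≤ 0.8674 * n ^ 3) :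
    0 ≤ 2 / 3 * (v - n ^ 2) ^ 2 * (v + 2 * n ^ 2) +
      w * ((1.5017 - 4.5 * w) * v - 2 * (n ^ 2) ^ 2 - 2.5 * w ^ 2) := by
  set m := n ^ 2 with hm
  have hm0 : 0 < m := by positivity
  have hm1 : m ≤ 0.1001 := by rw [hm]; nlinarith
  have hwm : w ≤ 0.2744 * m := by
    refine hw'.trans ?_
    rw [hm]
    nlinarith [sq_nonneg n]
  have hw2 : 2.5 * w ^ 2 ≤ 0.1884 * m ^ 2 := by
    have h1 : w ^ 2 ≤ (0.2744 * m) ^ 2 := by nlinarith
    nlinarith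
  have hw28 : w ≤ 0.0275 := by nlinarith
  have hF : 1.3779 ≤ 1.5017 - 4.5 * w := by linarith
  have h1 : 0 ≤ 2 / 3 * (v - m) ^ 2 * (v + 2 * m) := by positivity
  rcases le_total 0 ((1.5017 - 4.5 * w) * v - 2 * m ^ 2 - 2.5 * w ^ 2) with h | h
  · have := mul_nonneg hw h
    linarith
  · have h2 : 1.3779 * v ≤ 2.1884 * m ^ 2 := by
      have : 1.3779 * v ≤ (1.5017 - 4.5 * w) * v := mul_le_mul_of_nonneg_right hF hv
      linarith
    have h3 : v ≤ 0.159 * m := by nlinarith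
    have h4 : 0.841 * m ≤ m - v := by linarith
    have h5 : 0.7072 * m ^ 2 ≤ (v - m) ^ 2 := by nlinarith
    have h6 : 0.94 * m ^ 3 ≤ 2 / 3 * (v - m) ^ 2 * (v + 2 * m) := by
      have a1 : 0.7072 * m ^ 2 * (2 * m) ≤ (v - m) ^ 2 * (v + 2 * m) := by
        apply mul_le_mul h5 (by linarith) (by positivity) (sq_nonneg _)
      have a2 : 0 < m ^ 3 := by positivity
      nlinarith
    have h7 : -(0.61 * m ^ 3) ≤ w * ((1.5017 - 4.5 * w) * v - 2 * m ^ 2 - 2.5 * w ^ 2) := by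
      have a0 : 0 ≤ (1.5017 - 4.5 * w) * v := mul_nonneg (by linarith) hv
      have a1 : w * (2.1884 * m ^ 2) ≤ 0.2744 * m * (2.1884 * m ^ 2) :=
        mul_le_mul_of_nonneg_right hwm (by positivity)
      have a2 : w * (2 * m ^ 2 + 2.5 * w ^ 2) ≤ w * (2.1884 * m ^ 2) :=
        mul_le_mul_of_nonneg_left (by linarith) hw
      have a3 : 0 ≤ w * ((1.5017 - 4.5 * w) * v) := mul_nonneg hw a0
      have a4 : 0 < m ^ 3 := by positivity
      nlinarith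
    have h8 : 0 < m ^ 3 := by positivity
    linarith

/-- the whole polynomial inequality -/
private theorem K6_main {V w v : ℝ} (hV0 : 0 < V) (hV : V ≤ 0.12) (hw : 0 ≤ w)
    (hw' : w ^ 2 ≤ 0.005) (hwV : w ^ 2 ≤ V) (hv0 : 0 < v) (hvV : V ≤ v ^ 2) (hv1 : v ≤ 1) :
    (w + v) * (Jh V + 2 * w ^ 2 + w ^ 2 / 10 ^ 6) ≤ Real.sqrt Real.pi * (V + w * v) +
      (2 / 3 * v ^ 3 - 5 / 2 * (v * w ^ 2) - 0.2707 * (w * v ^ 2) - w ^ 4 / (2 * v)) := by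
  obtain ⟨hp1, hp2⟩ := N4_sqrt_pi
  have hp3 : 1.77245 ≤ Real.sqrt Real.pi := by
    apply Real.le_sqrt_of_sq_le
    have := Real.pi_gt_d6
    norm_num at this ⊢
    linarith
  have hw1 : w ≤ 0.07072 := by nlinarith
  have hwv : w ≤ v := by nlinarith
  have h4 : w ^ 4 / (2 * v) ≤ w ^ 3 / 2 := by
    rw [div_le_div_iff₀ (by positivity) (by norm_num)]
    have h5 : w ^ 3 * w ≤ w ^ 3 * v := mul_le_mul_of_nonneg_left hwv (by positivity)
    nlinarith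
  obtain ⟨m, hm0, hm3, hJ⟩ := N4_ball_val (V := V) hV0.le
  have hJ' : Jh V ≤ 2 * m ^ 2 := by
    rw [← hJ]
    exact (min_le_left _ _).trans (min_le_left _ _)
  have hmp : 0 < m := by
    rcases hm0.eq_or_lt with h | h
    · exfalso
      rw [← h] at hm3
      have : 0 < 3 / 4 * (Real.sqrt Real.pi * V) := by positivity
      norm_num at hm3
      rcases hm3 with h | h
      · have := Real.sqrt_pos.mpr Real.pi_pos
        linarith
      · linarith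
    · exact h
  have hmu : m ≤ 0.5425 := by
    by_contra hcon
    push Not at hcon
    have h7 : (0.5425 : ℝ) ^ 3 < m ^ 3 := by gcongr
    nlinarith
  have hVm : V ≤ 0.7523 * m ^ 3 := by
    rw [hm3]
    nlinarith
  obtain ⟨n, hn0, hnm⟩ : ∃ n : ℝ, 0 < n ∧ n ^ 2 = m :=
    ⟨Real.sqrt m, Real.sqrt_pos.mpr hmp, Real.sq_sqrt hm0⟩
  have hwn : w ≤ 0.8674 * n ^ 3 := by
    have h8 : w ^ 2 ≤ (0.8674 * n ^ 3) ^ 2 := by
      have : (0.8674 * n ^ 3) ^ 2 = 0.75238276 * (n ^ 2) ^ 3 := by ring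
      rw [this, hnm]
      have : 0 < m ^ 3 := by positivity
      linarith
    exact (pow_le_pow_iff_left₀ hw (by positivity) two_ne_zero).mp h8
  -- the key inequality
  have key : 0 ≤ 2 / 3 * (v - m) ^ 2 * (v + 2 * m) +
      w * ((1.5017 - 4.5 * w) * v - 2 * m ^ 2 - 2.5 * w ^ 2) := by
    rcases le_total n 0.316 with h1 | h1
    · have := K6_small hn0 (by linarith) hv0.le hw hwn
      rwa [hnm] at this
    · rcases le_total n 0.434 with h2 | h2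
      · apply K6_sq hmp hv0.le hw
        have := K6_P2 h1 h2 hw hwn
        rwa [hnm] at this
      · apply K6_sq hmp hv0.le hw
        refine K6_P1 ?_ hmu hw hw1
        rw [← hnm]
        nlinarith
  have h9 : (w + v) * (Jh V + 2 * w ^ 2 + w ^ 2 / 10 ^ 6) ≤
      (w + v) * (2 * m ^ 2 + 2 * w ^ 2 + w ^ 2 / 10 ^ 6) := by
    apply mul_le_mul_of_nonneg_left _ (by positivity)
    linarith
  refine h9.trans ?_
  have h10 : Real.sqrt Real.pi * V = 4 / 3 * m ^ 3 := by linarith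
  have h11 : 1.77245 * (w * v) ≤ Real.sqrt Real.pi * (w * v) :=
    mul_le_mul_of_nonneg_right hp3 (by positivity)
  have h13 : (w + v) * (w ^ 2 / 10 ^ 6) ≤ 0.00005 * (w * v) := by
    have a1 : w * w ≤ w * v := mul_le_mul_of_nonneg_left hwv hw
    have a2 : w * (w * w) ≤ w * (w * v) := mul_le_mul_of_nonneg_left a1 hw
    have a3 : w * (w * v) ≤ 0.07072 * (w * v) :=
      mul_le_mul_of_nonneg_right hw1 (by positivity)
    have a4 : 0 ≤ w * v := by positivity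
    have e : (w + v) * (w ^ 2 / 10 ^ 6) = (w * (w * w) + w * (w * v)) / 10 ^ 6 := by ring
    rw [e]
    rw [div_le_iff₀ (by norm_num)]
    nlinarith
  have h12 : w * v ^ 2 ≤ w * v := by
    apply mul_le_mul_of_nonneg_left _ hw
    nlinarith
  nlinarith

/-- K6: tiny volumes, small minimal slice, strict version -/
theorem ball_tiny_s {V b c : ℝ} (hV0 : 0 < V) (hV : V ≤ 0.12) (hb : 0 ≤ b) (hb' : b ≤ 0.005)
    (hbV : b ≤ V) (hc : V ≤ c) (hc1 : c ≤ 1) :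
    ∃ α κ : ℝ, (∀ a ∈ Set.Icc b c, 0 ≤ α + κ * a) ∧
      (∀ a ∈ Set.Icc b c, α + κ * a ≤ Real.sqrt (Real.pi * a)) ∧
      Jh V + 2 * b + b / 10 ^ 6 ≤ α + κ * V + cal (fun a => Real.sqrt (Real.pi * a)) α κ b c := by
  obtain ⟨w, hw, rfl⟩ : ∃ w : ℝ, 0 ≤ w ∧ w ^ 2 = b :=
    ⟨Real.sqrt b, Real.sqrt_nonneg _, Real.sq_sqrt hb⟩
  obtain ⟨v, hv, rfl⟩ : ∃ v : ℝ, 0 ≤ v ∧ v ^ 2 = c :=
    ⟨Real.sqrt c, Real.sqrt_nonneg _, Real.sq_sqrt (by linarith)⟩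
  have hv0 : 0 < v := by
    rcases hv.eq_or_lt with h | h
    · subst h
      norm_num at hc
      linarith
    · exact h
  have hv1 : v ≤ 1 := by nlinarith
  have hwv : w ≤ v := by nlinarith
  have hws : 0 < w + v := by linarith
  have hp : 0 < Real.sqrt Real.pi := Real.sqrt_pos.mpr Real.pi_pos
  refine ⟨Real.sqrt Real.pi * (w * v) / (w + v), Real.sqrt Real.pi / (w + v), ?_, ?_, ?_⟩
  · intro a ha
    have : 0 ≤ a := (sq_nonneg w).trans ha.1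
    positivity
  · intro a ha
    have ha0 : 0 ≤ a := (sq_nonneg w).trans ha.1
    obtain ⟨u, hu, rfl⟩ : ∃ u : ℝ, 0 ≤ u ∧ u ^ 2 = a :=
      ⟨Real.sqrt a, Real.sqrt_nonneg _, Real.sq_sqrt ha0⟩
    rw [Real.sqrt_mul Real.pi_pos.le, Real.sqrt_sq hu]
    have hwu : w ≤ u := by nlinarith [ha.1]
    have huv : u ≤ v := by nlinarith [ha.2]
    have h1 : Real.sqrt Real.pi * (w * v) / (w + v) + Real.sqrt Real.pi / (w + v) * u ^ 2 =
        Real.sqrt Real.pi * ((w * v + u ^ 2) / (w + v)) := by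
      field_simp
    rw [h1]
    apply mul_le_mul_of_nonneg_left _ hp.le
    rw [div_le_iff₀ hws]
    nlinarith [mul_nonneg (sub_nonneg.mpr hwu) (sub_nonneg.mpr huv)]
  · have h1 := N4_cal hw hv0 hwv
    refine le_trans ?_ (add_le_add_right h1 _)
    have h2 := K6_main hV0 hV hw hb' hbV hv0 hc hv1
    have h3 : Real.sqrt Real.pi * (w * v) / (w + v) + Real.sqrt Real.pi / (w + v) * V +
        (2 / 3 * v ^ 3 - 5 / 2 * (v * w ^ 2) - 0.2707 * (w * v ^ 2) - w ^ 4 / (2 * v)) / (w + v) =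
        (Real.sqrt Real.pi * (V + w * v) + (2 / 3 * v ^ 3 - 5 / 2 * (v * w ^ 2) -
          0.2707 * (w * v ^ 2) - w ^ 4 / (2 * v))) / (w + v) := by
      field_simp
      ring
    rw [h3, le_div_iff₀ hws]
    linarith

end Vale.Agent.P232
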