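import Vale.Agent.P232.SliceArea
import Vale.Agent.P232.SliceTorus
import Vale.Agent.P232.SliceCut
import Vale.Agent.P232.Fubini
import Vale.Agent.P232U.K4
import Vale.Agent.P232U.K6

/-!
# P232, uniqueness, module K21: `class_small`
-/

open MeasureTheory Set Filter Topology

namespace Vale.Agent.P232

private theorem K21_per {f : (Fin 3 → ℝ) → ℝ} (hf : Nice f) (i : Fin 3) :
    Function.Periodic (sArea f i) 1 := fun z => sArea_per hf i z

private theorem K21_minmax {A : ℝ → ℝ} (hA : Continuous A) (hp : Function.Periodic A 1) :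
    ∃ z₀ z₁, (∀ z, A z₀ ≤ A z) ∧ ∀ z, A z ≤ A z₁ := by
  obtain ⟨z₀, _, h0⟩ := isCompact_Icc.exists_isMinOn (s := Icc (0:ℝ) 1) ⟨0, by simp⟩ hA.continuousOn
  obtain ⟨z₁, _, h1⟩ := isCompact_Icc.exists_isMaxOn (s := Icc (0:ℝ) 1) ⟨0, by simp⟩ hA.continuousOn
  refine ⟨z₀, z₁, fun z => ?_, fun z => ?_⟩
  · obtain ⟨y, hy, he⟩ := hp.exists_mem_Ico₀ one_pos z
    rw [he]
    exact h0 ⟨hy.1, hy.2.le⟩
  · obtain ⟨y, hy, he⟩ := hp.exists_mem_Ico₀ one_pos z
    rw [he]
    exact h1 ⟨hy.1, hy.2.le⟩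

private theorem K21_b {A : ℝ → ℝ} (hA : Continuous A) {b : ℝ} (hb : ∀ z, b ≤ A z) :
    b ≤ ∫ z in (0:ℝ)..1, A z := by
  have h := intervalIntegral.integral_mono_on (a := 0) (b := 1) (f := fun _ => b) (g := A)
    (μ := volume) zero_le_one (by simp) (hA.intervalIntegrable _ _) (fun z _ => hb z)
  simpa using h

private theorem K21_c {A : ℝ → ℝ} (hA : Continuous A) {c : ℝ} (hc : ∀ z, A z ≤ c) :
    ∫ z in (0:ℝ)..1, A z ≤ c := by
  have h := intervalIntegral.integral_mono_on (a := 0) (b := 1) (f := A) (g := fun _ => c)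
    (μ := volume) zero_le_one (hA.intervalIntegrable _ _) (by simp) (fun z _ => hc z)
  simpa using h

private theorem K21_cal {Iso : ℝ → ℝ} {α κ b c : ℝ} (hbc : b ≤ c) : cal Iso α κ b c ≤ c - b := by
  unfold cal
  have h := intervalIntegral.norm_integral_le_of_norm_le_const (a := b) (b := c) (C := 1)
    (f := fun a => Real.sqrt (1 - ((α + κ * a) / Iso a) ^ 2)) (fun x _ => by
      rw [Real.norm_eq_abs, abs_of_nonneg (Real.sqrt_nonneg _)]
      rw [Real.sqrt_le_left zero_le_one, one_pow]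
      have := sq_nonneg ((α + κ * x) / Iso x)
      linarith)
  rw [one_mul, abs_of_nonneg (by linarith : (0:ℝ) ≤ c - b)] at h
  exact (le_abs_self _).trans h

private theorem K21_Jh_pos {V : ℝ} (hV : 0 < V) : 0 < Jh V := by
  unfold Jh
  have h1 : (0:ℝ) < (9 * Real.pi / 2) ^ (1 / 3 : ℝ) * V ^ (2 / 3 : ℝ) := by
    have := Real.pi_pos
    positivity
  have h2 : (0:ℝ) < Real.sqrt (Real.pi * V) := Real.sqrt_pos.2 (mul_pos Real.pi_pos hV)
  exact lt_min (lt_min h1 h2) one_pos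

/-- the choice of `δ` -/
private theorem K21_delta {r : ℝ} (hr : 0 < r) :
    ∃ δ > 0, ∀ t ≤ δ, δ + Real.sqrt (2 * Real.pi * t) < r := by
  have hcont : Continuous fun δ : ℝ => δ + Real.sqrt (2 * Real.pi * δ) := by fun_prop
  have h0 : (fun δ : ℝ => δ + Real.sqrt (2 * Real.pi * δ)) 0 < r := by simpa using hr
  have h1 : ∀ᶠ δ in 𝓝[>] (0:ℝ), δ + Real.sqrt (2 * Real.pi * δ) < r :=
    nhdsWithin_le_nhds ((hcont.tendsto 0).eventually (gt_mem_nhds h0))
  obtain ⟨δ, hδ, hδ0⟩ := (h1.and self_mem_nhdsWithin).exists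
  refine ⟨δ, hδ0, fun t ht => lt_of_le_of_lt ?_ hδ⟩
  have := Real.pi_pos
  gcongr

/-- `class_small` from the two one-dimensional inequalities -/
theorem class_small_of
    (tube_small_s : ∀ {V b c : ℝ} (_ : V ∈ Set.Icc (0.005 : ℝ) 0.12) (_ : 0.005 ≤ b)
      (_ : b ≤ V) (_ : V ≤ c) (_ : c ≤ 1) (_ : b < c),
      ∃ α κ : ℝ, (∀ a ∈ Set.Icc b c, 0 ≤ α + κ * a) ∧ (∀ a ∈ Set.Icc b c, α + κ * a ≤ I2 a) ∧
        (1 + 1 / 10 ^ 6) * Jh V ≤ α + κ * V + cal I2 α κ b c)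
    (ball_tiny_s : ∀ {V b c : ℝ} (_ : 0 < V) (_ : V ≤ 0.12) (_ : 0 ≤ b) (_ : b ≤ 0.005)
      (_ : b ≤ V) (_ : V ≤ c) (_ : c ≤ 1),
      ∃ α κ : ℝ, (∀ a ∈ Set.Icc b c, 0 ≤ α + κ * a) ∧
        (∀ a ∈ Set.Icc b c, α + κ * a ≤ Real.sqrt (Real.pi * a)) ∧
        Jh V + 2 * b + b / 10 ^ 6 ≤
          α + κ * V + cal (fun a => Real.sqrt (Real.pi * a)) α κ b c)
    {V : ℝ} (hV0 : 0 < V) (hV1 : V ≤ 0.12) {ε : ℝ} (hε : 0 < ε) :
    ∃ δ > 0, ∀ f : (Fin 3 → ℝ) → ℝ, Nice f → ∫ x in cell 3, f x = V →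
      ∫ x in cell 3, f x * (1 - f x) ≤ δ → hTV f ≤ Jh V + δ → ∀ i, ∃ z, sArea f i z ≤ ε := by
  have hJ := K21_Jh_pos hV0
  obtain ⟨δ, hδ0, hδ⟩ := K21_delta (r := min (Jh V / 10 ^ 6) (ε / 10 ^ 6))
    (lt_min (by positivity) (by positivity))
  refine ⟨δ, hδ0, fun f hf hV hw ht => ?_⟩
  have herr := hδ _ hw
  have herr1 := herr.trans_le (min_le_left _ _)
  have herr2 := herr.trans_le (min_le_right _ _)
  have hcont : ∀ i, Continuous (sArea f i) := fun i => (sArea_contDiff hf i).continuous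
  have hfub : ∀ i, ∫ x in cell 3, f x = ∫ z in (0:ℝ)..1, sArea f i z :=
    fun i => fubini_slice hf.smooth.continuous i
  have hmm := fun i => K21_minmax (hcont i) (K21_per hf i)
  choose p q hp hq using hmm
  obtain ⟨i, hi⟩ : ∃ i : Fin 3, ∀ j, sArea f j (p j) ≤ sArea f i (p i) := by
    obtain ⟨i, _, hi⟩ := Finset.exists_max_image (Finset.univ : Finset (Fin 3))
      (fun j => sArea f j (p j)) ⟨0, Finset.mem_univ _⟩
    exact ⟨i, fun j => hi j (Finset.mem_univ _)⟩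
  have hbV : sArea f i (p i) ≤ V := by
    rw [← hV, hfub i]
    exact K21_b (hcont i) (hp i)
  have hVc : V ≤ sArea f i (q i) := by
    rw [← hV, hfub i]
    exact K21_c (hcont i) (hq i)
  have hb0 : 0 ≤ sArea f i (p i) := (sl_area_mem hf i _).1
  have hc1 : sArea f i (q i) ≤ 1 := (sl_area_mem hf i _).2
  rcases le_total (sArea f i (p i)) 0.005 with hb5 | hb5
  · -- the ball case
    obtain ⟨α, κ, hl0, hl, h1⟩ := ball_tiny_s hV0 hV1 hb0 hb5 hbV hVc hc1
    have h2 := slice_cut hf i (hp i) (hq i) ⟨p i, rfl⟩ ⟨q i, rfl⟩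
      (fun j _ => ⟨p j, hi j⟩) hl0 hl
    rw [hV] at h2
    have h3 : sArea f i (p i) / 10 ^ 6 ≤ ε / 10 ^ 6 := by linarith
    have h4 : sArea f i (p i) ≤ ε := by
      have := (div_le_div_iff_of_pos_right (by positivity : (0:ℝ) < 10 ^ 6)).1 h3
      exact this
    exact fun j => ⟨p j, (hi j).trans h4⟩
  · -- the tube case is impossible
    exfalso
    have hVm : V ∈ Set.Icc (0.005 : ℝ) 0.12 := ⟨hb5.trans hbV, hV1⟩
    rcases lt_or_ge (sArea f i (p i)) (sArea f i (q i)) with hbc | hbc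
    · obtain ⟨α, κ, hl0, hl, h1⟩ := tube_small_s hVm hb5 hbV hVc hc1 hbc
      have h2 := slice_torus hf i (hp i) (hq i) ⟨p i, rfl⟩ ⟨q i, rfl⟩ hl0 hl
      rw [hV] at h2
      linarith
    · have hbV' : sArea f i (p i) = V := le_antisymm hbV (hVc.trans hbc)
      have hcV' : sArea f i (q i) = V := le_antisymm (hbc.trans hbV) hVc
      have hI0 : 0 ≤ I2 V := le_min (le_min (Real.sqrt_nonneg _) zero_le_one) (Real.sqrt_nonneg _)
      have h1 := slice_torus hf i (α := I2 V) (κ := 0) (hp i) (hq i) ⟨p i, rfl⟩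
        ⟨q i, rfl⟩ (fun a _ => by rw [zero_mul, add_zero]; exact hI0) (fun a ha => by
          have : a = V := by
            have h1 := ha.1
            have h2 := ha.2
            linarith
          rw [this, zero_mul, add_zero])
      have h2 : cal I2 (I2 V) 0 (sArea f i (p i)) (sArea f i (q i)) = 0 := by
        unfold cal
        rw [hbV', hcV', intervalIntegral.integral_same]
      rw [h2, zero_mul, add_zero, add_zero] at h1
      -- `(1 + 10⁻⁶) Jh V ≤ I2 V` by a limit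
      have h3 : (1 + 1 / 10 ^ 6) * Jh V ≤ I2 V := by
        refine le_of_forall_pos_le_add fun t ht => ?_
        obtain ⟨α, κ, _, hl, h4⟩ := tube_small_s (b := V) (c := V + min t 0.5) hVm hVm.1 le_rfl
          (by linarith [lt_min ht (by norm_num : (0:ℝ) < 0.5)])
          (by
            have h8 : min t (0.5:ℝ) ≤ 0.5 := min_le_right _ _
            have h9 : (0.12 : ℝ) + 0.5 ≤ 1 := by norm_num
            linarith)
          (by linarith [lt_min ht (by norm_num : (0:ℝ) < 0.5)])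
        have h5 := hl V ⟨le_rfl, by linarith [lt_min ht (by norm_num : (0:ℝ) < 0.5)]⟩
        have h6 := K21_cal (Iso := I2) (α := α) (κ := κ) (b := V) (c := V + min t 0.5)
          (by linarith [lt_min ht (by norm_num : (0:ℝ) < 0.5)])
        have h7 := min_le_left t (0.5:ℝ)
        linarith
      linarith

/-- near-minimizers of small volume are small in every direction -/
theorem class_small {V : ℝ} (hV0 : 0 < V) (hV1 : V ≤ 0.12) {ε : ℝ} (hε : 0 < ε) :
    ∃ δ > 0, ∀ f : (Fin 3 → ℝ) → ℝ, Nice f → ∫ x in cell 3, f x = V →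
      ∫ x in cell 3, f x * (1 - f x) ≤ δ → hTV f ≤ Jh V + δ → ∀ i, ∃ z, sArea f i z ≤ ε :=
  class_small_of (fun hV hb hbV hc hc1 hbc => tube_small_s hV hb hbV hc hc1 hbc)
    (fun hV0 hV hb hb' hbV hc hc1 => ball_tiny_s hV0 hV hb hb' hbV hc hc1) hV0 hV1 hε

end Vale.Agent.P232
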