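import Vale.Agent.P232U.Defs
import Vale.Agent.P232.SliceArea
import Vale.Agent.P232.SliceTorus
import Vale.Agent.P232.SliceCut
import Vale.Agent.P232.Fubini

/-! # P232U, module K22: near-minimizers with volume in `[0.12, 0.264]` (helper41) -/

open MeasureTheory Set Filter Topology

namespace Vale.Agent.P232

private theorem K22_vol_cell (n : ℕ) : volume (cell n) = 1 := by
  unfold cell
  rw [Real.volume_pi_Ico]
  simp

private theorem K22_minmax {A : ℝ → ℝ} (hA : Continuous A) (hp : Function.Periodic A 1) :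
    ∃ z₀ z₁, (∀ z, A z₀ ≤ A z) ∧ ∀ z, A z ≤ A z₁ := by
  obtain ⟨z₀, _, h0⟩ := isCompact_Icc.exists_isMinOn (s := Icc (0:ℝ) 1) ⟨0, by simp⟩ hA.continuousOn
  obtain ⟨z₁, _, h1⟩ := isCompact_Icc.exists_isMaxOn (s := Icc (0:ℝ) 1) ⟨0, by simp⟩ hA.continuousOn
  refine ⟨z₀, z₁, fun z => ?_, fun z => ?_⟩
  · obtain ⟨y, hy, he⟩ := hp.exists_mem_Ico₀ one_pos z
    rw [he]
    exact h0 ⟨hy.1, hy.2.le⟩
  · obtain ⟨y, hy, he⟩ := hp.exists_mem_Ico₀ one_pos z
    rw [he]
    exact h1 ⟨hy.1, hy.2.le⟩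

private theorem K22_nonneg {f : (Fin 3 → ℝ) → ℝ} (hf : Nice f) (i : Fin 3) (z : ℝ) :
    0 ≤ sArea f i z := by
  unfold sArea
  exact integral_nonneg fun y => hf.nonneg _

private theorem K22_le_one {f : (Fin 3 → ℝ) → ℝ} (hf : Nice f) (i : Fin 3) (z : ℝ) :
    sArea f i z ≤ 1 := by
  unfold sArea
  have h := norm_setIntegral_le_of_norm_le_const (μ := volume) (s := cell 2) (C := 1)
    (f := slice f i z) (by rw [K22_vol_cell]; exact ENNReal.one_lt_top) (fun y _ => by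
      show |f (i.insertNth z y)| ≤ 1
      rw [abs_of_nonneg (hf.nonneg _)]
      exact hf.le_one _)
  rw [measureReal_def, K22_vol_cell] at h
  simp only [ENNReal.toReal_one, mul_one] at h
  exact (le_abs_self _).trans h

private theorem K22_b {A : ℝ → ℝ} (hA : Continuous A) {b : ℝ} (hb : ∀ z, b ≤ A z) :
    b ≤ ∫ z in (0:ℝ)..1, A z := by
  have h := intervalIntegral.integral_mono_on (a := 0) (b := 1) (f := fun _ => b) (g := A)
    (μ := volume) zero_le_one (by simp) (hA.intervalIntegrable _ _) (fun z _ => hb z)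
  simpa using h

private theorem K22_c {A : ℝ → ℝ} (hA : Continuous A) {c : ℝ} (hc : ∀ z, A z ≤ c) :
    ∫ z in (0:ℝ)..1, A z ≤ c := by
  have h := intervalIntegral.integral_mono_on (a := 0) (b := 1) (f := A) (g := fun _ => c)
    (μ := volume) zero_le_one (hA.intervalIntegrable _ _) (by simp) (fun z _ => hc z)
  simpa using h

/-- `B^6` and `(π V)^3` -/
private theorem K22_cmp {V : ℝ} (hV : 0 < V) :
    (V < 4 * Real.pi / 81 → (9 * Real.pi / 2) ^ (1 / 3 : ℝ) * V ^ (2 / 3 : ℝ) <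
      Real.sqrt (Real.pi * V)) ∧
    (4 * Real.pi / 81 < V → Real.sqrt (Real.pi * V) <
      (9 * Real.pi / 2) ^ (1 / 3 : ℝ) * V ^ (2 / 3 : ℝ)) := by
  have hpi := Real.pi_pos
  have h9 : 0 ≤ 9 * Real.pi / 2 := by positivity
  set B := (9 * Real.pi / 2) ^ (1 / 3 : ℝ) * V ^ (2 / 3 : ℝ) with hB
  have hB0 : 0 ≤ B := by positivity
  have hB3 : B ^ 3 = 9 * Real.pi / 2 * V ^ 2 := by
    rw [hB, mul_pow, ← Real.rpow_natCast ((9 * Real.pi / 2) ^ (1 / 3 : ℝ)), ← Real.rpow_mul h9,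
      ← Real.rpow_natCast (V ^ (2 / 3 : ℝ)), ← Real.rpow_mul hV.le]
    have e1 : (1 / 3 : ℝ) * ((3 : ℕ) : ℝ) = 1 := by norm_num
    have e2 : (2 / 3 : ℝ) * ((3 : ℕ) : ℝ) = ((2 : ℕ) : ℝ) := by norm_num
    rw [e1, e2, Real.rpow_one, Real.rpow_natCast]
  have hB6 : B ^ 6 = (9 * Real.pi / 2 * V ^ 2) ^ 2 := by
    rw [← hB3]
    ring
  have hS0 := Real.sqrt_nonneg (Real.pi * V)
  have hS6 : Real.sqrt (Real.pi * V) ^ 6 = (Real.pi * V) ^ 3 := by
    rw [show (6 : ℕ) = 2 * 3 by norm_num, pow_mul, Real.sq_sqrt (by positivity)]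
  have hid : (9 * Real.pi / 2 * V ^ 2) ^ 2 - (Real.pi * V) ^ 3 =
      Real.pi ^ 2 * V ^ 3 * (81 / 4 * (V - 4 * Real.pi / 81)) := by ring
  have hpos : 0 < Real.pi ^ 2 * V ^ 3 := by positivity
  constructor
  · intro h
    refine lt_of_pow_lt_pow_left₀ 6 hS0 ?_
    rw [hB6, hS6]
    have : Real.pi ^ 2 * V ^ 3 * (81 / 4 * (V - 4 * Real.pi / 81)) < 0 :=
      mul_neg_of_pos_of_neg hpos (by linarith)
    linarith
  · intro h
    refine lt_of_pow_lt_pow_left₀ 6 hB0 ?_
    rw [hB6, hS6]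
    have : 0 < Real.pi ^ 2 * V ^ 3 * (81 / 4 * (V - 4 * Real.pi / 81)) :=
      mul_pos hpos (by linarith)
    linarith

/-- `class_low` from the strict one-dimensional inequalities -/
theorem class_low_of
    (tube_s : ∀ V b c : ℝ, V ∈ Set.Icc (0.12 : ℝ) 0.264 → 0.005 ≤ b → b ≤ V → V ≤ c → c ≤ 1 →
      b < c → ∃ α κ : ℝ, (∀ a ∈ Set.Icc b c, 0 ≤ α + κ * a) ∧ (∀ a ∈ Set.Icc b c, α + κ * a ≤ I2 a) ∧
      ((1 + 1 / 10 ^ 6) * Jh V ≤ α + κ * V + cal I2 α κ b c ∨
        (Real.sqrt (Real.pi * V) ≤ α + κ * V + cal I2 α κ b c ∧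
          (0.155 ≤ V → Real.sqrt (Real.pi * V) + 0.001 * (c - b) ^ 2 ≤
            α + κ * V + cal I2 α κ b c))))
    (ball_small_s : ∀ V b c : ℝ, V ∈ Set.Icc (0.12 : ℝ) 0.264 → 0 ≤ b → b ≤ 0.005 → V ≤ c →
      c ≤ 1 → ∃ α κ : ℝ, (∀ a ∈ Set.Icc b c, 0 ≤ α + κ * a) ∧
      (∀ a ∈ Set.Icc b c, α + κ * a ≤ Real.sqrt (Real.pi * a)) ∧
      Jh V + 2 * b + b / 10 ^ 6 ≤ α + κ * V + cal (fun a => Real.sqrt (Real.pi * a)) α κ b c)
    (ball_lin : ∀ V b c : ℝ, 0 < V → 0 ≤ b → b ≤ V → V ≤ c →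
      ∃ α κ : ℝ, (∀ a ∈ Set.Icc b c, 0 ≤ α + κ * a) ∧
      (∀ a ∈ Set.Icc b c, α + κ * a ≤ Real.sqrt (Real.pi * a)) ∧
      (9 * Real.pi / 2) ^ (1 / 3 : ℝ) * V ^ (2 / 3 : ℝ) - b ≤
        α + κ * V + cal (fun a => Real.sqrt (Real.pi * a)) α κ b c)
    {V : ℝ} (hV : V ∈ Set.Icc (0.12 : ℝ) 0.264) {ε : ℝ} (hε : 0 < ε) :
    ∃ δ > 0, ∀ f : (Fin 3 → ℝ) → ℝ, Nice f → ∫ x in cell 3, f x = V →
      ∫ x in cell 3, f x * (1 - f x) ≤ δ → hTV f ≤ Jh V + δ →
      (4 * Real.pi / 81 ≤ V ∧ ∃ i, ∫ z in (0:ℝ)..1, |sArea f i z - V| ≤ ε) ∨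
      (V ≤ 4 * Real.pi / 81 ∧ ∀ i, ∃ z, sArea f i z ≤ ε) := by
  have hpi := Real.pi_pos
  have hpi3 := Real.pi_gt_d2
  have hpi4 := Real.pi_lt_d2
  have hV0 : (0:ℝ) < V := lt_of_lt_of_le (by norm_num) hV.1
  obtain ⟨hc1, hc2⟩ := K22_cmp hV0
  set B := (9 * Real.pi / 2) ^ (1 / 3 : ℝ) * V ^ (2 / 3 : ℝ) with hB
  set S := Real.sqrt (Real.pi * V) with hS
  have hB0 : 0 < B := by positivity
  have hS0 : 0 < S := Real.sqrt_pos.mpr (by positivity)
  have hS1 : S ≤ 1 := by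
    rw [hS, Real.sqrt_le_left (by norm_num)]
    have := hV.2
    nlinarith
  have hJB : Jh V ≤ B := (min_le_left _ _).trans (min_le_left _ _)
  have hJS : Jh V ≤ S := (min_le_left _ _).trans (min_le_right _ _)
  have hJ0 : 0 < Jh V := lt_min (lt_min hB0 hS0) one_pos
  have hI2 : I2 V = S := by
    unfold I2
    rw [min_eq_left hS1]
    refine min_eq_left (Real.sqrt_le_sqrt ?_)
    have := hV.2
    nlinarith
  -- the gap
  obtain ⟨g, hg0, hg1, hg2⟩ : ∃ g : ℝ, 0 < g ∧ (4 * Real.pi / 81 < V → Jh V + g ≤ B) ∧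
      (V < 4 * Real.pi / 81 → Jh V + g ≤ S) := by
    rcases lt_trichotomy V (4 * Real.pi / 81) with h | h | h
    · exact ⟨S - B, sub_pos.mpr (hc1 h), fun h' => absurd h' (not_lt.mpr h.le), fun _ => by linarith⟩
    · exact ⟨1, one_pos, fun h' => absurd h' (not_lt.mpr h.le), fun h' => absurd h' (not_lt.mpr h.ge)⟩
    · exact ⟨B - S, sub_pos.mpr (hc2 h), fun _ => by linarith, fun h' => absurd h' (not_lt.mpr h.le)⟩
  obtain ⟨η, hη0, hη1, hη2, hη3, hη4⟩ : ∃ η : ℝ, 0 < η ∧ η * 10 ^ 6 ≤ ε ∧ η * 10 ^ 8 ≤ g ∧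
      η * 10 ^ 7 ≤ Jh V ∧ η * 1000 ≤ ε ^ 2 := by
    refine ⟨min (min (ε / 10 ^ 6) (g / 10 ^ 8)) (min (Jh V / 10 ^ 7) (ε ^ 2 / 1000)), ?_, ?_, ?_, ?_, ?_⟩
    · refine lt_min (lt_min ?_ ?_) (lt_min ?_ ?_) <;> positivity
    · rw [← le_div_iff₀ (by positivity)]
      exact (min_le_left _ _).trans (min_le_left _ _)
    · rw [← le_div_iff₀ (by positivity)]
      exact (min_le_left _ _).trans (min_le_right _ _)
    · rw [← le_div_iff₀ (by positivity)]
      exact (min_le_right _ _).trans (min_le_left _ _)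
    · rw [← le_div_iff₀ (by positivity)]
      exact (min_le_right _ _).trans (min_le_right _ _)
  refine ⟨min (η / 2) (η ^ 2 / (8 * Real.pi)), by positivity, fun f hf hfV hf1 hf2 => ?_⟩
  -- the error
  set err := Real.sqrt (2 * Real.pi * ∫ x in cell 3, f x * (1 - f x)) with herr
  have hE : hTV f + err ≤ Jh V + η := by
    have h1 : err ≤ η / 2 := by
      rw [herr]
      refine (Real.sqrt_le_left (by positivity)).mpr ?_
      have h2 := hf1.trans (min_le_right _ _)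
      rw [le_div_iff₀ (by positivity)] at h2
      nlinarith
    have h2 := hf2.trans (add_le_add_right (min_le_left _ _) _)
    linarith
  have hcont : ∀ i, Continuous (sArea f i) := fun i => (sArea_contDiff hf i).continuous
  have hfub : ∀ i, V = ∫ z in (0:ℝ)..1, sArea f i z := fun i => by
    rw [← hfV]
    exact fubini_slice hf.smooth.continuous i
  have hmm := fun i => K22_minmax (hcont i) (fun z => sArea_per hf i z)
  choose p q hp hq using hmm
  -- the maximal minimum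
  obtain ⟨i, hi⟩ : ∃ i : Fin 3, ∀ j, sArea f j (p j) ≤ sArea f i (p i) := by
    obtain ⟨i, _, hi⟩ := Finset.exists_max_image (Finset.univ : Finset (Fin 3))
      (fun j => sArea f j (p j)) ⟨0, Finset.mem_univ _⟩
    exact ⟨i, fun j => hi j (Finset.mem_univ _)⟩
  set b := sArea f i (p i) with hb
  set c := sArea f i (q i) with hc
  have hbV : b ≤ V := by
    rw [hfub i]
    exact K22_b (hcont i) (hp i)
  have hVc : V ≤ c := by
    rw [hfub i]
    exact K22_c (hcont i) (hq i)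
  have hb0 : 0 ≤ b := K22_nonneg hf i _
  have hcc : c ≤ 1 := K22_le_one hf i _
  by_cases hb5 : b ≤ 0.005
  · -- balls
    have hbE : b ≤ 10 ^ 6 * η := by
      obtain ⟨α, κ, hl0, hl, h1⟩ := ball_small_s V b c hV hb0 hb5 hVc hcc
      have h2 := slice_cut hf i (m := b) (hp i) (hq i) ⟨p i, rfl⟩ ⟨q i, rfl⟩
        (fun j _ => ⟨p j, hi j⟩) hl0 hl
      rw [hfV] at h2
      have h3 : b / 10 ^ 6 ≤ η := by linarith
      rw [div_le_iff₀ (by positivity)] at h3
      linarith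
    have hball : ¬ 4 * Real.pi / 81 < V := by
      intro hlt
      obtain ⟨α, κ, hl0, hl, h1⟩ := ball_lin V b c hV0 hb0 hbV hVc
      have h2 := slice_cut hf i (m := b) (hp i) (hq i) ⟨p i, rfl⟩ ⟨q i, rfl⟩
        (fun j _ => ⟨p j, hi j⟩) hl0 hl
      rw [hfV] at h2
      have h3 := hg1 hlt
      have h4 : B - b ≤ α + κ * V + cal (fun a => Real.sqrt (Real.pi * a)) α κ b c := h1
      have h5 : B - b ≤ hTV f + 2 * b + err := h4.trans h2
      have h6 : g ≤ 3 * b + η := by linarith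
      have h7 : 0 < g := hg0
      norm_num at hbE hη2
      linarith
    right
    refine ⟨not_lt.mp hball, fun j => ⟨p j, (hi j).trans ?_⟩⟩
    linarith
  · rw [not_le] at hb5
    -- constant sections
    have htube : ¬ V < 4 * Real.pi / 81 := by
      intro hlt
      have h3 := hg2 hlt
      by_cases hbc : b < c
      · obtain ⟨α, κ, hl0, hl, h1⟩ := tube_s V b c hV hb5.le hbV hVc hcc hbc
        have h2 := slice_torus hf i (hp i) (hq i) ⟨p i, rfl⟩ ⟨q i, rfl⟩ hl0 hl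
        rw [hfV] at h2
        rcases h1 with h1 | ⟨h1, _⟩
        · have h5 : (1 + 1 / 10 ^ 6) * Jh V ≤ Jh V + η := (h1.trans h2).trans hE
          norm_num at h5 hη3
          linarith
        · have h4 : S ≤ Jh V + η := (h1.trans h2).trans hE
          norm_num at hη2
          linarith
      · have hbV' : b = V := by linarith
        have hcV' : c = V := by linarith
        have h1 := slice_torus hf i (α := I2 V) (κ := 0) (hp i) (hq i) ⟨p i, rfl⟩
          ⟨q i, rfl⟩ (fun a _ => by rw [zero_mul, add_zero, hI2]; exact hS0.le) (fun a ha => by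
            have : a = V := by
              have h1 := ha.1
              have h2 := ha.2
              linarith
            rw [this, zero_mul, add_zero])
        have h2 : cal I2 (I2 V) 0 (sArea f i (p i)) (sArea f i (q i)) = 0 := by
          unfold cal
          rw [← hb, ← hc, hbV', hcV', intervalIntegral.integral_same]
        rw [h2, zero_mul, add_zero, add_zero, hI2] at h1
        have h4 : S ≤ Jh V + η := h1.trans hE
        norm_num at hη2
        linarith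
    rw [not_lt] at htube
    left
    refine ⟨htube, i, ?_⟩
    have hV155 : 0.155 ≤ V := by
      have : (0.155 : ℝ) ≤ 4 * Real.pi / 81 := by
        rw [le_div_iff₀ (by norm_num)]
        nlinarith [Real.pi_gt_d4]
      linarith
    have hcb : c - b ≤ ε := by
      by_cases hbc : b < c
      · obtain ⟨α, κ, hl0, hl, h1⟩ := tube_s V b c hV hb5.le hbV hVc hcc hbc
        have h2 := slice_torus hf i (hp i) (hq i) ⟨p i, rfl⟩ ⟨q i, rfl⟩ hl0 hl
        rw [hfV] at h2
        rcases h1 with h1 | ⟨_, h1⟩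
        · exfalso
          have h5 : (1 + 1 / 10 ^ 6) * Jh V ≤ Jh V + η := (h1.trans h2).trans hE
          norm_num at h5 hη3
          linarith
        · have h4 : S + 0.001 * (c - b) ^ 2 ≤ Jh V + η := ((h1 hV155).trans h2).trans hE
          have h5 : (c - b) ^ 2 ≤ ε ^ 2 := by
            norm_num at h4
            linarith
          exact abs_le_of_sq_le_sq' h5 hε.le |>.2
      · linarith
    have h6 : ∀ z, |sArea f i z - V| ≤ c - b := by
      intro z
      have h7 := hp i z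
      have h8 := hq i z
      rw [abs_le]
      constructor <;> linarith
    refine (K22_c (((hcont i).sub continuous_const).abs) (fun z => (h6 z).trans hcb))

end Vale.Agent.P232
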