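import Vale.Agent.P232U.Defs
import Vale.Agent.P232.SliceTorus
import Vale.Agent.P232.SliceArea
import Vale.Agent.P232.Fubini

/-!
# P232: classification of near-minimizers, slab window (module K24)

`class_slab_of` derives the statement from `slab_s` (K9) and `flat_of_slab` (K19).
-/

open MeasureTheory Set Filter Topology

namespace Vale.Agent.P232

private theorem K24_vol_cell (n : ℕ) : volume (cell n) = 1 := by
  unfold cell
  rw [Real.volume_pi_Ico]
  simp

private theorem K24_per {f : (Fin 3 → ℝ) → ℝ} (hf : Nice f) (i : Fin 3) :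
    Function.Periodic (sArea f i) 1 := by
  intro z
  unfold sArea
  congr 1
  ext y
  unfold slice
  have h := hf.per (i.insertNth z y) (Pi.single i 1)
  rw [← h]
  congr 1
  funext j
  rw [Pi.add_apply]
  rcases Fin.eq_self_or_eq_succAbove i j with hj | ⟨j', hj⟩
  · subst hj
    simp
  · subst hj
    simp [Fin.succAbove_ne]

private theorem K24_minmax {A : ℝ → ℝ} (hA : Continuous A) (hp : Function.Periodic A 1) :
    ∃ z₀ z₁, (∀ z, A z₀ ≤ A z) ∧ ∀ z, A z ≤ A z₁ := by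
  obtain ⟨z₀, _, h0⟩ := isCompact_Icc.exists_isMinOn (s := Icc (0:ℝ) 1) ⟨0, by simp⟩ hA.continuousOn
  obtain ⟨z₁, _, h1⟩ := isCompact_Icc.exists_isMaxOn (s := Icc (0:ℝ) 1) ⟨0, by simp⟩ hA.continuousOn
  refine ⟨z₀, z₁, fun z => ?_, fun z => ?_⟩
  · obtain ⟨y, hy, he⟩ := hp.exists_mem_Ico₀ one_pos z
    rw [he]
    exact h0 ⟨hy.1, hy.2.le⟩
  · obtain ⟨y, hy, he⟩ := hp.exists_mem_Ico₀ one_pos z
    rw [he]
    exact h1 ⟨hy.1, hy.2.le⟩

private theorem K24_nonneg {f : (Fin 3 → ℝ) → ℝ} (hf : Nice f) (i : Fin 3) (z : ℝ) :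
    0 ≤ sArea f i z := by
  unfold sArea
  exact integral_nonneg fun y => hf.nonneg _

private theorem K24_le_one {f : (Fin 3 → ℝ) → ℝ} (hf : Nice f) (i : Fin 3) (z : ℝ) :
    sArea f i z ≤ 1 := by
  unfold sArea
  have h := norm_setIntegral_le_of_norm_le_const (μ := volume) (s := cell 2) (C := 1)
    (f := slice f i z) (by rw [K24_vol_cell]; exact ENNReal.one_lt_top) (fun y _ => by
      show |f (i.insertNth z y)| ≤ 1
      rw [abs_of_nonneg (hf.nonneg _)]
      exact hf.le_one _)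
  rw [measureReal_def, K24_vol_cell] at h
  simp only [ENNReal.toReal_one, mul_one] at h
  exact (le_abs_self _).trans h

private theorem K24_b {A : ℝ → ℝ} (hA : Continuous A) {b : ℝ} (hb : ∀ z, b ≤ A z) :
    b ≤ ∫ z in (0:ℝ)..1, A z := by
  have h := intervalIntegral.integral_mono_on (a := 0) (b := 1) (f := fun _ => b) (g := A)
    (μ := volume) zero_le_one (by simp) (hA.intervalIntegrable _ _) (fun z _ => hb z)
  simpa using h

private theorem K24_c {A : ℝ → ℝ} (hA : Continuous A) {c : ℝ} (hc : ∀ z, A z ≤ c) :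
    ∫ z in (0:ℝ)..1, A z ≤ c := by
  have h := intervalIntegral.integral_mono_on (a := 0) (b := 1) (f := A) (g := fun _ => c)
    (μ := volume) zero_le_one (hA.intervalIntegrable _ _) (by simp) (fun z _ => hc z)
  simpa using h

theorem class_slab_of
    (slab_s : ∀ {V b c : ℝ}, V ∈ Set.Icc (0.36 : ℝ) 0.5 → 0 ≤ b → b ≤ V → V ≤ c → c ≤ 1 → b < c →
      ∃ α κ : ℝ, (∀ a ∈ Set.Icc b c, 0 ≤ α + κ * a) ∧ (∀ a ∈ Set.Icc b c, α + κ * a ≤ I2 a) ∧
        1 + min ((c - b) ^ 2) (b + (1 - c)) / 10 ^ 7 ≤ α + κ * V + cal I2 α κ b c)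
    (flat_of_slab : ∀ {f : (Fin 3 → ℝ) → ℝ}, Nice f → ∀ {i j : Fin 3}, i ≠ j → ∀ {δ : ℝ},
      0 ≤ δ → δ ≤ 1 → hTV f ≤ 1 + δ → (∃ z, sArea f i z ≤ δ) → (∃ z, 1 - δ ≤ sArea f i z) →
      ∫ z in (0:ℝ)..1, |sArea f j z - ∫ x in cell 3, f x| ≤ 8 * Real.sqrt δ)
    {V : ℝ} (hV : V ∈ Set.Icc (0.36 : ℝ) 0.5) {ε : ℝ} (hε : 0 < ε) :
    ∃ δ > 0, ∀ f : (Fin 3 → ℝ) → ℝ, Nice f → ∫ x in cell 3, f x = V →
      ∫ x in cell 3, f x * (1 - f x) ≤ δ → hTV f ≤ Jh V + δ →
      ∃ i, ∫ z in (0:ℝ)..1, |sArea f i z - V| ≤ ε := by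
  obtain ⟨m, hm0, hm1, hm2⟩ : ∃ m : ℝ, 0 < m ∧ m ≤ 1 ∧ m ≤ (ε / 8) ^ 2 :=
    ⟨min 1 ((ε / 8) ^ 2), lt_min one_pos (by positivity), min_le_left _ _, min_le_right _ _⟩
  refine ⟨(m / 10 ^ 8) ^ 2, by positivity, fun f hf hfV herr hT => ?_⟩
  have hcont := (sArea_contDiff hf 0).continuous
  obtain ⟨p, q, hp, hq⟩ := K24_minmax hcont (K24_per hf 0)
  set b := sArea f 0 p with hb
  set c := sArea f 0 q with hc
  have hbV : b ≤ V := by
    rw [← hfV, fubini_slice hf.smooth.continuous 0]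
    exact K24_b hcont hp
  have hVc : V ≤ c := by
    rw [← hfV, fubini_slice hf.smooth.continuous 0]
    exact K24_c hcont hq
  have hb0 : 0 ≤ b := K24_nonneg hf 0 _
  have hc1 : c ≤ 1 := K24_le_one hf 0 _
  have hclose : ∀ η : ℝ, c - b ≤ η → ∫ z in (0:ℝ)..1, |sArea f 0 z - V| ≤ η := by
    intro η hη
    refine K24_c (A := fun z => |sArea f 0 z - V|) ((hcont.sub continuous_const).abs) fun z => ?_
    have h1 := hp z
    have h2 := hq z
    refine abs_le.2 ⟨?_, ?_⟩ <;> linarith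
  by_cases hbc : b < c
  · obtain ⟨α, κ, hl0, hl, h1⟩ := slab_s hV hb0 hbV hVc hc1 hbc
    have h2 := slice_torus hf 0 hp hq ⟨p, rfl⟩ ⟨q, rfl⟩ hl0 hl
    rw [hfV] at h2
    have h3 : Jh V ≤ 1 := min_le_right _ _
    have h4 : Real.sqrt (2 * Real.pi * ∫ x in cell 3, f x * (1 - f x)) ≤ 3 * (m / 10 ^ 8) := by
      rw [Real.sqrt_le_left (by positivity)]
      have hpi := Real.pi_lt_d2
      have hpi0 := Real.pi_pos
      calc 2 * Real.pi * ∫ x in cell 3, f x * (1 - f x)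
          ≤ 2 * Real.pi * (m / 10 ^ 8) ^ 2 := mul_le_mul_of_nonneg_left herr (by positivity)
        _ ≤ 9 * (m / 10 ^ 8) ^ 2 := mul_le_mul_of_nonneg_right (by linarith) (by positivity)
        _ = (3 * (m / 10 ^ 8)) ^ 2 := by ring
    have h5 : (m / 10 ^ 8) ^ 2 ≤ m / 10 ^ 8 := by
      have h6 : m / 10 ^ 8 ≤ 1 := by
        rw [div_le_one (by positivity)]
        linarith
      have h7 : 0 ≤ m / 10 ^ 8 := by positivity
      nlinarith
    have h6 : min ((c - b) ^ 2) (b + (1 - c)) ≤ m := by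
      have h7 : min ((c - b) ^ 2) (b + (1 - c)) / 10 ^ 7 ≤ m / 10 ^ 7 := by
        have h8 : 4 * (m / 10 ^ 8) ≤ m / 10 ^ 7 := by
          have : m / 10 ^ 8 = (m / 10 ^ 7) / 10 := by ring
          have h9 : 0 ≤ m / 10 ^ 7 := by positivity
          rw [this]
          linarith
        linarith
      exact (div_le_div_iff_of_pos_right (by positivity)).1 h7
    rcases min_le_iff.1 h6 with h7 | h7
    · refine ⟨0, hclose ε ?_⟩
      have h8 : (c - b) ^ 2 ≤ (ε / 8) ^ 2 := h7.trans hm2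
      have h9 : c - b ≤ ε / 8 := by
        refine le_of_sq_le_sq ?_ (by positivity)
        exact h8
      linarith
    · refine ⟨1, ?_⟩
      have h8 := flat_of_slab hf (show (0 : Fin 3) ≠ 1 by decide) (δ := m) hm0.le hm1
        (by
          have h10 : m / 10 ^ 8 ≤ m := div_le_self hm0.le (by norm_num)
          linarith)
        ⟨p, by linarith⟩ ⟨q, by linarith⟩
      rw [hfV] at h8
      refine h8.trans ?_
      have h9 : Real.sqrt m ≤ ε / 8 := by
        rw [Real.sqrt_le_left (by positivity)]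
        exact hm2
      linarith
  · refine ⟨0, hclose ε ?_⟩
    have : b = c := le_antisymm (hbV.trans hVc) (not_lt.1 hbc)
    linarith

end Vale.Agent.P232
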