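import Vale.Agent.P232U.Defs

/-!
# P232U module K25 (helper29): the three ranges of the profile, assembly of the classification
-/

open MeasureTheory Set Filter Topology

namespace Vale.Agent.P232

theorem K25_pow {V : ℝ} (hV0 : 0 < V) :
    ((9 * Real.pi / 2) ^ (1 / 3 : ℝ) * V ^ (2 / 3 : ℝ)) ^ 6 = (81 / 4) * Real.pi ^ 2 * V ^ 4 := by
  have hpi := Real.pi_pos
  have e1 : ((9 * Real.pi / 2) ^ (1 / 3 : ℝ)) ^ 6 = (81 / 4) * Real.pi ^ 2 := by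
    rw [← Real.rpow_natCast, ← Real.rpow_mul (by positivity)]
    have : (1 / 3 : ℝ) * ((6 : ℕ) : ℝ) = (2 : ℕ) := by norm_num
    rw [this, Real.rpow_natCast]
    ring
  have e2 : (V ^ (2 / 3 : ℝ)) ^ 6 = V ^ 4 := by
    rw [← Real.rpow_natCast, ← Real.rpow_mul hV0.le]
    have : (2 / 3 : ℝ) * ((6 : ℕ) : ℝ) = (4 : ℕ) := by norm_num
    rw [this, Real.rpow_natCast]
  rw [mul_pow, e1, e2]

theorem K25_sqrt {V : ℝ} (hV0 : 0 < V) :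
    (Real.sqrt (Real.pi * V)) ^ 6 = Real.pi ^ 3 * V ^ 3 := by
  have hpi := Real.pi_pos
  have : (Real.sqrt (Real.pi * V)) ^ 6 = ((Real.sqrt (Real.pi * V)) ^ 2) ^ 3 := by ring
  rw [this, Real.sq_sqrt (by positivity)]
  ring

theorem K25_le {V : ℝ} (hV0 : 0 < V) (h : V ≤ 4 * Real.pi / 81) :
    (9 * Real.pi / 2) ^ (1 / 3 : ℝ) * V ^ (2 / 3 : ℝ) ≤ Real.sqrt (Real.pi * V) := by
  have hpi := Real.pi_pos
  refine le_of_pow_le_pow_left₀ (n := 6) (by norm_num) (Real.sqrt_nonneg _) ?_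
  rw [K25_pow hV0, K25_sqrt hV0]
  have h1 : 81 / 4 * V ≤ Real.pi := by linarith
  have h2 : 0 ≤ Real.pi ^ 2 * V ^ 3 := by positivity
  nlinarith [mul_le_mul_of_nonneg_left h1 h2]

theorem K25_ge {V : ℝ} (hV0 : 0 < V) (h : 4 * Real.pi / 81 ≤ V) :
    Real.sqrt (Real.pi * V) ≤ (9 * Real.pi / 2) ^ (1 / 3 : ℝ) * V ^ (2 / 3 : ℝ) := by
  have hpi := Real.pi_pos
  refine le_of_pow_le_pow_left₀ (n := 6) (by norm_num) (by positivity) ?_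
  rw [K25_pow hV0, K25_sqrt hV0]
  have h1 : Real.pi ≤ 81 / 4 * V := by linarith
  have h2 : 0 ≤ Real.pi ^ 2 * V ^ 3 := by positivity
  nlinarith [mul_le_mul_of_nonneg_left h1 h2]

theorem Jh_facts {V : ℝ} (hV0 : 0 < V) (hV1 : V ≤ 1 / 2) :
    (V ≤ 4 * Real.pi / 81 → Jh V = (9 * Real.pi / 2) ^ (1 / 3 : ℝ) * V ^ (2 / 3 : ℝ)) ∧
    (4 * Real.pi / 81 ≤ V → I2 V = Jh V) := by
  have hpi := Real.pi_pos
  have hpi3 := Real.pi_gt_three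
  have hpi4 : Real.pi < 3.15 := Real.pi_lt_d2
  constructor
  · intro h
    have h1 := K25_le hV0 h
    have h2 : Real.sqrt (Real.pi * V) ≤ 1 := by
      rw [Real.sqrt_le_one]
      nlinarith
    unfold Jh
    rw [min_eq_left h1, min_eq_left (h1.trans h2)]
  · intro h
    have h1 := K25_ge hV0 h
    have h2 : 1 ≤ Real.sqrt (Real.pi * (1 - V)) := by
      rw [Real.one_le_sqrt]
      nlinarith
    unfold Jh I2
    rw [min_eq_right h1, min_eq_left]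
    exact (min_le_right _ _).trans h2

/-- `classify` from the four ranges -/
theorem classify_of
    (class_small : ∀ {V : ℝ}, 0 < V → V ≤ 0.12 → ∀ {ε : ℝ}, 0 < ε →
      ∃ δ > 0, ∀ f : (Fin 3 → ℝ) → ℝ, Nice f → ∫ x in cell 3, f x = V →
        ∫ x in cell 3, f x * (1 - f x) ≤ δ → hTV f ≤ Jh V + δ → ∀ i, ∃ z, sArea f i z ≤ ε)
    (class_low : ∀ {V : ℝ}, V ∈ Set.Icc (0.12 : ℝ) 0.264 → ∀ {ε : ℝ}, 0 < ε →
      ∃ δ > 0, ∀ f : (Fin 3 → ℝ) → ℝ, Nice f → ∫ x in cell 3, f x = V →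
        ∫ x in cell 3, f x * (1 - f x) ≤ δ → hTV f ≤ Jh V + δ →
        (4 * Real.pi / 81 ≤ V ∧ ∃ i, ∫ z in (0:ℝ)..1, |sArea f i z - V| ≤ ε) ∨
        (V ≤ 4 * Real.pi / 81 ∧ ∀ i, ∃ z, sArea f i z ≤ ε))
    (class_win : ∀ {V : ℝ}, V ∈ Set.Icc (0.264 : ℝ) 0.36 → ∀ {ε : ℝ}, 0 < ε →
      ∃ δ > 0, ∀ f : (Fin 3 → ℝ) → ℝ, Nice f → ∫ x in cell 3, f x = V →
        ∫ x in cell 3, f x * (1 - f x) ≤ δ → hTV f ≤ Jh V + δ →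
        ∃ i, ∫ z in (0:ℝ)..1, |sArea f i z - V| ≤ ε)
    (class_slab : ∀ {V : ℝ}, V ∈ Set.Icc (0.36 : ℝ) 0.5 → ∀ {ε : ℝ}, 0 < ε →
      ∃ δ > 0, ∀ f : (Fin 3 → ℝ) → ℝ, Nice f → ∫ x in cell 3, f x = V →
        ∫ x in cell 3, f x * (1 - f x) ≤ δ → hTV f ≤ Jh V + δ →
        ∃ i, ∫ z in (0:ℝ)..1, |sArea f i z - V| ≤ ε)
    {V : ℝ} (hV0 : 0 < V) (hV1 : V ≤ 1 / 2) {ε : ℝ} (hε : 0 < ε) :
    ∃ δ > 0, ∀ f : (Fin 3 → ℝ) → ℝ, Nice f → ∫ x in cell 3, f x = V →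
      ∫ x in cell 3, f x * (1 - f x) ≤ δ → hTV f ≤ Jh V + δ →
      (I2 V = Jh V ∧ ∃ i, ∫ z in (0:ℝ)..1, |sArea f i z - V| ≤ ε) ∨
      (Jh V = (9 * Real.pi / 2) ^ (1 / 3 : ℝ) * V ^ (2 / 3 : ℝ) ∧ ∀ i, ∃ z, sArea f i z ≤ ε) := by
  have hpi3 := Real.pi_gt_d2
  have hpi4 := Real.pi_lt_d2
  obtain ⟨f1, f2⟩ := Jh_facts hV0 hV1
  rcases le_total V 0.12 with h | h
  · obtain ⟨δ, hδ, H⟩ := class_small hV0 h hε
    refine ⟨δ, hδ, fun f a b c d => Or.inr ⟨f1 ?_, H f a b c d⟩⟩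
    norm_num at h hpi3 ⊢
    linarith
  rcases le_total V 0.264 with h' | h'
  · obtain ⟨δ, hδ, H⟩ := class_low ⟨h, h'⟩ hε
    refine ⟨δ, hδ, fun f a b c d => ?_⟩
    rcases H f a b c d with ⟨g1, g2⟩ | ⟨g1, g2⟩
    · exact Or.inl ⟨f2 g1, g2⟩
    · exact Or.inr ⟨f1 g1, g2⟩
  have h3 : 4 * Real.pi / 81 ≤ V := by
    norm_num at h' hpi4 ⊢
    linarith
  rcases le_total V 0.36 with h'' | h''
  · obtain ⟨δ, hδ, H⟩ := class_win ⟨h', h''⟩ hε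
    exact ⟨δ, hδ, fun f a b c d => Or.inl ⟨f2 h3, H f a b c d⟩⟩
  · obtain ⟨δ, hδ, H⟩ := class_slab ⟨h'', by norm_num at hV1 ⊢; linarith⟩ hε
    exact ⟨δ, hδ, fun f a b c d => Or.inl ⟨f2 h3, H f a b c d⟩⟩

end Vale.Agent.P232
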