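import Vale.Agent.P232.Tree
import Vale.Agent.P232U.Defs
import Vale.Agent.P232U.K1

/-!
# P232U, module K3: the tube inequality, strict form (helper55)

Soundness of the search of `TreeLeaf.lean` with the factor `1 + 10⁻⁶`, using that the
constants `3.1416` and `2.418` of the tests leave this room.
-/

open MeasureTheory Set

namespace Vale.Agent.P232.N5

theorem Jh_le_tube_s {V τ : ℝ} (hV : 0 ≤ V) (hτ : 0 < τ) :
    (1 + 1 / 10 ^ 6) * Jh V ≤ (3.1416 * V / τ + τ) / 2 := by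
  refine (mul_le_mul_of_nonneg_left (Jh_le_sqrt V) (by norm_num)).trans ?_
  have hpi : Real.pi ≤ 3.141593 := Real.pi_lt_d6.le
  have hpi0 := Real.pi_pos
  set y := (1 + 1 / 10 ^ 6) * Real.sqrt (Real.pi * V) with hy
  have hy2 : y ^ 2 = (1 + 1 / 10 ^ 6) ^ 2 * (Real.pi * V) := by
    rw [hy, mul_pow, Real.sq_sqrt (mul_nonneg Real.pi_pos.le hV)]
  have h1 : y ^ 2 ≤ 3.1416 * V := by
    rw [hy2]
    have : (1 + 1 / 10 ^ 6) ^ 2 * Real.pi ≤ 3.1416 := by
      nlinarith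
    calc (1 + 1 / 10 ^ 6) ^ 2 * (Real.pi * V) = ((1 + 1 / 10 ^ 6) ^ 2 * Real.pi) * V := by ring
      _ ≤ 3.1416 * V := mul_le_mul_of_nonneg_right this hV
  rw [le_div_iff₀ (by norm_num), ← sub_nonneg]
  have e : 3.1416 * V / τ + τ - y * 2 = ((3.1416 * V - y ^ 2) + (y - τ) ^ 2) / τ := by
    field_simp
    ring
  rw [e]
  apply div_nonneg _ hτ.le
  nlinarith [sq_nonneg (y - τ)]

theorem Jh_le_ball_s {V τ : ℝ} (hV : 0 ≤ V) (hτ : 0 < τ) :
    (1 + 1 / 10 ^ 6) * Jh V ≤ 2.418 * (2 * V + τ ^ 3) / (3 * τ) := by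
  refine (mul_le_mul_of_nonneg_left ((min_le_left _ _).trans (min_le_left _ _))
    (by norm_num)).trans ?_
  have hpi : Real.pi ≤ 3.141593 := Real.pi_lt_d6.le
  have h1 : (1 + 1 / 10 ^ 6) * (9 * Real.pi / 2) ^ (1 / 3 : ℝ) ≤ 2.418 := by
    have h0 : (9 * Real.pi / 2) ≤ (2.418 / (1 + 1 / 10 ^ 6) : ℝ) ^ (3 : ℝ) := by
      rw [show (2.418 / (1 + 1 / 10 ^ 6) : ℝ) ^ (3 : ℝ) =
          (2.418 / (1 + 1 / 10 ^ 6) : ℝ) ^ (3 : ℕ) by
        rw [← Real.rpow_natCast]; norm_num]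
      norm_num
      linarith
    have h2 : (9 * Real.pi / 2) ^ (1 / 3 : ℝ) ≤ 2.418 / (1 + 1 / 10 ^ 6) := by
      calc (9 * Real.pi / 2) ^ (1 / 3 : ℝ)
          ≤ ((2.418 / (1 + 1 / 10 ^ 6) : ℝ) ^ (3 : ℝ)) ^ (1 / 3 : ℝ) :=
            Real.rpow_le_rpow (by positivity) h0 (by norm_num)
        _ = 2.418 / (1 + 1 / 10 ^ 6) := by
            rw [← Real.rpow_mul (by norm_num)]; norm_num
    rw [le_div_iff₀ (by norm_num)] at h2
    linarith
  set y := V ^ (1 / 3 : ℝ) with hy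
  have hy0 : 0 ≤ y := Real.rpow_nonneg hV _
  have hy3 : y ^ 3 = V := by
    rw [hy, ← Real.rpow_natCast, ← Real.rpow_mul hV]; norm_num
  have hy2 : V ^ (2 / 3 : ℝ) = y ^ 2 := by
    rw [hy, ← Real.rpow_natCast, ← Real.rpow_mul hV]; norm_num
  rw [hy2]
  have h2 : y ^ 2 ≤ (2 * V + τ ^ 3) / (3 * τ) := by
    rw [le_div_iff₀ (by positivity), ← hy3]
    nlinarith [mul_nonneg (sq_nonneg (y - τ)) (by linarith : 0 ≤ 2 * y + τ)]
  calc (1 + 1 / 10 ^ 6) * ((9 * Real.pi / 2) ^ (1 / 3 : ℝ) * y ^ 2)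
      = ((1 + 1 / 10 ^ 6) * (9 * Real.pi / 2) ^ (1 / 3 : ℝ)) * y ^ 2 := by ring
    _ ≤ 2.418 * ((2 * V + τ ^ 3) / (3 * τ)) :=
        mul_le_mul h1 h2 (sq_nonneg _) (by norm_num)
    _ = _ := by ring

/-- the target of the one-dimensional inequality -/
noncomputable def TgtS (mode : ℕ) (V : ℝ) : ℝ := if mode = 2 then 1 else (1 + 1 / 10 ^ 6) * Jh V

/-- the conclusion -/
def GoodS (mode : ℕ) (V b c : ℝ) : Prop :=
  ∃ α κ : ℝ, (∀ a ∈ Set.Icc b c, 0 ≤ α + κ * a) ∧ (∀ a ∈ Set.Icc b c, α + κ * a ≤ I2 a) ∧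
    TgtS mode V ≤ α + κ * V + cal I2 α κ b c

/-- from the test to the inequality -/
theorem test_soundS {mode b1 b2 c1 c2 la mu T Va Vb : ℕ} (hbc : b1 < c2) (ha1 : b1 ≤ Va)
    (ha2 : Va ≤ c2) (hb1 : b1 ≤ Vb) (hb2 : Vb ≤ c2)
    (h : leafT mode b1 b2 c1 c2 Va Vb la mu T = true) {v : ℝ} (hv : v ∈ Icc (Va : ℝ) Vb) :
    TgtS mode (v / 1000000) ≤
      (ap b1 c2 la mu + kp b1 c2 la mu * (v / 1000000)) + (T : ℝ) / 2000000000000 := by
  rw [line_val hbc]
  have hD : (0 : ℝ) < (c2 : ℝ) - b1 := by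
    have : (b1 : ℝ) < c2 := by exact_mod_cast hbc
    linarith
  have hv0 : 0 ≤ v := (Nat.cast_nonneg Va).trans hv.1
  have eva := ev_cast (la := la) (mu := mu) (T := T) ha1 ha2
  have evb := ev_cast (la := la) (mu := mu) (T := T) hb1 hb2
  have hsub : ((c2 - b1 : ℕ) : ℝ) = (c2 : ℝ) - b1 := Nat.cast_sub hbc.le
  set D : ℝ := (c2 : ℝ) - b1 with hDdef
  have key : ((la : ℝ) * (c2 - v) + mu * (v - b1)) / (1000000 * D) + (T : ℝ) / 2000000000000 =
      (2000000 * ((la : ℝ) * (c2 - v) + mu * (v - b1)) + D * T) / (2000000000000 * D) := by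
    field_simp
    ring
  rw [key, le_div_iff₀ (by positivity)]
  have h0 : ∀ t : ℕ, test0 b1 c2 la mu T Va Vb t = true →
      (1 + 1 / 10 ^ 6) * Jh (v / 1000000) * (2000000000000 * D) ≤
        2000000 * ((la : ℝ) * (c2 - v) + mu * (v - b1)) + D * T := by
    intro t ht
    unfold test0 at ht
    simp only [Bool.and_eq_true, Nat.ble_eq] at ht
    obtain ⟨⟨ht1, ka⟩, kb⟩ := ht
    have htr : (0 : ℝ) < t := by exact_mod_cast ht1
    have ka' := (Nat.cast_le (α := ℝ)).mpr ka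
    have kb' := (Nat.cast_le (α := ℝ)).mpr kb
    push_cast [hsub, M_real, eva] at ka'
    push_cast [hsub, M_real, evb] at kb'
    have G := aff (P := (2000000 * ((la : ℝ) * c2 - mu * b1) + D * T) * 10000 * t
        - D * (t ^ 2 * 1000000 * 10000)) (Q := 2000000 * ((mu : ℝ) - la) * 10000 * t
        - D * (31416 * 1000000 ^ 2)) hv (by linarith) (by linarith)
    have J := Jh_le_tube_s (V := v / 1000000) (τ := t / 1000000) (by positivity) (by positivity)
    have e : (3.1416 * (v / 1000000) / ((t : ℝ) / 1000000) + t / 1000000) / 2 *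
        (2000000000000 * D) = D * (31416 * v * 1000000 ^ 2 + t ^ 2 * 1000000 * 10000) /
          (10000 * t) := by
      field_simp
      ring
    calc (1 + 1 / 10 ^ 6) * Jh (v / 1000000) * (2000000000000 * D)
        ≤ (3.1416 * (v / 1000000) / ((t : ℝ) / 1000000) + t / 1000000) / 2 *
        (2000000000000 * D) := mul_le_mul_of_nonneg_right J (by positivity)
      _ = _ := e
      _ ≤ _ := by
        rw [div_le_iff₀ (by positivity)]
        linarith
  have h1 : ∀ t : ℕ, test1 b1 c2 la mu T Va Vb t = true →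
      (1 + 1 / 10 ^ 6) * Jh (v / 1000000) * (2000000000000 * D) ≤
        2000000 * ((la : ℝ) * (c2 - v) + mu * (v - b1)) + D * T := by
    intro t ht
    unfold test1 at ht
    simp only [Bool.and_eq_true, Nat.ble_eq] at ht
    obtain ⟨⟨ht1, ka⟩, kb⟩ := ht
    have htr : (0 : ℝ) < t := by exact_mod_cast ht1
    have ka' := (Nat.cast_le (α := ℝ)).mpr ka
    have kb' := (Nat.cast_le (α := ℝ)).mpr kb
    push_cast [hsub, M_real, eva] at ka'
    push_cast [hsub, M_real, evb] at kb'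
    have G := aff (P := (2000000 * ((la : ℝ) * c2 - mu * b1) + D * T) * 3000 * t * 1000000
        - D * (4836 * 1000000 * t ^ 3)) (Q := 2000000 * ((mu : ℝ) - la) * 3000 * t * 1000000
        - D * (4836 * 1000000 ^ 3 * 2)) hv (by linarith) (by linarith)
    have J := Jh_le_ball_s (V := v / 1000000) (τ := t / 1000000) (by positivity) (by positivity)
    have e : 2.418 * (2 * (v / 1000000) + ((t : ℝ) / 1000000) ^ 3) / (3 * (t / 1000000)) *
        (2000000000000 * D) = D * (4836 * 1000000 ^ 3 * 2 * v + 4836 * 1000000 * t ^ 3) /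
          (3000 * t * 1000000) := by
      field_simp
      ring
    calc (1 + 1 / 10 ^ 6) * Jh (v / 1000000) * (2000000000000 * D)
        ≤ 2.418 * (2 * (v / 1000000) + ((t : ℝ) / 1000000) ^ 3) / (3 * (t / 1000000)) *
        (2000000000000 * D) := mul_le_mul_of_nonneg_right J (by positivity)
      _ = _ := e
      _ ≤ _ := by
        rw [div_le_iff₀ (by positivity)]
        linarith
  unfold leafT at h
  unfold TgtS
  by_cases hm : mode = 2
  · subst hm
    rw [if_pos rfl]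
    have hb : Nat.beq 2 2 = true := rfl
    rw [hb, cond_true] at h
    unfold test2 at h
    simp only [Bool.and_eq_true, Nat.ble_eq] at h
    obtain ⟨ka, kb⟩ := h
    have ka' := (Nat.cast_le (α := ℝ)).mpr ka
    have kb' := (Nat.cast_le (α := ℝ)).mpr kb
    push_cast [hsub, M_real, eva] at ka'
    push_cast [hsub, M_real, evb] at kb'
    have G := aff (P := 2000000 * ((la : ℝ) * c2 - mu * b1) + D * T - 2000000000000 * D)
      (Q := 2000000 * ((mu : ℝ) - la)) hv (by linarith) (by linarith)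
    linarith
  · rw [if_neg hm]
    have hb : Nat.beq mode 2 = false :=
      Bool.eq_false_iff.mpr fun h' => hm (Nat.eq_of_beq_eq_true h')
    rw [hb, cond_false] at h
    rcases Bool.or_eq_true_iff.mp h with h | h
    · exact h0 _ h
    · rw [Bool.and_eq_true] at h
      exact h1 _ h.2

theorem leaf_soundS {mode b1 b2 c1 c2 V1 V2 : ℕ} (h : leaf mode b1 b2 c1 c2 V1 V2 = true)
    {V b c : ℝ} (hb1 : (b1 : ℝ) / 1000000 ≤ b) (hb2 : b ≤ (b2 : ℝ) / 1000000)
    (hc1 : (c1 : ℝ) / 1000000 ≤ c) (hc2 : c ≤ (c2 : ℝ) / 1000000)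
    (hV1 : (V1 : ℝ) / 1000000 ≤ V) (hV2 : V ≤ (V2 : ℝ) / 1000000) (hbV : b ≤ V) (hVc : V ≤ c) :
    GoodS mode V b c := by
  unfold leaf at h
  simp only [Bool.and_eq_true, Nat.blt_eq, Bool.or_eq_true] at h
  obtain ⟨⟨⟨hn1, hn2⟩, hbc⟩, h⟩ := h
  set la := i2 b1
  set mu := i2 c2
  have N1 := nodeOK_sound hbc hn1
  have N2 := nodeOK_sound hbc hn2
  rw [Nat.cast_zero, zero_div] at N1 N2
  have hD : (0 : ℝ) < (c2 : ℝ) - b1 := by
    have : (b1 : ℝ) < c2 := by exact_mod_cast hbc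
    linarith
  have p1 : 0 ≤ ap b1 c2 la mu + kp b1 c2 la mu * ((b1 : ℝ) / 1000000) := by
    rw [line_val hbc]
    have : (la : ℝ) * (c2 - b1) + mu * ((b1 : ℝ) - b1) = la * ((c2 : ℝ) - b1) := by ring
    rw [this]
    positivity
  have p2 : 0 ≤ ap b1 c2 la mu + kp b1 c2 la mu * ((c2 : ℝ) / 1000000) := by
    rw [line_val hbc]
    have : (la : ℝ) * (c2 - c2) + mu * ((c2 : ℝ) - b1) = mu * ((c2 : ℝ) - b1) := by ring
    rw [this]
    positivity
  have hline : ∀ a ∈ Icc b c, 0 ≤ ap b1 c2 la mu + kp b1 c2 la mu * a ∧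
      ap b1 c2 la mu + kp b1 c2 la mu * a ≤ I2 a := fun a ha =>
    line_ok N1 N2 p1 p2 ⟨hb1.trans ha.1, ha.2.trans hc2⟩
  refine ⟨ap b1 c2 la mu, kp b1 c2 la mu, fun a ha => (hline a ha).1, fun a ha => (hline a ha).2,
    ?_⟩
  set v : ℝ := V * 1000000 with hv
  have hVv : V = v / 1000000 := by rw [hv]; field_simp
  have hva : ((max V1 b1 : ℕ) : ℝ) ≤ v := by
    rw [Nat.cast_max]
    apply max_le
    · rw [div_le_iff₀ (by norm_num)] at hV1; exact hV1
    · have := hb1.trans hbV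
      rw [div_le_iff₀ (by norm_num)] at this; exact this
  have hvb : v ≤ ((min V2 c2 : ℕ) : ℝ) := by
    rw [Nat.cast_min]
    apply le_min
    · rw [le_div_iff₀ (by norm_num)] at hV2; exact hV2
    · have := hVc.trans hc2
      rw [le_div_iff₀ (by norm_num)] at this; exact this
  have hab : max V1 b1 ≤ min V2 c2 := by exact_mod_cast hva.trans hvb
  rcases h with h | h
  · exact absurd h (not_lt.mpr hab)
  · have := test_soundS hbc (le_max_right V1 b1) (hab.trans (min_le_right _ _))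
      ((le_max_right V1 b1).trans hab) (min_le_right _ _) h ⟨hva, hvb⟩
    rw [← hVv] at this
    refine this.trans ?_
    have h2 := tt_sound (b1 := b1) (b2 := b2) (c1 := c1) (c2 := c2) (la := la) (mu := mu) hbc
      hb2 hc1 (hbV.trans hVc)
    linarith

theorem search_soundS (mode V1 V2 : ℕ) {V : ℝ} (hV1 : (V1 : ℝ) / 1000000 ≤ V)
    (hV2 : V ≤ (V2 : ℝ) / 1000000) {b c : ℝ} (hbV : b ≤ V) (hVc : V ≤ c) (hbc : b < c) :
    ∀ (k b1 b2 c1 c2 : ℕ), search mode V1 V2 k b1 b2 c1 c2 = true →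
      (b1 : ℝ) / 1000000 ≤ b → b ≤ (b2 : ℝ) / 1000000 → (c1 : ℝ) / 1000000 ≤ c →
      c ≤ (c2 : ℝ) / 1000000 → SkipR mode b c ∨ GoodS mode V b c := by
  have base : ∀ b1 b2 c1 c2 : ℕ, (Nat.blt c2 V1 || Nat.blt V2 b1 || Nat.ble c2 b1 ||
      skip mode b1 b2 c1 c2 || leaf mode b1 b2 c1 c2 V1 V2) = true →
      (b1 : ℝ) / 1000000 ≤ b → b ≤ (b2 : ℝ) / 1000000 → (c1 : ℝ) / 1000000 ≤ c →
      c ≤ (c2 : ℝ) / 1000000 → SkipR mode b c ∨ GoodS mode V b c := by
    intro b1 b2 c1 c2 h hb1 hb2 hc1 hc2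
    simp only [Bool.or_eq_true, Nat.blt_eq, Nat.ble_eq] at h
    rcases h with (((h | h) | h) | h) | h
    · exfalso
      have e : (c2 : ℝ) < V1 := by exact_mod_cast h
      have : (c2 : ℝ) / 1000000 < (V1 : ℝ) / 1000000 := by linarith
      linarith
    · exfalso
      have e : (V2 : ℝ) < b1 := by exact_mod_cast h
      have : (V2 : ℝ) / 1000000 < (b1 : ℝ) / 1000000 := by linarith
      linarith
    · exfalso
      have e : (c2 : ℝ) ≤ b1 := by exact_mod_cast h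
      have : (c2 : ℝ) / 1000000 ≤ (b1 : ℝ) / 1000000 := by linarith
      linarith
    · exact Or.inl (skip_sound h hb1 hb2 hc1 hc2)
    · exact Or.inr (leaf_soundS h hb1 hb2 hc1 hc2 hV1 hV2 hbV hVc)
  intro k
  induction k with
  | zero =>
    intro b1 b2 c1 c2 h
    unfold search at h
    exact base b1 b2 c1 c2 h
  | succ k ih =>
    intro b1 b2 c1 c2 h hb1 hb2 hc1 hc2
    unfold search at h
    rcases Bool.or_eq_true_iff.mp h with h | h
    · exact base b1 b2 c1 c2 h hb1 hb2 hc1 hc2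
    · rw [Bool.cond_eq_ite] at h
      split_ifs at h with hq
      · rw [Bool.and_eq_true] at h
        rcases le_total b ((((b1 + b2) / 2 : ℕ) : ℝ) / 1000000) with hm | hm
        · exact ih _ _ _ _ h.1 hb1 hm hc1 hc2
        · exact ih _ _ _ _ h.2 hm hb2 hc1 hc2
      · rw [Bool.and_eq_true] at h
        rcases le_total c ((((c1 + c2) / 2 : ℕ) : ℝ) / 1000000) with hm | hm
        · exact ih _ _ _ _ h.1 hb1 hb2 hc1 hm
        · exact ih _ _ _ _ h.2 hb1 hb2 hm hc2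

end Vale.Agent.P232.N5

namespace Vale.Agent.P232

open N5

/- K3 -/
theorem tube_s {V b c : ℝ} (hV : V ∈ Set.Icc (0.12 : ℝ) 0.264) (hb : 0.005 ≤ b) (hbV : b ≤ V)
    (hc : V ≤ c) (hc1 : c ≤ 1) (hbc : b < c) :
    ∃ α κ : ℝ, (∀ a ∈ Set.Icc b c, 0 ≤ α + κ * a) ∧ (∀ a ∈ Set.Icc b c, α + κ * a ≤ I2 a) ∧
      ((1 + 1 / 10 ^ 6) * Jh V ≤ α + κ * V + cal I2 α κ b c ∨
        (Real.sqrt (Real.pi * V) ≤ α + κ * V + cal I2 α κ b c ∧
          (0.155 ≤ V → Real.sqrt (Real.pi * V) + 0.001 * (c - b) ^ 2 ≤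
            α + κ * V + cal I2 α κ b c))) := by
  have hskip : SkipR 0 b c ∨ SkipR 1 b c →
      ∃ α κ : ℝ, (∀ a ∈ Set.Icc b c, 0 ≤ α + κ * a) ∧ (∀ a ∈ Set.Icc b c, α + κ * a ≤ I2 a) ∧
      ((1 + 1 / 10 ^ 6) * Jh V ≤ α + κ * V + cal I2 α κ b c ∨
        (Real.sqrt (Real.pi * V) ≤ α + κ * V + cal I2 α κ b c ∧
          (0.155 ≤ V → Real.sqrt (Real.pi * V) + 0.001 * (c - b) ^ 2 ≤
            α + κ * V + cal I2 α κ b c))) := by
    intro h
    have h' : 0.66 * c ≤ b ∧ c ≤ 0.3183 := by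
      rcases h with h | h
      · unfold SkipR at h
        rwa [if_neg (by norm_num)] at h
      · unfold SkipR at h
        rwa [if_neg (by norm_num)] at h
    have hcpi : c ≤ 1 / Real.pi := by
      rw [le_div_iff₀ Real.pi_pos]
      have := Real.pi_lt_d4
      have := Real.pi_pos
      nlinarith [h'.2]
    rcases le_total 0.155 V with hv | hv
    · obtain ⟨α, κ, h1, h2, h3⟩ := near_diag_s hv hbV hc hcpi hbc h'.1
      refine ⟨α, κ, h1, h2, Or.inr ⟨?_, fun _ => h3⟩⟩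
      have : 0 ≤ 0.001 * (c - b) ^ 2 := by positivity
      linarith
    · rcases hv.eq_or_lt with he | hlt
      · obtain ⟨α, κ, h1, h2, h3⟩ := near_diag_s he.ge hbV hc hcpi hbc h'.1
        refine ⟨α, κ, h1, h2, Or.inr ⟨?_, fun _ => h3⟩⟩
        have : 0 ≤ 0.001 * (c - b) ^ 2 := by positivity
        linarith
      · obtain ⟨α, κ, h1, h2, h3⟩ := near_diag hV.1 hbV hc hcpi hbc h'.1
        exact ⟨α, κ, h1, h2, Or.inr ⟨h3, fun h => absurd h (not_le.2 hlt)⟩⟩
  rcases le_total V 0.1552 with h | h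
  · have := search_soundS 1 120000 155200 (V := V) (by norm_num; linarith [hV.1])
      (by norm_num; linarith) hbV hc hbc 22 5000 155200 120000 1000000 run1
      (by norm_num; linarith) (by norm_num; linarith) (by norm_num; linarith [hV.1])
      (by norm_num; linarith)
    rcases this with h' | h'
    · exact hskip (Or.inr h')
    · obtain ⟨α, κ, h1, h2, h3⟩ := h'
      unfold TgtS at h3
      rw [if_neg (by norm_num)] at h3
      exact ⟨α, κ, h1, h2, Or.inl h3⟩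
  · have := search_soundS 0 155200 264000 (V := V) (by norm_num; linarith)
      (by norm_num; linarith [hV.2]) hbV hc hbc 22 5000 264000 155200 1000000 run0
      (by norm_num; linarith) (by norm_num; linarith [hV.2]) (by norm_num; linarith)
      (by norm_num; linarith)
    rcases this with h' | h'
    · exact hskip (Or.inl h')
    · obtain ⟨α, κ, h1, h2, h3⟩ := h'
      unfold TgtS at h3
      rw [if_neg (by norm_num)] at h3
      exact ⟨α, κ, h1, h2, Or.inl h3⟩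

end Vale.Agent.P232
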