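import Vale.Agent.P232.N4

/-! # P232 uniqueness, module K5: `ball_small` with a margin (helper8, after helper74) -/

open MeasureTheory Set

namespace Vale.Agent.P232

/-- the whole polynomial inequality -/
theorem K5_main {V w v q : ℝ} (hV : V ∈ Set.Icc (0.12 : ℝ) 0.264) (hw : 0 ≤ w)
    (hw' : w ^ 2 ≤ 0.005) (hv0 : 0 < v) (hvV : V ≤ v ^ 2) (h4 : q ≤ 0.021 * (v * w ^ 2)) :
    (w + v) * (Jh V + 2 * w ^ 2) ≤ Real.sqrt Real.pi * (V + w * v) + (2 / 3 * v ^ 3 -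
      5 / 2 * (v * w ^ 2) - 0.2707 * (w * v ^ 2) - q) := by
  obtain ⟨hp1, hp2⟩ := N4_sqrt_pi
  have hw1 : w ≤ 0.07072 := by nlinarith
  have hVl := hV.1
  have hVu := hV.2
  have hv34 : 0.34 ≤ v := by nlinarith
  rcases le_total V 0.16 with hV6 | hV6
  · obtain ⟨m, hm0, hm3, hJ⟩ := N4_ball_val (V := V) (by linarith)
    have hJ' : Jh V ≤ 2 * m ^ 2 := by
      rw [← hJ]
      exact (min_le_left _ _).trans (min_le_left _ _)
    have hml : 0.542 ≤ m := by
      by_contra hcon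
      push Not at hcon
      have h7 : m ^ 3 < 0.542 ^ 3 := by gcongr
      nlinarith
    have hmu : m ≤ 0.597 := by
      by_contra hcon
      push Not at hcon
      have h7 : (0.597 : ℝ) ^ 3 < m ^ 3 := by gcongr
      nlinarith
    have hF0 : 0 ≤ 2 / 3 * (v - m) ^ 2 * (v + 2 * m) := by positivity
    have hP := N4_poly_ball hml hmu hv34
    have h8 := N4_interp (X := Real.sqrt Real.pi * v - 0.2707 * v ^ 2 - 2 * m ^ 2) hv0.le hw hw1
      hF0 (by nlinarith)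
    have h9 : (w + v) * (Jh V + 2 * w ^ 2) ≤ (w + v) * (2 * m ^ 2 + 2 * w ^ 2) := by
      apply mul_le_mul_of_nonneg_left _ (by positivity)
      linarith
    refine h9.trans ?_
    have h10 : Real.sqrt Real.pi * V = 4 / 3 * m ^ 3 := by linarith
    nlinarith
  · obtain ⟨n, hn0, hn2⟩ : ∃ n : ℝ, 0 ≤ n ∧ n ^ 2 = V :=
      ⟨Real.sqrt V, Real.sqrt_nonneg _, Real.sq_sqrt (by linarith)⟩
    have hJ' : Jh V ≤ Real.sqrt Real.pi * n := by
      have h7 : Real.sqrt (Real.pi * V) = Real.sqrt Real.pi * n := by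
        rw [Real.sqrt_mul Real.pi_pos.le, ← hn2, Real.sqrt_sq hn0]
      rw [← h7]
      exact (min_le_left _ _).trans (min_le_right _ _)
    have hnl : 0.4 ≤ n := by nlinarith
    have hnv : n ≤ v := by nlinarith
    have hF0 := N4_poly_tube0 hnl hnv
    have hP := N4_poly_tube hnl hnv
    have hnn : 0 ≤ n * (v - n) := mul_nonneg hn0 (by linarith)
    have h8 := N4_interp (X := Real.sqrt Real.pi * v - 0.2707 * v ^ 2 - Real.sqrt Real.pi * n)
      hv0.le hw hw1 hF0 (by nlinarith)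
    have h9 : (w + v) * (Jh V + 2 * w ^ 2) ≤ (w + v) * (Real.sqrt Real.pi * n + 2 * w ^ 2) := by
      apply mul_le_mul_of_nonneg_left _ (by positivity)
      linarith
    refine h9.trans ?_
    have h10 : Real.sqrt Real.pi * (n * (v - n)) ≤ 1.7725 * (n * (v - n)) :=
      mul_le_mul_of_nonneg_right hp2 hnn
    subst hn2
    nlinarith

/-- K5 -/
theorem ball_small_s {V b c : ℝ} (hV : V ∈ Set.Icc (0.12 : ℝ) 0.264) (hb : 0 ≤ b)
    (hb' : b ≤ 0.005) (hc : V ≤ c) (hc1 : c ≤ 1) :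
    ∃ α κ : ℝ, (∀ a ∈ Set.Icc b c, 0 ≤ α + κ * a) ∧
      (∀ a ∈ Set.Icc b c, α + κ * a ≤ Real.sqrt (Real.pi * a)) ∧
      Jh V + 2 * b + b / 10 ^ 6 ≤ α + κ * V + cal (fun a => Real.sqrt (Real.pi * a)) α κ b c := by
  have hVl := hV.1
  obtain ⟨w, hw, rfl⟩ : ∃ w : ℝ, 0 ≤ w ∧ w ^ 2 = b :=
    ⟨Real.sqrt b, Real.sqrt_nonneg _, Real.sq_sqrt hb⟩
  obtain ⟨v, hv, rfl⟩ : ∃ v : ℝ, 0 ≤ v ∧ v ^ 2 = c :=
    ⟨Real.sqrt c, Real.sqrt_nonneg _, Real.sq_sqrt (by linarith)⟩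
  have hv0 : 0 < v := by
    rcases hv.eq_or_lt with h | h
    · subst h
      norm_num at hc
      linarith
    · exact h
  have hwv : w ≤ v := by nlinarith
  have hws : 0 < w + v := by linarith
  have hp : 0 < Real.sqrt Real.pi := Real.sqrt_pos.mpr Real.pi_pos
  refine ⟨Real.sqrt Real.pi * (w * v) / (w + v), Real.sqrt Real.pi / (w + v), ?_, ?_, ?_⟩
  · intro a ha
    have : 0 ≤ a := (sq_nonneg w).trans ha.1
    positivity
  · intro a ha
    have ha0 : 0 ≤ a := (sq_nonneg w).trans ha.1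
    obtain ⟨u, hu, rfl⟩ : ∃ u : ℝ, 0 ≤ u ∧ u ^ 2 = a :=
      ⟨Real.sqrt a, Real.sqrt_nonneg _, Real.sq_sqrt ha0⟩
    rw [Real.sqrt_mul Real.pi_pos.le, Real.sqrt_sq hu]
    have hwu : w ≤ u := by nlinarith [ha.1]
    have huv : u ≤ v := by nlinarith [ha.2]
    have h1 : Real.sqrt Real.pi * (w * v) / (w + v) + Real.sqrt Real.pi / (w + v) * u ^ 2 =
        Real.sqrt Real.pi * ((w * v + u ^ 2) / (w + v)) := by
      field_simp
    rw [h1]
    apply mul_le_mul_of_nonneg_left _ hp.le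
    rw [div_le_iff₀ hws]
    nlinarith [mul_nonneg (sub_nonneg.mpr hwu) (sub_nonneg.mpr huv)]
  · have h1 := N4_cal hw hv0 hwv
    refine le_trans ?_ (add_le_add_right h1 _)
    have hw1 : w ≤ 0.07072 := by nlinarith
    have hv34 : 0.34 ≤ v := by nlinarith
    have h4 : w ^ 4 / (2 * v) + (w + v) * (w ^ 2 / 10 ^ 6) ≤ 0.021 * (v * w ^ 2) := by
      have h5 : w ^ 4 ≤ w ^ 2 * 0.005 := by nlinarith [sq_nonneg w]
      have h6 : w ^ 2 * 0.12 ≤ w ^ 2 * v ^ 2 := by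
        apply mul_le_mul_of_nonneg_left _ (sq_nonneg w)
        linarith
      have h7 : w ^ 4 / (2 * v) ≤ 0.02084 * (v * w ^ 2) := by
        rw [div_le_iff₀ (by positivity)]
        nlinarith
      have h8 : (w + v) * (w ^ 2 / 10 ^ 6) ≤ 0.00016 * (v * w ^ 2) := by
        have h9 : (w + v) / 10 ^ 6 ≤ 0.00016 * v := by
          rw [div_le_iff₀ (by positivity)]
          norm_num
          linarith
        calc (w + v) * (w ^ 2 / 10 ^ 6) = (w + v) / 10 ^ 6 * w ^ 2 := by ring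
          _ ≤ 0.00016 * v * w ^ 2 := mul_le_mul_of_nonneg_right h9 (sq_nonneg w)
          _ = 0.00016 * (v * w ^ 2) := by ring
      linarith
    have h2 := K5_main hV hw hb' hv0 hc h4
    have h3 : Real.sqrt Real.pi * (w * v) / (w + v) + Real.sqrt Real.pi / (w + v) * V +
        (2 / 3 * v ^ 3 - 5 / 2 * (v * w ^ 2) - 0.2707 * (w * v ^ 2) - w ^ 4 / (2 * v)) / (w + v) =
        (Real.sqrt Real.pi * (V + w * v) + (2 / 3 * v ^ 3 - 5 / 2 * (v * w ^ 2) -
          0.2707 * (w * v ^ 2) - w ^ 4 / (2 * v))) / (w + v) := by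
      field_simp
      ring
    rw [h3, le_div_iff₀ hws]
    linarith

end Vale.Agent.P232
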