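import Vale.Agent.P232.Defs

/-! # P232U, module K5a: the linear calibration for balls (helper70) -/

open MeasureTheory Set Filter Topology

namespace Vale.Agent.P232

private theorem k5a_int {b c : ℝ} (hb : 0 ≤ b) (hbc : b ≤ c) (hc : 0 < c) :
    2 / 3 * c - b ≤ ∫ a in b..c, Real.sqrt (1 - a / c) := by
  have h1 : ∫ a in b..c, Real.sqrt (1 - a / c) =
      c • ∫ x in (1 - c / c)..(1 - b / c), Real.sqrt x :=
    intervalIntegral.integral_comp_sub_div (fun x => Real.sqrt x) hc.ne' 1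
  have h2 : ∫ x in (1 - c / c)..(1 - b / c), Real.sqrt x =
      ((1 - b / c) ^ ((1 / 2 : ℝ) + 1) - (1 - c / c) ^ ((1 / 2 : ℝ) + 1)) / (1 / 2 + 1) := by
    rw [← integral_rpow (Or.inl (by norm_num))]
    refine intervalIntegral.integral_congr fun x _ => ?_
    exact Real.sqrt_eq_rpow x
  have h3 : b / c ≤ 1 := (div_le_one hc).2 hbc
  have h4 := one_add_mul_self_le_rpow_one_add (s := -(b / c)) (p := 1 / 2 + 1) (by linarith)
    (by norm_num)
  rw [← sub_eq_add_neg] at h4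
  have h5 : (1 - c / c : ℝ) ^ ((1 / 2 : ℝ) + 1) = 0 := by
    rw [div_self hc.ne', sub_self, Real.zero_rpow (by norm_num)]
  rw [h1, h2, h5, smul_eq_mul, sub_zero]
  have h6 : c * (b / c) = b := mul_div_cancel₀ b hc.ne'
  have h7 : c * (1 + (1 / 2 + 1) * -(b / c)) ≤ c * (1 - b / c) ^ ((1 / 2 : ℝ) + 1) :=
    mul_le_mul_of_nonneg_left h4 hc.le
  have h8 : c * (1 + (1 / 2 + 1) * -(b / c)) = c - 3 / 2 * b := by
    have : c * (1 + (1 / 2 + 1) * -(b / c)) = c - 3 / 2 * (c * (b / c)) := by ring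
    rw [this, h6]
  rw [h8] at h7
  have h9 : c * ((1 - b / c) ^ ((1 / 2 : ℝ) + 1) / (1 / 2 + 1)) =
      2 / 3 * (c * (1 - b / c) ^ ((1 / 2 : ℝ) + 1)) := by ring
  rw [h9]
  linarith

private theorem k5a_amgm {V c : ℝ} (hV : 0 < V) (hc : 0 < c) :
    (9 * Real.pi / 2) ^ (1 / 3 : ℝ) * V ^ (2 / 3 : ℝ) ≤
      Real.sqrt (Real.pi / c) * V + 2 / 3 * c := by
  have hπ := Real.pi_pos
  set X := Real.sqrt (Real.pi / c) * V with hX
  have hX0 : 0 ≤ X := mul_nonneg (Real.sqrt_nonneg _) hV.le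
  have hX2 : X ^ 2 * (2 / 3 * c) = 2 / 3 * Real.pi * V ^ 2 := by
    rw [hX, mul_pow, Real.sq_sqrt (by positivity)]
    field_simp
  have hJ : ((9 * Real.pi / 2) ^ (1 / 3 : ℝ) * V ^ (2 / 3 : ℝ)) ^ 3 = 9 * Real.pi / 2 * V ^ 2 := by
    rw [mul_pow, ← Real.rpow_natCast ((9 * Real.pi / 2) ^ (1 / 3 : ℝ)) 3,
      ← Real.rpow_mul (by positivity), ← Real.rpow_natCast (V ^ (2 / 3 : ℝ)) 3,
      ← Real.rpow_mul hV.le]
    norm_num
  have h1 : ((9 * Real.pi / 2) ^ (1 / 3 : ℝ) * V ^ (2 / 3 : ℝ)) ^ 3 ≤ (X + 2 / 3 * c) ^ 3 := by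
    rw [hJ]
    have h2 : 0 ≤ (X - 2 * (2 / 3 * c)) ^ 2 * (X + (2 / 3 * c) / 4) := by positivity
    nlinarith
  exact le_of_pow_le_pow_left₀ three_ne_zero (by positivity) h1

/-- K5a -/
theorem ball_lin {V b c : ℝ} (hV : 0 < V) (hb : 0 ≤ b) (hbV : b ≤ V) (hc : V ≤ c) :
    ∃ α κ : ℝ, (∀ a ∈ Set.Icc b c, 0 ≤ α + κ * a) ∧
      (∀ a ∈ Set.Icc b c, α + κ * a ≤ Real.sqrt (Real.pi * a)) ∧
      (9 * Real.pi / 2) ^ (1 / 3 : ℝ) * V ^ (2 / 3 : ℝ) - b ≤
        α + κ * V + cal (fun a => Real.sqrt (Real.pi * a)) α κ b c := by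
  have hc0 : 0 < c := hV.trans_le hc
  have hπ := Real.pi_pos
  have hbc : b ≤ c := hbV.trans hc
  refine ⟨0, Real.sqrt (Real.pi / c), fun a ha => ?_, fun a ha => ?_, ?_⟩
  · rw [zero_add]
    exact mul_nonneg (Real.sqrt_nonneg _) (hb.trans ha.1)
  · have ha0 : 0 ≤ a := hb.trans ha.1
    rw [zero_add]
    refine Real.le_sqrt_of_sq_le ?_
    rw [mul_pow, Real.sq_sqrt (by positivity)]
    have h1 : Real.pi / c * a ^ 2 = Real.pi * a * (a / c) := by ring
    rw [h1]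
    exact mul_le_of_le_one_right (by positivity) ((div_le_one hc0).2 ha.2)
  · have h1 : cal (fun a => Real.sqrt (Real.pi * a)) 0 (Real.sqrt (Real.pi / c)) b c =
        ∫ a in b..c, Real.sqrt (1 - a / c) := by
      unfold cal
      refine intervalIntegral.integral_congr fun a ha => ?_
      rw [Set.uIcc_of_le hbc] at ha
      have ha0 : 0 ≤ a := hb.trans ha.1
      show Real.sqrt (1 - ((0 + Real.sqrt (Real.pi / c) * a) / Real.sqrt (Real.pi * a)) ^ 2) =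
        Real.sqrt (1 - a / c)
      rw [zero_add, div_pow, mul_pow, Real.sq_sqrt (by positivity), Real.sq_sqrt (by positivity)]
      rcases ha0.eq_or_lt with h | h
      · rw [← h]
        simp
      · congr 2
        field_simp
    rw [h1, zero_add]
    have h2 := k5a_int hb hbc hc0
    have h3 := k5a_amgm hV hc0
    linarith

end Vale.Agent.P232
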