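import Vale.Agent.P232.N3

/-!
# P232, module K7: one end on the plateau, strict version (helper3, after helper75)
-/

open MeasureTheory Set

namespace Vale.Agent.P232

theorem K7_b (x : ℝ) : 0.189 * (x - 0.0416) + 0.0009 ≤ 1.98 * (2 / 3) * x ^ 2 := by
  nlinarith [sq_nonneg (x - 0.0716)]

theorem K7_d {t : ℝ} (h0 : 0.031 ≤ t) (h1 : t ≤ 0.1342) :
    t ^ 2 + 1 / 10 ^ 7 ≤ 1.69 * t * 0.145 := by
  nlinarith

theorem K7_e {E c V w x : ℝ} (hE : 0 ≤ E) (h5 : E * (c - V) + 0.0009 ≤ 1.98 * (2 / 3) * (x * w)) :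
    E ^ 2 * (c - V) / 1.98 + E * 0.0009 / 1.98 ≤ E * (2 / 3 * (x * w)) := by
  have h8 : E * (E * (c - V) + 0.0009) ≤ E * (1.98 * (2 / 3) * (x * w)) :=
    mul_le_mul_of_nonneg_left h5 hE
  have e1 : E ^ 2 * (c - V) / 1.98 + E * 0.0009 / 1.98 =
      (E * (E * (c - V) + 0.0009)) / 1.98 := by ring
  rw [e1, div_le_iff₀ (by norm_num)]
  have e2 : E * (2 / 3 * (x * w)) * 1.98 = E * (1.98 * (2 / 3) * (x * w)) := by ring
  rw [e2]
  exact h8

theorem K7_w {E c V w x : ℝ} (hw0 : 0 < w) (hw1 : w ≤ 1) (hw2 : w ^ 2 = x) (hcV : 0 ≤ c - V)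
    (h2 : E * w ≤ 0.189) (h3 : c - V ≤ x - 0.0416) :
    E * (c - V) + 0.0009 ≤ 1.98 * (2 / 3) * (x * w) := by
  have h5 : E * w * (c - V) ≤ 0.189 * (c - V) := mul_le_mul_of_nonneg_right h2 hcV
  have h7 : 0.189 * (c - V) ≤ 0.189 * (x - 0.0416) := mul_le_mul_of_nonneg_left h3 (by norm_num)
  have h4 := K7_b x
  have h6 : (E * (c - V) + 0.0009) * w ≤ 1.98 * (2 / 3) * (x * w) * w := by
    have e1 : 1.98 * (2 / 3) * (x * w) * w = 1.98 * (2 / 3) * x ^ 2 := by
      have : (x * w) * w = x ^ 2 := by rw [mul_assoc, ← sq, hw2, sq]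
      rw [mul_assoc, this]
    have e2 : (E * (c - V) + 0.0009) * w = E * w * (c - V) + 0.0009 * w := by ring
    rw [e1, e2]
    linarith
  exact le_of_mul_le_mul_right h6 hw0

theorem K7_m {b c : ℝ} (hb : 0.307 ≤ b) (hc1 : c ≤ 1) (hcb : 0 < c - b) :
    (c - b) ^ 2 / 10 ^ 7 ≤ 1 / 10 ^ 7 := by
  apply div_le_div_of_nonneg_right _ (by norm_num)
  nlinarith

theorem K7_core {V b c η : ℝ} (hV : V ∈ Set.Icc (0.36 : ℝ) 0.64) (hb : 0.307 ≤ b)
    (hbV : b ≤ V) (hVc : V ≤ c) (hc1 : c ≤ 1) (hbp' : b < 1 / Real.pi) (hη1 : η ≤ 0.018)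
    (hη2 : 0.001 ≤ η) (hIb : 1 - η ≤ I2 b) (hIc : 1 - η ≤ I2 c) :
    ∃ α κ : ℝ, (∀ a ∈ Set.Icc b c, 0 ≤ α + κ * a) ∧ (∀ a ∈ Set.Icc b c, α + κ * a ≤ I2 a) ∧
      1 + (c - b) ^ 2 / 10 ^ 7 ≤ α + κ * V + cal I2 α κ b c := by
  have hp := Real.pi_pos
  have hp3 := Real.pi_gt_d4
  have hp4 := Real.pi_lt_d4
  have ip1 : 1 / Real.pi ≤ 0.31834 := by
    rw [div_le_iff₀ hp]
    linarith
  have ip2 : 0.3183 ≤ 1 / Real.pi := by
    rw [le_div_iff₀ hp]
    linarith
  have hI1 : ∀ a, I2 a ≤ 1 := fun a => (min_le_left _ _).trans (min_le_right _ _)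
  have hη0 : 0 < η := by linarith
  obtain ⟨t, ht⟩ : ∃ t, t = Real.sqrt η := ⟨_, rfl⟩
  have ht2 : t ^ 2 = η := by rw [ht]; exact Real.sq_sqrt hη0.le
  have ht0 : 0 < t := by rw [ht]; exact Real.sqrt_pos.2 hη0
  have ht1 : t ≤ 0.1342 := by
    rw [ht]
    apply Real.sqrt_le_iff.2
    constructor
    · norm_num
    · norm_num
      linarith
  have ht3 : 0.031 ≤ t := by
    rw [ht]
    apply Real.le_sqrt_of_sq_le
    norm_num
    linarith
  have hbc : b < c := by linarith [hV.1]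
  have hcb : 0 < c - b := by linarith
  obtain ⟨γ, hγ⟩ : ∃ γ, γ = I2 c := ⟨_, rfl⟩
  have hγ1 : γ ≤ 1 := hγ ▸ hI1 c
  have hγ0 : 1 - η ≤ γ := by rw [hγ]; exact hIc
  obtain ⟨κ, hκ⟩ : ∃ κ, κ = (γ - (1 - η)) / (c - b) := ⟨_, rfl⟩
  have hκ0 : 0 ≤ κ := by rw [hκ]; exact div_nonneg (by linarith) hcb.le
  have hκc : κ * (c - b) = γ - (1 - η) := by rw [hκ]; field_simp
  -- bounds of the chord
  have hl1 : ∀ a ∈ Set.Icc b c, 1 - η ≤ 1 - η - κ * b + κ * a := by
    intro a ha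
    have := mul_le_mul_of_nonneg_left ha.1 hκ0
    linarith
  have hl2 : ∀ a ∈ Set.Icc b c, η * (c - a) / (c - b) ≤ 1 - (1 - η - κ * b + κ * a) := by
    intro a ha
    rw [div_le_iff₀ hcb]
    have h1 : (1 - (1 - η - κ * b + κ * a)) * (c - b) =
        η * (c - b) - (κ * (c - b)) * (a - b) := by ring
    rw [h1, hκc]
    have h2 : (γ - (1 - η)) * (a - b) ≤ η * (a - b) :=
      mul_le_mul_of_nonneg_right (by linarith) (by linarith [ha.1])
    have h3 : η * (c - a) = η * (c - b) - η * (a - b) := by ring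
    linarith
  have hchord : ∀ a ∈ Set.Icc b c, 1 - η - κ * b + κ * a ≤ I2 a := by
    intro a ha
    have h0 := n3_chord (by linarith) hc1 hbc ha
    have hs0 : 0 ≤ (a - b) / (c - b) := div_nonneg (by linarith [ha.1]) hcb.le
    have hs1 : (a - b) / (c - b) ≤ 1 := by
      rw [div_le_one hcb]
      linarith [ha.2]
    have e1 : 1 - η - κ * b + κ * a =
        (1 - η) * (1 - (a - b) / (c - b)) + γ * ((a - b) / (c - b)) := by
      rw [hκ]
      field_simp
      ring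
    have e2 : I2 b + (I2 c - I2 b) / (c - b) * (a - b) =
        I2 b * (1 - (a - b) / (c - b)) + γ * ((a - b) / (c - b)) := by
      rw [hγ]
      field_simp
      ring
    rw [e2] at h0
    rw [e1]
    have h3 : (1 - η) * (1 - (a - b) / (c - b)) ≤ I2 b * (1 - (a - b) / (c - b)) :=
      mul_le_mul_of_nonneg_right hIb (by linarith)
    linarith
  refine ⟨1 - η - κ * b, κ, fun a ha => by linarith [hl1 a ha], hchord, ?_⟩
  have hmar : (c - b) ^ 2 / 10 ^ 7 ≤ 1 / 10 ^ 7 := K7_m hb hc1 hcb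
  obtain ⟨d, hd⟩ : ∃ d, d = min c (1 - 1 / Real.pi) := ⟨_, rfl⟩
  have hdc : d ≤ c := hd ▸ min_le_left _ _
  have hdp : d ≤ 1 - 1 / Real.pi := hd ▸ min_le_right _ _
  have hpd : 1 / Real.pi + 0.04 ≤ d := by
    rw [hd]
    refine le_min ?_ ?_
    · linarith [hV.1]
    · linarith
  obtain ⟨x, hx⟩ : ∃ x, x = d - 1 / Real.pi := ⟨_, rfl⟩
  have hx0 : 0.04 ≤ x := by linarith
  obtain ⟨E, hE⟩ : ∃ E, E = Real.sqrt (1.98 * η / (c - b)) := ⟨_, rfl⟩
  have hE2 : E ^ 2 = 1.98 * η / (c - b) := by rw [hE]; exact Real.sq_sqrt (by positivity)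
  have hE0 : 0 < E := by rw [hE]; exact Real.sqrt_pos.2 (by positivity)
  have hf0 : ∀ a, 0 ≤ Real.sqrt (1 - ((1 - η - κ * b + κ * a) / I2 a) ^ 2) :=
    fun a => Real.sqrt_nonneg _
  have hIpos : ∀ a ∈ Set.Icc b c, a < 1 ∨ a = 1 := fun a ha => (ha.2.trans hc1).lt_or_eq
  have hint : IntervalIntegrable (fun a => Real.sqrt (1 -
      ((1 - η - κ * b + κ * a) / I2 a) ^ 2)) volume b c := by
    have hpos : ∀ a ∈ Set.Icc b c, 0 < I2 a := by
      intro a ha
      have := hchord a ha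
      have h2 := hl1 a ha
      linarith
    apply ContinuousOn.intervalIntegrable
    rw [uIcc_of_le hbc.le]
    apply ContinuousOn.sqrt
    apply ContinuousOn.sub continuousOn_const
    apply ContinuousOn.pow
    exact ContinuousOn.div (by fun_prop) n3_I2_cont.continuousOn fun a ha => (hpos a ha).ne'
  have hcal : E * (2 / 3 * (x * Real.sqrt x)) ≤ cal I2 (1 - η - κ * b) κ b c := by
    unfold cal
    have h1 : ∫ a in (1 / Real.pi)..d, Real.sqrt (1 - ((1 - η - κ * b + κ * a) / I2 a) ^ 2) ≤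
        ∫ a in b..c, Real.sqrt (1 - ((1 - η - κ * b + κ * a) / I2 a) ^ 2) := by
      apply intervalIntegral.integral_mono_interval hbp'.le (by linarith) hdc
      · exact Filter.Eventually.of_forall fun a => hf0 a
      · exact hint
    refine le_trans ?_ h1
    rw [hx, ← n3_int (by linarith), ← intervalIntegral.integral_const_mul]
    apply intervalIntegral.integral_mono_on (by linarith)
    · apply Continuous.intervalIntegrable
      fun_prop
    · apply hint.mono_set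
      rw [uIcc_of_le (by linarith), uIcc_of_le hbc.le]
      exact Icc_subset_Icc hbp'.le hdc
    · intro a ha
      have haI : a ∈ Set.Icc b c := ⟨hbp'.le.trans ha.1, ha.2.trans hdc⟩
      rw [n3_I2_one ha.1 (ha.2.trans hdp), div_one, hE, ← Real.sqrt_mul (by positivity)]
      apply Real.sqrt_le_sqrt
      have h2 := hl1 a haI
      have h3 := hl2 a haI
      obtain ⟨l, hl⟩ : ∃ l, l = 1 - η - κ * b + κ * a := ⟨_, rfl⟩
      rw [← hl] at h2 h3 ⊢
      have h4 : 1.98 * η / (c - b) * (d - a) ≤ 1.98 * (η * (c - a) / (c - b)) := by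
        have : 1.98 * η / (c - b) * (d - a) = 1.98 * (η * (d - a) / (c - b)) := by ring
        rw [this]
        gcongr
      have h5 : 0 ≤ 1 - l := by
        refine le_trans ?_ h3
        exact div_nonneg (mul_nonneg hη0.le (by linarith [haI.2])) hcb.le
      have h6 : 1.98 * (1 - l) ≤ 1 - l ^ 2 := n3_a (by linarith) h5
      linarith
  have hxs0 : 0 < Real.sqrt x := Real.sqrt_pos.2 (by linarith)
  have hxs2 : Real.sqrt x ^ 2 = x := Real.sq_sqrt (by linarith)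
  obtain ⟨w, hw⟩ : ∃ w, w = Real.sqrt x := ⟨_, rfl⟩
  rw [← hw] at hcal hxs0 hxs2
  refine le_trans ?_ (add_le_add_right hcal _)
  have hE1 : 1.69 * t ≤ E := n3_g hE0.le hE2 hcb (by linarith) hη0 ht2
  rcases le_total c (1 - 1 / Real.pi) with hcase | hcase
  · -- `d = c`
    have hdc' : d = c := by rw [hd, min_eq_left hcase]
    have hγ' : γ = 1 := by rw [hγ]; exact n3_I2_one (by linarith [hV.1]) hcase
    have h1 : 1 - (1 - η - κ * b + κ * V) = E ^ 2 * (c - V) / 1.98 := by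
      rw [hE2, hκ, hγ']
      field_simp
      ring
    have h2 : E * w ≤ 0.189 :=
      n3_f hE2 hxs2 hcb hη0 ht2 ht0 ht1 (by linarith)
    have h3 : c - V ≤ x - 0.0416 := by linarith [hV.1]
    have hw1 : w ≤ 1 := by
      rw [hw]
      apply Real.sqrt_le_iff.2
      constructor
      · norm_num
      · norm_num
        linarith
    have h9 := K7_e hE0.le (K7_w hxs0 hw1 hxs2 (by linarith) h2 h3)
    have h10 : 1 / 10 ^ 7 ≤ E * 0.0009 / 1.98 := by
      rw [le_div_iff₀ (by norm_num)]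
      norm_num
      linarith
    linarith
  · -- `d = 1 - 1/π`
    have hdc' : d = 1 - 1 / Real.pi := by rw [hd, min_eq_right hcase]
    have h1 := hl1 V ⟨hbV, hVc⟩
    have hx1 : 0.363 ≤ x := by linarith
    have hw1 : 0.602 ≤ w := by
      rw [hw]
      apply Real.le_sqrt_of_sq_le
      norm_num
      linarith
    have h2 : 0.145 ≤ 2 / 3 * (x * w) := n3_c hx1 hw1
    have h3 : 1.69 * t * 0.145 ≤ E * (2 / 3 * (x * w)) :=
      mul_le_mul hE1 h2 (by norm_num) hE0.le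
    have h4 : η + 1 / 10 ^ 7 ≤ 1.69 * t * 0.145 := by
      rw [← ht2]
      exact K7_d ht3 ht1
    linarith

theorem slab_plateau_s {V b c : ℝ} (hV : V ∈ Set.Icc (0.36 : ℝ) 0.64) (hb : 0.307 ≤ b)
    (hbV : b ≤ V) (hVc : V ≤ c) (hc1 : c ≤ 1) (hs : I2 b ≤ I2 c) :
    ∃ α κ : ℝ, (∀ a ∈ Set.Icc b c, 0 ≤ α + κ * a) ∧ (∀ a ∈ Set.Icc b c, α + κ * a ≤ I2 a) ∧
      1 + (c - b) ^ 2 / 10 ^ 7 ≤ α + κ * V + cal I2 α κ b c := by
  have hp := Real.pi_pos
  have hp3 := Real.pi_gt_d4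
  have hp4 := Real.pi_lt_d4
  have ip1 : 1 / Real.pi ≤ 0.31834 := by
    rw [div_le_iff₀ hp]
    linarith
  have hI1 : ∀ a, I2 a ≤ 1 := fun a => (min_le_left _ _).trans (min_le_right _ _)
  by_cases hbp : 1 / Real.pi ≤ b
  · -- a constant function slightly below the plateau
    have hb1 : I2 b = 1 := n3_I2_one hbp (by linarith [hV.2])
    have hc1' : I2 c = 1 := le_antisymm (hI1 c) (hb1 ▸ hs)
    have hpl : ∀ a ∈ Set.Icc b c, I2 a = 1 := by
      intro a ha
      rcases (hbV.trans hVc).eq_or_lt with h | h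
      · have : a = b := le_antisymm (h ▸ ha.2) ha.1
        rw [this, hb1]
      · have := n3_chord (by linarith) hc1 h ha
        rw [hb1, hc1'] at this
        exact le_antisymm (hI1 a) (by simpa using this)
    have hbc := hbV.trans hVc
    obtain ⟨D, hD⟩ : ∃ D, D = c - b := ⟨_, rfl⟩
    have hD0 : 0 ≤ D := by linarith
    have hD1 : D ≤ 1 := by linarith
    have hD2 : D ^ 2 ≤ 1 := by nlinarith
    refine ⟨1 - D ^ 2 / 4, 0, fun a _ => by nlinarith, fun a ha => ?_, ?_⟩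
    · rw [hpl a ha]
      nlinarith [sq_nonneg D]
    · have hcal : cal I2 (1 - D ^ 2 / 4) 0 b c = D * Real.sqrt (1 - (1 - D ^ 2 / 4) ^ 2) := by
        unfold cal
        have : ∫ a in b..c, Real.sqrt (1 - ((1 - D ^ 2 / 4 + 0 * a) / I2 a) ^ 2) =
            ∫ _a in b..c, Real.sqrt (1 - (1 - D ^ 2 / 4) ^ 2) := by
          apply intervalIntegral.integral_congr
          intro a ha
          rw [uIcc_of_le hbc] at ha
          simp only
          rw [hpl a ha, div_one, zero_mul, add_zero]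
        rw [this, intervalIntegral.integral_const, smul_eq_mul, hD]
      have hsq : 0.6 * D ≤ Real.sqrt (1 - (1 - D ^ 2 / 4) ^ 2) := by
        apply Real.le_sqrt_of_sq_le
        nlinarith [sq_nonneg D, mul_nonneg (sq_nonneg D) (sub_nonneg.2 hD2)]
      rw [hcal, ← hD]
      have h3 : D * (0.6 * D) ≤ D * Real.sqrt (1 - (1 - D ^ 2 / 4) ^ 2) :=
        mul_le_mul_of_nonneg_left hsq hD0
      nlinarith [sq_nonneg D]
  have hbp' := not_le.1 hbp
  have hIb0 : 0.982 ≤ I2 b := by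
    unfold I2
    refine le_min (le_min ?_ (by norm_num)) ?_
    · apply Real.le_sqrt_of_sq_le
      nlinarith
    · apply Real.le_sqrt_of_sq_le
      nlinarith
  have hmax1 : max (1 - I2 b) 0.001 ≤ 0.018 := max_le (by linarith) (by norm_num)
  have hmax2 : 1 - I2 b ≤ max (1 - I2 b) 0.001 := le_max_left _ _
  exact K7_core hV hb hbV hVc hc1 hbp' hmax1 (le_max_right _ _) (by linarith) (by linarith)

end Vale.Agent.P232
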