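import Vale.Agent.P232.TreeDef

/-!
# P232, uniqueness, module K9: the slab search with slack `10^-6` (definitions and kernel run)
-/

namespace Vale.Agent.P232.N5

/-- slab test with slack -/
def k9Test (b1 c2 la mu T Va Vb : ℕ) : Bool :=
  Nat.ble (2 * M * (M + 1) * (c2 - b1)) (ev b1 c2 la mu T Va) &&
  Nat.ble (2 * M * (M + 1) * (c2 - b1)) (ev b1 c2 la mu T Vb)

def k9Leaf (b1 b2 c1 c2 V1 V2 : ℕ) : Bool :=
  nodeOK b1 c2 (i2 b1) (i2 c2) b1 0 && nodeOK b1 c2 (i2 b1) (i2 c2) c2 0 &&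
  Nat.blt b1 c2 &&
  (Nat.blt (min V2 c2) (max V1 b1) ||
    k9Test b1 c2 (i2 b1) (i2 c2) (tt b1 b2 c1 c2 (i2 b1) (i2 c2)) (max V1 b1) (min V2 c2))

def k9Search (V1 V2 : ℕ) : ℕ → ℕ → ℕ → ℕ → ℕ → Bool
  | 0, b1, b2, c1, c2 =>
    Nat.blt c2 V1 || Nat.blt V2 b1 || Nat.ble c2 b1 || skip 2 b1 b2 c1 c2 ||
      k9Leaf b1 b2 c1 c2 V1 V2
  | k + 1, b1, b2, c1, c2 =>
    Nat.blt c2 V1 || Nat.blt V2 b1 || Nat.ble c2 b1 || skip 2 b1 b2 c1 c2 ||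
      k9Leaf b1 b2 c1 c2 V1 V2 ||
      (bif Nat.ble ((c2 - c1) * max (rnode b1 c2 (i2 b1) (i2 c2) c1) 250000)
          ((b2 - b1) * max (rnode b1 c2 (i2 b1) (i2 c2) b2) 250000) then
        k9Search V1 V2 k b1 ((b1 + b2) / 2) c1 c2 &&
          k9Search V1 V2 k ((b1 + b2) / 2) b2 c1 c2
      else
        k9Search V1 V2 k b1 b2 c1 ((c1 + c2) / 2) &&
          k9Search V1 V2 k b1 b2 ((c1 + c2) / 2) c2)

theorem k9run : k9Search 360000 640000 22 0 307000 360000 1000000 = true := by decide +kernel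

end Vale.Agent.P232.N5
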