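import Vale.Agent.P232.TreeLeaf
import Vale.Agent.P232U.K9Run
import Vale.Agent.P232U.K7
import Vale.Agent.P232U.K8

/-!
# P232, uniqueness, module K9: the slab inequality with a margin
-/

open MeasureTheory Set

namespace Vale.Agent.P232.N5

/-- the conclusion -/
def K9Good (V b c : ℝ) : Prop :=
  ∃ α κ : ℝ, (∀ a ∈ Set.Icc b c, 0 ≤ α + κ * a) ∧ (∀ a ∈ Set.Icc b c, α + κ * a ≤ I2 a) ∧
    1 + 1 / 10 ^ 6 ≤ α + κ * V + cal I2 α κ b c

theorem k9_test_sound {b1 c2 la mu T Va Vb : ℕ} (hbc : b1 < c2) (ha1 : b1 ≤ Va)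
    (ha2 : Va ≤ c2) (hb1 : b1 ≤ Vb) (hb2 : Vb ≤ c2)
    (h : k9Test b1 c2 la mu T Va Vb = true) {v : ℝ} (hv : v ∈ Icc (Va : ℝ) Vb) :
    1 + 1 / 10 ^ 6 ≤
      (ap b1 c2 la mu + kp b1 c2 la mu * (v / 1000000)) + (T : ℝ) / 2000000000000 := by
  rw [line_val hbc]
  have hD : (0 : ℝ) < (c2 : ℝ) - b1 := by
    have : (b1 : ℝ) < c2 := by exact_mod_cast hbc
    linarith
  have eva := ev_cast (la := la) (mu := mu) (T := T) ha1 ha2
  have evb := ev_cast (la := la) (mu := mu) (T := T) hb1 hb2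
  have hsub : ((c2 - b1 : ℕ) : ℝ) = (c2 : ℝ) - b1 := Nat.cast_sub hbc.le
  set D : ℝ := (c2 : ℝ) - b1 with hDdef
  have key : ((la : ℝ) * (c2 - v) + mu * (v - b1)) / (1000000 * D) + (T : ℝ) / 2000000000000 =
      (2000000 * ((la : ℝ) * (c2 - v) + mu * (v - b1)) + D * T) / (2000000000000 * D) := by
    field_simp
    ring
  rw [key, le_div_iff₀ (by positivity)]
  unfold k9Test at h
  simp only [Bool.and_eq_true, Nat.ble_eq] at h
  obtain ⟨ka, kb⟩ := h
  have ka' := (Nat.cast_le (α := ℝ)).mpr ka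
  have kb' := (Nat.cast_le (α := ℝ)).mpr kb
  push_cast [hsub, M_real, eva] at ka'
  push_cast [hsub, M_real, evb] at kb'
  have G := aff (P := 2000000 * ((la : ℝ) * c2 - mu * b1) + D * T - 2000002000000 * D)
    (Q := 2000000 * ((mu : ℝ) - la)) hv (by linarith) (by linarith)
  have e : (1 + 1 / 10 ^ 6 : ℝ) * (2000000000000 * D) = 2000002000000 * D := by ring
  rw [e]
  linarith

theorem k9_leaf_sound {b1 b2 c1 c2 V1 V2 : ℕ} (h : k9Leaf b1 b2 c1 c2 V1 V2 = true)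
    {V b c : ℝ} (hb1 : (b1 : ℝ) / 1000000 ≤ b) (hb2 : b ≤ (b2 : ℝ) / 1000000)
    (hc1 : (c1 : ℝ) / 1000000 ≤ c) (hc2 : c ≤ (c2 : ℝ) / 1000000)
    (hV1 : (V1 : ℝ) / 1000000 ≤ V) (hV2 : V ≤ (V2 : ℝ) / 1000000) (hbV : b ≤ V) (hVc : V ≤ c) :
    K9Good V b c := by
  unfold k9Leaf at h
  simp only [Bool.and_eq_true, Nat.blt_eq, Bool.or_eq_true] at h
  obtain ⟨⟨⟨hn1, hn2⟩, hbc⟩, h⟩ := h
  set la := i2 b1
  set mu := i2 c2
  have N1 := nodeOK_sound hbc hn1
  have N2 := nodeOK_sound hbc hn2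
  rw [Nat.cast_zero, zero_div] at N1 N2
  have hD : (0 : ℝ) < (c2 : ℝ) - b1 := by
    have : (b1 : ℝ) < c2 := by exact_mod_cast hbc
    linarith
  have p1 : 0 ≤ ap b1 c2 la mu + kp b1 c2 la mu * ((b1 : ℝ) / 1000000) := by
    rw [line_val hbc]
    have : (la : ℝ) * (c2 - b1) + mu * ((b1 : ℝ) - b1) = la * ((c2 : ℝ) - b1) := by ring
    rw [this]
    positivity
  have p2 : 0 ≤ ap b1 c2 la mu + kp b1 c2 la mu * ((c2 : ℝ) / 1000000) := by
    rw [line_val hbc]
    have : (la : ℝ) * (c2 - c2) + mu * ((c2 : ℝ) - b1) = mu * ((c2 : ℝ) - b1) := by ring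
    rw [this]
    positivity
  have hline : ∀ a ∈ Icc b c, 0 ≤ ap b1 c2 la mu + kp b1 c2 la mu * a ∧
      ap b1 c2 la mu + kp b1 c2 la mu * a ≤ I2 a := fun a ha =>
    line_ok N1 N2 p1 p2 ⟨hb1.trans ha.1, ha.2.trans hc2⟩
  refine ⟨ap b1 c2 la mu, kp b1 c2 la mu, fun a ha => (hline a ha).1, fun a ha => (hline a ha).2,
    ?_⟩
  set v : ℝ := V * 1000000 with hv
  have hVv : V = v / 1000000 := by rw [hv]; field_simp
  have hva : ((max V1 b1 : ℕ) : ℝ) ≤ v := by
    rw [Nat.cast_max]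
    apply max_le
    · rw [div_le_iff₀ (by norm_num)] at hV1; exact hV1
    · have := hb1.trans hbV
      rw [div_le_iff₀ (by norm_num)] at this; exact this
  have hvb : v ≤ ((min V2 c2 : ℕ) : ℝ) := by
    rw [Nat.cast_min]
    apply le_min
    · rw [le_div_iff₀ (by norm_num)] at hV2; exact hV2
    · have := hVc.trans hc2
      rw [le_div_iff₀ (by norm_num)] at this; exact this
  have hab : max V1 b1 ≤ min V2 c2 := by exact_mod_cast hva.trans hvb
  rcases h with h | h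
  · exact absurd h (not_lt.mpr hab)
  · have := k9_test_sound hbc (le_max_right V1 b1) (hab.trans (min_le_right _ _))
      ((le_max_right V1 b1).trans hab) (min_le_right _ _) h ⟨hva, hvb⟩
    rw [← hVv] at this
    refine this.trans ?_
    have h2 := tt_sound (b1 := b1) (b2 := b2) (c1 := c1) (c2 := c2) (la := la) (mu := mu) hbc
      hb2 hc1 (hbV.trans hVc)
    linarith

theorem k9_search_sound (V1 V2 : ℕ) {V : ℝ} (hV1 : (V1 : ℝ) / 1000000 ≤ V)
    (hV2 : V ≤ (V2 : ℝ) / 1000000) {b c : ℝ} (hbV : b ≤ V) (hVc : V ≤ c) (hbc : b < c) :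
    ∀ (k b1 b2 c1 c2 : ℕ), k9Search V1 V2 k b1 b2 c1 c2 = true →
      (b1 : ℝ) / 1000000 ≤ b → b ≤ (b2 : ℝ) / 1000000 → (c1 : ℝ) / 1000000 ≤ c →
      c ≤ (c2 : ℝ) / 1000000 → SkipR 2 b c ∨ K9Good V b c := by
  have base : ∀ b1 b2 c1 c2 : ℕ, (Nat.blt c2 V1 || Nat.blt V2 b1 || Nat.ble c2 b1 ||
      skip 2 b1 b2 c1 c2 || k9Leaf b1 b2 c1 c2 V1 V2) = true →
      (b1 : ℝ) / 1000000 ≤ b → b ≤ (b2 : ℝ) / 1000000 → (c1 : ℝ) / 1000000 ≤ c →
      c ≤ (c2 : ℝ) / 1000000 → SkipR 2 b c ∨ K9Good V b c := by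
    intro b1 b2 c1 c2 h hb1 hb2 hc1 hc2
    simp only [Bool.or_eq_true, Nat.blt_eq, Nat.ble_eq] at h
    rcases h with (((h | h) | h) | h) | h
    · exfalso
      have e : (c2 : ℝ) < V1 := by exact_mod_cast h
      have : (c2 : ℝ) / 1000000 < (V1 : ℝ) / 1000000 := by linarith
      linarith
    · exfalso
      have e : (V2 : ℝ) < b1 := by exact_mod_cast h
      have : (V2 : ℝ) / 1000000 < (b1 : ℝ) / 1000000 := by linarith
      linarith
    · exfalso
      have e : (c2 : ℝ) ≤ b1 := by exact_mod_cast h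
      have : (c2 : ℝ) / 1000000 ≤ (b1 : ℝ) / 1000000 := by linarith
      linarith
    · exact Or.inl (skip_sound h hb1 hb2 hc1 hc2)
    · exact Or.inr (k9_leaf_sound h hb1 hb2 hc1 hc2 hV1 hV2 hbV hVc)
  intro k
  induction k with
  | zero =>
    intro b1 b2 c1 c2 h
    unfold k9Search at h
    exact base b1 b2 c1 c2 h
  | succ k ih =>
    intro b1 b2 c1 c2 h hb1 hb2 hc1 hc2
    unfold k9Search at h
    rcases Bool.or_eq_true_iff.mp h with h | h
    · exact base b1 b2 c1 c2 h hb1 hb2 hc1 hc2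
    · rw [Bool.cond_eq_ite] at h
      split_ifs at h with hq
      · rw [Bool.and_eq_true] at h
        rcases le_total b ((((b1 + b2) / 2 : ℕ) : ℝ) / 1000000) with hm | hm
        · exact ih _ _ _ _ h.1 hb1 hm hc1 hc2
        · exact ih _ _ _ _ h.2 hm hb2 hc1 hc2
      · rw [Bool.and_eq_true] at h
        rcases le_total c ((((c1 + c2) / 2 : ℕ) : ℝ) / 1000000) with hm | hm
        · exact ih _ _ _ _ h.1 hb1 hb2 hc1 hm
        · exact ih _ _ _ _ h.2 hb1 hb2 hm hc2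

end Vale.Agent.P232.N5

namespace Vale.Agent.P232

open N5

private theorem slab_half_s {V b c : ℝ} (hV : V ∈ Set.Icc (0.36 : ℝ) 0.64) (hb : 0 ≤ b)
    (hbV : b ≤ V) (hc : V ≤ c) (hc1 : c ≤ 1) (hbc : b < c) (hs : I2 b ≤ I2 c) :
    ∃ α κ : ℝ, (∀ a ∈ Set.Icc b c, 0 ≤ α + κ * a) ∧ (∀ a ∈ Set.Icc b c, α + κ * a ≤ I2 a) ∧
      1 + min ((c - b) ^ 2) (b + (1 - c)) / 10 ^ 7 ≤ α + κ * V + cal I2 α κ b c := by
  have hm1 : min ((c - b) ^ 2) (b + (1 - c)) / 10 ^ 7 ≤ (c - b) ^ 2 / 10 ^ 7 :=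
    div_le_div_of_nonneg_right (min_le_left _ _) (by norm_num)
  have hm2 : min ((c - b) ^ 2) (b + (1 - c)) / 10 ^ 7 ≤ (b + (1 - c)) / 10 ^ 7 :=
    div_le_div_of_nonneg_right (min_le_right _ _) (by norm_num)
  have hP : 0.307 ≤ b → ∃ α κ : ℝ, (∀ a ∈ Set.Icc b c, 0 ≤ α + κ * a) ∧
      (∀ a ∈ Set.Icc b c, α + κ * a ≤ I2 a) ∧
      1 + min ((c - b) ^ 2) (b + (1 - c)) / 10 ^ 7 ≤ α + κ * V + cal I2 α κ b c := by
    intro h
    obtain ⟨α, κ, h1, h2, h3⟩ := slab_plateau_s hV h hbV hc hc1 hs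
    exact ⟨α, κ, h1, h2, by linarith⟩
  rcases le_total 0.307 b with h | h
  · exact hP h
  · have := k9_search_sound 360000 640000 (V := V) (by norm_num; linarith [hV.1])
      (by norm_num; linarith [hV.2]) hbV hc hbc 22 0 307000 360000 1000000 k9run
      (by norm_num; linarith) (by norm_num; linarith) (by norm_num; linarith [hV.1])
      (by norm_num; linarith)
    rcases this with h' | h'
    · unfold SkipR at h'
      rw [if_pos rfl] at h'
      rcases h' with h' | ⟨h', h''⟩ | ⟨h', h''⟩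
      · exact hP h'
      · obtain ⟨α, κ, h1, h2, h3⟩ := slab_corner_s hV hb h' h'' hc1 hs
        exact ⟨α, κ, h1, h2, by linarith⟩
      · exfalso
        have hpi := Real.pi_lt_d4
        have hpi0 := Real.pi_pos
        have hc2 : I2 c ≤ Real.sqrt (Real.pi * (1 - c)) := min_le_right _ _
        have hlt : Real.sqrt (Real.pi * (1 - c)) < I2 b := by
          unfold I2
          refine lt_min (lt_min ?_ ?_) ?_
          · apply Real.sqrt_lt_sqrt (mul_nonneg hpi0.le (by linarith))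
            exact mul_lt_mul_of_pos_left (by linarith) hpi0
          · rw [Real.sqrt_lt' one_pos]
            nlinarith
          · apply Real.sqrt_lt_sqrt (mul_nonneg hpi0.le (by linarith))
            exact mul_lt_mul_of_pos_left (by linarith) hpi0
        linarith
    · obtain ⟨α, κ, h1, h2, h3⟩ := h'
      refine ⟨α, κ, h1, h2, ?_⟩
      have h4 : (c - b) ^ 2 / 10 ^ 7 ≤ 1 / 10 ^ 6 := by
        have h5 : (c - b) ^ 2 ≤ 1 := by
          have h6 : 0 ≤ c - b := by linarith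
          have h7 : c - b ≤ 1 := by linarith
          exact pow_le_one₀ h6 h7
        rw [div_le_div_iff₀ (by norm_num) (by norm_num)]
        norm_num
        linarith
      linarith

private theorem I2_symm_s (a : ℝ) : I2 (1 - a) = I2 a := by
  unfold I2
  rw [sub_sub_cancel]
  generalize Real.sqrt (Real.pi * a) = x
  generalize Real.sqrt (Real.pi * (1 - a)) = y
  rw [min_right_comm, min_comm y x, min_right_comm]

/- K9 -/
theorem slab_s {V b c : ℝ} (hV : V ∈ Set.Icc (0.36 : ℝ) 0.5) (hb : 0 ≤ b) (hbV : b ≤ V)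
    (hc : V ≤ c) (hc1 : c ≤ 1) (hbc : b < c) :
    ∃ α κ : ℝ, (∀ a ∈ Set.Icc b c, 0 ≤ α + κ * a) ∧ (∀ a ∈ Set.Icc b c, α + κ * a ≤ I2 a) ∧
      1 + min ((c - b) ^ 2) (b + (1 - c)) / 10 ^ 7 ≤ α + κ * V + cal I2 α κ b c := by
  rcases le_total (I2 b) (I2 c) with hs | hs
  · exact slab_half_s ⟨hV.1, hV.2.trans (by norm_num)⟩ hb hbV hc hc1 hbc hs
  · obtain ⟨α, κ, h1, h2, h3⟩ := slab_half_s (V := 1 - V) (b := 1 - c) (c := 1 - b)
      ⟨by linarith [hV.2], by linarith [hV.1]⟩ (by linarith) (by linarith) (by linarith)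
      (by linarith) (by linarith) (by rw [I2_symm_s, I2_symm_s]; exact hs)
    have e1 : (1 - b - (1 - c)) ^ 2 = (c - b) ^ 2 := by ring
    have e2 : 1 - c + (1 - (1 - b)) = b + (1 - c) := by ring
    rw [e1, e2] at h3
    refine ⟨α + κ, -κ, fun a ha => ?_, fun a ha => ?_, ?_⟩
    · have := h1 (1 - a) ⟨by linarith [ha.2], by linarith [ha.1]⟩
      linarith
    · have := h2 (1 - a) ⟨by linarith [ha.2], by linarith [ha.1]⟩
      rw [I2_symm_s] at this
      linarith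
    · have e : cal I2 (α + κ) (-κ) b c = cal I2 α κ (1 - c) (1 - b) := by
        unfold cal
        rw [← intervalIntegral.integral_comp_sub_left
          (fun a => Real.sqrt (1 - ((α + κ * a) / I2 a) ^ 2)) (1 : ℝ)]
        refine intervalIntegral.integral_congr fun a _ => ?_
        simp only [I2_symm_s]
        congr 4
        ring
      rw [e]
      linarith

end Vale.Agent.P232
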