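import Vale.Agent.P232U.Defs
import Vale.Agent.P232.SliceBasic
import Vale.Agent.P232.Fubini
import Vale.Agent.P232.ArcVar

/-! # P232U, module LOW2 (helper23) -/

open MeasureTheory Set Filter
open scoped Topology

namespace Vale.Agent.P232

private theorem low2_ins_update {n : ℕ} (p : Fin (n + 1)) (z : ℝ) (y : Fin n → ℝ) (i : Fin n)
    (t : ℝ) : (p.insertNth z (Function.update y i t) : Fin (n + 1) → ℝ) =
      Function.update (p.insertNth z y) (p.succAbove i) t := by
  ext k
  refine p.succAboveCases ?_ (fun m => ?_) k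
  · rw [Function.update_of_ne (Fin.succAbove_ne p i).symm]
    simp
  · by_cases h : m = i
    · subst h
      simp
    · rw [Function.update_of_ne (fun e => h (Fin.succAbove_right_injective e))]
      simp [h]

private theorem low2_core {h : (Fin 2 → ℝ) → ℝ} (hh : Nice h) {i' : Fin 2}
    (hind : ∀ y t, h (Function.update y i' t) = h y) :
    (∫ y in cell 2, h y) * (1 - ∫ y in cell 2, h y) * (1 - hTV h) ≤
      ∫ y in cell 2, h y * (1 - h y) := by
  obtain ⟨l, hl⟩ : ∃ l : Fin 2, l.succAbove (0 : Fin 1) = i' := by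
    fin_cases i'
    · exact ⟨1, rfl⟩
    · exact ⟨0, rfl⟩
  set φ : ℝ → ℝ := fun s => h (l.insertNth s (0 : Fin 1 → ℝ)) with hφdef
  have hφ : ∀ (s : ℝ) (y : Fin 1 → ℝ), h (l.insertNth s y) = φ s := by
    intro s y
    have hy : y = Function.update (0 : Fin 1 → ℝ) 0 (y 0) := by
      ext k
      rw [Subsingleton.elim k 0]
      simp
    rw [hy, low2_ins_update, hl, hind]
  have hc : Continuous h := hh.smooth.continuous
  have hcont_ins : Continuous fun s : ℝ => (l.insertNth s (0 : Fin 1 → ℝ) : Fin 2 → ℝ) :=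
    (fub_insertNth_continuous l).comp (by fun_prop : Continuous fun s : ℝ =>
      ((s, (0 : Fin 1 → ℝ)) : ℝ × (Fin 1 → ℝ)))
  have hsm_ins : ContDiff ℝ 1 fun s : ℝ => (l.insertNth s (0 : Fin 1 → ℝ) : Fin 2 → ℝ) := by
    refine contDiff_pi.2 fun k => ?_
    refine l.succAboveCases ?_ (fun m => ?_) k
    · simp only [Fin.insertNth_apply_same]
      exact contDiff_id
    · simp only [Fin.insertNth_apply_succAbove]
      exact contDiff_const
  have hφs : ContDiff ℝ 1 φ := hh.smooth.comp hsm_ins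
  have hφc : Continuous φ := hφs.continuous
  have hφp : ∀ s, φ (s + 1) = φ s := by
    intro s
    have e : (l.insertNth (s + 1) (0 : Fin 1 → ℝ) : Fin 2 → ℝ) =
        l.insertNth s (0 : Fin 1 → ℝ) + fun k => ((Pi.single l 1 : Fin 2 → ℤ) k : ℝ) := by
      ext k
      refine l.succAboveCases ?_ (fun m => ?_) k
      · simp
      · simp [Fin.succAbove_ne]
    show h _ = h _
    rw [e]
    exact hh.per _ _
  have hφ0 : ∀ s, 0 ≤ φ s := fun s => hh.nonneg _
  have hφ1 : ∀ s, φ s ≤ 1 := fun s => hh.le_one _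
  -- one dimensional reduction of integrals
  have hred : ∀ (F : (Fin 2 → ℝ) → ℝ) (ψ : ℝ → ℝ), Continuous F →
      (∀ (s : ℝ) (y : Fin 1 → ℝ), F (l.insertNth s y) = ψ s) →
      ∫ y in cell 2, F y = ∫ s in (0 : ℝ)..1, ψ s := by
    intro F ψ hF hψ
    rw [fub_gen hF l]
    refine intervalIntegral.integral_congr fun s _ => ?_
    simp only [hψ]
    rw [setIntegral_const, measureReal_def, sl_cell_vol]
    simp
  have hq := hred h φ hc hφ
  have he := hred (fun y => h y * (1 - h y)) (fun s => φ s * (1 - φ s)) (by fun_prop)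
    (fun s y => by simp only [hφ])
  -- total variation
  have hfd : Continuous fun x => fderiv ℝ h x (Pi.single l 1) :=
    (hh.smooth.continuous_fderiv one_ne_zero).clm_apply continuous_const
  have hder : ∀ (s : ℝ) (y : Fin 1 → ℝ),
      fderiv ℝ h (l.insertNth s y) (Pi.single l 1) = deriv φ s := by
    intro s y
    have h1 : HasDerivAt (fun s : ℝ => (l.insertNth s y : Fin 2 → ℝ)) (Pi.single l 1) s := by
      refine hasDerivAt_pi.2 fun k => ?_
      refine l.succAboveCases ?_ (fun m => ?_) k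
      · simp only [Fin.insertNth_apply_same, Pi.single_eq_same]
        exact hasDerivAt_id s
      · simp only [Fin.insertNth_apply_succAbove, Pi.single_eq_of_ne (Fin.succAbove_ne l m)]
        exact hasDerivAt_const s _
    have h2 : HasFDerivAt h (fderiv ℝ h (l.insertNth s y)) (l.insertNth s y) :=
      (hh.smooth.differentiable one_ne_zero _).hasFDerivAt
    have h3 := h2.comp_hasDerivAt s h1
    have h4 : (h ∘ fun s : ℝ => (l.insertNth s y : Fin 2 → ℝ)) = φ := funext fun s => hφ s y
    rw [h4] at h3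
    exact h3.deriv.symm
  have hgc : Continuous (gradN h) := by
    unfold gradN
    refine Continuous.sqrt ?_
    refine continuous_finsetSum _ fun k _ => ?_
    exact ((hh.smooth.continuous_fderiv one_ne_zero).clm_apply continuous_const).pow 2
  have hint : ∀ F : (Fin 2 → ℝ) → ℝ, Continuous F → IntegrableOn F (cell 2) := fun F hF =>
    (hF.continuousOn.integrableOn_compact (fub_isCompact 2)).mono_set (fub_cell_subset 2)
  have hTVge : (1 / 2) * ∫ s in (0 : ℝ)..1, |deriv φ s| ≤ hTV h := by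
    unfold hTV
    refine mul_le_mul_of_nonneg_left ?_ (by norm_num)
    rw [← hred (fun x => |fderiv ℝ h x (Pi.single l 1)|) (fun s => |deriv φ s|) hfd.abs
      (fun s y => by simp only [hder])]
    refine setIntegral_mono (hint _ hfd.abs) (hint _ hgc) fun x => ?_
    unfold gradN
    refine Real.abs_le_sqrt ?_
    exact Finset.single_le_sum (f := fun k => (fderiv ℝ h x (Pi.single k 1)) ^ 2)
      (fun k _ => sq_nonneg _) (Finset.mem_univ l)
  -- extreme values
  have hper : Function.Periodic φ 1 := hφp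
  obtain ⟨z₂, -, hz₂⟩ := isCompact_Icc.exists_isMaxOn (Set.nonempty_Icc.2 zero_le_one)
    (hφc.continuousOn (s := Set.Icc (0 : ℝ) 1))
  obtain ⟨z₁, -, hz₁⟩ := isCompact_Icc.exists_isMinOn (Set.nonempty_Icc.2 zero_le_one)
    (hφc.continuousOn (s := Set.Icc (0 : ℝ) 1))
  have hM : ∀ s ∈ Set.Icc (0 : ℝ) 1, φ s ≤ φ z₂ := fun s hs => hz₂ hs
  have hm : ∀ s ∈ Set.Icc (0 : ℝ) 1, φ z₁ ≤ φ s := fun s hs => hz₁ hs
  have hle : φ z₁ ≤ φ z₂ := (hm 0 ⟨le_rfl, zero_le_one⟩).trans (hM 0 ⟨le_rfl, zero_le_one⟩)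
  have hav := arc_var hφs hφp (S := fun _ => (1 : ℝ)) continuous_const (fun _ => zero_le_one) hle
  rw [intervalIntegral.integral_const, smul_eq_mul, mul_one] at hav
  simp only [one_mul] at hav
  have hTV2 : φ z₂ - φ z₁ ≤ hTV h := by linarith
  -- the two error bounds
  have hii : ∀ F : ℝ → ℝ, Continuous F → IntervalIntegrable F volume 0 1 := fun F hF =>
    hF.intervalIntegrable _ _
  have e1 : (1 - φ z₂) * ∫ s in (0 : ℝ)..1, φ s ≤ ∫ s in (0 : ℝ)..1, φ s * (1 - φ s) := by
    rw [← intervalIntegral.integral_const_mul]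
    refine intervalIntegral.integral_mono_on zero_le_one (hii _ (by fun_prop))
      (hii _ (by fun_prop)) fun s hs => ?_
    have a1 := hM s hs
    have a2 := hφ0 s
    nlinarith
  have e2 : φ z₁ * (1 - ∫ s in (0 : ℝ)..1, φ s) ≤ ∫ s in (0 : ℝ)..1, φ s * (1 - φ s) := by
    have h1 : (1 : ℝ) - ∫ s in (0 : ℝ)..1, φ s = ∫ s in (0 : ℝ)..1, (1 - φ s) := by
      rw [intervalIntegral.integral_sub (hii _ continuous_const) (hii _ hφc)]
      simp
    rw [h1, ← intervalIntegral.integral_const_mul]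
    refine intervalIntegral.integral_mono_on zero_le_one (hii _ (by fun_prop))
      (hii _ (by fun_prop)) fun s hs => ?_
    have a1 := hm s hs
    have a2 := hφ1 s
    nlinarith
  have q0 : 0 ≤ ∫ s in (0 : ℝ)..1, φ s :=
    intervalIntegral.integral_nonneg zero_le_one fun s _ => hφ0 s
  have q1 : ∫ s in (0 : ℝ)..1, φ s ≤ 1 := by
    have := intervalIntegral.integral_mono_on (μ := volume) zero_le_one (hii _ hφc)
      (hii (fun _ => (1 : ℝ)) continuous_const) fun s _ => hφ1 s
    simpa using this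
  rw [hq, he]
  set q := ∫ s in (0 : ℝ)..1, φ s with hqdef
  set e := ∫ s in (0 : ℝ)..1, φ s * (1 - φ s) with hedef
  have k1 : q * (1 - q) * (1 - hTV h) ≤ q * (1 - q) * (1 - φ z₂ + φ z₁) :=
    mul_le_mul_of_nonneg_left (by linarith) (mul_nonneg q0 (by linarith))
  have k2 : (1 - q) * ((1 - φ z₂) * q) ≤ (1 - q) * e :=
    mul_le_mul_of_nonneg_left e1 (by linarith)
  have k3 : q * (φ z₁ * (1 - q)) ≤ q * e := mul_le_mul_of_nonneg_left e2 q0
  nlinarith

/-- LOW2 -/
theorem low_two {f : (Fin 3 → ℝ) → ℝ} (hf : Nice f) {i j : Fin 3} (hij : j ≠ i)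
    (hind : ∀ x t, f (Function.update x i t) = f x) (z : ℝ) :
    sArea f j z * (1 - sArea f j z) * (1 - hTV (slice f j z)) ≤ slErr f j z := by
  obtain ⟨i', hi'⟩ := Fin.exists_succAbove_eq hij.symm
  refine low2_core (slice_nice hf j z) (i' := i') fun y t => ?_
  unfold slice
  rw [low2_ins_update, hi', hind]

end Vale.Agent.P232
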