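import Vale.Agent.P232U.WireB
import Vale.Agent.P232.MidClass

/-! # P232U: all minimizers -/

open MeasureTheory Set Filter Topology

namespace Vale.Agent.P232

/-- all minimizers of volume at most `1/2` -/
theorem minimizers2 {E : Set (Fin 3 → ℝ)} (hE : MeasurableSet E) (hper : IsPerSet E)
    (h0 : 0 < vol E) (h1 : vol E ≤ 1 / 2) (hP : perimeter E = ENNReal.ofReal (2 * Jh (vol E))) :
    (Jh (vol E) = (9 * Real.pi / 2) ^ (1 / 3 : ℝ) * (vol E) ^ (2 / 3 : ℝ) ∧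
      ∃ m, AEq E (ballT m ((3 * vol E / (4 * Real.pi)) ^ (1 / 3 : ℝ)))) ∨
    (Jh (vol E) = Real.sqrt (Real.pi * vol E) ∧
      ∃ m i, AEq E (tubeT m i (Real.sqrt (vol E / Real.pi)))) ∨
    (Jh (vol E) = 1 ∧ ∃ i a, AEq E (slabT i a (vol E))) :=
  minimizers2_win (fun hV _ he => class_win hV he) hE hper h0 h1 hP

end Vale.Agent.P232
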