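import Mathlib

/-! # P232U, module SLABE: the one-dimensional estimate (helper48) -/

open MeasureTheory Set Filter Topology

namespace Vale.Agent.P232

theorem SLABE_diff {Q : ℝ → ℝ} (hQ : ContDiff ℝ 1 Q) {a b : ℝ} (h : a ≤ b) :
    |Q b - Q a| ≤ ∫ t in a..b, |deriv Q t| := by
  have hd : Continuous (deriv Q) := hQ.continuous_deriv le_rfl
  rw [← intervalIntegral.integral_deriv_eq_sub
    (fun x _ => (hQ.differentiable one_ne_zero).differentiableAt) (hd.intervalIntegrable _ _)]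
  exact intervalIntegral.abs_integral_le_integral_abs h

/-- total variation along five points -/
theorem SLABE_var {Q : ℝ → ℝ} (hQ : ContDiff ℝ 1 Q) {p0 p1 p2 p3 p4 : ℝ} (h01 : p0 ≤ p1)
    (h12 : p1 ≤ p2) (h23 : p2 ≤ p3) (h34 : p3 ≤ p4) :
    |Q p1 - Q p0| + |Q p2 - Q p1| + |Q p3 - Q p2| + |Q p4 - Q p3| ≤
      ∫ t in p0..p4, |deriv Q t| := by
  have hd : Continuous fun t => |deriv Q t| := (hQ.continuous_deriv le_rfl).abs
  have hi : ∀ a b, IntervalIntegrable (fun t => |deriv Q t|) volume a b :=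
    fun a b => hd.intervalIntegrable a b
  have e : ∫ t in p0..p4, |deriv Q t| = (∫ t in p0..p1, |deriv Q t|) +
      (∫ t in p1..p2, |deriv Q t|) + (∫ t in p2..p3, |deriv Q t|) +
      ∫ t in p3..p4, |deriv Q t| := by
    rw [intervalIntegral.integral_add_adjacent_intervals (hi _ _) (hi _ _),
      intervalIntegral.integral_add_adjacent_intervals (hi _ _) (hi _ _),
      intervalIntegral.integral_add_adjacent_intervals (hi _ _) (hi _ _)]
  rw [e]
  linarith [SLABE_diff hQ h01, SLABE_diff hQ h12, SLABE_diff hQ h23, SLABE_diff hQ h34]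

theorem SLABE_norm {Q : ℝ → ℝ} (hQ : ContDiff ℝ 1 Q) {s0 : ℝ} (hs : s0 ∈ Icc (0:ℝ) 1)
    (h01 : Q 1 = Q 0) (hm : Q 0 ≤ 1 / 2) (hM : 1 / 2 ≤ Q s0)
    (hvar : ∫ t in (0:ℝ)..1, |deriv Q t| ≤ 2 * (Q s0 - Q 0) + 1 / 2) :
    ∃ a b, 0 ≤ a ∧ a ≤ b ∧ b ≤ 1 ∧ (∀ t ∈ Icc a b, 1 / 4 ≤ Q t) ∧
      (∀ t ∈ Icc 0 a, Q t ≤ 3 / 4) ∧ (∀ t ∈ Icc b 1, Q t ≤ 3 / 4) := by
  obtain ⟨a, ha, hQa⟩ := intermediate_value_Icc hs.1 hQ.continuous.continuousOn
    (show (1 / 2 : ℝ) ∈ Icc (Q 0) (Q s0) from ⟨hm, hM⟩)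
  obtain ⟨b, hb, hQb⟩ := intermediate_value_Icc' hs.2 hQ.continuous.continuousOn
    (show (1 / 2 : ℝ) ∈ Icc (Q 1) (Q s0) from ⟨by rw [h01]; exact hm, hM⟩)
  have A := fun x : ℝ => le_abs_self x
  have B := fun x : ℝ => neg_abs_le x
  refine ⟨a, b, ha.1, ha.2.trans hb.1, hb.2, ?_, ?_, ?_⟩
  · intro t ht
    by_contra hc
    push Not at hc
    rcases le_total t s0 with h | h
    · have h2 := SLABE_var hQ ha.1 ht.1 h hs.2
      linarith [A (Q a - Q 0), B (Q t - Q a), A (Q s0 - Q t), B (Q 1 - Q s0)]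
    · have h2 := SLABE_var hQ hs.1 h ht.2 hb.2
      linarith [A (Q s0 - Q 0), B (Q t - Q s0), A (Q b - Q t), B (Q 1 - Q b)]
  · intro t ht
    by_contra hc
    push Not at hc
    have h2 := SLABE_var hQ ht.1 ht.2 ha.2 hs.2
    linarith [A (Q t - Q 0), B (Q a - Q t), A (Q s0 - Q a), B (Q 1 - Q s0)]
  · intro t ht
    by_contra hc
    push Not at hc
    have h2 := SLABE_var hQ hs.1 hb.1 ht.1 ht.2
    linarith [A (Q s0 - Q 0), B (Q b - Q s0), A (Q t - Q b), B (Q 1 - Q t)]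

/-- indicator of `{fract t < L}` -/
noncomputable def SLABE_chi (L t : ℝ) : ℝ := if Int.fract t < L then 1 else 0

theorem SLABE_chi_per (L : ℝ) : Function.Periodic (SLABE_chi L) 1 := by
  intro t
  unfold SLABE_chi
  rw [Int.fract_add_one]

theorem SLABE_chi_meas (L : ℝ) : Measurable (SLABE_chi L) := by
  unfold SLABE_chi
  exact Measurable.ite (measurableSet_lt measurable_fract measurable_const) measurable_const
    measurable_const

theorem SLABE_chi_mem (L t : ℝ) : 0 ≤ SLABE_chi L t ∧ SLABE_chi L t ≤ 1 := by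
  unfold SLABE_chi
  split_ifs <;> norm_num

theorem SLABE_chi_int (L a b c : ℝ) :
    IntervalIntegrable (fun t => SLABE_chi L (t - c)) volume a b := by
  rw [intervalIntegrable_iff]
  refine Measure.integrableOn_of_bounded (M := 1) measure_Ioc_lt_top.ne
    ((SLABE_chi_meas L).comp (measurable_id.sub_const c)).aestronglyMeasurable ?_
  refine Filter.Eventually.of_forall fun t => ?_
  have := SLABE_chi_mem L (t - c)
  rw [Real.norm_eq_abs, abs_le]
  constructor <;> linarith [this.1, this.2]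

/-- shift of a periodic function -/
theorem SLABE_shift {F : ℝ → ℝ} (hF : Function.Periodic F 1) (c : ℝ) :
    ∫ t in (0:ℝ)..1, F (t - c) = ∫ t in (0:ℝ)..1, F t := by
  rw [intervalIntegral.integral_comp_sub_right (fun t => F t) c]
  have := hF.intervalIntegral_add_eq (0 - c) 0
  rw [zero_add] at this
  rw [← this]
  congr 1
  ring

theorem SLABE_chi_sub {L V : ℝ} (hL : 0 ≤ L) (hL1 : L ≤ 1) (hV : 0 ≤ V) (hV1 : V ≤ 1) (c : ℝ) :
    ∫ t in (0:ℝ)..1, |SLABE_chi L (t - c) - SLABE_chi V (t - c)| = |L - V| := by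
  have hp : Function.Periodic (fun t => |SLABE_chi L t - SLABE_chi V t|) 1 := by
    intro t
    simp only [SLABE_chi_per L t, SLABE_chi_per V t]
  rw [SLABE_shift hp c]
  have key : ∀ L V : ℝ, 0 ≤ L → L ≤ V → V ≤ 1 →
      ∫ t in (0:ℝ)..1, |SLABE_chi L t - SLABE_chi V t| = V - L := by
    intro L V h0 h1 h2
    have e1 : ∫ t in (0:ℝ)..1, |SLABE_chi L t - SLABE_chi V t| =
        ∫ t in (0:ℝ)..1, (Set.Ico L V).indicator (fun _ => (1:ℝ)) t := by
      rw [intervalIntegral.integral_of_le zero_le_one, intervalIntegral.integral_of_le zero_le_one,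
        ← integral_Ico_eq_integral_Ioc, ← integral_Ico_eq_integral_Ioc]
      refine setIntegral_congr_fun measurableSet_Ico fun t ht => ?_
      have hf : Int.fract t = t := Int.fract_eq_self.2 ht
      simp only [SLABE_chi, hf]
      by_cases hL : t < L
      · rw [if_pos hL, if_pos (hL.trans_le h1), Set.indicator_of_notMem]
        · simp
        · intro h; exact absurd h.1 (not_le.2 hL)
      · by_cases hV : t < V
        · rw [if_neg hL, if_pos hV, Set.indicator_of_mem]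
          · simp
          · exact ⟨not_lt.1 hL, hV⟩
        · rw [if_neg hL, if_neg hV, Set.indicator_of_notMem]
          · simp
          · intro h; exact hV h.2
    rw [e1, intervalIntegral.integral_of_le zero_le_one, setIntegral_indicator measurableSet_Ico,
      setIntegral_const]
    have e2 : (Ioc (0:ℝ) 1 ∩ Ico L V : Set ℝ) =ᵐ[volume] (Ico L V : Set ℝ) := by
      have h3 : (Ioc (0:ℝ) 1 : Set ℝ) =ᵐ[volume] (Ico 0 1 : Set ℝ) := Ico_ae_eq_Ioc.symm
      have h4 : Ico (0:ℝ) 1 ∩ Ico L V = Ico L V := by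
        apply Set.inter_eq_right.2
        intro t ht
        exact ⟨h0.trans ht.1, ht.2.trans_le h2⟩
      have h5 := h3.inter (ae_eq_refl (Ico L V))
      rwa [h4] at h5
    rw [measureReal_congr e2]
    simp [h1]
  rcases le_total L V with h | h
  · rw [key L V hL h hV1, abs_of_nonpos (by linarith)]
    ring
  · have e : (fun t => |SLABE_chi L t - SLABE_chi V t|) =
        fun t => |SLABE_chi V t - SLABE_chi L t| := by
      funext t
      rw [abs_sub_comm]
    rw [e, key V L hV h hL1, abs_of_nonneg (by linarith)]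

theorem SLABE_chi_integral {L : ℝ} (hL : 0 ≤ L) (hL1 : L ≤ 1) (c : ℝ) :
    ∫ t in (0:ℝ)..1, SLABE_chi L (t - c) = L := by
  have h := SLABE_chi_sub hL hL1 le_rfl zero_le_one c
  have e : ∀ t : ℝ, |SLABE_chi L (t - c) - SLABE_chi 0 (t - c)| = SLABE_chi L (t - c) := by
    intro t
    have : SLABE_chi 0 (t - c) = 0 := by
      unfold SLABE_chi
      rw [if_neg (not_lt.2 (Int.fract_nonneg _))]
    rw [this, sub_zero, abs_of_nonneg (SLABE_chi_mem L _).1]
  simp_rw [e] at h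
  rw [h, sub_zero, abs_of_nonneg hL]

theorem SLABE_eq {a b s : ℝ} (h0 : 0 ≤ a) (hab : a ≤ b) (hb : b ≤ 1) (hs : s ∈ Ico (0:ℝ) 1) :
    SLABE_chi (b - a) (s - a) = if a ≤ s ∧ s < b then 1 else 0 := by
  unfold SLABE_chi
  rcases le_or_gt a s with h | h
  · have hf : Int.fract (s - a) = s - a :=
      Int.fract_eq_self.2 ⟨by linarith, by linarith [hs.2]⟩
    rw [hf]
    by_cases h2 : s < b
    · rw [if_pos (by linarith), if_pos ⟨h, h2⟩]
    · rw [if_neg (by linarith), if_neg (fun h3 => h2 h3.2)]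
  · have hf : Int.fract (s - a) = s - a + 1 := by
      rw [← Int.fract_add_one]
      exact Int.fract_eq_self.2 ⟨by linarith [hs.1], by linarith⟩
    rw [hf, if_neg (by linarith [hs.1]), if_neg (fun h3 => absurd h3.1 (not_le.2 h))]

/-- normalised one-dimensional estimate -/
theorem SLABE_est {Q : ℝ → ℝ} (hQ : ContDiff ℝ 1 Q) (hQ0 : ∀ t, 0 ≤ Q t) (hQ1 : ∀ t, Q t ≤ 1)
    {V e a b : ℝ} (hV0 : 0 ≤ V) (hV1 : V ≤ 1) (h0 : 0 ≤ a) (hab : a ≤ b) (hb : b ≤ 1)
    (h1 : ∀ t ∈ Icc a b, 1 / 4 ≤ Q t) (h2 : ∀ t ∈ Icc 0 a, Q t ≤ 3 / 4)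
    (h3 : ∀ t ∈ Icc b 1, Q t ≤ 3 / 4) (he : ∫ t in (0:ℝ)..1, Q t * (1 - Q t) ≤ e)
    (hm : |(∫ t in (0:ℝ)..1, Q t) - V| ≤ e) :
    ∫ t in (0:ℝ)..1, |Q t - SLABE_chi V (t - a)| ≤ 9 * e := by
  have hQc := hQ.continuous
  have hQi : IntervalIntegrable Q volume 0 1 := hQc.intervalIntegrable _ _
  have hi1 : IntervalIntegrable (fun t => |Q t - SLABE_chi (b - a) (t - a)|) volume 0 1 :=
    (hQi.sub (SLABE_chi_int _ _ _ _)).abs
  have hi2 : IntervalIntegrable (fun t => |Q t - SLABE_chi V (t - a)|) volume 0 1 :=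
    (hQi.sub (SLABE_chi_int _ _ _ _)).abs
  have hi3 : IntervalIntegrable
      (fun t => |SLABE_chi (b - a) (t - a) - SLABE_chi V (t - a)|) volume 0 1 :=
    ((SLABE_chi_int _ _ _ _).sub (SLABE_chi_int _ _ _ _)).abs
  have hi4 : IntervalIntegrable (fun t => Q t * (1 - Q t)) volume 0 1 := by
    apply Continuous.intervalIntegrable
    fun_prop
  have s1 : ∫ t in (0:ℝ)..1, |Q t - SLABE_chi (b - a) (t - a)| ≤ 4 * e := by
    have : ∫ t in (0:ℝ)..1, |Q t - SLABE_chi (b - a) (t - a)| ≤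
        ∫ t in (0:ℝ)..1, 4 * (Q t * (1 - Q t)) := by
      refine intervalIntegral.integral_mono_on_of_le_Ioo zero_le_one hi1 (hi4.const_mul 4)
        fun s hs => ?_
      rw [SLABE_eq h0 hab hb ⟨hs.1.le, hs.2⟩]
      have hq0 := hQ0 s
      have hq1 := hQ1 s
      split_ifs with h
      · have := h1 s ⟨h.1, h.2.le⟩
        rw [abs_of_nonpos (by linarith)]
        nlinarith
      · rw [sub_zero, abs_of_nonneg hq0]
        have : Q s ≤ 3 / 4 := by
          rcases le_or_gt s a with h4 | h4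
          · exact h2 s ⟨hs.1.le, h4⟩
          · exact h3 s ⟨not_lt.1 fun h5 => h ⟨h4.le, h5⟩, hs.2.le⟩
        nlinarith
    rw [intervalIntegral.integral_const_mul] at this
    linarith
  have s2 : |(∫ t in (0:ℝ)..1, Q t) - (b - a)| ≤ 4 * e := by
    rw [← SLABE_chi_integral (L := b - a) (by linarith) (by linarith) a,
      ← intervalIntegral.integral_sub hQi (SLABE_chi_int _ _ _ _)]
    exact (intervalIntegral.abs_integral_le_integral_abs zero_le_one).trans s1
  have s3 : |(b - a) - V| ≤ 5 * e := by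
    have : (b - a) - V = -((∫ t in (0:ℝ)..1, Q t) - (b - a)) +
        ((∫ t in (0:ℝ)..1, Q t) - V) := by ring
    rw [this]
    refine (abs_add_le _ _).trans ?_
    rw [abs_neg]
    linarith
  have s4 : ∫ t in (0:ℝ)..1, |Q t - SLABE_chi V (t - a)| ≤
      ∫ t in (0:ℝ)..1, (|Q t - SLABE_chi (b - a) (t - a)| +
        |SLABE_chi (b - a) (t - a) - SLABE_chi V (t - a)|) :=
    intervalIntegral.integral_mono_on zero_le_one hi2 (hi1.add hi3)
      fun s _ => abs_sub_le _ _ _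
  rw [intervalIntegral.integral_add hi1 hi3,
    SLABE_chi_sub (by linarith) (by linarith) hV0 hV1] at s4
  linarith

/-- the one-dimensional estimate -/
theorem SLABE_oneD {q : ℝ → ℝ} (hq : ContDiff ℝ 1 q) (hper : ∀ t, q (t + 1) = q t)
    (hq0 : ∀ t, 0 ≤ q t) (hq1 : ∀ t, q t ≤ 1) {V δ : ℝ} (hV0 : 0 < V) (hV1 : V < 1)
    (hδ0 : 0 ≤ δ) (hδ : δ ≤ V * (1 - V) / 20) (hvar : ∫ t in (0:ℝ)..1, |deriv q t| ≤ 2 + δ)
    (herr : ∫ t in (0:ℝ)..1, q t * (1 - q t) ≤ δ) (hmean : |(∫ t in (0:ℝ)..1, q t) - V| ≤ δ) :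
    ∃ c, ∫ t in (0:ℝ)..1, |q t - SLABE_chi V (t - c)| ≤ 9 * δ := by
  have hp : Function.Periodic q 1 := hper
  have hqc := hq.continuous
  obtain ⟨t1, -, ht1⟩ := isCompact_Icc.exists_isMinOn (nonempty_Icc.2 (zero_le_one (α := ℝ)))
    hqc.continuousOn
  have hmin : ∀ t, q t1 ≤ q t := by
    intro t
    obtain ⟨y, hy, hty⟩ := hp.exists_mem_Ico₀ one_pos t
    rw [hty]
    exact ht1 ⟨hy.1, hy.2.le⟩
  -- normalise
  obtain ⟨Q, hQd⟩ : ∃ Q : ℝ → ℝ, Q = fun s => q (s + t1) := ⟨_, rfl⟩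
  have hQv : ∀ s, Q s = q (s + t1) := fun s => by rw [hQd]
  have hQ : ContDiff ℝ 1 Q := by
    rw [hQd]
    exact hq.comp (contDiff_id.add contDiff_const)
  have hQc := hQ.continuous
  have hQ0 : ∀ t, 0 ≤ Q t := fun t => by rw [hQv]; exact hq0 _
  have hQ1 : ∀ t, Q t ≤ 1 := fun t => by rw [hQv]; exact hq1 _
  have h01 : Q 1 = Q 0 := by
    rw [hQv, hQv, zero_add, add_comm, hper]
  have hQmin : ∀ t, Q 0 ≤ Q t := fun t => by
    rw [hQv, hQv, zero_add]; exact hmin _
  obtain ⟨s0, hs0, hmax⟩ := isCompact_Icc.exists_isMaxOn (nonempty_Icc.2 (zero_le_one (α := ℝ)))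
    hQc.continuousOn
  have hmax' : ∀ t ∈ Icc (0:ℝ) 1, Q t ≤ Q s0 := fun t ht => hmax ht
  have shift : ∀ F : ℝ → ℝ, Function.Periodic F 1 →
      ∫ s in (0:ℝ)..1, F (s + t1) = ∫ s in (0:ℝ)..1, F s := by
    intro F hF
    have := SLABE_shift hF (-t1)
    simpa [sub_neg_eq_add] using this
  have hdQ : ∀ s, deriv Q s = deriv q (s + t1) := by
    intro s
    rw [hQd, deriv_comp_add_const]
  have hdp : Function.Periodic (deriv q) 1 := by
    intro s
    rw [← deriv_comp_add_const q 1 s]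
    congr 1
    funext y
    exact hper y
  have hvarQ : ∫ t in (0:ℝ)..1, |deriv Q t| ≤ 2 + δ := by
    simp_rw [hdQ]
    rw [shift (fun s => |deriv q s|) (fun s => by simp only [hdp s])]
    exact hvar
  have herrQ : ∫ t in (0:ℝ)..1, Q t * (1 - Q t) ≤ δ := by
    simp_rw [hQv]
    rw [shift (fun s => q s * (1 - q s)) (fun s => by simp only [hper s])]
    exact herr
  have hmeanQ : |(∫ t in (0:ℝ)..1, Q t) - V| ≤ δ := by
    simp_rw [hQv]
    rw [shift q hp]
    exact hmean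
  have hQi : IntervalIntegrable Q volume 0 1 := hQc.intervalIntegrable _ _
  have hei : IntervalIntegrable (fun t => Q t * (1 - Q t)) volume 0 1 := by
    apply Continuous.intervalIntegrable
    fun_prop
  rw [abs_le] at hmeanQ
  have hVV : 0 < V * (1 - V) := mul_pos hV0 (by linarith)
  -- the maximum is almost one
  have hMx : (1 - Q s0) * V ≤ 2 * δ := by
    have h1 : ∫ t in (0:ℝ)..1, (1 - Q s0) * Q t ≤ ∫ t in (0:ℝ)..1, Q t * (1 - Q t) :=
      intervalIntegral.integral_mono_on zero_le_one (hQi.const_mul _) hei fun t ht => by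
        have := hmax' t ht
        have := hQ0 t
        nlinarith
    rw [intervalIntegral.integral_const_mul] at h1
    have h2 : 0 ≤ 1 - Q s0 := by linarith [hQ1 s0]
    have h3 : 1 - Q s0 ≤ 1 := by linarith [hQ0 s0]
    nlinarith
  -- the minimum is almost zero
  have hmn : Q 0 * (1 - V) ≤ 2 * δ := by
    have h1 : ∫ t in (0:ℝ)..1, Q 0 * (1 - Q t) ≤ ∫ t in (0:ℝ)..1, Q t * (1 - Q t) :=
      intervalIntegral.integral_mono_on zero_le_one
        ((intervalIntegrable_const.sub hQi).const_mul _) hei fun t ht => by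
        have := hQmin t
        have := hQ1 t
        nlinarith
    rw [intervalIntegral.integral_const_mul, intervalIntegral.integral_sub
      intervalIntegrable_const hQi] at h1
    simp only [intervalIntegral.integral_const, sub_zero, smul_eq_mul, mul_one] at h1
    have h2 : 0 ≤ Q 0 := hQ0 0
    have h3 : Q 0 ≤ 1 := hQ1 0
    nlinarith
  have hM1 : 1 - Q s0 ≤ 1 / 10 := by
    have : (1 - Q s0) * V ≤ (1 / 10) * V := by nlinarith
    exact le_of_mul_le_mul_right this hV0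
  have hm1 : Q 0 ≤ 1 / 10 := by
    have : Q 0 * (1 - V) ≤ (1 / 10) * (1 - V) := by nlinarith
    exact le_of_mul_le_mul_right this (by linarith)
  have hδ' : δ ≤ 1 / 80 := by nlinarith [sq_nonneg (V - 1 / 2)]
  obtain ⟨a, b, ha, hab, hb, g1, g2, g3⟩ := SLABE_norm hQ hs0 h01 (by linarith) (by linarith)
    (hvarQ.trans (by linarith))
  have hfin := SLABE_est hQ hQ0 hQ1 hV0.le hV1.le ha hab hb g1 g2 g3 herrQ
    (abs_le.2 hmeanQ)
  refine ⟨a + t1, ?_⟩
  have hP : Function.Periodic (fun t => |q t - SLABE_chi V (t - (a + t1))|) 1 := by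
    intro t
    have : t + 1 - (a + t1) = (t - (a + t1)) + 1 := by ring
    simp only [hper t, this, SLABE_chi_per V (t - (a + t1))]
  rw [← shift _ hP]
  refine le_trans (le_of_eq ?_) hfin
  congr 1
  funext s
  rw [hQv]
  congr 3
  ring

end Vale.Agent.P232
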