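import Vale.Agent.P232U.Defs
import Vale.Agent.P232U.Nm1
import Vale.Agent.P232U.SlabE1
import Vale.Agent.P232.Shift
import Vale.Agent.P232.SliceArea
import Vale.Agent.P232.Joint

/-! # P232U, module SLABE: sets invariant in two directions (helper48) -/

open MeasureTheory Set Filter Topology

namespace Vale.Agent.P232

/-- indicator function of `E` -/
noncomputable def SLABE_I (E : Set (Fin 3 → ℝ)) (x : Fin 3 → ℝ) : ℝ :=
  E.indicator (fun _ => (1 : ℝ)) x

theorem SLABE_I_mem (E : Set (Fin 3 → ℝ)) (x : Fin 3 → ℝ) : 0 ≤ SLABE_I E x ∧ SLABE_I E x ≤ 1 := by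
  unfold SLABE_I
  by_cases h : x ∈ E
  · rw [Set.indicator_of_mem h]; norm_num
  · rw [Set.indicator_of_notMem h]; norm_num

theorem SLABE_I_meas {E : Set (Fin 3 → ℝ)} (hE : MeasurableSet E) : Measurable (SLABE_I E) :=
  measurable_const.indicator hE

theorem SLABE_I_per {E : Set (Fin 3 → ℝ)} (hE : IsPerSet E) : IsPer (SLABE_I E) := by
  intro x k
  unfold SLABE_I
  by_cases h : x ∈ E
  · rw [Set.indicator_of_mem h, Set.indicator_of_mem ((hE x k).2 h)]
  · rw [Set.indicator_of_notMem h, Set.indicator_of_notMem (fun h2 => h ((hE x k).1 h2))]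

/-- bounded measurable functions are integrable on the cell -/
theorem SLABE_int {n : ℕ} {F : (Fin n → ℝ) → ℝ} (hF : Measurable F) {K : ℝ}
    (hK : ∀ x, |F x| ≤ K) : IntegrableOn F (cell n) :=
  Integrable.of_bound hF.aestronglyMeasurable K (Eventually.of_forall hK)

/-- translation invariance of `E` up to null sets -/
def SLABE_T (E : Set (Fin 3 → ℝ)) (u : Fin 3 → ℝ) : Prop :=
  ∫ x in cell 3, |SLABE_I E x - SLABE_I E (x + u)| = 0

theorem SLABE_T_of {E : Set (Fin 3 → ℝ)} {j : Fin 3} (h : InvDir E j) (a : ℝ) :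
    SLABE_T E (Pi.single j a) := by
  have h1 := h a
  unfold AEq at h1
  have hu : ∀ x : Fin 3 → ℝ, Function.update x j (x j + a) = x + Pi.single j a := by
    intro x
    funext m
    by_cases hm : m = j
    · subst hm; simp
    · simp [hm]
  unfold SLABE_T
  have h2 : ∀ᵐ x ∂(volume.restrict (cell 3)), |SLABE_I E x - SLABE_I E (x + Pi.single j a)| = 0 := by
    rw [ae_restrict_iff' (sl_cell_meas 3)]
    have h3 := measure_eq_zero_iff_ae_notMem.1 h1
    filter_upwards [h3] with x hx hxc
    have h4 : x ∉ symmDiff E {x | Function.update x j (x j + a) ∈ E} := fun h5 => hx ⟨h5, hxc⟩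
    have h5 : x ∈ E ↔ x + Pi.single j a ∈ E := by
      rw [Set.mem_symmDiff] at h4
      push Not at h4
      constructor
      · intro h6
        have := h4.1 h6
        simp only [Set.mem_ofPred_eq, hu] at this
        exact this
      · intro h6
        exact h4.2 (by simp only [Set.mem_ofPred_eq, hu]; exact h6)
    unfold SLABE_I
    by_cases h6 : x ∈ E
    · rw [Set.indicator_of_mem h6, Set.indicator_of_mem (h5.1 h6)]; simp
    · rw [Set.indicator_of_notMem h6, Set.indicator_of_notMem (fun h7 => h6 (h5.2 h7))]; simp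
  rw [integral_congr_ae h2]
  simp

theorem SLABE_T_add {E : Set (Fin 3 → ℝ)} (hE : MeasurableSet E) (hper : IsPerSet E)
    {u v : Fin 3 → ℝ} (hu : SLABE_T E u) (hv : SLABE_T E v) : SLABE_T E (u + v) := by
  unfold SLABE_T at *
  have hm := SLABE_I_meas hE
  have hb := SLABE_I_mem E
  have hpI := SLABE_I_per hper
  have e : ∫ x in cell 3, |SLABE_I E (x + u) - SLABE_I E (x + u + v)| = 0 := by
    have hp : IsPer (fun x => |SLABE_I E x - SLABE_I E (x + v)|) := by
      intro x k
      have : x + (fun i => ((k i : ℤ) : ℝ)) + v = x + v + fun i => ((k i : ℤ) : ℝ) := by abel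
      simp only [this, hpI x k, hpI (x + v) k]
    rw [← hv, ← B1_integral_shift hp u]
  have i1 : IntegrableOn (fun x => |SLABE_I E x - SLABE_I E (x + u)|) (cell 3) :=
    SLABE_int (K := 1) (by fun_prop) fun x => by
      rw [abs_abs, abs_le]
      constructor <;> linarith [(hb x).1, (hb x).2, (hb (x + u)).1, (hb (x + u)).2]
  have i2 : IntegrableOn (fun x => |SLABE_I E (x + u) - SLABE_I E (x + u + v)|) (cell 3) :=
    SLABE_int (K := 1) (by fun_prop) fun x => by
      rw [abs_abs, abs_le]
      constructor <;> linarith [(hb (x + u)).1, (hb (x + u)).2, (hb (x + u + v)).1,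
        (hb (x + u + v)).2]
  have i3 : IntegrableOn (fun x => |SLABE_I E x - SLABE_I E (x + (u + v))|) (cell 3) :=
    SLABE_int (K := 1) (by fun_prop) fun x => by
      rw [abs_abs, abs_le]
      constructor <;> linarith [(hb x).1, (hb x).2, (hb (x + (u + v))).1, (hb (x + (u + v))).2]
  apply le_antisymm
  · have h1 : ∫ x in cell 3, |SLABE_I E x - SLABE_I E (x + (u + v))| ≤
        ∫ x in cell 3, (|SLABE_I E x - SLABE_I E (x + u)| +
          |SLABE_I E (x + u) - SLABE_I E (x + u + v)|) := by
      refine integral_mono i3 (i1.add i2) fun x => ?_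
      have := abs_sub_le (SLABE_I E x) (SLABE_I E (x + u)) (SLABE_I E (x + u + v))
      simp only [← add_assoc]
      exact this
    rw [integral_add i1 i2, hu, e] at h1
    simpa using h1
  · exact integral_nonneg fun x => abs_nonneg _

theorem SLABE_T_all {E : Set (Fin 3 → ℝ)} (hE : MeasurableSet E) (hper : IsPerSet E) {i : Fin 3}
    (hinv : ∀ j, j ≠ i → InvDir E j) (y : Fin 2 → ℝ) :
    SLABE_T E (i.insertNth 0 y : Fin 3 → ℝ) := by
  have e : (i.insertNth 0 y : Fin 3 → ℝ) =
      Pi.single (i.succAbove 0) (y 0) + Pi.single (i.succAbove 1) (y 1) := by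
    funext m
    rcases Fin.eq_self_or_eq_succAbove i m with rfl | ⟨k, rfl⟩
    · simp [Fin.ne_succAbove]
    · rw [Fin.insertNth_apply_succAbove]
      fin_cases k <;> simp [Fin.succAbove_right_injective.eq_iff]
  rw [e]
  exact SLABE_T_add hE hper (SLABE_T_of (hinv _ (Fin.succAbove_ne i 0)) _)
    (SLABE_T_of (hinv _ (Fin.succAbove_ne i 1)) _)

/-- translates of a function close to `E` -/
theorem SLABE_trans {E : Set (Fin 3 → ℝ)} (hE : MeasurableSet E) (hper : IsPerSet E)
    {f : (Fin 3 → ℝ) → ℝ} (hf : Nice f) {u : Fin 3 → ℝ} (hu : SLABE_T E u) :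
    ∫ x in cell 3, |f x - f (x + u)| ≤ 2 * ∫ x in cell 3, |f x - SLABE_I E x| := by
  have hm := SLABE_I_meas hE
  have hb := SLABE_I_mem E
  have hpI := SLABE_I_per hper
  have hfm : Measurable f := hf.smooth.continuous.measurable
  have hf0 := hf.nonneg
  have hf1 := hf.le_one
  have i1 : IntegrableOn (fun x => |f x - SLABE_I E x|) (cell 3) :=
    SLABE_int (K := 1) (by fun_prop) fun x => by
      rw [abs_abs, abs_le]
      constructor <;> linarith [(hb x).1, (hb x).2, hf0 x, hf1 x]
  have i2 : IntegrableOn (fun x => |SLABE_I E x - SLABE_I E (x + u)|) (cell 3) :=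
    SLABE_int (K := 1) (by fun_prop) fun x => by
      rw [abs_abs, abs_le]
      constructor <;> linarith [(hb x).1, (hb x).2, (hb (x + u)).1, (hb (x + u)).2]
  have i3 : IntegrableOn (fun x => |f (x + u) - SLABE_I E (x + u)|) (cell 3) :=
    SLABE_int (K := 1) (by fun_prop) fun x => by
      rw [abs_abs, abs_le]
      constructor <;> linarith [(hb (x + u)).1, (hb (x + u)).2, hf0 (x + u), hf1 (x + u)]
  have i4 : IntegrableOn (fun x => |f x - f (x + u)|) (cell 3) :=
    SLABE_int (K := 1) (by fun_prop) fun x => by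
      rw [abs_abs, abs_le]
      constructor <;> linarith [hf0 x, hf1 x, hf0 (x + u), hf1 (x + u)]
  have e : ∫ x in cell 3, |f (x + u) - SLABE_I E (x + u)| = ∫ x in cell 3, |f x - SLABE_I E x| := by
    have hp : IsPer (fun x => |f x - SLABE_I E x|) := by
      intro x k
      simp only [hf.per x k, hpI x k]
    exact B1_integral_shift hp u
  have h1 : ∫ x in cell 3, |f x - f (x + u)| ≤ ∫ x in cell 3, (|f x - SLABE_I E x| +
      |SLABE_I E x - SLABE_I E (x + u)| + |f (x + u) - SLABE_I E (x + u)|) := by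
    refine integral_mono i4 ((i1.add i2).add i3) fun x => ?_
    have h1 := abs_sub_le (f x) (SLABE_I E x) (f (x + u))
    have h2 := abs_sub_le (SLABE_I E x) (SLABE_I E (x + u)) (f (x + u))
    rw [abs_sub_comm (SLABE_I E (x + u)) (f (x + u))] at h2
    linarith
  have e5 : ∫ x in cell 3, (|f x - SLABE_I E x| + |SLABE_I E x - SLABE_I E (x + u)| +
      |f (x + u) - SLABE_I E (x + u)|) = (∫ x in cell 3, |f x - SLABE_I E x|) +
      (∫ x in cell 3, |SLABE_I E x - SLABE_I E (x + u)|) +
      ∫ x in cell 3, |f (x + u) - SLABE_I E (x + u)| := by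
    have g2 := integral_add i1 i2
    rw [← g2]
    exact integral_add (i1.add i2) i3
  have hu' : ∫ x in cell 3, |SLABE_I E x - SLABE_I E (x + u)| = 0 := hu
  rw [e5, e, hu'] at h1
  linarith

/-- integral of a translate in the two directions -/
theorem SLABE_area {f : (Fin 3 → ℝ) → ℝ} (hf : Nice f) (i : Fin 3) (x : Fin 3 → ℝ) :
    ∫ y in cell 2, f (x + i.insertNth 0 y) = sArea f i (x i) := by
  have hp : IsPer (slice f i (x i)) := (slice_nice hf i (x i)).per
  have h := B1_integral_shift hp (fun m => x (i.succAbove m))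
  unfold sArea
  rw [← h]
  congr 1
  funext y
  unfold slice
  congr 1
  funext m
  rcases Fin.eq_self_or_eq_succAbove i m with rfl | ⟨k, rfl⟩
  · simp
  · simp [add_comm]

theorem SLABE_close {E : Set (Fin 3 → ℝ)} (hE : MeasurableSet E) (hper : IsPerSet E)
    {f : (Fin 3 → ℝ) → ℝ} (hf : Nice f) {i : Fin 3} (hinv : ∀ j, j ≠ i → InvDir E j) :
    ∫ x in cell 3, |f x - sArea f i (x i)| ≤ 2 * ∫ x in cell 3, |f x - SLABE_I E x| := by
  have hfc : Continuous f := hf.smooth.continuous
  have hf0 := hf.nonneg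
  have hf1 := hf.le_one
  have hins : Continuous fun y : Fin 2 → ℝ => (i.insertNth 0 y : Fin 3 → ℝ) :=
    (sl_ins_cont i).comp (continuous_const.prodMk continuous_id)
  have hF : Continuous (Function.uncurry fun (x : Fin 3 → ℝ) (y : Fin 2 → ℝ) =>
      |f x - f (x + i.insertNth 0 y)|) := by
    unfold Function.uncurry
    have h1 : Continuous fun p : (Fin 3 → ℝ) × (Fin 2 → ℝ) => p.1 + (i.insertNth 0 p.2 : Fin 3 → ℝ) :=
      continuous_fst.add (hins.comp continuous_snd)
    exact ((hfc.comp continuous_fst).sub (hfc.comp h1)).abs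
  have hFb : ∀ x y, |f x - f (x + i.insertNth 0 y)| ≤ 1 := fun x y => by
    rw [abs_le]
    constructor <;> linarith [hf0 x, hf1 x, hf0 (x + i.insertNth 0 y), hf1 (x + i.insertNth 0 y)]
  have hFi : Integrable (Function.uncurry fun (x : Fin 3 → ℝ) (y : Fin 2 → ℝ) =>
      |f x - f (x + i.insertNth 0 y)|)
      ((volume.restrict (cell 3)).prod (volume.restrict (cell 2))) :=
    Integrable.of_bound hF.aestronglyMeasurable 1 (Eventually.of_forall fun p => by
      rw [Real.norm_eq_abs]
      simp only [Function.uncurry, abs_abs]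
      exact hFb p.1 p.2)
  have h1 : ∫ x in cell 3, |f x - sArea f i (x i)| ≤
      ∫ x in cell 3, ∫ y in cell 2, |f x - f (x + i.insertNth 0 y)| := by
    refine integral_mono_of_nonneg (Eventually.of_forall fun x => abs_nonneg _)
      hFi.integral_prod_left (Eventually.of_forall fun x => ?_)
    have hi1 : IntegrableOn (fun _ : Fin 2 → ℝ => f x) (cell 2) := integrable_const _
    have hi2 : IntegrableOn (fun y : Fin 2 → ℝ => f (x + i.insertNth 0 y)) (cell 2) :=
      SLABE_int (K := 1) (hfc.comp (continuous_const.add hins)).measurable fun y => by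
        rw [abs_le]
        constructor <;> linarith [hf0 (x + i.insertNth 0 y), hf1 (x + i.insertNth 0 y)]
    have h2 : f x - sArea f i (x i) = ∫ y in cell 2, (f x - f (x + i.insertNth 0 y)) := by
      rw [integral_sub hi1 hi2, SLABE_area hf, setIntegral_const, measureReal_def, sl_cell_vol]
      simp
    show |f x - sArea f i (x i)| ≤ ∫ y in cell 2, |f x - f (x + i.insertNth 0 y)|
    rw [h2]
    exact abs_integral_le_integral_abs
  have h2 : ∫ x in cell 3, ∫ y in cell 2, |f x - f (x + i.insertNth 0 y)| =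
      ∫ y in cell 2, ∫ x in cell 3, |f x - f (x + i.insertNth 0 y)| :=
    integral_integral_swap hFi
  have h3 : ∫ y in cell 2, ∫ x in cell 3, |f x - f (x + i.insertNth 0 y)| ≤
      ∫ _ in cell 2, (2 * ∫ x in cell 3, |f x - SLABE_I E x|) := by
    refine integral_mono_of_nonneg (Eventually.of_forall fun y => integral_nonneg fun x =>
      abs_nonneg _) (integrable_const _) (Eventually.of_forall fun y => ?_)
    exact SLABE_trans hE hper hf (SLABE_T_all hE hper hinv y)
  rw [setIntegral_const, measureReal_def, sl_cell_vol] at h3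
  simp only [ENNReal.toReal_one, one_smul] at h3
  linarith

/-- evaluation at a coordinate preserves the measure of the cell -/
theorem SLABE_eval (i : Fin 3) : MeasurePreserving (fun x : Fin 3 → ℝ => x i)
    (volume.restrict (cell 3)) (volume.restrict (Ico (0:ℝ) 1)) := by
  have hp : IsProbabilityMeasure ((volume : Measure ℝ).restrict (Ico (0:ℝ) 1)) :=
    ⟨by rw [Measure.restrict_apply_univ]; simp⟩
  have h := measurePreserving_eval (fun _ : Fin 3 => volume.restrict (Ico (0:ℝ) 1)) i
  have e : (volume : Measure (Fin 3 → ℝ)).restrict (cell 3) =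
      Measure.pi (fun _ : Fin 3 => volume.restrict (Ico (0:ℝ) 1)) := by
    rw [volume_pi, cell, Measure.restrict_pi_pi]
  rw [e]
  exact h

theorem SLABE_int_eval (i : Fin 3) {φ : ℝ → ℝ} (hφ : Measurable φ) :
    ∫ x in cell 3, φ (x i) = ∫ t in (0:ℝ)..1, φ t := by
  have h := SLABE_eval i
  rw [intervalIntegral.integral_of_le zero_le_one, ← integral_Ico_eq_integral_Ioc, ← h.map_eq,
    integral_map h.measurable.aemeasurable hφ.aestronglyMeasurable]

theorem SLABE_chi_cont {V s : ℝ} (h1 : ∀ n : ℤ, s ≠ n) (h2 : ∀ n : ℤ, s ≠ n + V) :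
    ContinuousAt (SLABE_chi V) s := by
  have hc : ContinuousAt (Int.fract : ℝ → ℝ) s := continuousAt_fract (h1 _)
  have hne : Int.fract s ≠ V := by
    intro h
    apply h2 ⌊s⌋
    rw [← h]
    exact (Int.floor_add_fract s).symm
  rcases lt_or_gt_of_ne hne with h | h
  · have h3 : ∀ᶠ t in 𝓝 s, SLABE_chi V t = 1 := by
      filter_upwards [hc.eventually (Iio_mem_nhds h)] with t ht
      unfold SLABE_chi
      rw [if_pos ht]
    exact (continuousAt_const (y := (1:ℝ))).congr (h3.mono fun t ht => ht.symm)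
  · have h3 : ∀ᶠ t in 𝓝 s, SLABE_chi V t = 0 := by
      filter_upwards [hc.eventually (Ioi_mem_nhds h)] with t ht
      unfold SLABE_chi
      rw [if_neg (not_lt.2 (le_of_lt ht))]
    exact (continuousAt_const (y := (0:ℝ))).congr (h3.mono fun t ht => ht.symm)

/-- the distance of `E` to a slab, as a function of the position -/
noncomputable def SLABE_G (E : Set (Fin 3 → ℝ)) (i : Fin 3) (V a : ℝ) : ℝ :=
  ∫ x in cell 3, |SLABE_I E x - SLABE_chi V (x i - a)|

theorem SLABE_G_cont {E : Set (Fin 3 → ℝ)} (hE : MeasurableSet E) (i : Fin 3) (V : ℝ) :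
    Continuous (SLABE_G E i V) := by
  rw [continuous_iff_continuousAt]
  intro a0
  have hm := SLABE_I_meas hE
  have hb := SLABE_I_mem E
  unfold SLABE_G
  refine continuousAt_of_dominated (bound := fun _ => 1) (Eventually.of_forall fun a => ?_)
    (Eventually.of_forall fun a => Eventually.of_forall fun x => ?_) (integrable_const _) ?_
  · have h2 : Measurable fun x : Fin 3 → ℝ => x i - a := by fun_prop
    have h1 : Measurable fun x : Fin 3 → ℝ => SLABE_chi V (x i - a) :=
      (SLABE_chi_meas V).comp h2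
    exact (hm.sub h1).abs.aestronglyMeasurable
  · rw [Real.norm_eq_abs, abs_abs, abs_le]
    have := SLABE_chi_mem V (x i - a)
    constructor <;> linarith [(hb x).1, (hb x).2, this.1, this.2]
  · -- exceptional set
    have hS : (Set.range (fun n : ℤ => (n : ℝ) + a0) ∪
        Set.range (fun n : ℤ => (n : ℝ) + V + a0)).Countable :=
      (Set.countable_range _).union (Set.countable_range _)
    have h0 : (volume.restrict (cell 3)) ((fun x : Fin 3 → ℝ => x i) ⁻¹'
        (Set.range (fun n : ℤ => (n : ℝ) + a0) ∪ Set.range (fun n : ℤ => (n : ℝ) + V + a0))) = 0 := by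
      rw [(SLABE_eval i).measure_preimage hS.measurableSet.nullMeasurableSet]
      exact measure_mono_null (fun x hx => hx) (hS.measure_zero _)
    filter_upwards [measure_eq_zero_iff_ae_notMem.1 h0] with x hx
    have h1 : ∀ n : ℤ, x i - a0 ≠ n := fun n h => hx (Or.inl ⟨n, by simp only; linarith⟩)
    have h2 : ∀ n : ℤ, x i - a0 ≠ n + V := fun n h => hx (Or.inr ⟨n, by simp only; linarith⟩)
    have h3 := SLABE_chi_cont h1 h2
    have h4 : ContinuousAt (fun a : ℝ => SLABE_chi V (x i - a)) a0 :=
      ContinuousAt.comp (f := fun a : ℝ => x i - a) h3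
        (continuousAt_const.sub continuousAt_id)
    exact (continuousAt_const.sub h4).abs

theorem SLABE_G_fract (E : Set (Fin 3 → ℝ)) (i : Fin 3) (V a : ℝ) :
    SLABE_G E i V (Int.fract a) = SLABE_G E i V a := by
  unfold SLABE_G
  congr 1
  funext x
  have : x i - Int.fract a = (x i - a) + (⌊a⌋ : ℤ) := by
    rw [← Int.self_sub_floor]
    ring
  congr 2
  unfold SLABE_chi
  rw [this, Int.fract_add_intCast]

theorem SLABE_var3 {f : (Fin 3 → ℝ) → ℝ} (hf : Nice f) (i : Fin 3) :
    ∫ z in (0:ℝ)..1, |deriv (sArea f i) z| ≤ 2 * hTV f := by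
  have hdc : Continuous fun x : Fin 3 → ℝ => |fderiv ℝ f x (Pi.single i 1)| :=
    ((hf.smooth.continuous_fderiv one_ne_zero).clm_apply continuous_const).abs
  have h1 : ∫ z in (0:ℝ)..1, |deriv (sArea f i) z| ≤
      ∫ z in (0:ℝ)..1, ∫ y in cell 2, |fderiv ℝ f (i.insertNth z y) (Pi.single i 1)| := by
    refine intervalIntegral.integral_mono_on zero_le_one ?_ ?_ fun z _ => sArea_deriv_le hf i z
    · exact ((sArea_contDiff hf i).continuous_deriv le_rfl).abs.intervalIntegrable _ _
    · refine Continuous.intervalIntegrable ?_ _ _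
      exact e3_cont_param (F := fun z y => |fderiv ℝ f (i.insertNth z y) (Pi.single i 1)|)
        (hdc.comp (sl_ins_cont i))
  rw [← fubini_slice hdc i] at h1
  have h2 : ∫ x in cell 3, |fderiv ℝ f x (Pi.single i 1)| ≤ ∫ x in cell 3, gradN f x := by
    refine integral_mono (e3_int hdc) (e3_int (e3_gradN hf.smooth)) fun x => ?_
    unfold gradN
    rw [← Real.sqrt_sq_eq_abs]
    exact Real.sqrt_le_sqrt (Finset.single_le_sum
      (f := fun m => (fderiv ℝ f x (Pi.single m 1)) ^ 2) (fun _ _ => sq_nonneg _)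
      (Finset.mem_univ i))
  unfold hTV
  linarith

theorem SLABE_small {E : Set (Fin 3 → ℝ)} (hE : MeasurableSet E) (hper : IsPerSet E)
    {f : (Fin 3 → ℝ) → ℝ} (hf : Nice f) {i : Fin 3} (hinv : ∀ j, j ≠ i → InvDir E j)
    (h0 : 0 < vol E) (h1 : vol E < 1) {δ : ℝ} (hδ0 : 0 ≤ δ)
    (hδ : δ ≤ vol E * (1 - vol E) / 20) (htv : hTV f ≤ 1 + δ / 2)
    (hl : ∫ x in cell 3, |f x - SLABE_I E x| ≤ δ / 3) :
    ∃ a ∈ Icc (0:ℝ) 1, SLABE_G E i (vol E) a ≤ 10 * δ := by
  have hm := SLABE_I_meas hE
  have hb := SLABE_I_mem E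
  have hfm : Measurable f := hf.smooth.continuous.measurable
  have hf0 := hf.nonneg
  have hf1 := hf.le_one
  have hq := sArea_contDiff hf i
  have hqm : Measurable (sArea f i) := hq.continuous.measurable
  have hqmem := sl_area_mem hf i
  have hqi : Measurable fun x : Fin 3 → ℝ => sArea f i (x i) := hqm.comp (measurable_pi_apply i)
  have hclose := SLABE_close hE hper hf hinv
  have i1 : IntegrableOn (fun x => |f x - SLABE_I E x|) (cell 3) :=
    SLABE_int (K := 1) (by fun_prop) fun x => by
      rw [abs_abs, abs_le]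
      constructor <;> linarith [(hb x).1, (hb x).2, hf0 x, hf1 x]
  have i2 : IntegrableOn (fun x => |f x - sArea f i (x i)|) (cell 3) :=
    SLABE_int (K := 1) (by fun_prop) fun x => by
      rw [abs_abs, abs_le]
      constructor <;> linarith [(hqmem (x i)).1, (hqmem (x i)).2, hf0 x, hf1 x]
  have i3 : IntegrableOn (fun x => |SLABE_I E x - sArea f i (x i)|) (cell 3) :=
    SLABE_int (K := 1) (by fun_prop) fun x => by
      rw [abs_abs, abs_le]
      constructor <;> linarith [(hqmem (x i)).1, (hqmem (x i)).2, (hb x).1, (hb x).2]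
  have h3 : ∫ x in cell 3, |SLABE_I E x - sArea f i (x i)| ≤ δ := by
    have : ∫ x in cell 3, |SLABE_I E x - sArea f i (x i)| ≤
        ∫ x in cell 3, (|f x - SLABE_I E x| + |f x - sArea f i (x i)|) := by
      refine integral_mono i3 (i1.add i2) fun x => ?_
      have := abs_sub_le (SLABE_I E x) (f x) (sArea f i (x i))
      rw [abs_sub_comm (SLABE_I E x) (f x)] at this
      exact this
    rw [integral_add i1 i2] at this
    linarith
  -- error
  have herr : ∫ t in (0:ℝ)..1, sArea f i t * (1 - sArea f i t) ≤ δ := by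
    rw [← SLABE_int_eval i (φ := fun t => sArea f i t * (1 - sArea f i t)) (by fun_prop)]
    refine le_trans (integral_mono ?_ i3 fun x => ?_) h3
    · refine SLABE_int (K := 1) (by fun_prop) fun x => ?_
      have := hqmem (x i)
      rw [abs_le]
      constructor <;> nlinarith [this.1, this.2]
    · have h4 := hqmem (x i)
      simp only
      by_cases hx : x ∈ E
      · have : SLABE_I E x = 1 := Set.indicator_of_mem hx _
        rw [this, abs_of_nonneg (by linarith [h4.2])]
        nlinarith [h4.1, h4.2]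
      · have : SLABE_I E x = 0 := Set.indicator_of_notMem hx _
        rw [this, zero_sub, abs_neg, abs_of_nonneg h4.1]
        nlinarith [h4.1, h4.2]
  -- mean
  have hmean : |(∫ t in (0:ℝ)..1, sArea f i t) - vol E| ≤ δ := by
    have e1 : ∫ t in (0:ℝ)..1, sArea f i t = ∫ x in cell 3, f x :=
      (fubini_slice hf.smooth.continuous i).symm
    have e2 : vol E = ∫ x in cell 3, SLABE_I E x := (nm1_vol_eq hE).symm
    have hfi : IntegrableOn f (cell 3) := e3_int hf.smooth.continuous
    have hIi : IntegrableOn (SLABE_I E) (cell 3) := nm1_int_E hE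
    rw [e1, e2, ← integral_sub hfi hIi]
    refine le_trans abs_integral_le_integral_abs ?_
    refine le_trans hl (by linarith)
  have hvar : ∫ t in (0:ℝ)..1, |deriv (sArea f i) t| ≤ 2 + δ := by
    refine (SLABE_var3 hf i).trans (by linarith)
  obtain ⟨c, hc⟩ := SLABE_oneD hq (fun t => sArea_per hf i t) (fun t => (hqmem t).1)
    (fun t => (hqmem t).2) h0 h1 hδ0 hδ hvar herr hmean
  refine ⟨Int.fract c, ⟨Int.fract_nonneg _, (Int.fract_lt_one _).le⟩, ?_⟩
  rw [SLABE_G_fract]
  have hχ0 : Measurable fun x : Fin 3 → ℝ => x i - c := by fun_prop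
  have hχ : Measurable fun x : Fin 3 → ℝ => SLABE_chi (vol E) (x i - c) :=
    (SLABE_chi_meas _).comp hχ0
  have i4 : IntegrableOn (fun x : Fin 3 → ℝ => |sArea f i (x i) - SLABE_chi (vol E) (x i - c)|)
      (cell 3) :=
    SLABE_int (K := 1) (hqi.sub hχ).abs fun x => by
      have := SLABE_chi_mem (vol E) (x i - c)
      rw [abs_abs, abs_le]
      constructor <;> linarith [(hqmem (x i)).1, (hqmem (x i)).2, this.1, this.2]
  have i5 : IntegrableOn (fun x : Fin 3 → ℝ => |SLABE_I E x - SLABE_chi (vol E) (x i - c)|)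
      (cell 3) :=
    SLABE_int (K := 1) (hm.sub hχ).abs fun x => by
      have := SLABE_chi_mem (vol E) (x i - c)
      rw [abs_abs, abs_le]
      constructor <;> linarith [(hb x).1, (hb x).2, this.1, this.2]
  have h5 : ∫ x in cell 3, |sArea f i (x i) - SLABE_chi (vol E) (x i - c)| ≤ 9 * δ := by
    rw [SLABE_int_eval i (φ := fun t => |sArea f i t - SLABE_chi (vol E) (t - c)|)
      (hqm.sub ((SLABE_chi_meas _).comp (measurable_id.sub_const c))).abs]
    exact hc
  unfold SLABE_G
  have h6 : ∫ x in cell 3, |SLABE_I E x - SLABE_chi (vol E) (x i - c)| ≤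
      ∫ x in cell 3, (|SLABE_I E x - sArea f i (x i)| +
        |sArea f i (x i) - SLABE_chi (vol E) (x i - c)|) :=
    integral_mono i5 (i3.add i4) fun x => abs_sub_le _ _ _
  rw [integral_add i3 i4] at h6
  linarith

theorem slab_end {E : Set (Fin 3 → ℝ)} {f : ℕ → (Fin 3 → ℝ) → ℝ} {J : ℝ} (hJ : J ≤ 1)
    (h : NM J E f) (h0 : 0 < vol E) (h1 : vol E < 1) (i : Fin 3)
    (hinv : ∀ j, j ≠ i → InvDir E j) : ∃ a, AEq E (slabT i a (vol E)) := by
  have hVV : 0 < vol E * (1 - vol E) := mul_pos h0 (by linarith)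
  have hGc := SLABE_G_cont h.meas i (vol E)
  obtain ⟨a, -, ha⟩ := isCompact_Icc.exists_isMinOn (nonempty_Icc.2 (zero_le_one (α := ℝ)))
    hGc.continuousOn
  have hG0 : 0 ≤ SLABE_G E i (vol E) a := integral_nonneg fun x => abs_nonneg _
  have hGz : SLABE_G E i (vol E) a = 0 := by
    refine le_antisymm (le_of_forall_pos_le_add fun η hη => ?_) hG0
    rw [zero_add]
    obtain ⟨δ, hδ⟩ : ∃ δ, δ = min (η / 10) (vol E * (1 - vol E) / 20) := ⟨_, rfl⟩
    have hδ0 : 0 < δ := by
      rw [hδ]
      exact lt_min (by linarith) (by linarith)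
    have hδ1 : δ ≤ η / 10 := by rw [hδ]; exact min_le_left _ _
    have hδ2 : δ ≤ vol E * (1 - vol E) / 20 := by rw [hδ]; exact min_le_right _ _
    have e1 := h.tv (δ / 2) (by linarith)
    have e2 := h.l1.eventually (Iio_mem_nhds (show (0:ℝ) < δ / 3 by linarith))
    obtain ⟨k, hk1, hk2⟩ := (e1.and e2).exists
    obtain ⟨b, hb, hbG⟩ := SLABE_small h.meas h.per (h.nice k) hinv h0 h1 hδ0.le hδ2
      (by linarith) (le_of_lt hk2)
    exact (ha hb).trans (hbG.trans (by linarith))
  refine ⟨a, ?_⟩
  have hm := SLABE_I_meas h.meas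
  have hb := SLABE_I_mem E
  have hχ0 : Measurable fun x : Fin 3 → ℝ => x i - a := by fun_prop
  have hχ : Measurable fun x : Fin 3 → ℝ => SLABE_chi (vol E) (x i - a) :=
    (SLABE_chi_meas _).comp hχ0
  have i5 : IntegrableOn (fun x : Fin 3 → ℝ => |SLABE_I E x - SLABE_chi (vol E) (x i - a)|)
      (cell 3) :=
    SLABE_int (K := 1) (hm.sub hχ).abs fun x => by
      have := SLABE_chi_mem (vol E) (x i - a)
      rw [abs_abs, abs_le]
      constructor <;> linarith [(hb x).1, (hb x).2, this.1, this.2]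
  have h2 := (integral_eq_zero_iff_of_nonneg (fun x => abs_nonneg _) i5).1 hGz
  have h3 : ∀ᵐ x ∂(volume.restrict (cell 3)), x ∉ symmDiff E (slabT i a (vol E)) := by
    filter_upwards [h2] with x hx hxs
    have hx' : SLABE_I E x = SLABE_chi (vol E) (x i - a) := by
      have : |SLABE_I E x - SLABE_chi (vol E) (x i - a)| = 0 := hx
      rw [abs_eq_zero] at this
      linarith
    unfold SLABE_chi SLABE_I at hx'
    rw [Set.mem_symmDiff] at hxs
    rcases hxs with ⟨g1, g2⟩ | ⟨g1, g2⟩
    · have g2' : ¬ Int.fract (x i - a) < vol E := g2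
      rw [Set.indicator_of_mem g1, if_neg g2'] at hx'
      norm_num at hx'
    · have g1' : Int.fract (x i - a) < vol E := g1
      rw [Set.indicator_of_notMem g2, if_pos g1'] at hx'
      norm_num at hx'
  unfold AEq
  rw [ae_restrict_iff' (sl_cell_meas 3)] at h3
  rw [measure_eq_zero_iff_ae_notMem]
  filter_upwards [h3] with x hx hxx
  exact hx hxx.2 hxx.1

end Vale.Agent.P232
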