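import Vale.Agent.P232.ArcVar
import Vale.Agent.P232.SliceArea
import Vale.Agent.P232.Fubini
import Vale.Agent.P232U.Dir
import Vale.Agent.P232U.Inv

/-! # P232U, module SLABI: the slab case, invariance in the other directions (helper36) -/

open MeasureTheory Set Filter Topology

namespace Vale.Agent.P232

theorem SLABI_osc {f : (Fin 3 → ℝ) → ℝ} (hf : Nice f) (i : Fin 3) {ε : ℝ} {z₁ z₂ : ℝ}
    (h1 : sArea f i z₁ ≤ ε) (h2 : 1 - ε ≤ sArea f i z₂) :
    1 - 2 * ε ≤ (1 / 2) * ∫ x in cell 3, |fderiv ℝ f x (Pi.single i 1)| := by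
  have hcd := sArea_contDiff hf i
  have hD := j3_d_cont hf i
  have e1 : ∫ x in cell 3, |fderiv ℝ f x (Pi.single i 1)|
      = ∫ z in (0:ℝ)..1, ∫ y in cell 2, |fderiv ℝ f (i.insertNth z y) (Pi.single i 1)| :=
    fubini_slice hD.abs i
  have hcin : Continuous fun z : ℝ => ∫ y in cell 2, |fderiv ℝ f (i.insertNth z y) (Pi.single i 1)| :=
    e3_cont_param (F := fun z y => |fderiv ℝ f (i.insertNth z y) (Pi.single i 1)|)
      (hD.abs.comp (sl_ins_cont i))
  have e2 : ∫ z in (0:ℝ)..1, |deriv (sArea f i) z| ≤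
      ∫ z in (0:ℝ)..1, ∫ y in cell 2, |fderiv ℝ f (i.insertNth z y) (Pi.single i 1)| := by
    refine intervalIntegral.integral_mono_on zero_le_one ?_ ?_ fun z _ => sArea_deriv_le hf i z
    · exact ((hcd.continuous_deriv le_rfl).abs).intervalIntegrable _ _
    · exact hcin.intervalIntegrable _ _
  rcases le_total (sArea f i z₁) (sArea f i z₂) with hle | hle
  · have e3 := arc_var hcd (sArea_per hf i) (S := fun _ => 1) continuous_const
      (fun _ => zero_le_one) hle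
    simp only [intervalIntegral.integral_const, smul_eq_mul, mul_one, one_mul] at e3
    rw [e1]
    linarith
  · have : 0 ≤ ∫ x in cell 3, |fderiv ℝ f x (Pi.single i 1)| :=
      integral_nonneg fun _ => abs_nonneg _
    linarith

theorem slab_inv {E : Set (Fin 3 → ℝ)} {f : ℕ → (Fin 3 → ℝ) → ℝ} {J : ℝ} (hJ : J ≤ 1)
    (h : NM J E f) (i : Fin 3) (hb : ∀ ε > 0, ∃ᶠ k in atTop,
      (∃ z, sArea (f k) i z ≤ ε) ∧ ∃ z, 1 - ε ≤ sArea (f k) i z) :
    ∀ j, j ≠ i → InvDir E j := by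
  intro j hj
  refine inv_of_deriv h j fun ε hε => ?_
  set e := min 1 (ε ^ 2 / 48) with he
  have he0 : 0 < e := lt_min one_pos (by positivity)
  have he1 : e ≤ 1 := min_le_left _ _
  have he2 : 48 * e ≤ ε ^ 2 := by
    have : e ≤ ε ^ 2 / 48 := min_le_right _ _
    linarith
  refine ((hb e he0).and_eventually (h.tv e he0)).mono ?_
  rintro k ⟨⟨⟨z₁, h1⟩, ⟨z₂, h2⟩⟩, h3⟩
  have hf := h.nice k
  have h4 := SLABI_osc hf i h1 h2
  have h5 := dir_cs2 hf (Ne.symm hj)
  have h6 : 0 ≤ hTV (f k) := by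
    unfold hTV
    have : 0 ≤ ∫ x in cell 3, gradN (f k) x := integral_nonneg fun _ => Real.sqrt_nonneg _
    linarith
  have h7 : hTV (f k) ≤ 1 + e := by linarith
  have h8 : hTV (f k) - (1 / 2) * ∫ x in cell 3, |fderiv ℝ (f k) x (Pi.single i 1)| ≤ 3 * e := by
    linarith
  have h9 : (∫ x in cell 3, |fderiv ℝ (f k) x (Pi.single j 1)|) ^ 2 ≤ ε ^ 2 := by
    refine h5.trans ?_
    have h10 : 8 * hTV (f k) * (hTV (f k) -
        (1 / 2) * ∫ x in cell 3, |fderiv ℝ (f k) x (Pi.single i 1)|) ≤ 8 * hTV (f k) * (3 * e) :=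
      mul_le_mul_of_nonneg_left h8 (by positivity)
    nlinarith
  have h10 : 0 ≤ ∫ x in cell 3, |fderiv ℝ (f k) x (Pi.single j 1)| :=
    integral_nonneg fun _ => abs_nonneg _
  exact (sq_le_sq₀ h10 hε.le).1 h9

end Vale.Agent.P232
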