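import Vale.Agent.P232U.SlabE

/-! # P232U: sets invariant in two directions have perimeter at least one (helper48) -/

open MeasureTheory Set Filter Topology

namespace Vale.Agent.P232

theorem SLONE_oneD {q : ℝ → ℝ} (hq : ContDiff ℝ 1 q) (hper : ∀ t, q (t + 1) = q t)
    (hq0 : ∀ t, 0 ≤ q t) (hq1 : ∀ t, q t ≤ 1) {V δ : ℝ} (hV0 : 0 < V) (hV1 : V < 1)
    (herr : ∫ t in (0:ℝ)..1, q t * (1 - q t) ≤ δ) (hmean : |(∫ t in (0:ℝ)..1, q t) - V| ≤ δ) :
    2 * (1 - 2 * δ / V - 2 * δ / (1 - V)) ≤ ∫ t in (0:ℝ)..1, |deriv q t| := by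
  have hqc := hq.continuous
  obtain ⟨t1, ht1, hmin⟩ := isCompact_Icc.exists_isMinOn (nonempty_Icc.2 (zero_le_one (α := ℝ)))
    hqc.continuousOn
  obtain ⟨t2, ht2, hmax⟩ := isCompact_Icc.exists_isMaxOn (nonempty_Icc.2 (zero_le_one (α := ℝ)))
    hqc.continuousOn
  have hmin' : ∀ t ∈ Icc (0:ℝ) 1, q t1 ≤ q t := fun t ht => hmin ht
  have hmax' : ∀ t ∈ Icc (0:ℝ) 1, q t ≤ q t2 := fun t ht => hmax ht
  have hqi : IntervalIntegrable q volume 0 1 := hqc.intervalIntegrable _ _
  have hei : IntervalIntegrable (fun t => q t * (1 - q t)) volume 0 1 := by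
    apply Continuous.intervalIntegrable
    fun_prop
  rw [abs_le] at hmean
  have hδ0 : 0 ≤ δ := by linarith [hmean.1, hmean.2]
  -- the maximum is almost one
  have hMx : (1 - q t2) * V ≤ 2 * δ := by
    have h1 : ∫ t in (0:ℝ)..1, (1 - q t2) * q t ≤ ∫ t in (0:ℝ)..1, q t * (1 - q t) :=
      intervalIntegral.integral_mono_on zero_le_one (hqi.const_mul _) hei fun t ht => by
        have := hmax' t ht
        have := hq0 t
        nlinarith
    rw [intervalIntegral.integral_const_mul] at h1
    have h2 : 0 ≤ 1 - q t2 := by linarith [hq1 t2]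
    have h3 : 1 - q t2 ≤ 1 := by linarith [hq0 t2]
    nlinarith
  -- the minimum is almost zero
  have hmn : q t1 * (1 - V) ≤ 2 * δ := by
    have h1 : ∫ t in (0:ℝ)..1, q t1 * (1 - q t) ≤ ∫ t in (0:ℝ)..1, q t * (1 - q t) :=
      intervalIntegral.integral_mono_on zero_le_one
        ((intervalIntegrable_const.sub hqi).const_mul _) hei fun t ht => by
        have := hmin' t ht
        have := hq1 t
        nlinarith
    rw [intervalIntegral.integral_const_mul, intervalIntegral.integral_sub
      intervalIntegrable_const hqi] at h1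
    simp only [intervalIntegral.integral_const, sub_zero, smul_eq_mul, mul_one] at h1
    have h2 : 0 ≤ q t1 := hq0 t1
    have h3 : q t1 ≤ 1 := hq1 t1
    nlinarith
  have hM : 1 - q t2 ≤ 2 * δ / V := by
    rw [le_div_iff₀ hV0]
    exact hMx
  have hm : q t1 ≤ 2 * δ / (1 - V) := by
    rw [le_div_iff₀ (by linarith)]
    exact hmn
  have h01 : q 1 = q 0 := by
    have := hper 0
    rwa [zero_add] at this
  have key : 2 * (q t2 - q t1) ≤ ∫ t in (0:ℝ)..1, |deriv q t| := by
    have A := fun x : ℝ => le_abs_self x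
    have B := fun x : ℝ => neg_abs_le x
    rcases le_total t1 t2 with h | h
    · have h2 := SLABE_var hq ht1.1 h ht2.2 le_rfl
      linarith [B (q t1 - q 0), A (q t2 - q t1), B (q 1 - q t2), abs_nonneg (q 1 - q 1)]
    · have h2 := SLABE_var hq ht2.1 h ht1.2 le_rfl
      linarith [A (q t2 - q 0), B (q t1 - q t2), A (q 1 - q t1), abs_nonneg (q 1 - q 1)]
  linarith

theorem SLONE_small {E : Set (Fin 3 → ℝ)} (hE : MeasurableSet E) (hper : IsPerSet E)
    {f : (Fin 3 → ℝ) → ℝ} (hf : Nice f) {i : Fin 3} (hinv : ∀ j, j ≠ i → InvDir E j)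
    (h0 : 0 < vol E) (h1 : vol E < 1) {δ : ℝ}
    (hl : ∫ x in cell 3, |f x - SLABE_I E x| ≤ δ / 3) :
    1 - 2 * δ / vol E - 2 * δ / (1 - vol E) ≤ hTV f := by
  have hm := SLABE_I_meas hE
  have hb := SLABE_I_mem E
  have hfm : Measurable f := hf.smooth.continuous.measurable
  have hf0 := hf.nonneg
  have hf1 := hf.le_one
  have hδ0 : 0 ≤ δ := by
    have : 0 ≤ ∫ x in cell 3, |f x - SLABE_I E x| := integral_nonneg fun x => abs_nonneg _
    linarith
  have hq := sArea_contDiff hf i
  have hqm : Measurable (sArea f i) := hq.continuous.measurable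
  have hqmem := sl_area_mem hf i
  have hqi : Measurable fun x : Fin 3 → ℝ => sArea f i (x i) := hqm.comp (measurable_pi_apply i)
  have hclose := SLABE_close hE hper hf hinv
  have i1 : IntegrableOn (fun x => |f x - SLABE_I E x|) (cell 3) :=
    SLABE_int (K := 1) (by fun_prop) fun x => by
      rw [abs_abs, abs_le]
      constructor <;> linarith [(hb x).1, (hb x).2, hf0 x, hf1 x]
  have i2 : IntegrableOn (fun x => |f x - sArea f i (x i)|) (cell 3) :=
    SLABE_int (K := 1) (by fun_prop) fun x => by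
      rw [abs_abs, abs_le]
      constructor <;> linarith [(hqmem (x i)).1, (hqmem (x i)).2, hf0 x, hf1 x]
  have i3 : IntegrableOn (fun x => |SLABE_I E x - sArea f i (x i)|) (cell 3) :=
    SLABE_int (K := 1) (by fun_prop) fun x => by
      rw [abs_abs, abs_le]
      constructor <;> linarith [(hqmem (x i)).1, (hqmem (x i)).2, (hb x).1, (hb x).2]
  have h3 : ∫ x in cell 3, |SLABE_I E x - sArea f i (x i)| ≤ δ := by
    have : ∫ x in cell 3, |SLABE_I E x - sArea f i (x i)| ≤
        ∫ x in cell 3, (|f x - SLABE_I E x| + |f x - sArea f i (x i)|) := by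
      refine integral_mono i3 (i1.add i2) fun x => ?_
      have := abs_sub_le (SLABE_I E x) (f x) (sArea f i (x i))
      rw [abs_sub_comm (SLABE_I E x) (f x)] at this
      exact this
    rw [integral_add i1 i2] at this
    linarith
  -- error
  have herr : ∫ t in (0:ℝ)..1, sArea f i t * (1 - sArea f i t) ≤ δ := by
    rw [← SLABE_int_eval i (φ := fun t => sArea f i t * (1 - sArea f i t)) (by fun_prop)]
    refine le_trans (integral_mono ?_ i3 fun x => ?_) h3
    · refine SLABE_int (K := 1) (by fun_prop) fun x => ?_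
      have := hqmem (x i)
      rw [abs_le]
      constructor <;> nlinarith [this.1, this.2]
    · have h4 := hqmem (x i)
      simp only
      by_cases hx : x ∈ E
      · have : SLABE_I E x = 1 := Set.indicator_of_mem hx _
        rw [this, abs_of_nonneg (by linarith [h4.2])]
        nlinarith [h4.1, h4.2]
      · have : SLABE_I E x = 0 := Set.indicator_of_notMem hx _
        rw [this, zero_sub, abs_neg, abs_of_nonneg h4.1]
        nlinarith [h4.1, h4.2]
  -- mean
  have hmean : |(∫ t in (0:ℝ)..1, sArea f i t) - vol E| ≤ δ := by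
    have e1 : ∫ t in (0:ℝ)..1, sArea f i t = ∫ x in cell 3, f x :=
      (fubini_slice hf.smooth.continuous i).symm
    have e2 : vol E = ∫ x in cell 3, SLABE_I E x := (nm1_vol_eq hE).symm
    have hfi : IntegrableOn f (cell 3) := e3_int hf.smooth.continuous
    have hIi : IntegrableOn (SLABE_I E) (cell 3) := nm1_int_E hE
    rw [e1, e2, ← integral_sub hfi hIi]
    refine le_trans abs_integral_le_integral_abs ?_
    refine le_trans hl (by linarith)
  have h5 := SLONE_oneD hq (fun t => sArea_per hf i t) (fun t => (hqmem t).1)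
    (fun t => (hqmem t).2) h0 h1 herr hmean
  have h6 := SLABE_var3 hf i
  linarith

/-- a periodic set invariant in two directions, with volume strictly between `0` and `1`,
has perimeter at least that of a slab -/
theorem slab_one {E : Set (Fin 3 → ℝ)} {f : ℕ → (Fin 3 → ℝ) → ℝ} {J : ℝ}
    (h : NM J E f) (h0 : 0 < vol E) (h1 : vol E < 1) (i : Fin 3)
    (hinv : ∀ j, j ≠ i → InvDir E j) : 1 ≤ J := by
  refine le_of_forall_pos_le_add fun η hη => ?_
  have hV1 : 0 < 1 - vol E := by linarith
  obtain ⟨δ, hδ⟩ : ∃ δ, δ = η * (vol E * (1 - vol E)) / 4 := ⟨_, rfl⟩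
  have hδ0 : 0 < δ := by
    rw [hδ]
    positivity
  have e1 := h.tv (η / 2) (by linarith)
  have e2 := h.l1.eventually (Iio_mem_nhds (show (0:ℝ) < δ / 3 by linarith))
  obtain ⟨k, hk1, hk2⟩ := (e1.and e2).exists
  have h3 := SLONE_small h.meas h.per (h.nice k) hinv h0 h1 (le_of_lt hk2)
  have e3 : 2 * δ / vol E + 2 * δ / (1 - vol E) = η / 2 := by
    rw [hδ]
    field_simp
    ring
  linarith

end Vale.Agent.P232
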