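import Vale.Agent.P232U.Defs
import Vale.Agent.P232U.Nm1
import Vale.Agent.P232U.Jens
import Vale.Agent.P232U.Htvc
import Vale.Agent.P232U.Flat
import Vale.Agent.P232U.SlabI
import Vale.Agent.P232U.Low2
import Vale.Agent.P232U.Disc1
import Vale.Agent.P232.ArcVar
import Vale.Agent.P232.SliceArea
import Vale.Agent.P232.Slicing

/-!
# P232 uniqueness, module TWODIR: minimizing sequences independent of one direction (helper30)
-/

open MeasureTheory Set Filter Topology

namespace Vale.Agent.P232

theorem TD_quarter : ∫ x in (0:ℝ)..1, Real.sqrt (1 - x ^ 2) = Real.pi / 4 := by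
  have hc : Continuous fun x : ℝ => Real.sqrt (1 - x ^ 2) := by fun_prop
  have h1 : ∫ x in (-1:ℝ)..1, Real.sqrt (1 - x ^ 2) = Real.pi / 2 := integral_sqrt_one_sub_sq
  have h2 : ∫ x in (-1:ℝ)..0, Real.sqrt (1 - x ^ 2) = ∫ x in (0:ℝ)..1, Real.sqrt (1 - x ^ 2) := by
    have h3 := intervalIntegral.integral_comp_neg (a := 0) (b := 1)
      (fun x : ℝ => Real.sqrt (1 - x ^ 2))
    simp only [neg_sq, neg_zero] at h3
    exact h3.symm
  have h4 := intervalIntegral.integral_add_adjacent_intervals
    (hc.intervalIntegrable (μ := volume) (-1) 0) (hc.intervalIntegrable 0 1)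
  linarith

theorem TD_ellipse {c : ℝ} (hc : 0 < c) :
    ∫ x in (0:ℝ)..c, Real.sqrt (1 - (x / c) ^ 2) = Real.pi * c / 4 := by
  have h := intervalIntegral.integral_comp_div (a := 0) (b := c)
    (fun x : ℝ => Real.sqrt (1 - x ^ 2)) hc.ne'
  rw [zero_div, div_self hc.ne', TD_quarter] at h
  rw [h, smul_eq_mul]
  ring

/-- one slice inequality with weights `C (p t)`, `S (p t)` -/
theorem TD_weights {p A C S : ℝ → ℝ} (hp : ContDiff ℝ 1 p) (hA : Continuous A)
    (hA0 : ∀ t, 0 ≤ A t) (hC : Continuous C) (hC0 : ∀ t, 0 ≤ C t) (hS : Continuous S)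
    (hS0 : ∀ t, 0 ≤ S t) (hCS : ∀ t, C t ^ 2 + S t ^ 2 = 1) :
    (∫ t in (0:ℝ)..1, C t * A t) + (1 / 2) * (∫ t in (0:ℝ)..1, S t * |deriv p t|) ≤
      ∫ t in (0:ℝ)..1, Real.sqrt (A t ^ 2 + (deriv p t / 2) ^ 2) := by
  have hd : Continuous (deriv p) := hp.continuous_deriv le_rfl
  have h1 : (∫ t in (0:ℝ)..1, C t * A t) + (1 / 2) * (∫ t in (0:ℝ)..1, S t * |deriv p t|) =
      ∫ t in (0:ℝ)..1, (C t * A t + S t * |deriv p t / 2|) := by
    rw [intervalIntegral.integral_add]
    · congr 1
      rw [← intervalIntegral.integral_const_mul]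
      refine intervalIntegral.integral_congr fun t _ => ?_
      rw [abs_div, abs_two]
      ring
    · exact (hC.mul hA).intervalIntegrable _ _
    · exact (hS.mul (hd.div_const 2).abs).intervalIntegrable _ _
  rw [h1]
  refine intervalIntegral.integral_mono_on zero_le_one ?_ ?_ fun t _ => ?_
  · exact ((hC.mul hA).add (hS.mul (hd.div_const 2).abs)).intervalIntegrable _ _
  · exact ((hA.pow 2).add ((hd.div_const 2).pow 2)).sqrt.intervalIntegrable _ _
  · exact e3_cs (Real.sqrt_nonneg _) (hA0 t) (hC0 t) (hS0 t) (Real.sq_sqrt (by positivity)) (hCS t)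

/-- the strip inequality for one function -/
theorem TD_one {p A e : ℝ → ℝ} {c c₀ b tb tc : ℝ} (hp : ContDiff ℝ 1 p)
    (hper : ∀ t, p (t + 1) = p t) (hp0 : ∀ t, 0 ≤ p t) (hpc : ∀ t, p t ≤ c) (hc : 0 < c)
    (hcc : c ≤ c₀) (hc₀ : c₀ < 1) (htc : p tc = c) (htb : p tb = b)
    (hA : Continuous A) (hA0 : ∀ t, 0 ≤ A t) (he : Continuous e) (he0 : ∀ t, 0 ≤ e t)
    (hiso : ∀ t, p t * (1 - p t) * (1 - A t) ≤ e t) :
    (∫ t in (0:ℝ)..1, p t) / c - (∫ t in (0:ℝ)..1, e t) / (c * (1 - c₀)) + Real.pi * c / 4 - b ≤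
      ∫ t in (0:ℝ)..1, Real.sqrt (A t ^ 2 + (deriv p t / 2) ^ 2) := by
  have hpcont : Continuous p := hp.continuous
  have h1c : 0 < 1 - c₀ := by linarith
  have hb0 : 0 ≤ b := htb ▸ hp0 tb
  have hbc : b ≤ c := htb ▸ hpc tb
  have hw := TD_weights (C := fun t => p t / c) (S := fun t => Real.sqrt (1 - (p t / c) ^ 2)) hp hA hA0
    (hpcont.div_const c) (fun t => div_nonneg (hp0 t) hc.le) (by fun_prop)
    (fun t => Real.sqrt_nonneg _) (fun t => by
      have h1 : p t / c ≤ 1 := (div_le_one hc).2 (hpc t)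
      have h2 : 0 ≤ p t / c := div_nonneg (hp0 t) hc.le
      rw [Real.sq_sqrt (by nlinarith)]
      ring)
  have hS : Continuous fun x : ℝ => Real.sqrt (1 - (x / c) ^ 2) := by fun_prop
  have harc := arc_var hp hper hS (fun x => Real.sqrt_nonneg _) (z₁ := tb) (z₂ := tc)
    (by rw [htb, htc]; exact hbc)
  rw [htb, htc] at harc
  have hsplit := intervalIntegral.integral_add_adjacent_intervals
    (hS.intervalIntegrable (μ := volume) 0 b) (hS.intervalIntegrable b c)
  rw [TD_ellipse hc] at hsplit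
  have hle : ∫ x in (0:ℝ)..b, Real.sqrt (1 - (x / c) ^ 2) ≤ b := by
    have h1 : ∫ x in (0:ℝ)..b, Real.sqrt (1 - (x / c) ^ 2) ≤ ∫ _x in (0:ℝ)..b, (1 : ℝ) := by
      refine intervalIntegral.integral_mono_on hb0 (hS.intervalIntegrable _ _)
        (continuous_const.intervalIntegrable _ _) fun x _ => ?_
      rw [Real.sqrt_le_one]
      have := sq_nonneg (x / c)
      linarith
    simpa using h1
  have hpt : ∀ t, p t / c - e t / (c * (1 - c₀)) ≤ p t / c * A t := by
    intro t
    have h1 : p t * (1 - A t) * (1 - c₀) ≤ e t := by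
      rcases le_total (A t) 1 with h | h
      · refine le_trans ?_ (hiso t)
        have h2 : 0 ≤ p t * (1 - A t) := mul_nonneg (hp0 t) (by linarith)
        have h3 := mul_le_mul_of_nonneg_left (show 1 - c₀ ≤ 1 - p t by linarith [hpc t]) h2
        linarith
      · have h2 : p t * (1 - A t) ≤ 0 := mul_nonpos_of_nonneg_of_nonpos (hp0 t) (by linarith)
        have h3 : p t * (1 - A t) * (1 - c₀) ≤ 0 := mul_nonpos_of_nonpos_of_nonneg h2 h1c.le
        exact h3.trans (he0 t)
    have h4 : p t / c - e t / (c * (1 - c₀)) - p t / c * A t =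
        (p t * (1 - A t) * (1 - c₀) - e t) / (c * (1 - c₀)) := by
      field_simp
      ring
    have h5 : (p t * (1 - A t) * (1 - c₀) - e t) / (c * (1 - c₀)) ≤ 0 :=
      div_nonpos_of_nonpos_of_nonneg (by linarith) (by positivity)
    linarith
  have hint : (∫ t in (0:ℝ)..1, p t) / c - (∫ t in (0:ℝ)..1, e t) / (c * (1 - c₀)) ≤
      ∫ t in (0:ℝ)..1, p t / c * A t := by
    rw [← intervalIntegral.integral_div, ← intervalIntegral.integral_div,
      ← intervalIntegral.integral_sub ((hpcont.div_const _).intervalIntegrable _ _)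
        ((he.div_const _).intervalIntegrable _ _)]
    refine intervalIntegral.integral_mono_on zero_le_one ?_ ?_ fun t _ => hpt t
    · exact ((hpcont.div_const _).sub (he.div_const _)).intervalIntegrable _ _
    · exact ((hpcont.div_const _).mul hA).intervalIntegrable _ _
  linarith

/-- `sqrt (π W) ≤ J`, quantitative -/
theorem TD_two {p A e : ℝ → ℝ} {c₀ W J ε : ℝ} (hp : ContDiff ℝ 1 p)
    (hper : ∀ t, p (t + 1) = p t) (hp0 : ∀ t, 0 ≤ p t) (hpc : ∀ t, p t ≤ c₀)
    (hc₀ : c₀ < 1) (hW : 0 < W) (hε : 0 ≤ ε) (hεW : ε ≤ W / 2)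
    (hA : Continuous A) (hA0 : ∀ t, 0 ≤ A t) (he : Continuous e) (he0 : ∀ t, 0 ≤ e t)
    (hei : ∫ t in (0:ℝ)..1, e t ≤ ε)
    (hJ : ∫ t in (0:ℝ)..1, Real.sqrt (A t ^ 2 + (deriv p t / 2) ^ 2) ≤ J + ε)
    (hiso : ∀ t, p t * (1 - p t) * (1 - A t) ≤ e t)
    (hVk : |(∫ t in (0:ℝ)..1, p t) - W| ≤ ε) (hmin : ∃ t, p t ≤ ε) :
    Real.sqrt (Real.pi * W) ≤ J + ε * (2 + 2 / W * (1 + 1 / (1 - c₀))) := by
  have hpcont : Continuous p := hp.continuous
  have hP : Function.Periodic p 1 := hper
  have h1c : 0 < 1 - c₀ := by linarith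
  obtain ⟨tc, _, hmax⟩ := isCompact_Icc.exists_isMaxOn (s := Icc (0:ℝ) 1) ⟨0, by simp⟩
    hpcont.continuousOn
  have hmax' : ∀ t, p t ≤ p tc := by
    intro t
    obtain ⟨y, hy, hyt⟩ := hP.exists_mem_Ico₀ one_pos t
    rw [hyt]
    exact hmax ⟨hy.1, hy.2.le⟩
  obtain ⟨tb, htb⟩ := hmin
  obtain ⟨c, hcdef⟩ : ∃ c, c = p tc := ⟨_, rfl⟩
  have hVk' := abs_le.1 hVk
  have hWc : W / 2 ≤ c := by
    have h1 : ∫ t in (0:ℝ)..1, p t ≤ ∫ _t in (0:ℝ)..1, c := by
      refine intervalIntegral.integral_mono_on zero_le_one (hpcont.intervalIntegrable _ _)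
        (continuous_const.intervalIntegrable _ _) fun x _ => ?_
      rw [hcdef]
      exact hmax' x
    simp only [intervalIntegral.integral_const, sub_zero, smul_eq_mul, one_mul] at h1
    linarith
  have hcpos : 0 < c := by linarith
  have h1 := TD_one (b := p tb) (c := c) (c₀ := c₀) hp hper hp0 (fun t => hcdef ▸ hmax' t) hcpos
    (hcdef ▸ hpc tc) hc₀ hcdef.symm rfl hA hA0 he he0 hiso
  have h2 : (W - ε) / c ≤ (∫ t in (0:ℝ)..1, p t) / c := by
    apply div_le_div_of_nonneg_right _ hcpos.le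
    linarith
  have h3 : (∫ t in (0:ℝ)..1, e t) / (c * (1 - c₀)) ≤ ε / (c * (1 - c₀)) := by
    apply div_le_div_of_nonneg_right hei (by positivity)
  have h4 : Real.sqrt (Real.pi * W) ≤ W / c + Real.pi * c / 4 := by
    have hx : 0 ≤ W / c + Real.pi * c / 4 := by positivity
    rw [Real.sqrt_le_left hx]
    have h5 : (W / c + Real.pi * c / 4) ^ 2 - Real.pi * W = (W / c - Real.pi * c / 4) ^ 2 := by
      field_simp
      ring
    have := sq_nonneg (W / c - Real.pi * c / 4)
    linarith
  have h6 : 1 / c ≤ 2 / W := by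
    rw [div_le_div_iff₀ hcpos hW]
    linarith
  have h7 : ε / c + ε / (c * (1 - c₀)) ≤ ε * (2 / W * (1 + 1 / (1 - c₀))) := by
    have h8 : ε / c + ε / (c * (1 - c₀)) = ε * (1 / c * (1 + 1 / (1 - c₀))) := by
      field_simp
    rw [h8]
    refine mul_le_mul_of_nonneg_left ?_ hε
    exact mul_le_mul_of_nonneg_right h6 (by positivity)
  have h9 : (W - ε) / c = W / c - ε / c := by rw [sub_div]
  have h10 : ε * (2 + 2 / W * (1 + 1 / (1 - c₀))) =
      2 * ε + ε * (2 / W * (1 + 1 / (1 - c₀))) := by ring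
  linarith

/-- the interior case -/
theorem TD_mid {p A e : ℝ → ℝ} {κ C S tb tc : ℝ} (hp : ContDiff ℝ 1 p)
    (hper : ∀ t, p (t + 1) = p t) (hκ : 0 < κ) (hpκ : ∀ t, κ ≤ p t * (1 - p t))
    (hA : Continuous A) (hA0 : ∀ t, 0 ≤ A t) (he : Continuous e) (he0 : ∀ t, 0 ≤ e t)
    (hiso : ∀ t, p t * (1 - p t) * (1 - A t) ≤ e t) (hC : 0 ≤ C) (hS : 0 ≤ S)
    (hCS : C ^ 2 + S ^ 2 = 1) (hbc : p tb ≤ p tc) :
    C * (1 - (∫ t in (0:ℝ)..1, e t) / κ) + S * (p tc - p tb) ≤
      ∫ t in (0:ℝ)..1, Real.sqrt (A t ^ 2 + (deriv p t / 2) ^ 2) := by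
  have hw := TD_weights (C := fun _ => C) (S := fun _ => S) hp hA hA0 continuous_const
    (fun _ => hC) continuous_const (fun _ => hS) (fun _ => hCS)
  have harc := arc_var hp hper (S := fun _ => S) continuous_const (fun _ => hS) hbc
  simp only [intervalIntegral.integral_const, smul_eq_mul] at harc
  have hpt : ∀ t, 1 - e t / κ ≤ A t := by
    intro t
    rcases le_total 1 (A t) with h | h
    · have : 0 ≤ e t / κ := div_nonneg (he0 t) hκ.le
      linarith
    · have h1 : κ * (1 - A t) ≤ e t :=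
        (mul_le_mul_of_nonneg_right (hpκ t) (by linarith)).trans (hiso t)
      have h2 : 1 - A t ≤ e t / κ := by
        rw [le_div_iff₀ hκ]
        linarith
      linarith
  have hint : 1 - (∫ t in (0:ℝ)..1, e t) / κ ≤ ∫ t in (0:ℝ)..1, A t := by
    have h1 : ∫ t in (0:ℝ)..1, (1 - e t / κ) ≤ ∫ t in (0:ℝ)..1, A t := by
      refine intervalIntegral.integral_mono_on zero_le_one ?_ (hA.intervalIntegrable _ _)
        fun t _ => hpt t
      exact (continuous_const.sub (he.div_const _)).intervalIntegrable _ _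
    rw [intervalIntegral.integral_sub (continuous_const.intervalIntegrable _ _)
      ((he.div_const _).intervalIntegrable _ _), intervalIntegral.integral_div] at h1
    simpa using h1
  have hCm := mul_le_mul_of_nonneg_left hint hC
  rw [intervalIntegral.integral_const_mul] at hw
  linarith

theorem TD_lim {ε : ℕ → ℝ} {X J K : ℝ} (hε : Tendsto ε atTop (𝓝 0))
    (h : ∀ᶠ k in atTop, X ≤ J + ε k * K) : X ≤ J := by
  have h1 : Tendsto (fun k => J + ε k * K) atTop (𝓝 (J + 0 * K)) := (hε.mul_const K).const_add J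
  rw [zero_mul, add_zero] at h1
  exact ge_of_tendsto h1 h

theorem TD_hTV_nonneg {n : ℕ} (f : (Fin n → ℝ) → ℝ) : 0 ≤ hTV f :=
  mul_nonneg (by norm_num) (integral_nonneg fun _ => Real.sqrt_nonneg _)

/-- the main part, along a sequence for which the extreme areas converge -/
theorem TD_main {E : Set (Fin 3 → ℝ)} {f : ℕ → (Fin 3 → ℝ) → ℝ}
    (h0 : 0 < vol E) (h1 : vol E ≤ 1 / 2)
    (h : NM (min (Real.sqrt (Real.pi * vol E)) 1) E f) {i j : Fin 3} (hij : j ≠ i)
    (hind : ∀ k x t, f k (Function.update x i t) = f k x) {tb tc : ℕ → ℝ}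
    (hb : ∀ k t, sArea (f k) j (tb k) ≤ sArea (f k) j t)
    (hc : ∀ k t, sArea (f k) j t ≤ sArea (f k) j (tc k)) {b c : ℝ}
    (hbl : Tendsto (fun k => sArea (f k) j (tb k)) atTop (𝓝 b))
    (hcl : Tendsto (fun k => sArea (f k) j (tc k)) atTop (𝓝 c)) :
    InvDir E j ∨ (∀ l, l ≠ j → InvDir E l) ∨
      (Real.pi * vol E ≤ 1 ∧ ∃ m, mom E j m ≤ vol E ^ 2 / (4 * Real.pi)) := by
  have hN := h.nice
  obtain ⟨V, hV⟩ : ∃ V, V = vol E := ⟨_, rfl⟩
  obtain ⟨J, hJ⟩ : ∃ J, J = min (Real.sqrt (Real.pi * vol E)) 1 := ⟨_, rfl⟩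
  have hvol := h.vol_tendsto
  have herr := h.err_tendsto
  have htv := h.tv
  have hh := h
  rw [← hJ] at htv hh
  rw [← hV] at h0 h1 hJ hvol ⊢
  have hπ := Real.pi_gt_three
  have hJ1 : J ≤ 1 := hJ ▸ min_le_right _ _
  -- the slices
  have hqd : ∀ k, ContDiff ℝ 1 (sArea (f k) j) := fun k => sArea_contDiff (hN k) j
  have hqc : ∀ k, Continuous (sArea (f k) j) := fun k => (hqd k).continuous
  have hqp : ∀ k t, sArea (f k) j (t + 1) = sArea (f k) j t := fun k t => sArea_per (hN k) j t
  have hq0 : ∀ k t, 0 ≤ sArea (f k) j t := fun k t => (sArea_mem (hN k) j t).1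
  have hq1 : ∀ k t, sArea (f k) j t ≤ 1 := fun k t => (sArea_mem (hN k) j t).2
  have hAc : ∀ k, Continuous fun z => hTV (slice (f k) j z) := fun k => hTV_slice_cont (hN k) j
  have hA0 : ∀ k z, 0 ≤ hTV (slice (f k) j z) := fun k z => TD_hTV_nonneg _
  have hec : ∀ k, Continuous (slErr (f k) j) := fun k => slErr_cont (hN k) j
  have he0 : ∀ k z, 0 ≤ slErr (f k) j z := fun k z => slErr_nonneg (hN k) j z
  have hiso : ∀ k z, sArea (f k) j z * (1 - sArea (f k) j z) * (1 - hTV (slice (f k) j z)) ≤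
      slErr (f k) j z := fun k z => low_two (hN k) hij (hind k) z
  have hei : ∀ k, ∫ z in (0:ℝ)..1, slErr (f k) j z = ∫ x in cell 3, f k x * (1 - f k x) := by
    intro k
    have hc : Continuous fun x => f k x * (1 - f k x) := by
      have := (hN k).smooth.continuous
      fun_prop
    exact (fubini_slice hc j).symm
  have hqi : ∀ k, ∫ z in (0:ℝ)..1, sArea (f k) j z = ∫ x in cell 3, f k x := fun k =>
    (fubini_slice (hN k).smooth.continuous j).symm
  have hjen : ∀ k, ∫ z in (0:ℝ)..1, Real.sqrt (hTV (slice (f k) j z) ^ 2 +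
      (deriv (sArea (f k) j) z / 2) ^ 2) ≤ hTV (f k) := fun k => jensen_slice (hN k) j
  -- the error sequence
  obtain ⟨ε, hε⟩ : ∃ ε : ℕ → ℝ, ∀ k, ε k = (∫ x in cell 3, f k x * (1 - f k x)) +
    max (hTV (f k) - J) 0 + |(∫ x in cell 3, f k x) - V| := ⟨_, fun k => rfl⟩
  have herr0 : ∀ k, 0 ≤ ∫ x in cell 3, f k x * (1 - f k x) := fun k => by
    rw [← hei]
    exact intervalIntegral.integral_nonneg zero_le_one fun z _ => he0 k z
  have hmx : Tendsto (fun k => max (hTV (f k) - J) 0) atTop (𝓝 0) := by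
    refine tendsto_order.2 ⟨fun a ha => Eventually.of_forall fun k => lt_of_lt_of_le ha
      (le_max_right _ _), fun a ha => ?_⟩
    exact (htv (a / 2) (half_pos ha)).mono fun k hk => max_lt (by linarith) ha
  have hab : Tendsto (fun k => |(∫ x in cell 3, f k x) - V|) atTop (𝓝 0) := by
    have := (hvol.sub_const V).abs
    simpa using this
  have hεt : Tendsto ε atTop (𝓝 0) := by
    have h2 := (herr.add hmx).add hab
    rw [add_zero, add_zero] at h2
    refine h2.congr fun k => ?_
    rw [hε]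
  have hε0 : ∀ k, 0 ≤ ε k := fun k => by
    rw [hε]
    have := herr0 k
    have h3 := le_max_right (hTV (f k) - J) 0
    have h4 := abs_nonneg ((∫ x in cell 3, f k x) - V)
    linarith
  have hε1 : ∀ k, ∫ z in (0:ℝ)..1, slErr (f k) j z ≤ ε k := fun k => by
    rw [hei, hε]
    have h3 := le_max_right (hTV (f k) - J) 0
    have h4 := abs_nonneg ((∫ x in cell 3, f k x) - V)
    linarith
  have hε2 : ∀ k, ∫ z in (0:ℝ)..1, Real.sqrt (hTV (slice (f k) j z) ^ 2 +
      (deriv (sArea (f k) j) z / 2) ^ 2) ≤ J + ε k := fun k => by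
    refine (hjen k).trans ?_
    rw [hε]
    have h3 := le_max_left (hTV (f k) - J) 0
    have h4 := abs_nonneg ((∫ x in cell 3, f k x) - V)
    have := herr0 k
    linarith
  have hε3 : ∀ k, |(∫ z in (0:ℝ)..1, sArea (f k) j z) - V| ≤ ε k := fun k => by
    rw [hqi, hε]
    have h3 := le_max_right (hTV (f k) - J) 0
    have := herr0 k
    linarith
  -- `b ≤ V ≤ c`
  have hbk : ∀ k, sArea (f k) j (tb k) ≤ ∫ x in cell 3, f k x := by
    intro k
    rw [← hqi]
    have h3 : ∫ _z in (0:ℝ)..1, sArea (f k) j (tb k) ≤ ∫ z in (0:ℝ)..1, sArea (f k) j z :=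
      intervalIntegral.integral_mono_on zero_le_one (continuous_const.intervalIntegrable _ _)
        ((hqc k).intervalIntegrable _ _) fun z _ => hb k z
    simpa using h3
  have hck : ∀ k, ∫ x in cell 3, f k x ≤ sArea (f k) j (tc k) := by
    intro k
    rw [← hqi]
    have h3 : ∫ z in (0:ℝ)..1, sArea (f k) j z ≤ ∫ _z in (0:ℝ)..1, sArea (f k) j (tc k) :=
      intervalIntegral.integral_mono_on zero_le_one ((hqc k).intervalIntegrable _ _)
        (continuous_const.intervalIntegrable _ _) fun z _ => hc k z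
    simpa using h3
  have hbV : b ≤ V := le_of_tendsto_of_tendsto' hbl hvol hbk
  have hVc : V ≤ c := le_of_tendsto_of_tendsto' hvol hcl hck
  have hb0 : 0 ≤ b := ge_of_tendsto' hbl fun k => hq0 k _
  have hc1 : c ≤ 1 := le_of_tendsto' hcl fun k => hq1 k _
  rcases eq_or_lt_of_le (hbV.trans hVc) with hbc | hbc
  · -- constant areas
    left
    have hI : I2 V = J := by
      rw [hJ]
      unfold I2
      refine min_eq_left ((min_le_right _ _).trans ?_)
      rw [Real.one_le_sqrt]
      nlinarith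
    refine flat_inv (V := V) (by rw [hI]; exact hh) h0 (by linarith) j fun ε' hε' => ?_
    have hbV' : b = V := le_antisymm hbV (by linarith)
    have hcV' : c = V := by rw [← hbc, hbV']
    rw [hbV'] at hbl
    rw [hcV'] at hcl
    have e1 := hbl.eventually (eventually_ge_nhds (show V - ε' < V by linarith))
    have e2 := hcl.eventually (eventually_le_nhds (show V < V + ε' by linarith))
    refine (e1.and e2).frequently.mono fun k hk z => ?_
    rw [abs_le]
    have h3 := hb k z
    have h4 := hc k z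
    constructor <;> linarith [hk.1, hk.2]
  right
  have hcp : 0 < c := lt_of_le_of_lt hb0 hbc
  rcases eq_or_lt_of_le hc1 with hc1' | hc1'
  · rcases eq_or_lt_of_le hb0 with hb0' | hb0'
    · -- b = 0, c = 1
      left
      refine slab_inv hJ1 hh j fun ε' hε' => ?_
      rw [← hb0'] at hbl
      rw [hc1'] at hcl
      have e1 := hbl.eventually (eventually_le_nhds (show (0:ℝ) < ε' from hε'))
      have e2 := hcl.eventually (eventually_ge_nhds (show 1 - ε' < (1:ℝ) by linarith))
      exact (e1.and e2).frequently.mono fun k hk => ⟨⟨_, hk.1⟩, ⟨_, hk.2⟩⟩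
    · -- b > 0, c = 1
      exfalso
      have hpt : Tendsto (fun k => ε k + (1 - sArea (f k) j (tc k))) atTop (𝓝 0) := by
        have := hεt.add (hcl.const_sub 1)
        rw [hc1'] at this
        simpa using this
      have hW : 0 < 1 - V := by linarith
      have key : Real.sqrt (Real.pi * (1 - V)) ≤ J := by
        refine TD_lim (K := 2 + 2 / (1 - V) * (1 + 1 / (1 - (1 - b / 2)))) hpt ?_
        have e1 := hpt.eventually (eventually_le_nhds (show (0:ℝ) < (1 - V) / 2 by linarith))
        have e2 := hbl.eventually (eventually_ge_nhds (show b / 2 < b by linarith))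
        filter_upwards [e1, e2] with k hk1 hk2
        have hpos : 0 ≤ 1 - sArea (f k) j (tc k) := by linarith [hq1 k (tc k)]
        refine TD_two (p := fun t => 1 - sArea (f k) j t) (A := fun z => hTV (slice (f k) j z))
          (e := slErr (f k) j) (contDiff_const.sub (hqd k)) (fun t => by rw [hqp])
          (fun t => by linarith [hq1 k t]) (fun t => by linarith [hb k t]) (by linarith) hW
          (add_nonneg (hε0 k) hpos) hk1 (hAc k) (hA0 k) (hec k) (he0 k) ?_ ?_ ?_ ?_ ?_
        · linarith [hε1 k]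
        · have h5 : ∀ t, deriv (fun t => 1 - sArea (f k) j t) t = - deriv (sArea (f k) j) t :=
            fun t => deriv_const_sub 1
          have h6 : ∀ t, (deriv (fun t => 1 - sArea (f k) j t) t / 2) ^ 2 =
              (deriv (sArea (f k) j) t / 2) ^ 2 := fun t => by rw [h5]; ring
          simp only [h6]
          linarith [hε2 k]
        · intro t
          have := hiso k t
          linarith
        · rw [intervalIntegral.integral_sub (continuous_const.intervalIntegrable _ _)
            ((hqc k).intervalIntegrable _ _)]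
          have h7 := hε3 k
          simp only [intervalIntegral.integral_const, sub_zero, smul_eq_mul, one_mul]
          rw [abs_le] at h7 ⊢
          constructor <;> linarith [h7.1, h7.2]
        · exact ⟨tc k, by linarith [hε0 k]⟩
      have h8 : 1 < Real.sqrt (Real.pi * (1 - V)) := by
        rw [Real.lt_sqrt (by norm_num)]
        nlinarith
      linarith
  · -- c < 1
    rcases eq_or_lt_of_le hb0 with hb0' | hb0'
    · -- b = 0
      right
      rw [← hb0'] at hbl
      have hpt : Tendsto (fun k => ε k + sArea (f k) j (tb k)) atTop (𝓝 0) := by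
        simpa using hεt.add hbl
      have e2 := hcl.eventually (eventually_le_nhds (show c < (c + 1) / 2 by linarith))
      by_cases hπV : Real.pi * V ≤ 1
      · refine ⟨hπV, ?_⟩
        obtain ⟨K, hK⟩ := eventually_atTop.1 e2
        have hsm : StrictMono fun k : ℕ => k + K := fun a b hab => Nat.add_lt_add_right hab K
        have hJ' : J = Real.sqrt (Real.pi * V) := by
          rw [hJ]
          exact min_eq_left (Real.sqrt_le_one.2 hπV)
        refine NM.mom_le (hh.sub hsm) j fun η hη => ?_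
        have hd := disc_oneD (q := fun k => sArea (f (k + K)) j)
          (A := fun k z => hTV (slice (f (k + K)) j z)) (e := fun k => slErr (f (k + K)) j)
          (V := V) (c₀ := (c + 1) / 2)
          (ε := fun k => ε (k + K) + sArea (f (k + K)) j (tb (k + K))) h0 h1 hπV (by linarith)
          (hpt.comp hsm.tendsto_atTop) (fun k => hqd _) (fun k => hqp _) (fun k => hq0 _)
          (fun k t => (hc _ t).trans (hK _ (Nat.le_add_left _ _))) (fun k => hAc _)
          (fun k => hA0 _) (fun k => hec _) (fun k => he0 _) (fun k => ?_) (fun k => ?_)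
          (fun k => hiso _) (fun k => ?_) (fun k => ?_) η hη
        · exact hd.frequently
        · have := hq0 (k + K) (tb (k + K))
          linarith [hε1 (k + K)]
        · have := hq0 (k + K) (tb (k + K))
          have h9 := hε2 (k + K)
          rw [hJ'] at h9
          linarith
        · have := hq0 (k + K) (tb (k + K))
          linarith [hε3 (k + K)]
        · exact ⟨tb (k + K), by linarith [hε0 (k + K)]⟩
      · exfalso
        have key : Real.sqrt (Real.pi * V) ≤ J := by
          refine TD_lim (K := 2 + 2 / V * (1 + 1 / (1 - (c + 1) / 2))) hpt ?_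
          have e1 := hpt.eventually (eventually_le_nhds (show (0:ℝ) < V / 2 by linarith))
          filter_upwards [e1, e2] with k hk1 hk2
          have hpos : 0 ≤ sArea (f k) j (tb k) := hq0 k _
          refine TD_two (p := sArea (f k) j) (A := fun z => hTV (slice (f k) j z))
            (e := slErr (f k) j) (hqd k) (hqp k) (hq0 k) (fun t => (hc k t).trans hk2)
            (by linarith) h0 (add_nonneg (hε0 k) hpos) hk1 (hAc k) (hA0 k) (hec k) (he0 k)
            ?_ ?_ (hiso k) ?_ ?_
          · linarith [hε1 k]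
          · linarith [hε2 k]
          · linarith [hε3 k]
          · exact ⟨tb k, by linarith [hε0 k]⟩
        have h8 : 1 < Real.sqrt (Real.pi * V) := by
          rw [Real.lt_sqrt (by norm_num)]
          rw [not_le] at hπV
          linarith
        linarith
    · -- b > 0, c < 1
      exfalso
      obtain ⟨d, hd⟩ : ∃ d, d = c - b := ⟨_, rfl⟩
      have hd0 : 0 < d := by linarith
      obtain ⟨r, hr⟩ : ∃ r, r = Real.sqrt (1 + d ^ 2) := ⟨_, rfl⟩
      have hr0 : 0 < r := by rw [hr]; positivity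
      have hr2 : r ^ 2 = 1 + d ^ 2 := by rw [hr]; exact Real.sq_sqrt (by positivity)
      have hr1 : 1 < r := by nlinarith [sq_nonneg (r - 1)]
      have hκ : 0 < b / 2 * ((1 - c) / 2) := by
        have : 0 < 1 - c := by linarith
        positivity
      have key : 1 / r + d / r * (c - b) ≤ J := by
        have e1 := hbl.eventually (eventually_ge_nhds (show b / 2 < b by linarith))
        have e2 := hcl.eventually (eventually_le_nhds (show c < (c + 1) / 2 by linarith))
        have hlim : Tendsto (fun k => J + ε k * (1 + 1 / r / (b / 2 * ((1 - c) / 2))) -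
            (d / r * (sArea (f k) j (tc k) - sArea (f k) j (tb k)))) atTop
            (𝓝 (J + 0 * (1 + 1 / r / (b / 2 * ((1 - c) / 2))) - d / r * (c - b))) :=
          ((hεt.mul_const _).const_add J).sub ((hcl.sub hbl).const_mul _)
        have h9 : 1 / r ≤ J + 0 * (1 + 1 / r / (b / 2 * ((1 - c) / 2))) - d / r * (c - b) := by
          refine ge_of_tendsto hlim ?_
          filter_upwards [e1, e2] with k hk1 hk2
          have hm := TD_mid (p := sArea (f k) j) (A := fun z => hTV (slice (f k) j z))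
            (e := slErr (f k) j) (κ := b / 2 * ((1 - c) / 2)) (C := 1 / r) (S := d / r)
            (tb := tb k) (tc := tc k) (hqd k) (hqp k) hκ (fun t => ?_) (hAc k) (hA0 k) (hec k)
            (he0 k) (hiso k) (by positivity) (by positivity) ?_ (hb k _)
          · have h10 := hm.trans (hε2 k)
            have h11 : (∫ t in (0:ℝ)..1, slErr (f k) j t) / (b / 2 * ((1 - c) / 2)) ≤
                ε k / (b / 2 * ((1 - c) / 2)) := div_le_div_of_nonneg_right (hε1 k) hκ.le
            have h12 : 1 / r * ((∫ t in (0:ℝ)..1, slErr (f k) j t) / (b / 2 * ((1 - c) / 2))) ≤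
                1 / r * (ε k / (b / 2 * ((1 - c) / 2))) :=
              mul_le_mul_of_nonneg_left h11 (by positivity)
            have h13 : 1 / r * (ε k / (b / 2 * ((1 - c) / 2))) =
                ε k * (1 / r / (b / 2 * ((1 - c) / 2))) := by ring
            have h14 : ε k * (1 + 1 / r / (b / 2 * ((1 - c) / 2))) =
                ε k + ε k * (1 / r / (b / 2 * ((1 - c) / 2))) := by ring
            rw [h14]
            rw [mul_sub, mul_one] at h10
            linarith
          · have h3 : b / 2 ≤ sArea (f k) j t := hk1.trans (hb k t)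
            have h4 : (1 - c) / 2 ≤ 1 - sArea (f k) j t := by linarith [hc k t]
            exact mul_le_mul h3 h4 (by linarith) (by linarith)
          · rw [div_pow, div_pow, hr2]
            field_simp
        linarith
      have h15 : 1 / r + d / r * (c - b) = r := by
        rw [← hd]
        field_simp
        linarith
      linarith

theorem two_dir {E : Set (Fin 3 → ℝ)} {f : ℕ → (Fin 3 → ℝ) → ℝ}
    (h0 : 0 < vol E) (h1 : vol E ≤ 1 / 2)
    (h : NM (min (Real.sqrt (Real.pi * vol E)) 1) E f) {i j : Fin 3} (hij : j ≠ i)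
    (hind : ∀ k x t, f k (Function.update x i t) = f k x) :
    InvDir E j ∨ (∀ l, l ≠ j → InvDir E l) ∨
      (Real.pi * vol E ≤ 1 ∧ ∃ m, mom E j m ≤ vol E ^ 2 / (4 * Real.pi)) := by
  have hex : ∀ k, ∃ tb tc, (∀ t, sArea (f k) j tb ≤ sArea (f k) j t) ∧
      ∀ t, sArea (f k) j t ≤ sArea (f k) j tc := by
    intro k
    have hq := (sArea_contDiff (h.nice k) j).continuous
    have hp : Function.Periodic (sArea (f k) j) 1 := fun t => sArea_per (h.nice k) j t
    obtain ⟨z₀, _, hz0⟩ := isCompact_Icc.exists_isMinOn (s := Icc (0:ℝ) 1) ⟨0, by simp⟩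
      hq.continuousOn
    obtain ⟨z₁, _, hz1⟩ := isCompact_Icc.exists_isMaxOn (s := Icc (0:ℝ) 1) ⟨0, by simp⟩
      hq.continuousOn
    refine ⟨z₀, z₁, fun z => ?_, fun z => ?_⟩
    · obtain ⟨y, hy, he⟩ := hp.exists_mem_Ico₀ one_pos z
      rw [he]
      exact hz0 ⟨hy.1, hy.2.le⟩
    · obtain ⟨y, hy, he⟩ := hp.exists_mem_Ico₀ one_pos z
      rw [he]
      exact hz1 ⟨hy.1, hy.2.le⟩
  choose tb tc hb hc using hex
  have hmem : ∀ k, (sArea (f k) j (tb k), sArea (f k) j (tc k)) ∈
      (Icc (0:ℝ) 1) ×ˢ (Icc (0:ℝ) 1) := fun k =>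
    ⟨sArea_mem (h.nice k) j _, sArea_mem (h.nice k) j _⟩
  obtain ⟨⟨b, c⟩, _, φ, hφ, hlim⟩ := (isCompact_Icc.prod isCompact_Icc).tendsto_subseq hmem
  have hbl : Tendsto (fun k => sArea (f (φ k)) j (tb (φ k))) atTop (𝓝 b) :=
    (continuous_fst.tendsto _).comp hlim
  have hcl : Tendsto (fun k => sArea (f (φ k)) j (tc (φ k))) atTop (𝓝 c) :=
    (continuous_snd.tendsto _).comp hlim
  exact TD_main h0 h1 (h.sub hφ) hij (fun k => hind (φ k)) (tb := fun k => tb (φ k))
    (tc := fun k => tc (φ k)) (fun k => hb (φ k)) (fun k => hc (φ k)) hbl hcl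

end Vale.Agent.P232
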