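import Vale.Agent.P232U.Defs
import Vale.Agent.P232U.BVol
import Vale.Agent.P232U.TVol
import Vale.Agent.P232.Shift
import Vale.Agent.P232.Upper

/-! # P232U: balls, tubes and slabs in general position have the right perimeter (helper41) -/

open MeasureTheory Set Filter Topology

namespace Vale.Agent.P232

private theorem UA_cell_meas : MeasurableSet (cell 3) :=
  MeasurableSet.univ_pi fun _ => measurableSet_Ico

private theorem UA_le {E F : Set (Fin 3 → ℝ)} (h : AEq E F) : perimeter E ≤ perimeter F := by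
  have hae : (E ∩ cell 3 : Set (Fin 3 → ℝ)) =ᵐ[volume] (F ∩ cell 3 : Set (Fin 3 → ℝ)) := by
    rw [← measure_symmDiff_eq_zero_iff]
    refine measure_mono_null ?_ h
    intro x hx
    rcases hx with ⟨⟨h1, h2⟩, h3⟩ | ⟨⟨h1, h2⟩, h3⟩
    · exact ⟨Or.inl ⟨h1, fun h4 => h3 ⟨h4, h2⟩⟩, h2⟩
    · exact ⟨Or.inr ⟨h1, fun h4 => h3 ⟨h4, h2⟩⟩, h2⟩
  unfold perimeter
  refine iSup_le fun φ => iSup_le fun hφ => iSup_le fun hφp => iSup_le fun hφ1 => ?_
  refine le_iSup_of_le φ (le_iSup_of_le hφ (le_iSup_of_le hφp (le_iSup_of_le hφ1 ?_)))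
  rw [setIntegral_congr_set hae]

/-- the perimeter does not see null sets -/
theorem perimeter_congr {E F : Set (Fin 3 → ℝ)} (h : AEq E F) : perimeter E = perimeter F := by
  refine le_antisymm (UA_le h) (UA_le ?_)
  unfold AEq
  rw [symmDiff_comm]
  exact h

/-- the perimeter of the complement -/
theorem perimeter_compl {E : Set (Fin 3 → ℝ)} (hE : MeasurableSet E) :
    perimeter Eᶜ = perimeter E := by
  refine le_antisymm (up_compl hE) ?_
  have := up_compl hE.compl
  rwa [compl_compl] at this

/-- translations do not increase the perimeter -/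
theorem perimeter_shift_le {E : Set (Fin 3 → ℝ)} (hE : MeasurableSet E) (hper : IsPerSet E)
    (h : Fin 3 → ℝ) : perimeter {x | x + h ∈ E} ≤ perimeter E := by
  have hmE : MeasurableSet {x : Fin 3 → ℝ | x + h ∈ E} := (measurable_add_const h) hE
  conv_lhs => unfold perimeter
  refine iSup_le fun φ => iSup_le fun hφ => iSup_le fun hφp => iSup_le fun hφ1 => ?_
  unfold perimeter
  have hsm : ContDiff ℝ 1 (fun x => φ (x + -h)) := hφ.comp (contDiff_id.add contDiff_const)
  refine le_iSup_of_le (fun x => φ (x + -h)) (le_iSup_of_le hsm (le_iSup_of_le (fun x k => by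
    show φ (x + (fun i => (k i : ℝ)) + -h) = φ (x + -h)
    rw [add_right_comm, hφp]) (le_iSup_of_le (fun x => hφ1 _) ?_)))
  apply ENNReal.ofReal_le_ofReal
  apply le_of_eq
  have hd : ∀ x, diverg (fun x => φ (x + -h)) x = diverg φ (x + -h) := by
    intro x
    unfold diverg
    rw [fderiv_comp_add_right]
  have e1 : ∫ x in {x | x + h ∈ E} ∩ cell 3, diverg φ x =
      ∫ x in cell 3, E.indicator (fun z => diverg φ (z + -h)) (x + h) := by
    rw [inter_comm, ← setIntegral_indicator hmE]
    refine setIntegral_congr_fun UA_cell_meas fun x _ => ?_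
    by_cases hx : x + h ∈ E
    · rw [indicator_of_mem (show x ∈ {x | x + h ∈ E} from hx), indicator_of_mem hx]
      simp only [add_neg_cancel_right]
    · rw [indicator_of_notMem (show x ∉ {x | x + h ∈ E} from hx), indicator_of_notMem hx]
  have hpd : IsPer (diverg φ) := by
    intro x k
    unfold diverg
    have h1 : φ = fun z => φ (z + fun i => (k i : ℝ)) := by
      funext z
      rw [hφp]
    conv_rhs => rw [h1]
    rw [fderiv_comp_add_right]
  have hP : IsPer (E.indicator (fun z => diverg φ (z + -h))) := by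
    intro x k
    by_cases hx : x ∈ E
    · rw [indicator_of_mem hx, indicator_of_mem ((hper x k).mpr hx)]
      rw [add_right_comm]
      exact hpd _ k
    · rw [indicator_of_notMem hx, indicator_of_notMem (fun h' => hx ((hper x k).mp h'))]
  rw [e1, B1_integral_shift hP h, setIntegral_indicator hE, inter_comm]
  simp only [hd]

private theorem UA_fract (t : ℝ) : (Int.fract t - 1 / 2) ^ 2 = distS (t - 1 / 2) ^ 2 := by
  have h1 : distS (t - 1 / 2) = distS (Int.fract t - 1 / 2) := by
    have h2 : t - 1 / 2 = Int.fract t - 1 / 2 + (⌊t⌋ : ℤ) := by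
      have := Int.self_sub_floor t
      linarith [Int.fract_add_floor t]
    rw [h2, BVOL_distS_add_int]
  rw [h1, BVOL_distS_small (by linarith [Int.fract_nonneg t]) (by linarith [Int.fract_lt_one t]),
    sq_abs]

theorem ballT_eq (m : Fin 3 → ℝ) (R : ℝ) :
    ballT m R = {x | x + (fun i => 1 / 2 - m i) ∈ upSet Finset.univ (R ^ 2)} := by
  ext x
  unfold ballT upSet
  simp only [mem_ofPred_eq, Pi.add_apply, UA_fract]
  have h : ∀ i, x i + (1 / 2 - m i) - 1 / 2 = x i - m i := fun i => by ring
  simp only [h]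

theorem tubeT_eq (m : Fin 3 → ℝ) (i : Fin 3) (R : ℝ) :
    tubeT m i R = {x | x + (fun i => 1 / 2 - m i) ∈ upSet (Finset.univ.erase i) (R ^ 2)} := by
  ext x
  unfold tubeT upSet
  simp only [mem_ofPred_eq, Pi.add_apply, UA_fract]
  have h : ∀ i, x i + (1 / 2 - m i) - 1 / 2 = x i - m i := fun i => by ring
  simp only [h]
  rw [← Finset.add_sum_erase Finset.univ _ (Finset.mem_univ i), if_pos rfl, zero_add]
  have h2 : ∑ j ∈ Finset.univ.erase i, (if j = i then (0 : ℝ) else distS (x j - m j) ^ 2) =
      ∑ j ∈ Finset.univ.erase i, distS (x j - m j) ^ 2 := by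
    refine Finset.sum_congr rfl fun j hj => ?_
    rw [if_neg (Finset.ne_of_mem_erase hj)]
  rw [h2]

private theorem UA_shift_meas {E : Set (Fin 3 → ℝ)} (hE : MeasurableSet E) (h : Fin 3 → ℝ) :
    MeasurableSet {x : Fin 3 → ℝ | x + h ∈ E} := (measurable_add_const h) hE

private theorem UA_shift_per {E : Set (Fin 3 → ℝ)} (hE : IsPerSet E) (h : Fin 3 → ℝ) :
    IsPerSet {x : Fin 3 → ℝ | x + h ∈ E} := by
  intro x k
  show x + (fun i => (k i : ℝ)) + h ∈ E ↔ x + h ∈ E
  rw [add_right_comm]
  exact hE _ k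

theorem ballT_meas (m : Fin 3 → ℝ) (R : ℝ) : MeasurableSet (ballT m R) := by
  rw [ballT_eq]
  exact UA_shift_meas (upSet_meas _ _) _

theorem ballT_per (m : Fin 3 → ℝ) (R : ℝ) : IsPerSet (ballT m R) := by
  rw [ballT_eq]
  exact UA_shift_per (upSet_per _ _) _

theorem tubeT_meas (m : Fin 3 → ℝ) (i : Fin 3) (R : ℝ) : MeasurableSet (tubeT m i R) := by
  rw [tubeT_eq]
  exact UA_shift_meas (upSet_meas _ _) _

theorem tubeT_per (m : Fin 3 → ℝ) (i : Fin 3) (R : ℝ) : IsPerSet (tubeT m i R) := by
  rw [tubeT_eq]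
  exact UA_shift_per (upSet_per _ _) _

theorem slabT_meas (i : Fin 3) (a V : ℝ) : MeasurableSet (slabT i a V) := by
  unfold slabT
  have h : Measurable fun x : Fin 3 → ℝ => x i - a := by fun_prop
  exact measurableSet_lt (measurable_fract.comp h) measurable_const

theorem slabT_per (i : Fin 3) (a V : ℝ) : IsPerSet (slabT i a V) := by
  intro x k
  unfold slabT
  have h : x i + (k i : ℝ) - a = x i - a + (k i : ℝ) := by ring
  simp only [mem_ofPred_eq, Pi.add_apply, h, Int.fract_add_intCast]

private theorem UA_half {S : Finset (Fin 3)} {t : ℝ} :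
    upSet S t = {x | x + (fun _ => 1 / 2 - 1 / 2) ∈ upSet S t} := by
  ext x
  have : x + (fun _ : Fin 3 => (1 : ℝ) / 2 - 1 / 2) = x := by
    funext i
    simp
  simp only [mem_ofPred_eq, this]

/-- balls -/
theorem ballT_perimeter (m : Fin 3 → ℝ) {R : ℝ} (hR0 : 0 < R) (hR : R < 1 / 2) :
    perimeter (ballT m R) ≤ ENNReal.ofReal (4 * Real.pi * R ^ 2) := by
  rw [ballT_eq]
  refine (perimeter_shift_le (upSet_meas _ _) (upSet_per _ _) _).trans ?_
  have hρ0 : 0 < R ^ 2 := by positivity
  have hρ : R ^ 2 < 1 / 4 := by nlinarith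
  have hs : Real.sqrt (R ^ 2) = R := Real.sqrt_sq hR0.le
  have h := up_shape (S := Finset.univ) (ρ := R ^ 2)
      (W := fun t => 4 / 3 * Real.pi * (Real.sqrt t) ^ 3)
      (W' := 4 / 3 * Real.pi * (3 * (Real.sqrt (R ^ 2)) ^ 2 * (1 / (2 * Real.sqrt (R ^ 2)))))
      hρ0 hρ (fun t h1 h2 => by
        have h3 : Real.sqrt t ≤ 1 / 2 := by
          rw [Real.sqrt_le_left (by norm_num)]
          linarith
        have h4 := (ballT_facts (fun _ => 1 / 2) (Real.sqrt_pos.mpr h1) h3).1
        rw [ballT_eq, Real.sq_sqrt h1.le, ← UA_half] at h4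
        exact h4)
      (by
        have := ((Real.hasDerivAt_sqrt hρ0.ne').pow 3).const_mul (4 / 3 * Real.pi)
        simpa using this)
  refine h.trans (le_of_eq ?_)
  congr 1
  rw [hs]
  field_simp

/-- tubes -/
theorem tubeT_perimeter (m : Fin 3 → ℝ) (i : Fin 3) {R : ℝ} (hR0 : 0 < R) (hR : R < 1 / 2) :
    perimeter (tubeT m i R) ≤ ENNReal.ofReal (2 * Real.pi * R) := by
  rw [tubeT_eq]
  refine (perimeter_shift_le (upSet_meas _ _) (upSet_per _ _) _).trans ?_
  have hρ0 : 0 < R ^ 2 := by positivity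
  have hρ : R ^ 2 < 1 / 4 := by nlinarith
  have hs : Real.sqrt (R ^ 2) = R := Real.sqrt_sq hR0.le
  have h := up_shape (S := Finset.univ.erase i) (ρ := R ^ 2) (W := fun t => Real.pi * t)
      (W' := Real.pi) hρ0 hρ (fun t h1 h2 => by
        have h3 : Real.sqrt t ≤ 1 / 2 := by
          rw [Real.sqrt_le_left (by norm_num)]
          linarith
        have h4 := (tubeT_facts (fun _ => 1 / 2) i (Real.sqrt_pos.mpr h1) h3).1
        rw [tubeT_eq, Real.sq_sqrt h1.le, ← UA_half] at h4
        exact h4)
      (by simpa using (hasDerivAt_id (R ^ 2)).const_mul Real.pi)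
  refine h.trans (le_of_eq ?_)
  congr 1
  rw [hs]
  ring

private theorem UA_vol1 (i : Fin 3) {t : ℝ} (ht0 : 0 < t) (ht : t < 1 / 4) :
    volume (upSet {i} t ∩ cell 3) = ENNReal.ofReal (2 * Real.sqrt t) := by
  have hs := Real.sq_sqrt ht0.le
  have hs0 := Real.sqrt_pos.mpr ht0
  have hs1 : Real.sqrt t ≤ 1 / 2 := by
    rw [Real.sqrt_le_left (by norm_num)]
    linarith
  have h1 : upSet {i} t ∩ cell 3 = Set.pi Set.univ (fun j : Fin 3 =>
      if j = i then Set.Ioo (1 / 2 - Real.sqrt t) (1 / 2 + Real.sqrt t) else Set.Ico (0:ℝ) 1) := by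
    ext x
    have e4 : upq {i} x = (x i - 1 / 2) ^ 2 := by
      unfold upq
      rw [Finset.sum_singleton]
    simp only [Set.mem_pi, Set.mem_univ, true_implies]
    constructor
    · rintro ⟨h4, h5⟩ j
      have h6 := (upSet_cell h5).mp h4
      rw [e4] at h6
      by_cases hi : j = i
      · rw [if_pos hi, hi]
        have h7 : |x i - 1 / 2| < Real.sqrt t := by
          apply Real.lt_sqrt_of_sq_lt
          rw [sq_abs]
          exact h6
        rw [abs_lt] at h7
        exact ⟨by linarith [h7.1], by linarith [h7.2]⟩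
      · rw [if_neg hi]
        exact h5 j trivial
    · intro h
      have h0 := h i
      rw [if_pos rfl] at h0
      have h7 : (x i - 1 / 2) ^ 2 < t := by
        have h8 : |x i - 1 / 2| < Real.sqrt t := by
          rw [abs_lt]
          exact ⟨by linarith [h0.1], by linarith [h0.2]⟩
        have h9 := Real.lt_sqrt (abs_nonneg (x i - 1 / 2)) |>.mp h8
        rwa [sq_abs] at h9
      have h6 : x ∈ cell 3 := by
        intro j _
        by_cases hi : j = i
        · rw [hi]
          exact ⟨by linarith [h0.1], by linarith [h0.2]⟩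
        · have h8 := h j
          rw [if_neg hi] at h8
          exact h8
      exact ⟨(upSet_cell h6).mpr (by rw [e4]; exact h7), h6⟩
  rw [h1, volume_pi_pi]
  have h2 : ∀ j : Fin 3, volume (if j = i then Set.Ioo (1 / 2 - Real.sqrt t) (1 / 2 + Real.sqrt t)
      else Set.Ico (0:ℝ) 1) = if j = i then ENNReal.ofReal (2 * Real.sqrt t) else 1 := by
    intro j
    by_cases hj : j = i
    · rw [if_pos hj, if_pos hj, Real.volume_Ioo]
      congr 1
      ring
    · rw [if_neg hj, if_neg hj, Real.volume_Ico]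
      simp
  simp only [h2]
  rw [Finset.prod_ite_eq']
  simp

/-- slabs -/
theorem slabT_perimeter (i : Fin 3) (a : ℝ) {V : ℝ} (hV0 : 0 < V) (hV1 : V < 1) :
    perimeter (slabT i a V) ≤ ENNReal.ofReal 2 := by
  have hρ0 : 0 < (V / 2) ^ 2 := by positivity
  have hρ : (V / 2) ^ 2 < 1 / 4 := by nlinarith
  have hs : Real.sqrt ((V / 2) ^ 2) = V / 2 := Real.sqrt_sq (by positivity)
  have h := up_shape (S := {i}) (ρ := (V / 2) ^ 2) (W := fun t => 2 * Real.sqrt t)
      (W' := 2 * (1 / (2 * Real.sqrt ((V / 2) ^ 2)))) hρ0 hρ (fun t h1 h2 => by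
        rw [UA_vol1 i h1 h2, ENNReal.toReal_ofReal (by positivity)])
      ((Real.hasDerivAt_sqrt hρ0.ne').const_mul 2)
  have h2 : 2 * Real.sqrt ((V / 2) ^ 2) * (2 * (1 / (2 * Real.sqrt ((V / 2) ^ 2)))) = 2 := by
    rw [hs]
    field_simp
  rw [h2] at h
  -- the slab is a translate of the shape up to a null set
  set sh : Fin 3 → ℝ := fun _ => 1 / 2 - a - V / 2 with hsh
  refine le_trans (le_of_eq (perimeter_congr ?_))
    ((perimeter_shift_le (upSet_meas {i} ((V / 2) ^ 2)) (upSet_per _ _) sh).trans h)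
  -- difference: the plane fract (x i - a) = 0
  unfold AEq
  refine measure_mono_null (t := {x : Fin 3 → ℝ | Int.fract (x i - a) = 0}) ?_ ?_
  · rintro x ⟨hx, _⟩
    have key : Int.fract (x i - a) ≠ 0 →
        (x ∈ slabT i a V ↔ x ∈ {x | x + sh ∈ upSet {i} ((V / 2) ^ 2)}) := by
      intro hne
      have hpos : 0 < Int.fract (x i - a) := lt_of_le_of_ne (Int.fract_nonneg _) (Ne.symm hne)
      have hlt := Int.fract_lt_one (x i - a)
      unfold slabT upSet
      simp only [mem_ofPred_eq, Finset.sum_singleton, Pi.add_apply, UA_fract]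
      have e1 : x i + sh i - 1 / 2 = (Int.fract (x i - a) - V / 2) + (⌊x i - a⌋ : ℤ) := by
        rw [hsh]
        have := Int.fract_add_floor (x i - a)
        simp only
        linarith
      rw [e1, BVOL_distS_add_int]
      set r := Int.fract (x i - a) with hr
      by_cases hr2 : r - V / 2 < 1 / 2
      · rw [BVOL_distS_small (by linarith) hr2, sq_abs]
        constructor
        · intro h5
          nlinarith
        · intro h5
          by_contra h6
          push Not at h6
          nlinarith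
      · push Not at hr2
        have e2 : distS (r - V / 2) = |r - V / 2 - 1| := by
          have e3 : r - V / 2 = (r - V / 2 - 1) + ((1 : ℤ) : ℝ) := by push_cast; ring
          conv_lhs => rw [e3]
          rw [BVOL_distS_add_int, BVOL_distS_small (by linarith) (by linarith)]
        rw [e2, sq_abs]
        constructor
        · intro h5
          exfalso
          linarith
        · intro h5
          exfalso
          nlinarith
    by_contra hne
    have hiff := key hne
    rcases hx with ⟨h1, h2⟩ | ⟨h1, h2⟩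
    · exact h2 (hiff.mp h1)
    · exact h2 (hiff.mpr h1)
  · -- countable union of hyperplanes
    have hsub : {x : Fin 3 → ℝ | Int.fract (x i - a) = 0} ⊆
        ⋃ n : ℤ, {x : Fin 3 → ℝ | x i = a + n} := by
      intro x hx
      rw [mem_iUnion]
      refine ⟨⌊x i - a⌋, ?_⟩
      have := Int.fract_add_floor (x i - a)
      rw [mem_ofPred_eq] at hx ⊢
      rw [hx] at this
      linarith
    refine measure_mono_null hsub ?_
    rw [measure_iUnion_null_iff]
    intro n
    have h3 : {x : Fin 3 → ℝ | x i = a + n} = Set.pi Set.univ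
        (fun j : Fin 3 => if j = i then {a + (n : ℝ)} else Set.univ) := by
      ext x
      simp only [mem_ofPred_eq, Set.mem_pi, Set.mem_univ, true_implies]
      constructor
      · intro h4 j
        by_cases hj : j = i
        · rw [if_pos hj, hj]
          exact h4
        · rw [if_neg hj]
          trivial
      · intro h4
        have := h4 i
        rw [if_pos rfl] at this
        exact this
    rw [h3, volume_pi_pi]
    refine Finset.prod_eq_zero (Finset.mem_univ i) ?_
    rw [if_pos rfl]
    simp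

/-- the volume of a slab -/
theorem slabT_vol (i : Fin 3) (a : ℝ) {V : ℝ} (hV0 : 0 < V) (hV1 : V < 1) :
    vol (slabT i a V) = V := by
  have h1 : slabT i a V = {x : Fin 3 → ℝ | x + (fun _ => -a) ∈ slabT i 0 V} := by
    ext x
    unfold slabT
    simp only [mem_ofPred_eq, Pi.add_apply, sub_zero, ← sub_eq_add_neg]
  unfold vol
  rw [h1, B1_measure_shift (slabT_per i 0 V) (slabT_meas i 0 V)]
  have h2 : slabT i 0 V ∩ cell 3 = Set.pi Set.univ
      (fun j : Fin 3 => if j = i then Set.Ico (0:ℝ) V else Set.Ico (0:ℝ) 1) := by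
    ext x
    unfold slabT
    simp only [Set.mem_inter_iff, mem_ofPred_eq, Set.mem_pi, Set.mem_univ, true_implies, sub_zero]
    constructor
    · rintro ⟨h3, h4⟩ j
      have h5 := h4 i trivial
      rw [Int.fract_eq_self.mpr ⟨h5.1, h5.2⟩] at h3
      by_cases hj : j = i
      · rw [if_pos hj, hj]
        exact ⟨h5.1, h3⟩
      · rw [if_neg hj]
        exact h4 j trivial
    · intro h3
      have h4 := h3 i
      rw [if_pos rfl] at h4
      refine ⟨?_, fun j _ => ?_⟩
      · rw [Int.fract_eq_self.mpr ⟨h4.1, h4.2.trans hV1⟩]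
        exact h4.2
      · have h5 := h3 j
        by_cases hj : j = i
        · rw [hj]
          exact ⟨h4.1, h4.2.trans hV1⟩
        · rw [if_neg hj] at h5
          exact h5
  rw [h2, volume_pi_pi]
  have h3 : ∀ j : Fin 3, volume (if j = i then Set.Ico (0:ℝ) V else Set.Ico (0:ℝ) 1) =
      if j = i then ENNReal.ofReal V else 1 := by
    intro j
    by_cases hj : j = i
    · rw [if_pos hj, if_pos hj, Real.volume_Ico, sub_zero]
    · rw [if_neg hj, if_neg hj, Real.volume_Ico]
      simp
  simp only [h3]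
  rw [Finset.prod_ite_eq']
  simp [hV0.le]

end Vale.Agent.P232
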