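import Vale.Agent.P232U.K3
import Vale.Agent.P232U.K5
import Vale.Agent.P232U.K5a
import Vale.Agent.P232U.K9
import Vale.Agent.P232U.K19
import Vale.Agent.P232U.K22
import Vale.Agent.P232U.K24
import Vale.Agent.P232U.K25

open MeasureTheory Set Filter Topology

namespace Vale.Agent.P232

theorem class_low {V : ℝ} (hV : V ∈ Set.Icc (0.12 : ℝ) 0.264) {ε : ℝ} (hε : 0 < ε) :
    ∃ δ > 0, ∀ f : (Fin 3 → ℝ) → ℝ, Nice f → ∫ x in cell 3, f x = V →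
      ∫ x in cell 3, f x * (1 - f x) ≤ δ → hTV f ≤ Jh V + δ →
      (4 * Real.pi / 81 ≤ V ∧ ∃ i, ∫ z in (0:ℝ)..1, |sArea f i z - V| ≤ ε) ∨
      (V ≤ 4 * Real.pi / 81 ∧ ∀ i, ∃ z, sArea f i z ≤ ε) :=
  class_low_of (fun _ _ _ h1 h2 h3 h4 h5 h6 => tube_s h1 h2 h3 h4 h5 h6)
    (fun _ _ _ h1 h2 h3 h4 h5 => ball_small_s h1 h2 h3 h4 h5)
    (fun _ _ _ h1 h2 h3 h4 => ball_lin h1 h2 h3 h4) hV hε

theorem class_slab {V : ℝ} (hV : V ∈ Set.Icc (0.36 : ℝ) 0.5) {ε : ℝ} (hε : 0 < ε) :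
    ∃ δ > 0, ∀ f : (Fin 3 → ℝ) → ℝ, Nice f → ∫ x in cell 3, f x = V →
      ∫ x in cell 3, f x * (1 - f x) ≤ δ → hTV f ≤ Jh V + δ →
      ∃ i, ∫ z in (0:ℝ)..1, |sArea f i z - V| ≤ ε :=
  class_slab_of (fun h1 h2 h3 h4 h5 h6 => slab_s h1 h2 h3 h4 h5 h6)
    (fun h1 _ _ h2 _ h3 h4 h5 h6 h7 => flat_of_slab h1 h2 h3 h4 h5 h6 h7) hV hε

end Vale.Agent.P232
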