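import Vale.Agent.P232U.WireA
import Vale.Agent.P232U.K21
import Vale.Agent.P232U.Fin
import Vale.Agent.P232U.Apx
import Vale.Agent.P232U.Nm1
import Vale.Agent.P232U.Flat1
import Vale.Agent.P232U.SlabOne
import Vale.Agent.P232U.Cyl
import Vale.Agent.P232U.BallM
import Vale.Agent.P232U.TwoDir
import Vale.Agent.P232U.EndsT

/-!
# P232U: wiring of the uniqueness part, with the middle window as the only hypothesis
-/

open MeasureTheory Set Filter Topology

namespace Vale.Agent.P232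

/-- classification of near-minimizers in the middle window -/
def ClassWin : Prop :=
  ∀ {V : ℝ}, V ∈ Set.Icc (0.264 : ℝ) 0.36 → ∀ {ε : ℝ}, 0 < ε →
    ∃ δ > 0, ∀ f : (Fin 3 → ℝ) → ℝ, Nice f → ∫ x in cell 3, f x = V →
      ∫ x in cell 3, f x * (1 - f x) ≤ δ → hTV f ≤ Jh V + δ →
      ∃ i, ∫ z in (0:ℝ)..1, |sArea f i z - V| ≤ ε

theorem finDeps_of (cw : ClassWin) : FinDeps where
  approx_seq := fun hE hper hP _ hJ => approx_seq hE hper hP hJ
  err_tendsto := fun h => h.err_tendsto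
  flat_inv := fun h h0 h1 i hi => flat_inv1 h h0 h1 i hi
  slab_end := fun hJ h h0 h1 i hi => slab_end hJ h h0 h1 i hi
  cyl_seq := fun h i hi => cyl_seq h i hi
  ball_moment := fun hR hR1 h hv hm i => ball_moment hR hR1 h hv hm i
  two_dir := fun h0 h1 h _ _ hj hi => two_dir h0 h1 h hj hi
  ball_end := fun hE _ hR hR1 hv hm => ball_end hE hR hR1 hv hm
  tube_end := fun hE i h0 h1 hm => tube_end hE i h0 h1 hm
  classify := fun h0 h1 _ hε => classify_of (fun a b _ c => class_small a b c)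
    (fun a _ c => class_low a c) (fun a _ c => cw a c) (fun a _ c => class_slab a c) h0 h1 hε

theorem slabOne_holds : SlabOne := fun h h0 h1 i hi => slab_one h h0 h1 i hi

theorem minimizers2_win (cw : ClassWin) {E : Set (Fin 3 → ℝ)} (hE : MeasurableSet E)
    (hper : IsPerSet E) (h0 : 0 < vol E) (h1 : vol E ≤ 1 / 2)
    (hP : perimeter E = ENNReal.ofReal (2 * Jh (vol E))) :
    (Jh (vol E) = (9 * Real.pi / 2) ^ (1 / 3 : ℝ) * vol E ^ (2 / 3 : ℝ) ∧
      ∃ m, AEq E (ballT m ((3 * vol E / (4 * Real.pi)) ^ (1 / 3 : ℝ)))) ∨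
    (Jh (vol E) = Real.sqrt (Real.pi * vol E) ∧
      ∃ m i, AEq E (tubeT m i (Real.sqrt (vol E / Real.pi)))) ∨
    (Jh (vol E) = 1 ∧ ∃ i a, AEq E (slabT i a (vol E))) :=
  minimizers2_of (finDeps_of cw) slabOne_holds hE hper h0 h1 hP

end Vale.Agent.P232
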